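import Vale.Agent.P225.FPEstA

/-! Source bounds and kernel bounds. -/

namespace Vale.Agent.P225

open Filter Topology MeasureTheory Set

namespace KData

variable {L Kk : Type} {tm : Times} {K Λ : ℝ} (X : KData L Kk tm K Λ)

open Classical in
structure GB (ρ : L → Kk → ℝ → ℝ) (ν μ : ℝ) : Prop where
  meas : ∀ l κ, Measurable (ρ l κ)
  bd : ∀ l κ s, |ρ l κ s| ≤
    ν * (if X.res l κ (tm.st s) then μ else 1 / tm.sg (tm.st s) ^ 3) / Λ ^ X.deg κ
  hν : 0 ≤ ν
  hμ : 1 / tm.σ0 ≤ μ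
  hμ' : μ ≤ K

structure SB (l : L) (κ : Kk) (S : ℝ → ℝ) (A μ : ℝ) : Prop where
  meas : Measurable S
  supp : ∀ s, ¬ tm.Src s → S s = 0
  hA : 0 ≤ A
  hμ : 0 ≤ μ
  hμ' : μ ≤ K
  s1 : ∀ s, |S s| ≤ A * (μ * K ^ 3 * ((X.deg κ : ℝ) + 1) / tm.T (tm.st s))
  s2 : ∀ m, X.res l κ m → (X.deg κ : ℝ) + 1 ≤ K → ∀ s ∈ Ico (tm.b m 2) (tm.b m 8),
    |S s| ≤ A * (K ^ 4 / (tm.T m * tm.sg m ^ 3))
  s3 : ∀ m, X.res l κ m → (X.deg κ : ℝ) + 1 ≤ K → ∀ s ∈ Icc (tm.b m 8) (tm.b m 9),
    |S s| ≤ A * (μ * K ^ 4 / (tm.sg m ^ 2 * tm.T m))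

theorem gb_small {ρ : L → Kk → ℝ → ℝ} {c : ℝ} (hc : 0 ≤ c) (h : X.RB ρ c) :
    X.GB ρ c (1 / tm.σ0) := by
  refine ⟨h.meas, fun l κ s => ?_, hc, le_rfl, ?_⟩
  · have := h.bd l κ s
    unfold wt at this
    rwa [mul_div_assoc]
  · exact ((div_le_one (by linarith [tm.hσ])).2 tm.hσ).trans X.hK

theorem gb_main : X.GB X.emain 1 K := by
  have hΛ : 0 < Λ := by linarith [X.hΛ]
  have hK : 0 < K := by linarith [X.hK]
  refine ⟨fun l κ => by unfold emain; exact measurable_const, fun l κ s => ?_, zero_le_one,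
    ((div_le_one (by linarith [tm.hσ])).2 tm.hσ).trans X.hK, le_rfl⟩
  unfold emain
  by_cases h : κ = X.main l
  · rw [if_pos h, h, if_pos ((X.kZ l _ (X.main_Z l)).2.1 _), abs_one, one_mul,
      le_div_iff₀ (by positivity), one_mul]
    exact X.main_deg l
  · rw [if_neg h, abs_zero]
    have := tm.sg_pos (tm.st s)
    split_ifs <;> positivity

theorem src_le {H : L → ℝ → Kk → Kk → ℝ} {ρ : L → Kk → ℝ → ℝ} {l : L} {κ : Kk} {s B : ℝ}
    (hB : 0 ≤ B) (h : ∀ κ', |H l s κ κ'| * |ρ l κ' s| ≤ B / Λ ^ X.deg κ') :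
    |X.src H ρ l κ s| ≤ K ^ 2 * B / Λ ^ X.deg κ := by
  have hΛ : 0 < Λ := by linarith [X.hΛ]
  have hK : 0 < K := by linarith [X.hK]
  unfold src
  refine (Finset.abs_sum_le_sum_abs _ _).trans ?_
  refine (Finset.sum_le_card_nsmul _ _ (K * B / Λ ^ X.deg κ) fun κ' hκ => ?_).trans ?_
  · rw [abs_mul]
    refine (h κ').trans ?_
    rw [div_le_div_iff₀ (by positivity) (by positivity)]
    nlinarith [mul_le_mul_of_nonneg_left (X.nb_deg κ κ' hκ) hB]
  · rw [nsmul_eq_mul]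
    refine (mul_le_mul_of_nonneg_right (X.nb_card κ) (by positivity)).trans_eq (by ring)

theorem st_mid {m : ℕ} {s : ℝ} (h1 : tm.b m 2 ≤ s) (h2 : s ≤ tm.b m 9) : tm.st s = m := by
  have hN : (0 : ℝ) ≤ tm.N := Nat.cast_nonneg _
  refine tm.st_eq ((tm.a_le_b m (by norm_num)).trans h1) ?_
  linarith [tm.b10N_lt m, tm.b_le_b m (show (9 : ℝ) ≤ 10 by norm_num)]

theorem sb_src {H : L → ℝ → Kk → Kk → ℝ} {ρ : L → Kk → ℝ → ℝ} {c ν μ : ℝ} (hc : 0 ≤ c)
    (hH : X.HB H c) (hρ : X.GB ρ ν μ) (l : L) (κ : Kk) :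
    X.SB l κ (X.src H ρ l κ) (c * ν / Λ ^ X.deg κ) μ := by
  have hΛ : 0 < Λ := by linarith [X.hΛ]
  have hK : 0 < K := by linarith [X.hK]
  have hν := hρ.hν
  have hσ : 0 < tm.σ0 := by linarith [tm.hσ]
  have hμ : 0 ≤ μ := le_trans (by positivity) hρ.hμ
  have hsg : ∀ m, 1 / tm.sg m ≤ μ := fun m =>
    (one_div_le_one_div_of_le hσ (tm.σ0_le_sg m)).trans hρ.hμ
  have hsg3 : ∀ m, 1 / tm.sg m ^ 3 ≤ μ := fun m =>
    (one_div_le_one_div_of_le (tm.sg_pos m) (le_self_pow₀ (tm.one_le_sg m) (by norm_num))).trans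
      (hsg m)
  have key : ∀ {u v U V W : ℝ} (κ' : Kk), |u| ≤ U → |v| ≤ ν * V / Λ ^ X.deg κ' →
      U * V ≤ W → |u| * |v| ≤ ν * W / Λ ^ X.deg κ' := by
    intro u v U V W κ' h1 h2 h3
    refine (mul_le_mul h1 h2 (abs_nonneg _) ((abs_nonneg _).trans h1)).trans ?_
    have : U * (ν * V / Λ ^ X.deg κ') = ν * (U * V) / Λ ^ X.deg κ' := by ring
    rw [this]; gcongr
  refine ⟨?_, fun s hs => ?_, by positivity, hμ, hρ.hμ', fun s => ?_, fun m hm hd s hs => ?_,
    fun m hm hd s hs => ?_⟩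
  · exact Finset.measurable_sum _ fun κ' _ => (hH.meas l κ κ').mul (hρ.meas l κ')
  · exact Finset.sum_eq_zero fun κ' _ => by rw [hH.supp l s κ κ' hs, zero_mul]
  · have hT := tm.T_pos (tm.st s)
    refine (X.src_le (B := ν * (c * K * ((X.deg κ : ℝ) + 1) / tm.T (tm.st s) * μ))
      (by positivity) fun κ' => key κ' (hH.bd l s κ κ') (hρ.bd l κ' s) ?_).trans_eq (by ring)
    split_ifs
    · exact le_rfl
    · exact mul_le_mul_of_nonneg_left (hsg3 _) (by positivity)
  · have hT := tm.T_pos m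
    have hs' := tm.sg_pos m
    have hst : tm.st s = m := st_mid hs.1 (hs.2.le.trans (tm.b_le_b m (by norm_num)))
    refine (X.src_le (B := ν * (c * K ^ 2 / (tm.T m * tm.sg m ^ 3)))
      (by positivity) fun κ' => ?_).trans_eq (by ring)
    have h2 := hρ.bd l κ' s
    rw [hst] at h2
    by_cases hr : X.res l κ' m
    · rw [if_pos hr] at h2
      refine key κ' (hH.res1 l m κ κ' hm hr s hs) h2 ?_
      have h3 : tm.sg m ^ 3 ≤ tm.T m := pow_le_pow_right₀ (tm.one_le_sg m) (by norm_num)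
      calc c * K / tm.T m ^ 2 * μ ≤ c * K / (tm.T m * tm.sg m ^ 3) * K := by
            have := hρ.hμ'
            rw [sq]; gcongr
        _ = _ := by ring
    · rw [if_neg hr] at h2
      refine key κ' (hH.bd l s κ κ') h2 ?_
      rw [hst]
      calc _ ≤ c * K * K / tm.T m * (1 / tm.sg m ^ 3) := by gcongr
        _ = _ := by field_simp
  · have hT := tm.T_pos m
    have hs' := tm.sg_pos m
    have hst : tm.st s = m := st_mid ((tm.b_le_b m (by norm_num)).trans hs.1) hs.2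
    refine (X.src_le (B := ν * (c * μ * K ^ 2 / (tm.sg m ^ 2 * tm.T m)))
      (by positivity) fun κ' => ?_).trans_eq (by ring)
    have h2 := hρ.bd l κ' s
    rw [hst] at h2
    by_cases hr : X.res l κ' m
    · rw [if_pos hr] at h2
      refine key κ' (hH.res2 l m κ κ' hm hr s hs) h2 ?_
      have h3 : K ≤ K ^ 2 := by nlinarith [X.hK]
      calc c * K / (tm.sg m ^ 2 * tm.T m) * μ ≤ c * K ^ 2 / (tm.sg m ^ 2 * tm.T m) * μ := by gcongr
        _ = _ := by ring
    · rw [if_neg hr] at h2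
      refine key κ' (hH.bd l s κ κ') h2 ?_
      rw [hst]
      calc _ ≤ c * K * K / tm.T m * (1 / tm.sg m ^ 3) := by gcongr
        _ = c * K ^ 2 / (tm.sg m ^ 2 * tm.T m) * (1 / tm.sg m) := by field_simp
        _ ≤ c * K ^ 2 / (tm.sg m ^ 2 * tm.T m) * μ := by gcongr; exact hsg m
        _ = _ := by ring

theorem Pi_cont (l : L) (κ : Kk) : Continuous (X.Pi l κ) :=
  intervalIntegral.continuous_primitive (X.D_int l κ) 0

theorem Pi_sub (l : L) (κ : Kk) (x y : ℝ) : X.Pi l κ y - X.Pi l κ x = ∫ r in x..y, X.D l κ r :=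
  intervalIntegral.integral_interval_sub_left (X.D_int l κ _ _) (X.D_int l κ _ _)

theorem Pi_ge (l : L) (κ : Kk) {ε β x y : ℝ} (hxy : x ≤ y)
    (h : ∀ r ∈ Icc x y, β ≤ ε * X.D l κ r) : β * (y - x) ≤ ε * (X.Pi l κ y - X.Pi l κ x) := by
  rw [Pi_sub, ← intervalIntegral.integral_const_mul]
  have := intervalIntegral.integral_mono_on hxy (intervalIntegrable_const (c := β))
    ((X.D_int l κ x y).const_mul ε) h
  simpa [mul_comm] using this

variable {X}

theorem SB.bdd {l : L} {κ : Kk} {S : ℝ → ℝ} {A μ : ℝ} (h : X.SB l κ S A μ) (s : ℝ) :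
    |S s| ≤ A * (μ * K ^ 3 * ((X.deg κ : ℝ) + 1)) := by
  refine (h.s1 s).trans (mul_le_mul_of_nonneg_left (div_le_self ?_ (tm.one_le_T _)) h.hA)
  have := h.hμ; have hK : 0 < K := by linarith [X.hK]
  positivity

theorem SB.loc {l : L} {κ : Kk} {S : ℝ → ℝ} {A μ : ℝ} (h : X.SB l κ S A μ) (t x y : ℝ) :
    IntervalIntegrable (fun r => Real.exp (t - X.Pi l κ r) * S r) volume x y := by
  refine IntervalIntegrable.continuousOn_mul ?_ ?_
  · refine (intervalIntegrable_const (c := A * (μ * K ^ 3 * ((X.deg κ : ℝ) + 1)))).mono_fun'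
      h.meas.aestronglyMeasurable (Eventually.of_forall fun s => h.bdd s)
  · have := X.Pi_cont l κ
    fun_prop

theorem SB.inf {l : L} {κ : Kk} {S : ℝ → ℝ} {A μ : ℝ} (h : X.SB l κ S A μ) (s : ℝ)
    (hU : X.cls l κ = .U) : IntegrableOn (fun r => Real.exp (-X.Pi l κ r) * S r) (Ioi s) := by
  have hK : 0 < K := by linarith [X.hK]
  have hl : 0 < ((X.deg κ : ℝ) + 1) / K := by positivity
  refine Integrable.mono' (expabs_int hl
    (Real.exp (-X.Pi l κ s) * (A * (μ * K ^ 3 * ((X.deg κ : ℝ) + 1)))) s).1.integrableOn ?_ ?_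
  · have := (X.Pi_cont l κ).measurable
    exact (this.neg.exp.mul h.meas).aestronglyMeasurable
  · refine (ae_restrict_iff' measurableSet_Ioi).2 (Eventually.of_forall fun r hr => ?_)
    have hr' : s ≤ r := le_of_lt hr
    have h1 := X.Pi_ge l κ (ε := 1) hr' fun r _ => by rw [one_mul]; exact (X.kU l κ hU).1 r
    rw [Real.norm_eq_abs, abs_mul, abs_of_pos (Real.exp_pos _), mul_right_comm, ← Real.exp_add,
      abs_of_nonneg (sub_nonneg.2 hr')]
    exact mul_le_mul (Real.exp_le_exp.2 (by linarith)) (h.bdd r) (abs_nonneg _) (Real.exp_pos _).le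

theorem sint_of {S : L → Kk → ℝ → ℝ} {A : Kk → ℝ} {μ : ℝ} (h : ∀ l κ, X.SB l κ (S l κ) (A κ) μ) :
    X.SInt S :=
  ⟨fun l κ => (h l κ).meas, fun l κ x y => by simpa using (h l κ).loc 0 x y,
    fun l κ s hU => (h l κ).inf s hU, fun l κ => (h l κ).supp⟩

theorem SInt.ker_eq {S : L → Kk → ℝ → ℝ} (h : X.SInt S) (l : L) (κ : Kk) (t x y : ℝ) :
    Real.exp t * (X.prim S l κ y - X.prim S l κ x) =
      ∫ r in x..y, Real.exp (t - X.Pi l κ r) * S l κ r := by
  unfold prim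
  rw [intervalIntegral.integral_interval_sub_left (h.loc l κ _ _) (h.loc l κ _ _),
    ← intervalIntegral.integral_const_mul]
  congr 1; ext r; rw [sub_eq_add_neg, Real.exp_add]; ring

theorem meas_ref (l : L) (κ : Kk) : Measurable (X.ref l κ) := by
  unfold ref
  refine Measurable.ite ?_ ?_ measurable_const
  · by_cases h : X.cls l κ = .C
    · simp only [h, true_and]; exact measurableSet_Ici
    · simp [h]
  · have : Measurable fun p : ℝ × ℕ => tm.refC p.2 p.1 (X.des l κ p.2) := by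
      refine measurable_from_prod_countable_left fun m => ?_
      show Measurable fun s => tm.refC m s (X.des l κ m)
      cases X.des l κ m
      · exact measurable_const
      all_goals exact Measurable.ite measurableSet_Iio measurable_const measurable_const
    exact this.comp (measurable_id.prodMk tm.measurable_st)

theorem SInt.meas_out {S : L → Kk → ℝ → ℝ} (h : X.SInt S) (l : L) (κ : Kk) :
    Measurable (X.out S l κ) := by
  have hP := (X.Pi_cont l κ).measurable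
  have hp : Measurable (X.prim S l κ) :=
    (intervalIntegral.continuous_primitive (h.loc l κ) 0).measurable
  unfold out
  by_cases hU : X.cls l κ = .U
  · simp only [hU, if_true]
    have : (fun s => ∫ r in Ioi s, Real.exp (-X.Pi l κ r) * S l κ r) = fun s =>
        (∫ r in Ioi 0, Real.exp (-X.Pi l κ r) * S l κ r) - X.prim S l κ s := by
      ext s
      have := intervalIntegral.integral_Ioi_sub_Ioi' (h.inf l κ 0 hU) (h.inf l κ s hU)
      unfold prim; linarith
    refine (hP.exp.mul ?_).neg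
    rw [this]; exact measurable_const.sub hp
  · simp only [hU, if_false]
    exact hP.exp.mul (hp.sub (hp.comp (meas_ref l κ)))

end KData

end Vale.Agent.P225
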