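import Vale.Agent.P225.HBd
import Vale.Agent.P225.FPEstB

/-! Accuracy of the linear controls: preparations. -/

namespace Vale.Agent.P225

open Set

theorem KData.Pi_near {L Kk : Type} {tm : Times} {K Λ : ℝ} (X : KData L Kk tm K Λ) (l : L) (κ : Kk)
    {x s γ ε : ℝ} (hxs : x ≤ s) (h : ∀ r ∈ Icc x s, |X.D l κ r + γ| ≤ ε) :
    |X.Pi l κ x - X.Pi l κ s - γ * (s - x)| ≤ ε * (s - x) := by
  have a1 := X.Pi_ge l κ (ε := 1) (β := -γ - ε) hxs fun r hr => by
    linarith [(abs_le.1 (h r hr)).1]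
  have a2 := X.Pi_ge l κ (ε := -1) (β := γ - ε) hxs fun r hr => by
    linarith [(abs_le.1 (h r hr)).2]
  rw [abs_le]; constructor <;> linarith

theorem int_lapb (γ x : ℝ) {N a : ℕ} (ha : a < N) :
    ∫ s in x..x + N, Real.exp (γ * (s - x)) * bmp (s - x - a) = lapb γ a := by
  have hc : Continuous fun s => Real.exp (γ * (s - x)) * bmp (s - x - a) := by
    have := bmp_smooth.continuous; fun_prop
  have h1 : ((a : ℝ) + 1) ≤ N := by exact_mod_cast ha
  have h0 : (0 : ℝ) ≤ a := Nat.cast_nonneg _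
  rw [← intervalIntegral.integral_add_adjacent_intervals (b := x + a)
    (hc.intervalIntegrable _ _) (hc.intervalIntegrable _ _),
    ← intervalIntegral.integral_add_adjacent_intervals (a := x + a) (b := x + a + 1)
    (hc.intervalIntegrable _ _) (hc.intervalIntegrable _ _)]
  have e1 : ∫ s in x..x + a, Real.exp (γ * (s - x)) * bmp (s - x - a) = 0 := by
    rw [intervalIntegral.integral_congr (g := fun _ => 0) fun s hs => ?_]
    · simp
    · rw [uIcc_of_le (by linarith)] at hs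
      simp only [bmp_of_le (show s - x - a ≤ 0 by linarith [hs.2]), mul_zero]
  have e2 : ∫ s in x + a + 1..x + N, Real.exp (γ * (s - x)) * bmp (s - x - a) = 0 := by
    rw [intervalIntegral.integral_congr (g := fun _ => 0) fun s hs => ?_]
    · simp
    · rw [uIcc_of_le (by linarith)] at hs
      simp only [bmp_of_ge (show 1 ≤ s - x - a by linarith [hs.1]), mul_zero]
  have e3 := intervalIntegral.integral_comp_add_left
    (fun s => Real.exp (γ * (s - x)) * bmp (s - x - a)) (a := 0) (b := 1) (x + a)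
  rw [add_zero] at e3
  rw [e1, e2, ← e3, zero_add, add_zero, lapb]
  congr 1; funext τ
  rw [mul_comm]; congr 2 <;> ring

theorem int_bmp (x : ℝ) {T : ℝ} (hT : 0 < T) : ∫ s in x..x + T, bmp ((s - x) / T) / T = 1 := by
  have hc : Continuous fun s => bmp ((s - x) / T) / T := by
    have := bmp_smooth.continuous; fun_prop
  rw [intervalIntegral.integral_eq_sub_of_hasDerivAt (f := fun s => stp ((s - x) / T))
    (fun s _ => ?_) (hc.intervalIntegrable _ _), stp_of_ge (by simp [hT.ne']),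
    stp_of_le (by simp)]
  · norm_num
  · have := (hasDerivAt_stp ((s - x) / T)).comp s (((hasDerivAt_id s).sub_const x).div_const T)
    rw [mul_one_div] at this
    exact this

theorem Par.gI_le (P : Par) {t : ℝ} (ht : |t - 1| ≤ 1 / 50) {n : ℕ} (hn : 1 ≤ n) (i : ℕ × ℕ) :
    |P.gI t n i| ≤ 1 := by
  have a1 := (muI_rng P.pinf_rng.1 P.pinf_rng.2 ht (one_le_dg hn i) (abs_ch_le n i)).1
  have a4 := XX_rng ht
  unfold Par.gI
  rw [abs_of_pos (div_pos (XX_pos t) (by linarith)), div_le_one (by linarith)]; linarith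

theorem Base.tgt_perm {P : Par} (ζ : Eta P.LT KK) (l : P.LT) (κ : ℕ × ℕ) (m m' : ℕ) (δ : Slot) :
    P.S.sgn l.1.1 m' κ * P.S.sgn l.1.1 m' l.1.2 *
      Base.tgt ζ m δ m' (l.1.1, P.S.perm l.1.1 m' l.1.2, P.S.perm l.1.1 m' κ) =
      ζ l (κ, true) m δ := by
  simp only [Base.tgt, Equiv.symm_apply_apply, Base.etaX, Prod.mk.eta, l.2, dif_pos,
    Subtype.coe_eta]
  linear_combination (P.S.sgn l.1.1 m' l.1.2 * P.S.sgn l.1.1 m' l.1.2 * ζ l (κ, true) m δ) *
    P.S.sgn_sq l.1.1 m' κ + ζ l (κ, true) m δ * P.S.sgn_sq l.1.1 m' l.1.2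

theorem Base.winA_int {P : Par} (k : Fin P.S.nK) (f : ℕ × (ℕ × ℕ) × (ℕ × ℕ) → ℝ) (x : ℝ) {n : ℕ}
    {i j : ℕ × ℕ} (h : Alw P.S.D n i j) :
    ∫ s in x..x + P.St.N, Real.exp ((muI (P.St.pinf ^ 2) (P.St.t2 k) (dg n i) (ch n i) -
      muI (P.St.pinf ^ 2) (P.St.t2 k) (dg n j) (ch n j)) * (s - x)) * P.gI (P.St.t2 k) n j *
      ∑ l, Base.winA k f (s - x) l * P.M1 n l j i = f (n, i, j) := by
  classical
  set γ := muI (P.St.pinf ^ 2) (P.St.t2 k) (dg n i) (ch n i) -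
      muI (P.St.pinf ^ 2) (P.St.t2 k) (dg n j) (ch n j) with hγ
  have e1 : ∀ s, Real.exp (γ * (s - x)) * P.gI (P.St.t2 k) n j *
      ∑ l, Base.winA k f (s - x) l * P.M1 n l j i = ∑ q : Fin P.St.N × alw P.S.D,
      f q.2 * (P.gI (P.St.t2 k) n j * P.M1 n (k, .inl q) j i) *
        (Real.exp (γ * (s - x)) * bmp (s - x - (q.1 : ℕ))) := fun s => by
    rw [Fintype.sum_prod_type, Finset.sum_eq_single k (fun κ _ hκ => by
      simp [Fintype.sum_sum_type, Base.winA, hκ.symm]) (by simp), Fintype.sum_sum_type]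
    simp only [Base.winA, zero_mul, Finset.sum_const_zero, add_zero, if_true, Finset.mul_sum]
    exact Finset.sum_congr rfl fun q _ => by ring
  simp only [e1]
  rw [intervalIntegral.integral_finsetSum fun q _ => Continuous.intervalIntegrable (by
    have := bmp_smooth.continuous; fun_prop) _ _]
  simp only [intervalIntegral.integral_const_mul, int_lapb γ x (Fin.is_lt _)]
  have hp : (n, i, j) ∈ alw P.S.D := mem_alw.2 h
  rw [Fintype.sum_prod_type_right]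
  have e2 : ∀ p : alw P.S.D, ∑ a : Fin P.St.N, f p * (P.gI (P.St.t2 k) n j *
      P.M1 n (k, .inl (a, p)) j i) * lapb γ a = f p * if (n, i, j) = p.1 then 1 else 0 := fun p => by
    rw [← P.St.win k _ hp p p.2, Finset.mul_sum]
    exact Finset.sum_congr rfl fun a _ => by simp only [Par.gI, Par.M1, shp, hγ]; ring
  simp only [e2]
  rw [Finset.sum_eq_single ⟨_, hp⟩ (fun b _ hne => by
    rw [if_neg (fun h => hne (Subtype.ext h.symm)), mul_zero]) (by simp)]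
  simp

namespace Ctx
variable {P : Par} {Kc KY : ℝ} (C : Ctx P Kc KY)

theorem slot_pre {m : ℕ} {s : ℝ} (h : s ∈ Icc (C.tm.a m) (C.tm.b m 0)) (l : P.LT) :
    (∀ η κ κ', C.HH η l s (κ, true) (κ', true) = P.S.sgn l.1.1 m κ * P.S.sgn l.1.1 m κ' *
      C.Ym η l.1.1 s (P.S.perm l.1.1 m κ) (P.S.perm l.1.1 m κ')) ∧
    ∀ κ, C.rp l.1.1 κ s = C.y1 l.1.1 (P.S.perm l.1.1 m κ) s := by
  have e1 := C.tm.b_lt_b m (show (0 : ℝ) < 2 by norm_num)
  have hst : C.tm.st s = m := C.tm.st_of_b h.1 (by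
    linarith [h.2, C.tm.b_le_b m (show (0 : ℝ) ≤ 10 by norm_num), C.tm.N_nonneg])
  refine ⟨fun η κ κ' => ?_, fun κ => ?_⟩
  · rw [C.HH_eq, hst, Par.cj_pre (C.τ_leH (by linarith [h.2])),
      C.Dl_pul hst (Or.inr (by linarith [h.2]))]
    simp
  · unfold rp pm; rw [hst, if_pos (by linarith [h.2])]

theorem slot_post {m : ℕ} {s : ℝ} (h : s ∈ Icc (C.tm.b m 8) (C.tm.b m 10 + C.tm.N)) (l : P.LT) :
    (∀ η κ κ', C.HH η l s (κ, true) (κ', true) = P.S.sgn l.1.1 (m + 1) κ *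
      P.S.sgn l.1.1 (m + 1) κ' *
      C.Ym η l.1.1 s (P.S.perm l.1.1 (m + 1) κ) (P.S.perm l.1.1 (m + 1) κ')) ∧
    ∀ κ, C.rp l.1.1 κ s = C.y1 l.1.1 (P.S.perm l.1.1 (m + 1) κ) s := by
  have e1 := C.tm.b_lt_b m (show (2 : ℝ) < 8 by norm_num)
  have hst : C.tm.st s = m := C.tm.st_of_b ((C.tm.a_le_b m (by norm_num)).trans h.1) h.2
  refine ⟨fun η κ κ' => ?_, fun κ => ?_⟩
  · rw [C.HH_eq, hst, Par.cj_post (C.τ_geH h.1), C.Dl_pul hst (Or.inl h.1)]
    simp
  · unfold rp; rw [hst, if_neg (by linarith [h.1]), if_neg (by linarith [h.1])]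

theorem acc_core {n : ℕ} (hn : 1 ≤ n) {i j : ℕ × ℕ} (hj : dg n j ≤ P.S.D) (η η' : Eta P.LT KK)
    {x y Ke ε α β : ℝ} (hxy : x ≤ y) {E w : ℝ → ℝ} (hE : Continuous E) (hw : Continuous w)
    (h : ∀ s ∈ Icc x y, |E s| ≤ Ke ∧ |E s * C.hh n j s - w s| ≤ ε ∧
      (∀ l, |C.amp η l s - C.amp η' l s| ≤ α) ∧ (∀ l, |C.amp η l s| ≤ β) ∧
      ∀ l, |C.amp η' l s| ≤ β) (hα : 0 ≤ α) (hβ : 0 ≤ β) :
    |(∫ s in x..y, E s * (C.Ym η n s j i - C.Ym η' n s j i)) -
      ∫ s in x..y, w s * ∑ l, (C.amp η l s - C.amp η' l s) * P.M1 n l j i| ≤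
      (y - x) * α * (P.cJ * P.CM * ((P.S.D : ℝ) + 1) ^ 2 * (8 * Ke * P.cJ * β + ε)) := by
  have c1 := C.Ym_cont η hn j i
  have c2 := C.Ym_cont η' hn j i
  have c3 := fun l => (C.amp_smooth η l).continuous
  have c4 := fun l => (C.amp_smooth η' l).continuous
  have hJ := P.cJ_nonneg
  have hM := P.CM_pos
  have hD : (0 : ℝ) ≤ P.S.D := Nat.cast_nonneg _
  have hj' : (dg n j : ℝ) ≤ P.S.D := by exact_mod_cast hj
  have c5 : Continuous fun s => E s * (C.Ym η n s j i - C.Ym η' n s j i) := hE.mul (c1.sub c2)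
  have c6 : Continuous fun s => w s * ∑ l, (C.amp η l s - C.amp η' l s) * P.M1 n l j i :=
    hw.mul (continuous_finsetSum _ fun l _ => ((c3 l).sub (c4 l)).mul continuous_const)
  rw [← intervalIntegral.integral_sub (c5.intervalIntegrable _ _) (c6.intervalIntegrable _ _)]
  refine (int_const_major (B := α * (P.cJ * P.CM * ((P.S.D : ℝ) + 1) ^ 2 *
    (8 * Ke * P.cJ * β + ε))) fun s h1 h2 => ?_).trans_eq
    (by rw [abs_of_nonneg (sub_nonneg.2 hxy)]; ring)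
  rw [min_eq_left hxy] at h1; rw [max_eq_right hxy] at h2
  obtain ⟨b1, b2, b3, b4, b5⟩ := h s ⟨h1.le, h2.le⟩
  have hKe := (abs_nonneg _).trans b1
  have hε := (abs_nonneg _).trans b2
  have a3 := P.lin_le n b3 j i
  have a4 := P.quad_le n b3 b4 b5 j i
  have a5 := C.hh_mul_le hn j s (A := P.cJ * (P.cJ * (2 * α * β * P.CM))) (by positivity)
    (a4.trans_eq (by ring))
  have a6 := mul_le_mul b2 a3 (abs_nonneg _) hε
  have a7 := mul_le_mul b1 a5 (abs_nonneg _) hKe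
  rw [← abs_mul] at a6 a7
  have a8 : Ke * (4 * (P.cJ * (P.cJ * (2 * α * β * P.CM))) * ((dg n j : ℝ) + 1)) +
      ε * (P.cJ * (α * (P.CM * ((dg n j : ℝ) + 1) ^ 2))) ≤
      α * (P.cJ * P.CM * ((P.S.D : ℝ) + 1) ^ 2 * (8 * Ke * P.cJ * β + ε)) := by
    have : (dg n j : ℝ) + 1 ≤ ((P.S.D : ℝ) + 1) ^ 2 := by nlinarith
    calc _ ≤ Ke * (4 * (P.cJ * (P.cJ * (2 * α * β * P.CM))) * ((P.S.D : ℝ) + 1) ^ 2) +
      ε * (P.cJ * (α * (P.CM * ((P.S.D : ℝ) + 1) ^ 2))) := by gcongr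
      _ = _ := by ring
  refine le_trans ?_ ((add_le_add a7 a6).trans a8)
  refine le_trans (le_of_eq ?_) (abs_add_le _ _)
  congr 1
  simp only [C.Ym_eq]; ring

end Ctx

end Vale.Agent.P225
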