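import Vale.Agent.P225.Kern
import Vale.Agent.P225.AccA

/-! Accuracy of the linear controls. -/

namespace Vale.Agent.P225

open Set

theorem ker_near {A A0 M hh g e1 e2 : ℝ} (hA : A ≤ M) (hA0 : A0 ≤ M) (h1 : |hh - g| ≤ e1)
    (h2 : |A - A0| ≤ e2) (hg : |g| ≤ 1) :
    |Real.exp A| ≤ Real.exp M ∧ |Real.exp A * hh - Real.exp A0 * g| ≤ Real.exp M * (e1 + e2) := by
  have a1 : |Real.exp A| ≤ Real.exp M := by
    rw [abs_of_pos (Real.exp_pos _)]; exact Real.exp_le_exp.2 hA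
  refine ⟨a1, ?_⟩
  have a2 := (exp_lip hA hA0).trans (mul_le_mul_of_nonneg_left h2 (Real.exp_pos _).le)
  have a3 := mul_le_mul a1 h1 (abs_nonneg _) (Real.exp_pos _).le
  have a4 := mul_le_mul a2 hg (abs_nonneg _) ((abs_nonneg _).trans a2)
  rw [← abs_mul] at a3 a4
  have e : Real.exp A * hh - Real.exp A0 * g =
      Real.exp A * (hh - g) + (Real.exp A - Real.exp A0) * g := by ring
  rw [e]
  exact (abs_add_le _ _).trans (by linarith)

namespace Ctx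
variable {P : Par} {Kc KY K : ℝ} {C : Ctx P Kc KY} (h : KOK C K)

theorem lin_red {η η' : Eta P.LT KK} {l : P.LT} {κ : ℕ × ℕ} {m' : ℕ} {x y v B : ℝ} (hxy : x ≤ y)
    (hs : ∀ s ∈ Icc x y, ∀ η κ κ', C.HH η l s (κ, true) (κ', true) = P.S.sgn l.1.1 m' κ *
      P.S.sgn l.1.1 m' κ' * C.Ym η l.1.1 s (P.S.perm l.1.1 m' κ) (P.S.perm l.1.1 m' κ'))
    (E : ℝ → ℝ)
    (hv : |(∫ s in x..y, E s * (C.Ym η l.1.1 s (P.S.perm l.1.1 m' κ) (P.S.perm l.1.1 m' l.1.2) -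
      C.Ym η' l.1.1 s (P.S.perm l.1.1 m' κ) (P.S.perm l.1.1 m' l.1.2))) - v| ≤ B) :
    |(∫ s in x..y, E s * (C.HH η - C.HH η') l s (κ, true) (l.1.2, true)) -
      P.S.sgn l.1.1 m' κ * P.S.sgn l.1.1 m' l.1.2 * v| ≤ B := by
  rw [intervalIntegral.integral_congr (g := fun s => P.S.sgn l.1.1 m' κ * P.S.sgn l.1.1 m' l.1.2 *
    (E s * (C.Ym η l.1.1 s (P.S.perm l.1.1 m' κ) (P.S.perm l.1.1 m' l.1.2) -
      C.Ym η' l.1.1 s (P.S.perm l.1.1 m' κ) (P.S.perm l.1.1 m' l.1.2)))) fun s hs' => ?_]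
  · rw [intervalIntegral.integral_const_mul, ← mul_sub, abs_mul, abs_mul, P.S.abs_sgn, P.S.abs_sgn,
      one_mul, one_mul]
    exact hv
  · rw [uIcc_of_le hxy] at hs'
    simp only [Pi.sub_apply, hs s hs']; ring

theorem acc_win {Ka Kn c : ℝ} (hKa : 0 ≤ Ka) (hKn : 0 ≤ Kn) (hc : 0 ≤ c) {η η' : Eta P.LT KK}
    {l : P.LT} {κ : ℕ × ℕ} {m m' : ℕ} {δ : Slot} {x : ℝ}
    (hal : Alw P.S.D l.1.1 (P.S.perm l.1.1 m' l.1.2) (P.S.perm l.1.1 m' κ))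
    (hs : ∀ s ∈ Icc x (x + C.tm.N), ((∀ η κ κ', C.HH η l s (κ, true) (κ', true) =
      P.S.sgn l.1.1 m' κ * P.S.sgn l.1.1 m' κ' *
        C.Ym η l.1.1 s (P.S.perm l.1.1 m' κ) (P.S.perm l.1.1 m' κ')) ∧
      ∀ κ, C.rp l.1.1 κ s = C.y1 l.1.1 (P.S.perm l.1.1 m' κ) s) ∧
      (∀ η l, C.amp η l s = Base.winA (P.S.kd m) (Base.tgt η m δ m') (s - x) l) ∧
      (∀ i, dg l.1.1 i ≤ P.S.D →
        |C.hh l.1.1 i s - P.gI (P.St.t2 (P.S.kd m)) l.1.1 i| ≤ Kn / C.tm.T m ∧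
        |C.y1 l.1.1 i s - muI (P.St.pinf ^ 2) (P.St.t2 (P.S.kd m)) (dg l.1.1 i) (ch l.1.1 i)| ≤
          Kn / C.tm.T m) ∧
      (∀ l, |C.amp η l s - C.amp η' l s| ≤ c * Ka / C.tm.T m) ∧
      (∀ l, |C.amp η l s| ≤ Ka / C.tm.T m) ∧ ∀ l, |C.amp η' l s| ≤ Ka / C.tm.T m) :
    |(∫ s in x..x + C.tm.N, Real.exp (h.kd.Pi l (κ, true) x - h.kd.Pi l (κ, true) s) *
      (C.HH η - C.HH η') l s (κ, true) (l.1.2, true)) - (η - η') l (κ, true) m δ| ≤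
      c * (P.St.N * Ka * (P.cJ * P.CM * ((P.S.D : ℝ) + 1) ^ 2 *
        Real.exp (3 * ((P.S.D : ℝ) + 1) * P.St.N) * (8 * P.cJ * Ka + Kn * (1 + 2 * P.St.N)))) /
        C.tm.T m ^ 2 := by
  have hN := C.tm.N_nonneg
  have hT := C.tm.T_pos m
  have hn := LT_pos l
  have hD : (0 : ℝ) ≤ P.S.D := Nat.cast_nonneg _
  obtain ⟨-, hi, hj, -⟩ := id hal
  rw [← Base.tgt_perm (η - η') l κ m m' δ]
  refine lin_red (by linarith) (fun s h' => (hs s h').1.1) _ ?_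
  rw [← Base.winA_int (P.S.kd m) (Base.tgt (η - η') m δ m') x hal,
    show (P.St.N : ℝ) = C.tm.N by rw [C.hN]]
  set i := P.S.perm l.1.1 m' l.1.2
  set j := P.S.perm l.1.1 m' κ
  set γ := muI (P.St.pinf ^ 2) (P.St.t2 (P.S.kd m)) (dg l.1.1 i) (ch l.1.1 i) -
      muI (P.St.pinf ^ 2) (P.St.t2 (P.S.kd m)) (dg l.1.1 j) (ch l.1.1 j) with hγ
  have hcont := h.kd.Pi_cont l (κ, true)
  rw [intervalIntegral.integral_congr (f := fun s => Real.exp (γ * (s - x)) *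
    P.gI (P.St.t2 (P.S.kd m)) l.1.1 j * ∑ l', Base.winA (P.S.kd m) (Base.tgt (η - η') m δ m')
      (s - x) l' * P.M1 l.1.1 l' j i) (g := fun s => Real.exp (γ * (s - x)) *
    P.gI (P.St.t2 (P.S.kd m)) l.1.1 j *
      ∑ l', (C.amp η l' s - C.amp η' l' s) * P.M1 l.1.1 l' j i) fun s hs' => ?_]
  swap
  · rw [uIcc_of_le (by linarith)] at hs'
    simp only [(hs s hs').2.1, Base.winA_sub, ← Base.tgt_sub]
  refine (C.acc_core hn hj η η' (Ke := Real.exp (3 * ((P.S.D : ℝ) + 1) * C.tm.N))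
    (ε := Real.exp (3 * ((P.S.D : ℝ) + 1) * C.tm.N) *
      (Kn / C.tm.T m + 2 * (Kn / C.tm.T m) * C.tm.N))
    (α := c * Ka / C.tm.T m) (β := Ka / C.tm.T m) (by linarith) (by fun_prop) (by fun_prop) (fun s hs' => ?_) (by positivity)
    (by positivity)).trans_eq (by field_simp; ring)
  rw [← and_assoc]
  refine ⟨?_, (hs s hs').2.2.2⟩
  have hi' : (dg l.1.1 i : ℝ) ≤ P.S.D := by exact_mod_cast hi
  have hj' : (dg l.1.1 j : ℝ) ≤ P.S.D := by exact_mod_cast hj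
  have hx : s - x ≤ C.tm.N := by linarith [hs'.2]
  have hx0 : 0 ≤ s - x := by linarith [hs'.1]
  have dr : ∀ r ∈ Icc x s, h.kd.D l (κ, true) r = C.y1 l.1.1 j r - C.y1 l.1.1 i r := fun r hr => by
    have := (hs r ⟨hr.1, hr.2.trans hs'.2⟩).1.2
    simp only [KOK.kd, DR, rate, this]; rfl
  have b1 := h.kd.Pi_near l (κ, true) (γ := γ) (ε := 2 * (Kn / C.tm.T m)) hs'.1 fun r hr => by
    have a1 := abs_le.1 ((hs r ⟨hr.1, hr.2.trans hs'.2⟩).2.2.1 i hi).2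
    have a2 := abs_le.1 ((hs r ⟨hr.1, hr.2.trans hs'.2⟩).2.2.1 j hj).2
    rw [dr r hr, abs_le]; constructor <;> linarith [a1.1, a1.2, a2.1, a2.2]
  have b2 := h.kd.Pi_ge l (κ, true) (ε := 1) (β := -(3 * ((P.S.D : ℝ) + 1))) hs'.1 fun r hr => by
    have a1 := (C.y1_bd hn i r).2
    have a2 := (C.y1_bd hn j r).1
    have a3 : (0 : ℝ) ≤ dg l.1.1 j := Nat.cast_nonneg _
    rw [dr r hr]; linarith
  have b3 : γ ≤ 3 * ((P.S.D : ℝ) + 1) := by
    have a1 := (muI_rng P.pinf_rng.1 P.pinf_rng.2 (P.t2_rng (P.S.kd m)) (one_le_dg hn i)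
      (abs_ch_le _ i)).2.1
    have a2 := (muI_rng P.pinf_rng.1 P.pinf_rng.2 (P.t2_rng (P.S.kd m)) (one_le_dg hn j)
      (abs_ch_le _ j)).1
    linarith
  have b4 : 3 * ((P.S.D : ℝ) + 1) * (s - x) ≤ 3 * ((P.S.D : ℝ) + 1) * C.tm.N := by gcongr
  refine ker_near (by linarith) ((mul_le_mul_of_nonneg_right b3 hx0).trans b4)
    ((hs s hs').2.2.1 j hj).1 (b1.trans (by gcongr)) (P.gI_le (P.t2_rng _) hn j)

theorem acc_pul {Ka Kb Kn c : ℝ} (hKa : 0 ≤ Ka) (hc : 0 ≤ c) (hb : ∀ τ, |bmp τ| ≤ Kb)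
    {η η' : Eta P.LT KK} (hη : EtaLe C.tm (η - η') c) {l : P.LT} {κ : ℕ × ℕ} {m : ℕ}
    (hbd : l.1.1 ∈ P.S.band) (h1 : P.S.perm l.1.1 (m + 1) l.1.2 = P.slow (P.S.kd m) l.1.1)
    (h2 : P.S.perm l.1.1 (m + 1) κ = P.fast (P.S.kd m) l.1.1)
    (hs : ∀ s ∈ Icc (C.tm.b m 8) (C.tm.b m 9), (∀ i, dg l.1.1 i ≤ P.S.D →
        |C.hh l.1.1 i s - P.gI (P.S.t0 (P.S.kd m)) l.1.1 i| ≤ Kn / C.tm.T m) ∧
      (∀ l, |C.amp η l s| ≤ Ka / C.tm.T m) ∧ ∀ l, |C.amp η' l s| ≤ Ka / C.tm.T m) :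
    |(∫ s in C.tm.b m 8..C.tm.b m 9,
      Real.exp (h.kd.Pi l (κ, true) (C.tm.b m 8) - h.kd.Pi l (κ, true) s) *
      (C.HH η - C.HH η') l s (κ, true) (l.1.2, true)) - (η - η') l (κ, true) m .pul| ≤
      c * (Kb * (P.cJ * P.CM * ((P.S.D : ℝ) + 1) ^ 2 *
        Real.exp (2 * |KY|) * (8 * P.cJ * Ka + Kn + 2 * |KY|))) / (C.tm.sg m ^ 2 * C.tm.T m) := by
  have hN := C.tm.N_nonneg
  have hT := C.tm.T_pos m
  have hT1 := C.tm.one_le_T m
  have hsg := C.tm.sg_pos m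
  have hn := LT_pos l
  have hKb := (abs_nonneg _).trans (hb 0)
  have e1 := C.tm.b_le_b m (show (8 : ℝ) ≤ 9 by norm_num)
  have e2 := C.tm.b_le_b m (show (9 : ℝ) ≤ 10 by norm_num)
  have e3 := C.tm.b_le_b m (show (2 : ℝ) ≤ 8 by norm_num)
  have e4 : C.tm.b m 9 = C.tm.b m 8 + C.tm.T m := by simp only [Times.b]; ring
  have sl := fun s (hs : s ∈ Icc (C.tm.b m 8) (C.tm.b m 9)) =>
    C.slot_post (m := m) (s := s) ⟨hs.1, by linarith [hs.2]⟩ l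
  have fs : (P.slow (P.S.kd m) l.1.1 = P.S.lo (P.S.kd m) l.1.1 ∧
      P.fast (P.S.kd m) l.1.1 = P.S.hi (P.S.kd m) l.1.1) ∨
      (P.slow (P.S.kd m) l.1.1 = P.S.hi (P.S.kd m) l.1.1 ∧
      P.fast (P.S.kd m) l.1.1 = P.S.lo (P.S.kd m) l.1.1) := by
    unfold Par.slow Par.fast; split_ifs <;> simp
  have fi : P.slow (P.S.kd m) l.1.1 = P.S.lo (P.S.kd m) l.1.1 ∨
      P.slow (P.S.kd m) l.1.1 = P.S.hi (P.S.kd m) l.1.1 := fs.imp And.left And.left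
  have fj : P.fast (P.S.kd m) l.1.1 = P.S.lo (P.S.kd m) l.1.1 ∨
      P.fast (P.S.kd m) l.1.1 = P.S.hi (P.S.kd m) l.1.1 := (fs.imp And.right And.right).symm
  rw [← Base.tgt_perm (η - η') l κ m (m + 1) .pul]
  refine lin_red e1 (fun s h' => (sl s h').1) _ ?_
  rw [h1, h2]
  set i := P.slow (P.S.kd m) l.1.1
  set j := P.fast (P.S.kd m) l.1.1
  have hi := Par.lohi_dg hbd fi
  have hj := Par.lohi_dg hbd fj
  have hcont := h.kd.Pi_cont l (κ, true)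
  have ev : Base.tgt (η - η') m .pul (m + 1) (l.1.1, i, j) = ∫ s in C.tm.b m 8..C.tm.b m 9,
      Real.exp 0 * P.gI (P.S.t0 (P.S.kd m)) l.1.1 j *
        ∑ l', (C.amp η l' s - C.amp η' l' s) * P.M1 l.1.1 l' j i := by
    rw [intervalIntegral.integral_congr (g := fun s => Base.tgt (η - η') m .pul (m + 1)
      (l.1.1, i, j) * (bmp ((s - C.tm.b m 8) / C.tm.T m) / C.tm.T m)) fun s hs' => ?_]
    · rw [intervalIntegral.integral_const_mul, e4, int_bmp _ hT, mul_one]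
    · rw [uIcc_of_le e1] at hs'
      simp only [C.amp_pul_sub η η' hs']
      simp only [C.amp_pul _ hs', Real.exp_zero, one_mul]
      rw [Base.booA_sum _ _ hn hj hi ((Par.lohi_fm hbd fi).trans (Par.lohi_fm hbd fj).symm),
        if_pos ⟨hbd, fs⟩, mul_div_assoc]
  rw [ev]
  refine (C.acc_core hn hj η η' (Ke := Real.exp (2 * |KY|))
    (ε := Real.exp (2 * |KY|) * (Kn / C.tm.T m + 2 * |KY| / C.tm.T m))
    (α := c * Kb / (C.tm.sg m ^ 2 * C.tm.T m)) (β := Ka / C.tm.T m)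
    e1 (by fun_prop) continuous_const (fun s hs' => ?_) (by positivity)
    (by positivity)).trans_eq (by rw [e4]; field_simp; ring)
  rw [← and_assoc]
  refine ⟨?_, fun l' => ?_, (hs s hs').2⟩
  swap
  · rw [C.amp_pul_sub η η' hs']; exact C.amp_pul_le hb hc hη hs' l'
  have b1 := h.kd.Pi_near l (κ, true) (γ := 0) (ε := 2 * (|KY| / C.tm.T m ^ 2)) hs'.1
    fun r hr => by
      have a0 := (sl r ⟨hr.1, hr.2.trans hs'.2⟩).2
      have a1 := (C.yp_swap m r ⟨e3.trans hr.1, hr.2.trans hs'.2⟩).trans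
        (div_le_div_of_nonneg_right (le_abs_self KY) (by positivity))
      rw [aD_of_ge (C.τ_geH hr.1), zero_div, sub_zero, abs_le] at a1
      have a2 : h.kd.D l (κ, true) r = C.y1 l.1.1 j r - C.y1 l.1.1 i r := by
        simp only [KOK.kd, DR, rate, a0, h1, h2]
      rw [a2, add_zero, abs_le]
      rcases fs with f | f <;> rw [f.1, f.2] <;>
        simp only [y1, P.S.lo_dg _ _ hbd, P.S.lo_ch _ _ hbd, P.S.hi_dg _ _ hbd,
          P.S.hi_ch _ _ hbd] <;> constructor <;> linarith [a1.1, a1.2]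
  have b2 : 2 * (|KY| / C.tm.T m ^ 2) * (s - C.tm.b m 8) ≤ 2 * |KY| / C.tm.T m := by
    calc _ ≤ 2 * (|KY| / C.tm.T m ^ 2) * C.tm.T m := by gcongr; linarith [hs'.2]
      _ = _ := by field_simp
  have b3 : 2 * |KY| / C.tm.T m ≤ 2 * |KY| := div_le_self (by positivity) hT1
  rw [zero_mul] at b1
  refine ker_near ?_ (by positivity) ((hs s hs').1 j hj) (b1.trans b2)
    (P.gI_le (P.t0_rng _) hn j)
  linarith [(abs_le.1 b1).2]

end Ctx

theorem acc (P : Par) (Kc KY : ℝ) : Evt P Kc KY fun K C => ∀ h : KOK C K,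
    (∀ η, EtaLe C.tm η 1 → ∀ l κ m δ, h.kd.Act l κ m δ →
      |h.kd.lin (C.HH η) l κ m δ - η l κ m δ| ≤ K * C.tm.eps m δ / C.tm.sg m) ∧
    ∀ η η' c, 0 ≤ c → EtaLe C.tm η 1 → EtaLe C.tm η' 1 → EtaLe C.tm (η - η') c →
      ∀ l κ m δ, h.kd.Act l κ m δ →
      |h.kd.lin (C.HH η - C.HH η') l κ m δ - (η l κ m δ - η' l κ m δ)| ≤
        c * K * C.tm.eps m δ / C.tm.sg m := by
  obtain ⟨Ka, hKa, hj⟩ := jets P
  obtain ⟨Kb, hKb, hb⟩ := bmp_bdd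
  obtain ⟨Kn, hKn, hnear⟩ := near_all P Kc KY
  have hJ := P.cJ_nonneg
  have hM := P.CM_pos
  obtain ⟨K1, hK1⟩ : ∃ K1, K1 = P.St.N * Ka * (P.cJ * P.CM * ((P.S.D : ℝ) + 1) ^ 2 *
    Real.exp (3 * ((P.S.D : ℝ) + 1) * P.St.N) * (8 * P.cJ * Ka + Kn * (1 + 2 * P.St.N))) := ⟨_, rfl⟩
  obtain ⟨K2, hK2⟩ : ∃ K2, K2 = Kb * (P.cJ * P.CM * ((P.S.D : ℝ) + 1) ^ 2 *
    Real.exp (2 * |KY|) * (8 * P.cJ * Ka + Kn + 2 * |KY|)) := ⟨_, rfl⟩
  have p1 : 0 ≤ K1 := by rw [hK1]; positivity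
  have p2 : 0 ≤ K2 := by rw [hK2]; positivity
  refine ⟨K1 + K2, fun K hK => ⟨0, fun C _ h => ?_⟩⟩
  obtain ⟨-, hj1, hj2⟩ := hj Kc C.toBase
  have hN := C.tm.N_nonneg
  have hK0 : 0 ≤ K := by linarith
  have main : ∀ η η' c, 0 ≤ c → EtaLe C.tm η 1 → EtaLe C.tm η' 1 → EtaLe C.tm (η - η') c →
      ∀ l κ m δ, h.kd.Act l κ m δ →
      |h.kd.lin (C.HH η - C.HH η') l κ m δ - (η l κ m δ - η' l κ m δ)| ≤
        c * K * C.tm.eps m δ / C.tm.sg m := by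
    rintro η η' c hc hη hη' hc' l ⟨κ, b⟩ m δ ⟨hC, hact⟩
    obtain rfl : b = true := (P.alw_of_C hC 0).1
    have hT := C.tm.T_pos m
    have hsg := C.tm.sg_pos m
    have hsT : C.tm.sg m ≤ C.tm.T m := le_self_pow₀ (C.tm.one_le_sg m) (by norm_num)
    have am : ∀ s ∈ Icc (C.tm.a m) (C.tm.b m 10 + C.tm.N),
        (∀ l, |C.amp η l s - C.amp η' l s| ≤ c * Ka / C.tm.T m) ∧
        (∀ l, |C.amp η l s| ≤ Ka / C.tm.T m) ∧ ∀ l, |C.amp η' l s| ≤ Ka / C.tm.T m := by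
      intro s hs
      rw [← C.tm.st_of_b hs.1 hs.2]
      exact ⟨fun l => hj2 η η' c hc hc' l s, fun l => ((hj1 η hη s).2.2 l).1,
        fun l => ((hj1 η' hη' s).2.2 l).1⟩
    have w : c * K1 / C.tm.T m ^ 2 ≤ c * K * (1 / C.tm.T m) / C.tm.sg m := by
      calc _ = c * K1 * (1 / C.tm.T m) / C.tm.T m := by field_simp
        _ ≤ _ := by gcongr; linarith
    have e0 : C.tm.b m 0 = C.tm.a m + C.tm.N := by simp [Times.b]
    have e1 := C.tm.b_le_b m (show (0 : ℝ) ≤ 10 by norm_num)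
    have e2 := C.tm.b_le_b m (show (8 : ℝ) ≤ 10 by norm_num)
    have e3 := C.tm.b_le_b m (show (9 : ℝ) ≤ 10 by norm_num)
    have e4 := C.tm.b_le_b m (show (1 : ℝ) ≤ 8 by norm_num)
    have e5 := C.tm.a_le_b m (show (0 : ℝ) ≤ 8 by norm_num)
    cases δ
    · refine le_trans ?_ w
      simp only [KData.lin, Times.s0, Times.s1, e0, hK1]
      refine Ctx.acc_win h (by linarith) (by linarith) hc (P.alw_of_C hC m).2 fun s hs => ?_
      rw [← e0] at hs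
      have hs' : s ∈ Icc (C.tm.a m) (C.tm.b m 10 + C.tm.N) := ⟨hs.1, by linarith [hs.2]⟩
      exact ⟨C.slot_pre hs l, fun η => C.amp_pre η hs, fun i hi =>
        (hnear C _ (LT_pos l) i hi m s).2 hs' (C.tt_pre hs), am s hs'⟩
    · refine le_trans ?_ w
      simp only [KData.lin, Times.s0, Times.s1, hK1]
      refine Ctx.acc_win h (by linarith) (by linarith) hc (P.alw_of_C hC (m + 1)).2 fun s hs => ?_
      have hs' : s ∈ Icc (C.tm.a m) (C.tm.b m 10 + C.tm.N) := ⟨by linarith [hs.1], hs.2⟩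
      exact ⟨C.slot_post ⟨by linarith [hs.1], hs.2⟩ l, fun η => C.amp_post η hs, fun i hi =>
        (hnear C _ (LT_pos l) i hi m s).2 hs' (C.tt_post hs), am s hs'⟩
    · have hd : P.des l (κ, true) m = .pulse := by
        change (P.des l (κ, true) m).Act .pul at hact
        rcases hd : P.des l (κ, true) m with _ | _ | _ | _ <;> rw [hd] at hact <;>
          simp [Des.Act] at hact ⊢
      obtain ⟨q1, q2, q3⟩ := P.pulse_spec hC hd
      refine le_trans (Ctx.acc_pul h (Ka := Ka) (Kn := Kn) (by linarith) hc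
        (fun τ => (hb τ).1) hc' q1 q2 q3 fun s hs => ⟨fun i hi =>
          (hnear C _ (LT_pos l) i hi m s).1 ⟨by linarith [hs.1], hs.2⟩,
          (am s ⟨by linarith [hs.1], by linarith [hs.2]⟩).2⟩) ?_
      rw [← hK2]
      simp only [Times.eps]
      calc _ = c * K2 * (1 / C.tm.sg m ^ 2) / C.tm.T m := by field_simp
        _ ≤ _ := by gcongr; linarith
  refine ⟨fun η hη l κ m δ ha => ?_, main⟩
  have h0 : EtaLe C.tm (0 : Eta P.LT KK) 1 := fun l κ m δ => by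
    have := (abs_nonneg _).trans (hη l κ m δ)
    simpa using this
  have := main η 0 1 zero_le_one hη h0 (by rwa [sub_zero]) l κ m δ ha
  rw [one_mul] at this
  convert this using 3
  · obtain ⟨κ, b⟩ := κ
    obtain rfl : b = true := (P.alw_of_C ha.1 0).1
    have t0 : ∀ m δ m' p, Base.tgt (0 : Eta P.LT KK) m δ m' p = 0 := fun m δ m' p => by
      have := Base.tgt_sub (0 : Eta P.LT KK) 0 m δ m' p
      rwa [sub_self, sub_self] at this
    have y0 : ∀ s i j, (∀ l', C.amp 0 l' s = 0) → C.Ym 0 l.1.1 s i j = 0 := fun s i j hh => by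
      rw [C.Ym_eq, show (fun l' => C.amp 0 l' s) = 0 from funext hh, P.Qof_zero, mul_zero]
    have e1 := C.tm.a_le_b m (show (0 : ℝ) ≤ 0 by norm_num)
    have e2 := C.tm.b_le_b m (show (8 : ℝ) ≤ 9 by norm_num)
    have e3 := C.tm.b_le_b m (show (9 : ℝ) ≤ 10 by norm_num)
    unfold KData.lin
    refine intervalIntegral.integral_congr fun s hs => ?_
    have : C.HH 0 l s (κ, true) (l.1.2, true) = 0 := by
      cases δ <;> simp only [Times.s0, Times.s1] at hs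
      · rw [uIcc_of_le e1] at hs
        rw [(C.slot_pre hs l).1, y0, mul_zero]
        intro l'; rw [C.amp_pre _ hs]
        rcases l' with ⟨k, ⟨a, p⟩ | n⟩ <;> simp [Base.winA, t0]
      · rw [uIcc_of_le (by linarith)] at hs
        rw [(C.slot_post ⟨by linarith [hs.1], hs.2⟩ l).1, y0, mul_zero]
        intro l'; rw [C.amp_post _ hs]
        rcases l' with ⟨k, ⟨a, p⟩ | n⟩ <;> simp [Base.winA, t0]
      · rw [uIcc_of_le e2] at hs
        rw [(C.slot_post ⟨hs.1, by linarith [hs.2]⟩ l).1, y0, mul_zero]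
        intro l'; rw [C.amp_pul _ hs]
        rcases l' with ⟨k, ⟨a, p⟩ | n⟩ <;> simp [Base.booA, t0]
    simp only [Pi.sub_apply, KOK.kd, this, sub_zero]
  · simp

end Vale.Agent.P225
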