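import Vale.Agent.P225.AlgDefs

/-! Formal identities: action of the fields on the basis, charges, conjugation. -/

namespace Vale.Agent.P225

open MvPolynomial

namespace AlgH

@[simp] theorem Lm_xx : Lm xx = -yb := by simp [Lm, xx]
@[simp] theorem Lm_xb : Lm xb = 0 := by simp [Lm, xb]
@[simp] theorem Lm_yy : Lm yy = xb := by simp [Lm, yy]
@[simp] theorem Lm_yb : Lm yb = 0 := by simp [Lm, yb]
@[simp] theorem Lp_xx : Lp xx = 0 := by simp [Lp, xx]
@[simp] theorem Lp_xb : Lp xb = yy := by simp [Lp, xb]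
@[simp] theorem Lp_yy : Lp yy = 0 := by simp [Lp, yy]
@[simp] theorem Lp_yb : Lp yb = -xx := by simp [Lp, yb]
@[simp] theorem Hd_xx : Hd xx = xx := by simp [Hd, xx]
@[simp] theorem Hd_xb : Hd xb = -xb := by simp [Hd, xb]
@[simp] theorem Hd_yy : Hd yy = yy := by simp [Hd, yy]
@[simp] theorem Hd_yb : Hd yb = -yb := by simp [Hd, yb]
@[simp] theorem Tx_xx : Tx xx = xx := by simp [Tx, xx]
@[simp] theorem Tx_xb : Tx xb = -xb := by simp [Tx, xb]
@[simp] theorem Tx_yy : Tx yy = 0 := by simp [Tx, yy]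
@[simp] theorem Tx_yb : Tx yb = 0 := by simp [Tx, yb]
@[simp] theorem Ty_xx : Ty xx = 0 := by simp [Ty, xx]
@[simp] theorem Ty_xb : Ty xb = 0 := by simp [Ty, xb]
@[simp] theorem Ty_yy : Ty yy = yy := by simp [Ty, yy]
@[simp] theorem Ty_yb : Ty yb = -yb := by simp [Ty, yb]
@[simp] theorem sg_xx : sg xx = xb := by simp [sg, xx, xb]
@[simp] theorem sg_xb : sg xb = xx := by simp [sg, xx, xb]
@[simp] theorem sg_yy : sg yy = yb := by simp [sg, yy, yb]
@[simp] theorem sg_yb : sg yb = yy := by simp [sg, yy, yb]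
@[simp] theorem ev_xx (z : ℂ × ℂ) : ev z xx = z.1 := by simp [ev, xx]
@[simp] theorem ev_xb (z : ℂ × ℂ) : ev z xb = (starRingEnd ℂ) z.1 := by simp [ev, xb]
@[simp] theorem ev_yy (z : ℂ × ℂ) : ev z yy = z.2 := by simp [ev, yy]
@[simp] theorem ev_yb (z : ℂ × ℂ) : ev z yb = (starRingEnd ℂ) z.2 := by simp [ev, yb]

theorem forall_X {p : R → Prop} (h0 : p xx) (h1 : p xb) (h2 : p yy) (h3 : p yb) (i : Fin 4) :
    p (X i) := by
  fin_cases i
  exacts [h0, h1, h2, h3]

theorem der_mul (D : Derivation ℝ R R) (P Q : R) : D (P * Q) = D P * Q + P * D Q := by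
  rw [D.leibniz, smul_eq_mul, smul_eq_mul]; ring

theorem der_C (D : Derivation ℝ R R) (c : ℝ) : D (C c) = 0 := D.map_algebraMap c

theorem sg_der {D D' : Derivation ℝ R R} (h : ∀ i, sg (D (X i)) = -D' (sg (X i))) (P : R) :
    sg (D P) = -D' (sg P) := by
  induction P using MvPolynomial.induction_on with
  | C c =>
    have : sg (C c) = C c := sg.commutes c
    rw [this, der_C, der_C]; simp
  | add P Q hP hQ => simp only [map_add, hP, hQ]; ring
  | mul_X P i hP => simp only [der_mul, map_add, map_mul, hP, h]; ring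

theorem comm_der {A B D : Derivation ℝ R R} (h : ∀ i, A (B (X i)) = B (A (X i)) + D (X i)) (P : R) :
    A (B P) = B (A P) + D P := by
  induction P using MvPolynomial.induction_on with
  | C c => simp
  | add P Q hP hQ => simp only [map_add, hP, hQ]; ring
  | mul_X P i hP => simp only [der_mul, map_add, hP, h]; ring

/-- the first linear form -/
noncomputable def al : Polynomial R := Polynomial.C xx * Polynomial.X + Polynomial.C yy
/-- the second linear form -/
noncomputable def be : Polynomial R := Polynomial.C xb - Polynomial.C yb * Polynomial.X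

theorem vv_eq (a c b : ℕ) : vv a c b = (al ^ a * be ^ c).coeff b := rfl

/-- `q` is the coefficientwise derivative of `p` -/
def Cw (D : Derivation ℝ R R) (p q : Polynomial R) : Prop := ∀ n, D (p.coeff n) = q.coeff n

theorem Cw.mul {D : Derivation ℝ R R} {p p' q q' : Polynomial R} (h : Cw D p p') (h' : Cw D q q') :
    Cw D (p * q) (p' * q + p * q') := by
  intro n
  simp only [Polynomial.coeff_add, Polynomial.coeff_mul, map_sum, der_mul, h _, h' _,
    Finset.sum_add_distrib]

theorem Cw.pow {D : Derivation ℝ R R} {p p' : Polynomial R} (h : Cw D p p') (a : ℕ) :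
    Cw D (p ^ a) ((a : Polynomial R) * (p ^ (a - 1) * p')) := by
  induction a with
  | zero =>
    intro n
    simp only [pow_zero, Polynomial.coeff_one, Nat.cast_zero, zero_mul, Polynomial.coeff_zero]
    split_ifs <;> simp
  | succ a ih =>
    have := ih.mul h
    rw [← pow_succ] at this
    have e : (a : Polynomial R) * (p ^ (a - 1) * p') * p + p ^ a * p' =
        ((a + 1 : ℕ) : Polynomial R) * (p ^ (a + 1 - 1) * p') := by
      rcases a with _ | a
      · simp
      · simp only [Nat.add_sub_cancel]; push_cast; ring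
    rwa [e] at this

theorem cw_lin (D : Derivation ℝ R R) (s t : R) :
    Cw D (Polynomial.C s * Polynomial.X + Polynomial.C t)
      (Polynomial.C (D s) * Polynomial.X + Polynomial.C (D t)) := by
  intro n
  simp only [Polynomial.coeff_add, Polynomial.coeff_C_mul, Polynomial.coeff_X, Polynomial.coeff_C,
    map_add]
  split_ifs <;> simp

theorem cw_al (D : Derivation ℝ R R) :
    Cw D al (Polynomial.C (D xx) * Polynomial.X + Polynomial.C (D yy)) := cw_lin D xx yy

theorem cw_be (D : Derivation ℝ R R) :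
    Cw D be (Polynomial.C (D xb) - Polynomial.C (D yb) * Polynomial.X) := by
  have := cw_lin D (-yb) xb
  have e : ∀ s t : R, Polynomial.C (-s) * Polynomial.X + Polynomial.C t =
      Polynomial.C t - Polynomial.C s * Polynomial.X := fun s t => by rw [map_neg]; ring
  rw [map_neg D, e, e] at this
  exact this

theorem der_vv (D : Derivation ℝ R R) (a c b : ℕ) : D (vv a c b) =
    ((a : Polynomial R) * (al ^ (a - 1) *
        (Polynomial.C (D xx) * Polynomial.X + Polynomial.C (D yy))) * be ^ c +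
      al ^ a * ((c : Polynomial R) * (be ^ (c - 1) *
        (Polynomial.C (D xb) - Polynomial.C (D yb) * Polynomial.X)))).coeff b :=
  (((cw_al D).pow a).mul ((cw_be D).pow c)) b

theorem coeff_nat (a : ℕ) (p : Polynomial R) (b : ℕ) :
    ((a : Polynomial R) * p).coeff b = (a : ℝ) • p.coeff b := by
  rw [← nsmul_eq_mul, Polynomial.coeff_smul, Nat.cast_smul_eq_nsmul]

theorem nat_pow_pred (a : ℕ) (p : Polynomial R) :
    (a : Polynomial R) * (p ^ (a - 1) * p) = a * p ^ a := by
  rcases a with _ | a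
  · simp
  · simp only [Nat.add_sub_cancel]; ring

theorem coeff_X_der (p : Polynomial R) (b : ℕ) :
    (Polynomial.X * Polynomial.derivative p).coeff b = (b : ℝ) • p.coeff b := by
  rcases b with _ | b
  · simp
  · rw [Polynomial.coeff_X_mul, Polynomial.coeff_derivative, Nat.cast_smul_eq_nsmul, nsmul_eq_mul]
    push_cast; ring

theorem der_al : Polynomial.derivative al = Polynomial.C xx := by simp [al]
theorem der_be : Polynomial.derivative be = -Polynomial.C yb := by simp [be]

theorem der_F (a c : ℕ) : Polynomial.derivative (al ^ a * be ^ c) =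
    (a : Polynomial R) * (al ^ (a - 1) * Polynomial.C xx) * be ^ c -
      al ^ a * ((c : Polynomial R) * (be ^ (c - 1) * Polynomial.C yb)) := by
  rw [Polynomial.derivative_mul, Polynomial.derivative_pow, Polynomial.derivative_pow, der_al, der_be]
  simp only [map_natCast]
  ring

end AlgH

open AlgH

theorem sg_sg (P : R) : sg (sg P) = P := by
  induction P using MvPolynomial.induction_on with
  | C c => rw [show sg (C c) = C c from sg.commutes c]; exact sg.commutes c
  | add P Q hP hQ => simp only [map_add, hP, hQ]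
  | mul_X P i hP =>
    simp only [map_mul, hP]
    rw [forall_X (p := fun x => sg (sg x) = x) (by simp) (by simp) (by simp) (by simp) i]
theorem ev_sg (z : ℂ × ℂ) (P : R) : ev z (sg P) = (starRingEnd ℂ) (ev z P) := by
  induction P using MvPolynomial.induction_on with
  | C c =>
    rw [show sg (C c) = C c from sg.commutes c, show ev z (C c) = (c : ℂ) from (ev z).commutes c,
      Complex.conj_ofReal]
  | add P Q hP hQ => simp only [map_add, hP, hQ]
  | mul_X P i hP =>
    simp only [map_mul, hP]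
    rw [forall_X (p := fun x => ev z (sg x) = (starRingEnd ℂ) (ev z x)) (by simp) (by simp)
      (by simp) (by simp) i]
theorem sg_Lm (P : R) : sg (Lm P) = -Lp (sg P) := by
  exact sg_der (forall_X (p := fun x => sg (Lm x) = -Lp (sg x)) (by simp) (by simp) (by simp)
    (by simp)) P
theorem sg_Lp (P : R) : sg (Lp P) = -Lm (sg P) := by
  exact sg_der (forall_X (p := fun x => sg (Lp x) = -Lm (sg x)) (by simp) (by simp) (by simp)
    (by simp)) P
theorem sg_Hd (P : R) : sg (Hd P) = -Hd (sg P) := by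
  exact sg_der (forall_X (p := fun x => sg (Hd x) = -Hd (sg x)) (by simp) (by simp) (by simp)
    (by simp)) P
theorem sg_Tx (P : R) : sg (Tx P) = -Tx (sg P) := by
  exact sg_der (forall_X (p := fun x => sg (Tx x) = -Tx (sg x)) (by simp) (by simp) (by simp)
    (by simp)) P
theorem sg_Ty (P : R) : sg (Ty P) = -Ty (sg P) := by
  exact sg_der (forall_X (p := fun x => sg (Ty x) = -Ty (sg x)) (by simp) (by simp) (by simp)
    (by simp)) P
theorem Hd_eq (P : R) : Hd P = Tx P + Ty P := by
  have : Hd = Tx + Ty := MvPolynomial.derivation_ext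
    (forall_X (p := fun x => Hd x = (Tx + Ty) x) (by simp) (by simp) (by simp) (by simp))
  rw [this]; rfl
theorem Tx_Lm (P : R) : Tx (Lm P) = Lm (Tx P) - Lm P := by
  have := comm_der (A := Tx) (B := Lm) (D := -Lm) (forall_X
    (p := fun x => Tx (Lm x) = Lm (Tx x) + (-Lm) x) (by simp) (by simp) (by simp) (by simp)) P
  rw [this, sub_eq_add_neg]; rfl
theorem Ty_Lm (P : R) : Ty (Lm P) = Lm (Ty P) - Lm P := by
  have := comm_der (A := Ty) (B := Lm) (D := -Lm) (forall_X
    (p := fun x => Ty (Lm x) = Lm (Ty x) + (-Lm) x) (by simp) (by simp) (by simp) (by simp)) P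
  rw [this, sub_eq_add_neg]; rfl
theorem Tx_Lp (P : R) : Tx (Lp P) = Lp (Tx P) + Lp P := by
  exact comm_der (A := Tx) (B := Lp) (D := Lp) (forall_X
    (p := fun x => Tx (Lp x) = Lp (Tx x) + Lp x) (by simp) (by simp) (by simp) (by simp)) P
theorem Ty_Lp (P : R) : Ty (Lp P) = Lp (Ty P) + Lp P := by
  exact comm_der (A := Ty) (B := Lp) (D := Lp) (forall_X
    (p := fun x => Ty (Lp x) = Lp (Ty x) + Lp x) (by simp) (by simp) (by simp) (by simp)) P
theorem Tx_Hd (P : R) : Tx (Hd P) = Hd (Tx P) := by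
  have := comm_der (A := Tx) (B := Hd) (D := 0) (forall_X
    (p := fun x => Tx (Hd x) = Hd (Tx x) + (0 : Derivation ℝ R R) x) (by simp) (by simp) (by simp)
      (by simp)) P
  simpa using this
theorem Ty_Hd (P : R) : Ty (Hd P) = Hd (Ty P) := by
  have := comm_der (A := Ty) (B := Hd) (D := 0) (forall_X
    (p := fun x => Ty (Hd x) = Hd (Ty x) + (0 : Derivation ℝ R R) x) (by simp) (by simp) (by simp)
      (by simp)) P
  simpa using this
theorem Tx_mm : Tx mm = mm := by
  rw [mm, der_mul]; simp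
theorem Ty_mm : Ty mm = mm := by
  rw [mm, der_mul]; simp

theorem Lm_vv (a c b : ℕ) : Lm (vv a c b) = (a : ℝ) • vv (a - 1) (c + 1) b := by
  rw [der_vv, vv_eq, ← coeff_nat]
  congr 1
  simp only [Lm_xx, Lm_xb, Lm_yy, Lm_yb, map_zero, map_neg]
  rw [pow_succ, be]; ring
theorem Lp_vv (a c b : ℕ) : Lp (vv a c b) = (c : ℝ) • vv (a + 1) (c - 1) b := by
  rw [der_vv, vv_eq, ← coeff_nat]
  congr 1
  simp only [Lp_xx, Lp_xb, Lp_yy, Lp_yb, map_zero, map_neg]
  rw [pow_succ, al]; ring
theorem Hd_vv (a c b : ℕ) : Hd (vv a c b) = ((a : ℝ) - c) • vv a c b := by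
  rw [der_vv, vv_eq, sub_smul, ← coeff_nat, ← coeff_nat, ← Polynomial.coeff_sub]
  congr 1
  simp only [Hd_xx, Hd_xb, Hd_yy, Hd_yb, map_neg]
  have h1 := nat_pow_pred a al
  have h2 := nat_pow_pred c be
  have e1 : Polynomial.C xx * Polynomial.X + Polynomial.C yy = al := rfl
  have e2 : -Polynomial.C xb - -Polynomial.C yb * Polynomial.X = -be := by rw [be]; ring
  rw [e1, e2]
  linear_combination (be ^ c) * h1 - (al ^ a) * h2
theorem Ty_vv (a c b : ℕ) : Ty (vv a c b) = ((a : ℝ) - b) • vv a c b := by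
  rw [der_vv, vv_eq, sub_smul, ← coeff_nat, ← coeff_X_der, ← Polynomial.coeff_sub, der_F]
  congr 1
  simp only [Ty_xx, Ty_xb, Ty_yy, Ty_yb, map_neg, map_zero]
  have h1 := nat_pow_pred a al
  have e1 : Polynomial.C yy = al - Polynomial.C xx * Polynomial.X := by rw [al]; ring
  rw [e1]
  linear_combination (be ^ c) * h1
theorem vv_eq_zero {a c b : ℕ} (h : a + c < b) : vv a c b = 0 := by
  have h1 : al.natDegree ≤ 1 := Polynomial.natDegree_linear_le
  have h2 : be.natDegree ≤ 1 := by
    have : be = Polynomial.C (-yb) * Polynomial.X + Polynomial.C xb := by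
      rw [be, map_neg]; ring
    rw [this]; exact Polynomial.natDegree_linear_le
  refine Polynomial.coeff_eq_zero_of_natDegree_lt (lt_of_le_of_lt ?_ h)
  refine Polynomial.natDegree_mul_le.trans (add_le_add ?_ ?_)
  · exact Polynomial.natDegree_pow_le.trans ((Nat.mul_le_mul_left a h1).trans (by omega))
  · exact Polynomial.natDegree_pow_le.trans ((Nat.mul_le_mul_left c h2).trans (by omega))
theorem vv_zero : vv 0 0 0 = 1 := by
  simp [vv]
theorem vv_succ_left (a c b : ℕ) :
    vv (a + 1) c b = (if b = 0 then 0 else xx * vv a c (b - 1)) + yy * vv a c b := by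
  have e : al ^ (a + 1) * be ^ c = Polynomial.C xx * (Polynomial.X * (al ^ a * be ^ c)) +
      Polynomial.C yy * (al ^ a * be ^ c) := by
    rw [pow_succ', al]; ring
  rw [vv_eq, e, Polynomial.coeff_add, Polynomial.coeff_C_mul, Polynomial.coeff_C_mul]
  rcases b with _ | b
  · simp [vv_eq]
  · simp [vv_eq]
theorem vv_succ_right (a c b : ℕ) :
    vv a (c + 1) b = xb * vv a c b - (if b = 0 then 0 else yb * vv a c (b - 1)) := by
  have e : al ^ a * be ^ (c + 1) = Polynomial.C xb * (al ^ a * be ^ c) -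
      Polynomial.C yb * (Polynomial.X * (al ^ a * be ^ c)) := by
    rw [pow_succ', be]; ring
  rw [vv_eq, e, Polynomial.coeff_sub, Polynomial.coeff_C_mul, Polynomial.coeff_C_mul]
  rcases b with _ | b
  · simp [vv_eq]
  · simp [vv_eq]

/-- the sphere polynomial -/
noncomputable def qq : R := xx * xb + yy * yb
theorem ev_qq {z : ℂ × ℂ} (hz : z ∈ Sph) : ev z qq = 1 := by
  have h : ((Complex.normSq z.1 + Complex.normSq z.2 : ℝ) : ℂ) = 1 := by
    rw [show Complex.normSq z.1 + Complex.normSq z.2 = 1 from hz]; simp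
  simp only [qq, map_add, map_mul, ev_xx, ev_xb, ev_yy, ev_yb, Complex.mul_conj]
  exact_mod_cast h
theorem Lm_qq : Lm qq = 0 := by
  simp only [qq, map_add, der_mul]; simp; ring
theorem Lp_qq : Lp qq = 0 := by
  simp only [qq, map_add, der_mul]; simp; ring
theorem Hd_qq : Hd qq = 0 := by
  simp only [qq, map_add, der_mul]; simp

theorem AlgH.C_qq : Polynomial.C qq = Polynomial.C xx * be + Polynomial.C yb * al := by
  simp only [qq, al, be, map_add, map_mul]; ring

theorem AlgH.coeff_der (p : Polynomial R) (b : ℕ) :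
    (Polynomial.derivative p).coeff b = ((b + 1 : ℕ) : ℝ) • p.coeff (b + 1) := by
  rw [Polynomial.coeff_derivative, Nat.cast_smul_eq_nsmul, nsmul_eq_mul]
  push_cast; ring

/-- multiplication rules (`d + 1 = a + c + 1`) -/
theorem xx_mul_vv (a c b : ℕ) : ((a + c + 1 : ℕ) : ℝ) • (xx * vv a c b) =
    ((b + 1 : ℕ) : ℝ) • vv (a + 1) c (b + 1) + (c : ℝ) • (qq * vv a (c - 1) b) := by
  simp only [vv_eq]
  rw [← coeff_der, ← Polynomial.coeff_C_mul, ← Polynomial.coeff_C_mul, ← coeff_nat, ← coeff_nat,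
    ← Polynomial.coeff_add, der_F, C_qq]
  congr 1
  have h2 := nat_pow_pred c be
  simp only [Nat.add_sub_cancel]
  push_cast
  linear_combination (-(al ^ a * Polynomial.C xx)) * h2
theorem yb_mul_vv (a c b : ℕ) : ((a + c + 1 : ℕ) : ℝ) • (yb * vv a c b) =
    (a : ℝ) • (qq * vv (a - 1) c b) - ((b + 1 : ℕ) : ℝ) • vv a (c + 1) (b + 1) := by
  simp only [vv_eq]
  rw [← coeff_der, ← Polynomial.coeff_C_mul, ← Polynomial.coeff_C_mul, ← coeff_nat, ← coeff_nat,
    ← Polynomial.coeff_sub, der_F, C_qq]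
  congr 1
  have h2 := nat_pow_pred a al
  simp only [Nat.add_sub_cancel]
  push_cast
  linear_combination (-(be ^ c * Polynomial.C yb)) * h2
theorem yy_mul_vv (a c b : ℕ) : ((a + c + 1 : ℕ) : ℝ) • (yy * vv a c b) =
    (((a + c + 1 : ℕ) : ℝ) - b) • vv (a + 1) c b -
      (if b = 0 then 0 else (c : ℝ) • (qq * vv a (c - 1) (b - 1))) := by
  have h1 := vv_succ_left a c b
  rcases b with _ | b
  · simp only [if_true, zero_add] at h1
    rw [h1]; simp
  · have h2 := xx_mul_vv a c b
    rw [if_neg (Nat.succ_ne_zero b), Nat.add_sub_cancel] at h1 ⊢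
    have h3 : yy * vv a c (b + 1) = vv (a + 1) c (b + 1) - xx * vv a c b := by rw [h1]; ring
    rw [h3, smul_sub, h2, sub_smul]
    abel
theorem xb_mul_vv (a c b : ℕ) : ((a + c + 1 : ℕ) : ℝ) • (xb * vv a c b) =
    (((a + c + 1 : ℕ) : ℝ) - b) • vv a (c + 1) b +
      (if b = 0 then 0 else (a : ℝ) • (qq * vv (a - 1) c (b - 1))) := by
  have h1 := vv_succ_right a c b
  rcases b with _ | b
  · simp only [if_true, sub_zero] at h1
    rw [h1]; simp
  · have h2 := yb_mul_vv a c b
    rw [if_neg (Nat.succ_ne_zero b), Nat.add_sub_cancel] at h1 ⊢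
    have h3 : xb * vv a c (b + 1) = vv a (c + 1) (b + 1) + yb * vv a c b := by rw [h1]; ring
    rw [h3, smul_add, h2, sub_smul]
    abel

theorem Hd_VV (n : ℕ) (i : ℕ × ℕ) : Hd (VV n i) = (ch n i : ℝ) • VV n i := by
  rw [VV, Hd_vv, ch]; push_cast; rfl
theorem Ty_VV (n : ℕ) (i : ℕ × ℕ) : Ty (VV n i) = (n : ℝ) • VV n i := by
  rw [VV, Ty_vv]; congr 1; push_cast; ring
theorem Tx_VV (n : ℕ) (i : ℕ × ℕ) : Tx (VV n i) = ((ch n i : ℝ) - n) • VV n i := by
  rw [sub_smul, ← Hd_VV, ← Ty_VV, Hd_eq]; ring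
theorem AlgH.Lm_Lp_vv (a c b : ℕ) : Lm (Lp (vv a c b)) = ((c : ℝ) * (a + 1)) • vv a c b := by
  rw [Lp_vv, Derivation.map_smul, Lm_vv, smul_smul]
  rcases c with _ | c
  · simp
  · simp

theorem AlgH.Lp_Lm_vv (a c b : ℕ) : Lp (Lm (vv a c b)) = ((a : ℝ) * (c + 1)) • vv a c b := by
  rw [Lm_vv, Derivation.map_smul, Lp_vv, smul_smul]
  rcases a with _ | a
  · simp
  · simp

theorem cas_VV (n : ℕ) (i : ℕ × ℕ) : (-2 : ℝ) • (Lm (Lp (VV n i)) + Lp (Lm (VV n i))) =
    (-((dg n i : ℝ) * (dg n i + 2) - (ch n i : ℝ) ^ 2)) • VV n i := by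
  rw [VV, Lm_Lp_vv, Lp_Lm_vv, ← add_smul, smul_smul, dg, ch]
  congr 1
  push_cast; ring

theorem Lap_Vh (u : ℝ) (w : R) (D n : ℕ) (i : ℕ × ℕ) :
    Lap u w (Vh D n i) = (-lam u (dg n i) (ch n i)) • Vh D n i -
      Real.exp (2 * u) • (Q1 w (Vh D n i) + Q2 w w (Vh D n i)) := by
  have h1 : (-2 : ℝ) • (Lm (Lp (Vh D n i)) + Lp (Lm (Vh D n i))) =
      (-((dg n i : ℝ) * (dg n i + 2) - (ch n i : ℝ) ^ 2)) • Vh D n i := by
    simp only [Vh, Derivation.map_smul]
    rw [← smul_add, smul_comm, cas_VV, smul_comm]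
  have h2 : Hd (Hd (Vh D n i)) = ((ch n i : ℝ) ^ 2) • Vh D n i := by
    simp only [Vh, Derivation.map_smul, Hd_VV, smul_smul]
    congr 1; ring
  rw [Lap, h1, h2, smul_smul, smul_smul, ← sub_smul, lam]
  congr 2
  ring

theorem AlgH.div0 (a : ℕ) : ∀ b n, b + n = a →
    ∃ W : R, vv a 0 b = yy ^ n * W ∧ 0 < eval ![1, 1, 0, 0] W := by
  induction a with
  | zero =>
    intro b n h
    obtain ⟨rfl, rfl⟩ : b = 0 ∧ n = 0 := by omega
    exact ⟨1, by simp [vv_zero], by simp⟩
  | succ a ih =>
    intro b n h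
    rw [vv_succ_left]
    rcases b with _ | b
    · obtain ⟨W, h1, h2⟩ := ih 0 a (by omega)
      obtain rfl : n = a + 1 := by omega
      exact ⟨W, by rw [h1, if_pos rfl]; ring, h2⟩
    · obtain ⟨W, h1, h2⟩ := ih b n (by omega)
      rw [if_neg (Nat.succ_ne_zero b), Nat.add_sub_cancel, h1]
      rcases n with _ | n
      · refine ⟨xx * W, by rw [vv_eq_zero (by omega)]; ring, ?_⟩
        simpa [xx] using h2
      · obtain ⟨W', h1', h2'⟩ := ih (b + 1) n (by omega)
        refine ⟨xx * W + W', by rw [h1']; ring, ?_⟩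
        simpa [xx] using add_pos h2 h2'

theorem AlgH.div1 (c : ℕ) : ∀ b n, ∃ W : R, vv (b + n) c b = yy ^ n * W ∧
    0 < eval ![1, 1, 0, 0] W := by
  induction c with
  | zero => exact fun b n => div0 _ b n rfl
  | succ c ih =>
    intro b n
    obtain ⟨W, h1, h2⟩ := ih b n
    rw [vv_succ_right, h1]
    rcases b with _ | b
    · refine ⟨xb * W, by rw [if_pos rfl]; ring, ?_⟩
      simpa [xb] using h2
    · obtain ⟨W', h1', -⟩ := ih b (n + 1)
      rw [if_neg (Nat.succ_ne_zero b), Nat.add_sub_cancel, show b + 1 + n = b + (n + 1) by ring, h1']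
      refine ⟨xb * W - yb * yy * W', by ring, ?_⟩
      simpa [xb, yb, yy] using h2

/-- `VV n i` is divisible by `y^n`; the quotient is positive at `(1,1,0,0)` -/
theorem VV_div (n : ℕ) (i : ℕ × ℕ) :
    ∃ W : R, VV n i = yy ^ n * W ∧ 0 < eval ![1, 1, 0, 0] W := by
  exact div1 i.2 i.1 n

/-- homogeneity -/
theorem ev_vv_smul (a c b : ℕ) (r : ℝ) (z : ℂ × ℂ) :
    ev (r • z) (vv a c b) = (r : ℂ) ^ (a + c) * ev z (vv a c b) := by
  have e0 : ev (r • z) xx = r * ev z xx := by simp
  have e1 : ev (r • z) xb = r * ev z xb := by simp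
  have e2 : ev (r • z) yy = r * ev z yy := by simp
  have e3 : ev (r • z) yb = r * ev z yb := by simp
  induction c generalizing b with
  | zero =>
    induction a generalizing b with
    | zero =>
      rcases b with _ | b
      · simp [vv_zero]
      · simp [vv_eq_zero]
    | succ a ih =>
      rw [vv_succ_left]
      split_ifs
      · simp only [zero_add, map_mul, ih, e2]; ring
      · simp only [map_add, map_mul, ih, e0, e2]; ring
  | succ c ih =>
    rw [vv_succ_right]
    split_ifs
    · simp only [sub_zero, map_mul, ih, e1]; ring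
    · simp only [map_sub, map_mul, ih, e1, e3]; ring

theorem continuous_ev (P : R) : Continuous fun z => ev z P := by
  induction P using MvPolynomial.induction_on with
  | C c =>
    simp only [show ∀ z, ev z (C c) = (c : ℂ) from fun z => (ev z).commutes c]
    exact continuous_const
  | add P Q hP hQ => simp only [map_add]; exact hP.add hQ
  | mul_X P i hP =>
    simp only [map_mul]
    refine hP.mul (forall_X (p := fun x => Continuous fun z => ev z x) ?_ ?_ ?_ ?_ i) <;>
      simp only [ev_xx, ev_xb, ev_yy, ev_yb] <;> fun_prop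

end Vale.Agent.P225
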