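import Mathlib

/-! Polynomial algebra of the three-sphere: variables `x, x̄, y, ȳ`, the fields `Lm, Lp, Hd`,
the basis `vv`, the invariant integral `II`, and the operators `Q1, Q2, Lap`. -/

namespace Vale.Agent.P225

open MvPolynomial MeasureTheory

abbrev R := MvPolynomial (Fin 4) ℝ

noncomputable def xx : R := X 0
noncomputable def xb : R := X 1
noncomputable def yy : R := X 2
noncomputable def yb : R := X 3

/-- `Lm : α ↦ β, β ↦ 0` -/
noncomputable def Lm : Derivation ℝ R R := mkDerivation ℝ ![-yb, 0, xb, 0]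
/-- `Lp : β ↦ α, α ↦ 0` -/
noncomputable def Lp : Derivation ℝ R R := mkDerivation ℝ ![0, yy, 0, -xx]
/-- total charge -/
noncomputable def Hd : Derivation ℝ R R := mkDerivation ℝ ![xx, -xb, yy, -yb]
/-- `x`-charge -/
noncomputable def Tx : Derivation ℝ R R := mkDerivation ℝ ![xx, -xb, 0, 0]
/-- `y`-charge -/
noncomputable def Ty : Derivation ℝ R R := mkDerivation ℝ ![0, 0, yy, -yb]
/-- complex conjugation of the variables -/
noncomputable def sg : R →ₐ[ℝ] R := rename ![1, 0, 3, 2]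
/-- evaluation at a point of `ℂ²` -/
noncomputable def ev (z : ℂ × ℂ) : R →ₐ[ℝ] ℂ :=
  aeval ![z.1, (starRingEnd ℂ) z.1, z.2, (starRingEnd ℂ) z.2]

/-- the unit sphere of `ℂ²` -/
def Sph : Set (ℂ × ℂ) := {z | Complex.normSq z.1 + Complex.normSq z.2 = 1}

/-- `vv a c b` is the coefficient of `η^b` in `(x η + y)^a (x̄ - ȳ η)^c` -/
noncomputable def vv (a c b : ℕ) : R :=
  ((Polynomial.C xx * Polynomial.X + Polynomial.C yy) ^ a *
    (Polynomial.C xb - Polynomial.C yb * Polynomial.X) ^ c).coeff b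

/-- degree of the mode `i = (b, c)` of type `n` -/
def dg (n : ℕ) (i : ℕ × ℕ) : ℕ := i.1 + i.2 + n
/-- charge of the mode `i = (b, c)` of type `n` -/
def ch (n : ℕ) (i : ℕ × ℕ) : ℤ := (i.1 : ℤ) + n - i.2
/-- the mode `i = (b, c)` of type `n` -/
noncomputable def VV (n : ℕ) (i : ℕ × ℕ) : R := vv (i.1 + n) i.2 i.1

/-- Hopf coordinates -/
noncomputable def spt (p : ℝ × ℝ × ℝ) : ℂ × ℂ :=
  ((√(1 - p.1) : ℝ) * Complex.exp (2 * Real.pi * p.2.1 * Complex.I),
    (√p.1 : ℝ) * Complex.exp (2 * Real.pi * p.2.2 * Complex.I))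

/-- the invariant probability measure of the sphere -/
noncomputable def nu : Measure (ℂ × ℂ) :=
  ((volume.restrict (Set.Icc (0 : ℝ) 1)).prod
    ((volume.restrict (Set.Icc (0 : ℝ) 1)).prod (volume.restrict (Set.Icc (0 : ℝ) 1)))).map spt

/-- the invariant integral of a polynomial -/
noncomputable def II (P : R) : ℝ := (∫ z, ev z P ∂nu).re

noncomputable def mm : R := xx * yy

noncomputable def Q1 (w P : R) : R :=
  Lm (w * Hd P) + Lp (sg w * Hd P) + Hd (w * Lm P + sg w * Lp P)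
noncomputable def Q2 (w w' P : R) : R := Hd (w * sg w' * Hd P)

/-- the Laplacian of the cross-section with parameters `u` and connection `w` -/
noncomputable def Lap (u : ℝ) (w P : R) : R :=
  Real.exp (2 * u) • ((-2 : ℝ) • (Lm (Lp P) + Lp (Lm P))) - Real.exp (-4 * u) • Hd (Hd P) -
    Real.exp (2 * u) • (Q1 w P + Q2 w w P)

/-- eigenvalue of the Berger Laplacian on the multiplet `(d, e)` -/
noncomputable def lam (u : ℝ) (d : ℕ) (e : ℤ) : ℝ :=
  Real.exp (2 * u) * ((d : ℝ) * (d + 2) - (e : ℝ) ^ 2) + Real.exp (-4 * u) * (e : ℝ) ^ 2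

/-- normalisation of the modes of degree at most `D` -/
noncomputable def scl (D n : ℕ) (i : ℕ × ℕ) : ℝ :=
  if dg n i ≤ D then (√(II (VV n i * sg (VV n i))))⁻¹ else 1
noncomputable def Vh (D n : ℕ) (i : ℕ × ℕ) : R := scl D n i • VV n i

/-- matrix coefficient of `Op` from mode `i` to mode `j` -/
noncomputable def mat (D n : ℕ) (Op : R → R) (j i : ℕ × ℕ) : ℝ :=
  II (Op (Vh D n i) * sg (Vh D n j)) / II (Vh D n j * sg (Vh D n j))

/-- the box of half-width `B` around `i` -/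
def box (B : ℕ) (i : ℕ × ℕ) : Finset (ℕ × ℕ) :=
  Finset.Icc (i.1 - B) (i.1 + B) ×ˢ Finset.Icc (i.2 - B) (i.2 + B)

/-- no tracked mode of type `n` has charge `-e` -/
def MF (D n : ℕ) (e : ℤ) : Prop := ∀ j, dg n j ≤ D → ch n j ≠ -e

/-- allowed (controllable) pairs `i → j` in type `n` -/
def Alw (D n : ℕ) (i j : ℕ × ℕ) : Prop :=
  1 ≤ n ∧ dg n i ≤ D ∧ dg n j ≤ D ∧ i ≠ j ∧ ch n j ≠ -ch n i ∧ (ch n j = ch n i → MF D n (ch n i))

open Classical in
/-- the finite set of allowed triples `(n, i, j)` -/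
noncomputable def alw (D : ℕ) : Finset (ℕ × (ℕ × ℕ) × (ℕ × ℕ)) :=
  (Finset.range (D + 1) ×ˢ (box D (0, 0) ×ˢ box D (0, 0))).filter fun p => Alw D p.1 p.2.1 p.2.2

theorem mem_box {B : ℕ} {i j : ℕ × ℕ} :
    j ∈ box B i ↔ i.1 ≤ j.1 + B ∧ j.1 ≤ i.1 + B ∧ i.2 ≤ j.2 + B ∧ j.2 ≤ i.2 + B := by
  simp only [box, Finset.mem_product, Finset.mem_Icc]
  omega

theorem mem_box_comm {B : ℕ} {i j : ℕ × ℕ} : j ∈ box B i ↔ i ∈ box B j := by
  simp only [mem_box]; omega

theorem box_mono {B B' : ℕ} (h : B ≤ B') (i : ℕ × ℕ) : box B i ⊆ box B' i := by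
  intro j; simp only [mem_box]; omega

theorem card_box_le (B : ℕ) (i : ℕ × ℕ) : (box B i).card ≤ (2 * B + 1) ^ 2 := by
  simp only [box, Finset.card_product, Nat.card_Icc]
  rw [sq]; exact Nat.mul_le_mul (by omega) (by omega)

theorem mem_alw {D : ℕ} {p : ℕ × (ℕ × ℕ) × (ℕ × ℕ)} : p ∈ alw D ↔ Alw D p.1 p.2.1 p.2.2 := by
  classical
  simp only [alw, Finset.mem_filter, Finset.mem_product, Finset.mem_range, mem_box]
  constructor
  · exact fun h => h.2
  · intro h
    obtain ⟨-, h1, h2, -⟩ := id h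
    simp only [dg] at h1 h2
    refine ⟨⟨by omega, ?_, ?_⟩, h⟩ <;> simp <;> omega

theorem mode_ext {n : ℕ} {i j : ℕ × ℕ} (h1 : dg n i = dg n j) (h2 : ch n i = ch n j) : i = j := by
  simp only [dg, ch] at h1 h2
  ext <;> omega

theorem abs_ch_le (n : ℕ) (i : ℕ × ℕ) : |ch n i| ≤ dg n i := by
  simp only [dg, ch]; rw [abs_le]; push_cast; omega

end Vale.Agent.P225
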