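import Vale.Agent.P225.Int

/-! Banded expansion of the perturbation operators. -/

namespace Vale.Agent.P225

open AlgH IntH

/-- `Op` is represented by its banded matrix with entries `≤ C (d+1)²` -/
structure Banded (D : ℕ) (Op : R → R) (B : ℕ) (C : ℝ) : Prop where
  zero : ∀ n i j, j ∉ box B i → mat D n Op j i = 0
  bd : ∀ n i j, |mat D n Op j i| ≤ C * ((dg n i : ℝ) + 1) ^ 2
  expand : ∀ n i, ∀ z ∈ Sph,
    ev z (Op (Vh D n i)) = ∑ j ∈ box B i, (mat D n Op j i : ℂ) * ev z (Vh D n j)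

namespace BandH

abbrev T := ℕ × ℕ × ℕ

/-- the general basis -/
noncomputable def v (t : T) : R := vv t.1 t.2.1 t.2.2

/-- the three-dimensional box -/
def box3 (B : ℕ) (t : T) : Finset T := Finset.Icc (t.1 - B) (t.1 + B) ×ˢ box B t.2

theorem mem_box3 {B : ℕ} {t s : T} : s ∈ box3 B t ↔ t.1 ≤ s.1 + B ∧ s.1 ≤ t.1 + B ∧
    t.2.1 ≤ s.2.1 + B ∧ s.2.1 ≤ t.2.1 + B ∧ t.2.2 ≤ s.2.2 + B ∧ s.2.2 ≤ t.2.2 + B := by
  simp only [box3, Finset.mem_product, Finset.mem_Icc, mem_box]
  omega

/-- combinations of nearby basis vectors, modulo the equation of the sphere -/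
inductive Near (B : ℕ) (t : T) : ℝ → R → Prop
  | zero : Near B t 0 0
  | cons (c : ℝ) {s : T} (h : s ∈ box3 B t) {K : ℝ} {P : R} :
      Near B t K P → Near B t (|c| + K) (c • v s + P)
  | weak {K K' : ℝ} {P P' : R} : Near B t K P → K ≤ K' → (qq - 1) ∣ P' - P → Near B t K' P'

theorem Near.nonneg {B t K P} (h : Near B t K P) : 0 ≤ K := by
  induction h with
  | zero => exact le_rfl
  | cons c h _ ih => positivity
  | weak _ h _ ih => exact ih.trans h

theorem Near.le {B t K K' P} (h : Near B t K P) (hK : K ≤ K') : Near B t K' P :=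
  h.weak hK (by simp)

theorem Near.eq {B t K P P'} (h : Near B t K P) (e : P = P') : Near B t K P' := e ▸ h

theorem Near.one {B t s} (c : ℝ) (h : s ∈ box3 B t) : Near B t |c| (c • v s) :=
  ((Near.zero.cons c h).le (by simp)).eq (by simp)

theorem Near.add {B t K K' P P'} (h : Near B t K P) (h' : Near B t K' P') :
    Near B t (K + K') (P + P') := by
  induction h with
  | zero => simpa using h'
  | cons c h _ ih => exact ((ih.cons c h).le (by linarith)).eq (by ring)
  | weak _ h hd ih => exact ih.weak (by linarith) (by simpa using hd)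

theorem Near.smul {B t K P} (h : Near B t K P) (c : ℝ) : Near B t (|c| * K) (c • P) := by
  induction h with
  | zero => simpa using Near.zero
  | cons c' h _ ih =>
    exact ((ih.cons (c * c') h).le (by rw [abs_mul]; linarith)).eq (by rw [smul_add, smul_smul])
  | weak _ h hd ih =>
    refine ih.weak (mul_le_mul_of_nonneg_left h (abs_nonneg c)) ?_
    rw [← smul_sub, MvPolynomial.smul_eq_C_mul]
    exact hd.mul_left _

theorem Near.shift {B B' B'' : ℕ} {t s K P} (h : Near B s K P) (hs : s ∈ box3 B' t)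
    (hB : B' + B ≤ B'') : Near B'' t K P := by
  induction h with
  | zero => exact Near.zero
  | cons c h _ ih => exact ih.cons c (by rw [mem_box3] at *; omega)
  | weak _ h hd ih => exact ih.weak h hd

theorem self_mem (B : ℕ) (t : T) : t ∈ box3 B t := by rw [mem_box3]; omega

theorem Near.map {Op : R → R} (hl : IsLinearMap ℝ Op) (hr : ∀ P, (qq - 1) ∣ P → (qq - 1) ∣ Op P)
    {B B' t K K' P} (h : Near B t K P) (h0 : 0 ≤ K')
    (h' : ∀ s ∈ box3 B t, Near B' s K' (Op (v s))) : Near (B + B') t (K * K') (Op P) := by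
  induction h with
  | zero => simpa [hl.map_zero] using Near.zero
  | cons c h _ ih =>
    exact (((((h' _ h).shift h le_rfl).smul c).add ih).le (by linarith)).eq
      (by rw [hl.map_add, hl.map_smul])
  | weak _ h hd ih =>
    refine ih.weak (mul_le_mul_of_nonneg_right h h0) ?_
    rw [← hl.map_sub]; exact hr _ hd

/-- operators with banded matrices of order `r` -/
structure Rep (Op : R → R) (r : ℕ) : Prop where
  lin : IsLinearMap ℝ Op
  resp : ∀ P, (qq - 1) ∣ P → (qq - 1) ∣ Op P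
  near : ∃ (B : ℕ) (C : ℝ), 0 ≤ C ∧ ∀ t : T, Near B t (C * ((t.1 : ℝ) + t.2.1 + 1) ^ r) (Op (v t))

theorem Rep.add {A A' : R → R} {r : ℕ} (h : Rep A r) (h' : Rep A' r) :
    Rep (fun P => A P + A' P) r := by
  obtain ⟨B, C, h0, h1⟩ := h.near
  obtain ⟨B', C', h0', h1'⟩ := h'.near
  refine ⟨⟨fun P Q => ?_, fun c P => ?_⟩, fun P hP => (h.resp P hP).add (h'.resp P hP),
    B + B', C + C', by positivity, fun t => ?_⟩
  · rw [h.lin.map_add, h'.lin.map_add]; ring
  · rw [h.lin.map_smul, h'.lin.map_smul, smul_add]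
  · rw [add_mul]
    exact ((h1 t).shift (self_mem 0 t) (by omega)).add ((h1' t).shift (self_mem 0 t) (by omega))

theorem Rep.comp {A A' : R → R} {r r' : ℕ} (h : Rep A r) (h' : Rep A' r') :
    Rep (fun P => A (A' P)) (r' + r) := by
  obtain ⟨B, C, h0, h1⟩ := h.near
  obtain ⟨B', C', h0', h1'⟩ := h'.near
  refine ⟨⟨fun P Q => ?_, fun c P => ?_⟩, fun P hP => h.resp _ (h'.resp P hP),
    B' + B, C' * (C * (2 * B' + 1) ^ r), by positivity, fun t => ?_⟩
  · rw [h'.lin.map_add, h.lin.map_add]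
  · rw [h'.lin.map_smul, h.lin.map_smul]
  · refine ((h1' t).map h.lin h.resp (K' := C * ((2 * B' + 1) * ((t.1 : ℝ) + t.2.1 + 1)) ^ r)
      (by positivity) fun s hs => (h1 s).le ?_).le (le_of_eq ?_)
    · rw [mem_box3] at hs
      have e1 : (s.1 : ℝ) ≤ t.1 + B' := by exact_mod_cast hs.2.1
      have e2 : (s.2.1 : ℝ) ≤ t.2.1 + B' := by exact_mod_cast hs.2.2.2.1
      have e3 : (0 : ℝ) ≤ B' * (t.1 + t.2.1) := by positivity
      refine mul_le_mul_of_nonneg_left (pow_le_pow_left₀ (by positivity) ?_ _) h0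
      nlinarith
    · rw [mul_pow, pow_add]; ring

theorem rep_der {D : Derivation ℝ R R} (hq : D qq = 0)
    (h : ∀ t : T, ∃ (c : ℝ) (s : T), s ∈ box3 1 t ∧ |c| ≤ (t.1 : ℝ) + t.2.1 + 1 ∧ D (v t) = c • v s) :
    Rep D 1 := by
  refine ⟨⟨fun P Q => map_add D P Q, fun c P => D.map_smul c P⟩, ?_, 1, 1, zero_le_one, fun t => ?_⟩
  · rintro _ ⟨S, rfl⟩
    exact ⟨D S, by rw [der_mul, map_sub, hq, D.map_one_eq_zero]; ring⟩
  · obtain ⟨c, s, h1, h2, h3⟩ := h t
    rw [h3]
    exact (Near.one c h1).le (by simpa using h2)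

theorem rep_Lm : Rep Lm 1 := rep_der Lm_qq fun t =>
  ⟨t.1, (t.1 - 1, t.2.1 + 1, t.2.2), by rw [mem_box3]; simp only; omega,
    by rw [Nat.abs_cast]; linarith [Nat.cast_nonneg (α := ℝ) t.2.1], Lm_vv _ _ _⟩

theorem rep_Lp : Rep Lp 1 := rep_der Lp_qq fun t =>
  ⟨t.2.1, (t.1 + 1, t.2.1 - 1, t.2.2), by rw [mem_box3]; simp only; omega,
    by rw [Nat.abs_cast]; linarith [Nat.cast_nonneg (α := ℝ) t.1], Lp_vv _ _ _⟩

theorem rep_Hd : Rep Hd 1 := rep_der Hd_qq fun t =>
  ⟨(t.1 : ℝ) - t.2.1, t, self_mem 1 t, by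
    rw [abs_le]
    constructor <;> linarith [Nat.cast_nonneg (α := ℝ) t.1, Nat.cast_nonneg (α := ℝ) t.2.1],
    Hd_vv _ _ _⟩

theorem near_two {t s s' : T} {N α β : ℝ} {P : R} (hN : 0 < N) (hα : |α| ≤ N) (hβ : |β| ≤ N)
    (hs : s ∈ box3 1 t) (hs' : s' ∈ box3 1 t) (h : N • P = α • v s + β • (qq * v s')) :
    Near 1 t 2 P := by
  have e : P = (α / N) • v s + (β / N) • (qq * v s') := by
    rw [div_eq_inv_mul, div_eq_inv_mul, mul_smul, mul_smul, ← smul_add, ← h, smul_smul,
      inv_mul_cancel₀ hN.ne', one_smul]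
  refine ((Near.one (α / N) hs).add (Near.one (β / N) hs')).weak ?_ ⟨(β / N) • v s', ?_⟩
  · rw [abs_div, abs_div, abs_of_pos hN]
    have h1 := (div_le_one hN).2 hα
    have h2 := (div_le_one hN).2 hβ
    linarith
  · rw [e]
    simp only [MvPolynomial.smul_eq_C_mul]; ring

theorem rep_mul {w : R} (h : ∃ (B : ℕ) (C : ℝ), 0 ≤ C ∧ ∀ t : T, Near B t C (w * v t)) :
    Rep (fun P => w * P) 0 := by
  obtain ⟨B, C, h0, h1⟩ := h
  exact ⟨⟨fun P Q => mul_add w P Q, fun c P => mul_smul_comm c w P⟩, fun P hP => hP.mul_left w,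
    B, C, h0, fun t => by simpa using h1 t⟩

theorem rep_var {w : R} (h : ∀ a c b : ℕ, b ≤ a + c → Near 1 (a, c, b) 2 (w * vv a c b)) :
    Rep (fun P => w * P) 0 := by
  refine rep_mul ⟨1, 2, zero_le_two, fun t => ?_⟩
  by_cases hb : t.2.2 ≤ t.1 + t.2.1
  · exact h _ _ _ hb
  · rw [v, vv_eq_zero (by omega), mul_zero]
    exact Near.zero.le zero_le_two

theorem abs_nat_le {m N : ℕ} (h : m ≤ N) : |(m : ℝ)| ≤ N := by
  rw [Nat.abs_cast]; exact_mod_cast h

theorem abs_sub_le' {m N : ℕ} (h : m ≤ N) : |(N : ℝ) - m| ≤ N := by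
  have h1 : (m : ℝ) ≤ N := by exact_mod_cast h
  have h2 : (0 : ℝ) ≤ m := Nat.cast_nonneg m
  rw [abs_le]; constructor <;> linarith

theorem rep_xx : Rep (fun P => xx * P) 0 := rep_var fun a c b h =>
  near_two (s := (a + 1, c, b + 1)) (s' := (a, c - 1, b)) (by positivity) (abs_nat_le (by omega))
    (abs_nat_le (by omega)) (by rw [mem_box3]; simp only; omega)
    (by rw [mem_box3]; simp only; omega) (xx_mul_vv a c b)

theorem rep_yb : Rep (fun P => yb * P) 0 := rep_var fun a c b h =>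
  near_two (s := (a, c + 1, b + 1)) (s' := (a - 1, c, b)) (N := ((a + c + 1 : ℕ) : ℝ))
    (α := -((b + 1 : ℕ) : ℝ)) (β := (a : ℝ)) (by positivity)
    (by rw [abs_neg]; exact abs_nat_le (by omega))
    (abs_nat_le (by omega)) (by rw [mem_box3]; simp only; omega)
    (by rw [mem_box3]; simp only; omega) (by rw [yb_mul_vv, neg_smul, v, v]; ring)

theorem rep_yy : Rep (fun P => yy * P) 0 := rep_var fun a c b h =>
  near_two (s := (a + 1, c, b)) (s' := (a, c - 1, b - 1)) (N := ((a + c + 1 : ℕ) : ℝ))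
    (α := ((a + c + 1 : ℕ) : ℝ) - b) (β := if b = 0 then 0 else -(c : ℝ)) (by positivity)
    (abs_sub_le' (by omega))
    (by
      split_ifs
      · rw [abs_zero]; positivity
      · rw [abs_neg]; exact abs_nat_le (by omega))
    (by rw [mem_box3]; simp only; omega) (by rw [mem_box3]; simp only; omega)
    (by
      rw [yy_mul_vv, v, v]
      split_ifs
      · simp
      · rw [neg_smul]; ring)

theorem rep_xb : Rep (fun P => xb * P) 0 := rep_var fun a c b h =>
  near_two (s := (a, c + 1, b)) (s' := (a - 1, c, b - 1)) (N := ((a + c + 1 : ℕ) : ℝ))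
    (α := ((a + c + 1 : ℕ) : ℝ) - b) (β := if b = 0 then 0 else (a : ℝ)) (by positivity)
    (abs_sub_le' (by omega))
    (by
      split_ifs
      · rw [abs_zero]; positivity
      · exact abs_nat_le (by omega))
    (by rw [mem_box3]; simp only; omega) (by rw [mem_box3]; simp only; omega)
    (by
      rw [xb_mul_vv, v, v]
      split_ifs
      · simp
      · rfl)

theorem rep_poly (w : R) : Rep (fun P => w * P) 0 := by
  induction w using MvPolynomial.induction_on with
  | C c =>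
    refine rep_mul ⟨0, |c|, abs_nonneg c, fun t => ?_⟩
    rw [← MvPolynomial.smul_eq_C_mul]
    exact Near.one c (self_mem 0 t)
  | add P Q hP hQ => simpa only [add_mul] using hP.add hQ
  | mul_X P i hP =>
    simpa only [mul_assoc] using hP.comp
      (forall_X (p := fun x => Rep (fun P => x * P) 0) rep_xx rep_xb rep_yy rep_yb i)

theorem rep_Q1 (w : R) : Rep (Q1 w) 2 :=
  ((rep_Lm.comp ((rep_poly w).comp rep_Hd)).add (rep_Lp.comp ((rep_poly (sg w)).comp rep_Hd))).add
    (rep_Hd.comp (((rep_poly w).comp rep_Lm).add ((rep_poly (sg w)).comp rep_Lp)))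

theorem rep_Q2 (w w' : R) : Rep (Q2 w w') 2 :=
  rep_Hd.comp ((rep_poly (w * sg w')).comp rep_Hd)

/-- the coefficient along a basis vector -/
noncomputable def co (P : R) (s : T) : ℝ := II (P * sg (v s)) / II (v s * sg (v s))

theorem co_cons (c : ℝ) (P Q : R) (s : T) : co (c • P + Q) s = c * co P s + co Q s := by
  simp only [co, add_mul, smul_mul_assoc, II_add, II_smul, add_div, mul_div_assoc]

theorem co_ne {s s' : T} (h : s' ≠ s) : co (v s') s = 0 := by
  rw [co, v, v, II_vv_orth h, zero_div]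

theorem ev_congr {P P' : R} (h : (qq - 1) ∣ P' - P) {z : ℂ × ℂ} (hz : z ∈ Sph) :
    ev z P' = ev z P := by
  obtain ⟨S, hS⟩ := h
  rw [← sub_eq_zero, ← map_sub, hS, map_mul, map_sub, ev_qq hz, map_one, sub_self, zero_mul]

theorem co_congr {P P' : R} (h : (qq - 1) ∣ P' - P) (s : T) : co P' s = co P s := by
  unfold co
  rw [II_congr (P := P' * sg (v s)) (Q := P * sg (v s)) fun z hz => by
    rw [map_mul, map_mul, ev_congr h hz]]

theorem Near.co_zero {B t K P} (h : Near B t K P) {s : T} (hs : s ∉ box3 B t) : co P s = 0 := by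
  induction h with
  | zero => simp [co, II_zero]
  | cons c h _ ih => rw [co_cons, ih, co_ne (by rintro rfl; exact hs h), mul_zero, add_zero]
  | weak _ h hd ih => rw [co_congr hd, ih]

theorem Near.co_le {B t K P} (h : Near B t K P) (s : T) : |co P s| ≤ K := by
  induction h with
  | zero => simp [co, II_zero]
  | @cons c s' h _ _ _ ih =>
    have h1 : |co (v s') s| ≤ 1 := by
      by_cases e : s' = s
      · subst e
        rw [co, abs_of_nonneg (div_nonneg (II_sq_nonneg _) (II_sq_nonneg _))]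
        exact div_self_le_one _
      · rw [co_ne e]; simp
    rw [co_cons]
    refine (abs_add_le _ _).trans (add_le_add ?_ ih)
    rw [abs_mul]
    exact mul_le_of_le_one_right (abs_nonneg c) h1
  | weak _ h hd ih => rw [co_congr hd]; exact ih.trans h

theorem Near.expand {B t K P} (h : Near B t K P) {z : ℂ × ℂ} (hz : z ∈ Sph) :
    ev z P = ∑ s ∈ box3 B t, (co P s : ℂ) * ev z (v s) := by
  induction h with
  | zero => simp [co, II_zero]
  | @cons c s' h _ _ _ ih =>
    have h1 : ev z (v s') = ∑ s ∈ box3 B t, (co (v s') s : ℂ) * ev z (v s) := by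
      rw [Finset.sum_eq_single_of_mem s' h fun s _ hs => by rw [co_ne hs.symm]; simp]
      by_cases e : II (v s' * sg (v s')) = 0
      · rw [II_sq_eq_zero e z hz, mul_zero]
      · rw [co, div_self e]; simp
    simp only [co_cons, map_add, map_smul]
    rw [ih, Complex.real_smul]
    conv_lhs => rw [h1]
    rw [Finset.mul_sum, ← Finset.sum_add_distrib]
    refine Finset.sum_congr rfl fun s _ => ?_
    push_cast; ring
  | weak _ h hd ih => simp only [co_congr hd]; rw [ev_congr hd hz, ih]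

theorem Rep.banded (D : ℕ) {Op : R → R} (h : Rep Op 2)
    (hc : ∀ (c : ℝ) P, Ch Ty c P → Ch Ty c (Op P)) : ∃ B C, Banded D Op B C := by
  obtain ⟨B, C, h0, h1⟩ := h.near
  obtain ⟨S, hS1, hS⟩ := scl_bdd D
  have hm : ∀ n i j, mat D n Op j i =
      scl D n i * (scl D n j)⁻¹ * co (Op (v (i.1 + n, i.2, i.1))) (j.1 + n, j.2, j.1) := by
    intro n i j
    have := (scl_pos D n j).ne'
    have e : II (Op (Vh D n i) * sg (Vh D n j)) =
        scl D n i * scl D n j * II (Op (VV n i) * sg (VV n j)) := by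
      simp only [Vh, h.lin.map_smul, map_smul, smul_mul_assoc, mul_smul_comm, II_smul]; ring
    rw [mat, e, II_Vh, co]
    show _ = _ * (II (Op (VV n i) * sg (VV n j)) / II (VV n j * sg (VV n j)))
    have := (II_VV_pos n j).ne'
    field_simp
  refine ⟨B, S * S * C, fun n i j hj => ?_, fun n i j => ?_, fun n i z hz => ?_⟩
  · rw [hm, (h1 _).co_zero, mul_zero]
    rw [mem_box3]
    rw [mem_box] at hj
    simp only; omega
  · have e1 := (h1 (i.1 + n, i.2, i.1)).co_le (j.1 + n, j.2, j.1)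
    have e2 : ((i.1 + n : ℕ) : ℝ) + i.2 + 1 = (dg n i : ℝ) + 1 := by
      rw [dg]; push_cast; ring
    simp only [e2] at e1
    have p1 := scl_pos D n i
    have p2 := inv_pos.2 (scl_pos D n j)
    rw [hm, abs_mul, abs_of_pos (mul_pos p1 p2), mul_assoc (S * S)]
    exact mul_le_mul (mul_le_mul (hS n i).1 (hS n j).2 p2.le (by linarith)) e1 (abs_nonneg _)
      (by positivity)
  · have e1 := (h1 (i.1 + n, i.2, i.1)).expand hz
    have e2 : ∑ s ∈ box3 B (i.1 + n, i.2, i.1),
        (co (Op (v (i.1 + n, i.2, i.1))) s : ℂ) * ev z (v s) = ∑ j ∈ box B i,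
        (co (Op (v (i.1 + n, i.2, i.1))) (j.1 + n, j.2, j.1) : ℂ) * ev z (VV n j) := by
      symm
      refine Finset.sum_of_injOn (fun j : ℕ × ℕ => (j.1 + n, j.2, j.1)) (fun j _ j' _ e => ?_)
        (fun j hj => ?_) (fun s hs hs' => ?_) fun j _ => rfl
      · simp only [Prod.mk.injEq] at e
        exact Prod.ext e.2.2 e.2.1
      · rw [Finset.mem_coe, mem_box] at hj
        rw [Finset.mem_coe, mem_box3]; simp only; omega
      · have e3 : (n : ℝ) + -((s.1 : ℝ) - s.2.2) ≠ 0 := by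
          intro e4
          have e5 : (n : ℤ) + -((s.1 : ℤ) - s.2.2) = 0 := by exact_mod_cast e4
          refine hs' ⟨(s.2.2, s.2.1), ?_, Prod.ext (by simp only; omega) rfl⟩
          rw [mem_box3] at hs
          simp only [Finset.mem_coe, mem_box] at hs ⊢
          omega
        have e4 := ((hc n _ (Ty_VV n i)).mul (Ch.sg sg_Ty (Ty_vv s.1 s.2.1 s.2.2))).II_eq II_Ty e3
        have e5 : co (Op (v (i.1 + n, i.2, i.1))) s = 0 := by
          rw [co]; exact div_eq_zero_iff.2 (Or.inl e4)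
        rw [e5]; simp
    have e3 : ev z (Op (Vh D n i)) = scl D n i * ev z (Op (v (i.1 + n, i.2, i.1))) := by
      rw [Vh, h.lin.map_smul, map_smul, Complex.real_smul]; rfl
    rw [e3, e1, e2, Finset.mul_sum]
    refine Finset.sum_congr rfl fun j _ => ?_
    have : (scl D n j : ℂ) ≠ 0 := by exact_mod_cast (scl_pos D n j).ne'
    rw [hm, Vh, map_smul, Complex.real_smul]
    push_cast
    field_simp

end BandH

open BandH

theorem Banded.mono {D : ℕ} {Op : R → R} {B B' : ℕ} {C C' : ℝ} (h : Banded D Op B C)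
    (hB : B ≤ B') (hC : C ≤ C') : Banded D Op B' C' := by
  refine ⟨fun n i j hj => h.zero n i j fun h' => hj (box_mono hB i h'), fun n i j =>
    (h.bd n i j).trans (mul_le_mul_of_nonneg_right hC (by positivity)), fun n i z hz => ?_⟩
  rw [h.expand n i z hz]
  exact Finset.sum_subset (box_mono hB i) fun j _ hj => by rw [h.zero n i j hj]; simp

theorem banded_Q1 (D : ℕ) {w : R} (hw : Ty w = w) : ∃ B C, Banded D (Q1 w) B C := by
  have h1 : Ch Ty 1 w := by rw [Ch, hw, one_smul]
  have h2 := h1.sg sg_Ty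
  refine (rep_Q1 w).banded D fun c P hP => ?_
  exact ((((h1.mul (hP.hd Ty_Hd)).lm Ty_Lm).cast (by ring)).add
    (((h2.mul (hP.hd Ty_Hd)).lp Ty_Lp).cast (by ring))).add
    ((((h1.mul (hP.lm Ty_Lm)).cast (by ring)).add ((h2.mul (hP.lp Ty_Lp)).cast (by ring))).hd Ty_Hd)

theorem banded_Q2 (D : ℕ) {w w' : R} (hw : Ty w = w) (hw' : Ty w' = w') :
    ∃ B C, Banded D (Q2 w w') B C := by
  have h1 : Ch Ty 1 w := by rw [Ch, hw, one_smul]
  have h2 : Ch Ty 1 w' := by rw [Ch, hw', one_smul]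
  refine (rep_Q2 w w').banded D fun c P hP => ?_
  exact ((((h1.mul (h2.sg sg_Ty)).mul (hP.hd Ty_Hd)).cast (by ring))).hd Ty_Hd

theorem banded_family (D : ℕ) {J : Type} [Fintype J] (sh : J → R) (hsh : ∀ l, Ty (sh l) = sh l) :
    ∃ B C, 1 ≤ C ∧ (∀ l, Banded D (Q1 (sh l)) B C) ∧ ∀ l l', Banded D (Q2 (sh l) (sh l')) B C := by
  choose B1 C1 h1 using fun l => banded_Q1 D (hsh l)
  choose B2 C2 h2 using fun p : J × J => banded_Q2 D (hsh p.1) (hsh p.2)
  have a1 : 0 ≤ ∑ l, |C1 l| := Finset.sum_nonneg fun _ _ => abs_nonneg _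
  have a2 : 0 ≤ ∑ l, |C2 l| := Finset.sum_nonneg fun _ _ => abs_nonneg _
  refine ⟨∑ l, B1 l + ∑ l, B2 l, 1 + ∑ l, |C1 l| + ∑ l, |C2 l|, by linarith, fun l => ?_,
    fun l l' => ?_⟩
  · have b1 := Finset.single_le_sum (f := B1) (fun _ _ => Nat.zero_le _) (Finset.mem_univ l)
    have b2 := Finset.single_le_sum (f := fun l => |C1 l|) (fun _ _ => abs_nonneg _)
      (Finset.mem_univ l)
    exact (h1 l).mono (by omega) (by linarith [le_abs_self (C1 l)])
  · have b1 := Finset.single_le_sum (f := B2) (fun _ _ => Nat.zero_le _) (Finset.mem_univ (l, l'))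
    have b2 := Finset.single_le_sum (f := fun l => |C2 l|) (fun _ _ => abs_nonneg _)
      (Finset.mem_univ (l, l'))
    exact (h2 (l, l')).mono (by omega) (by linarith [le_abs_self (C2 (l, l'))])

end Vale.Agent.P225
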