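import Mathlib

/-! The stage times. -/

namespace Vale.Agent.P225

open Filter Topology

structure Times where
  σ0 : ℝ
  Γ : ℝ
  N : ℕ
  hσ : 1 ≤ σ0
  hΓ : 1 < Γ
  hΓ2 : Γ ^ 4 ≤ 2

namespace Times

variable (tm : Times)

noncomputable def sg (m : ℕ) : ℝ := tm.σ0 * tm.Γ ^ m
noncomputable def T (m : ℕ) : ℝ := tm.sg m ^ 4
/-- start of stage `m` -/
noncomputable def a : ℕ → ℝ
  | 0 => 2 * tm.T 0
  | m + 1 => a m + 2 * tm.N + 11 * tm.T m
/-- the time `a m + N + j T m` -/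
noncomputable def b (m : ℕ) (j : ℝ) : ℝ := tm.a m + tm.N + j * tm.T m
/-- the stage containing `s` (zero before the first stage) -/
noncomputable def st (s : ℝ) : ℕ := sSup {m | tm.a m ≤ s}

theorem one_le_sg (m : ℕ) : 1 ≤ tm.sg m :=
  one_le_mul_of_one_le_of_one_le tm.hσ (one_le_pow₀ tm.hΓ.le)
theorem sg_pos (m : ℕ) : 0 < tm.sg m := lt_of_lt_of_le one_pos (tm.one_le_sg m)
theorem σ0_le_sg (m : ℕ) : tm.σ0 ≤ tm.sg m :=
  le_mul_of_one_le_right (by linarith [tm.hσ]) (one_le_pow₀ tm.hΓ.le)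
theorem sg_zero : tm.sg 0 = tm.σ0 := by simp [sg]
theorem sg_mono : Monotone tm.sg := fun _ _ h =>
  mul_le_mul_of_nonneg_left (pow_le_pow_right₀ tm.hΓ.le h) (by linarith [tm.hσ])
theorem one_le_T (m : ℕ) : 1 ≤ tm.T m := one_le_pow₀ (tm.one_le_sg m)
theorem T_pos (m : ℕ) : 0 < tm.T m := lt_of_lt_of_le one_pos (tm.one_le_T m)
theorem T_mono : Monotone tm.T := fun m _ h =>
  pow_le_pow_left₀ (tm.sg_pos m).le (tm.sg_mono h) 4
theorem T_succ (m : ℕ) : tm.T (m + 1) = tm.Γ ^ 4 * tm.T m := by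
  simp only [T, sg]; ring
theorem T_succ_le (m : ℕ) : tm.T (m + 1) ≤ 2 * tm.T m := by
  rw [T_succ]; exact mul_le_mul_of_nonneg_right tm.hΓ2 (tm.T_pos m).le
theorem σ0_le_T (m : ℕ) : tm.σ0 ≤ tm.T m :=
  (tm.σ0_le_sg m).trans (le_self_pow₀ (tm.one_le_sg m) (by norm_num))
theorem a_zero : tm.a 0 = 2 * tm.T 0 := rfl
theorem a_succ (m : ℕ) : tm.a (m + 1) = tm.a m + 2 * tm.N + 11 * tm.T m := rfl
theorem a_strictMono : StrictMono tm.a := strictMono_nat_of_lt_succ fun m => by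
  rw [a_succ]; have := tm.T_pos m; have : (0 : ℝ) ≤ tm.N := Nat.cast_nonneg _; linarith
theorem a_pos (m : ℕ) : 0 < tm.a m :=
  lt_of_lt_of_le (by rw [a_zero]; linarith [tm.T_pos 0]) (tm.a_strictMono.monotone (Nat.zero_le m))
theorem le_a (m : ℕ) : (m : ℝ) ≤ tm.a m := by
  induction m with
  | zero => simpa using (tm.a_pos 0).le
  | succ m ih =>
    rw [a_succ]; push_cast
    have := tm.one_le_T m; have : (0 : ℝ) ≤ tm.N := Nat.cast_nonneg _; linarith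
theorem T_le_a (m : ℕ) : tm.T m ≤ tm.a m := by
  cases m with
  | zero => rw [a_zero]; linarith [tm.T_pos 0]
  | succ m =>
    rw [a_succ]; have := tm.T_succ_le m; have := tm.a_pos m; have := tm.T_pos m
    have : (0 : ℝ) ≤ tm.N := Nat.cast_nonneg _; linarith
theorem tendsto_a : Tendsto tm.a atTop atTop :=
  tendsto_atTop_mono tm.le_a tendsto_natCast_atTop_atTop
theorem bdd (s : ℝ) : BddAbove {m | tm.a m ≤ s} :=
  ⟨⌈s⌉₊, fun m hm => by
    have : (m : ℝ) ≤ ⌈s⌉₊ := (tm.le_a m).trans (le_trans hm (Nat.le_ceil s))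
    exact_mod_cast this⟩
theorem lt_a_st_succ (s : ℝ) : s < tm.a (tm.st s + 1) := by
  by_contra h
  have := le_csSup (tm.bdd s) (show tm.st s + 1 ∈ {m | tm.a m ≤ s} from not_lt.mp h)
  simp only [st] at this
  omega
theorem a_st_le {s : ℝ} (h : tm.a 0 ≤ s) : tm.a (tm.st s) ≤ s :=
  Nat.sSup_mem (s := {m | tm.a m ≤ s}) ⟨0, h⟩ (tm.bdd s)
theorem st_of_lt {s : ℝ} (h : s < tm.a 1) : tm.st s = 0 := by
  by_cases h0 : tm.a 0 ≤ s
  · have h1 := tm.a_st_le h0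
    have := tm.a_strictMono.lt_iff_lt.mp (h1.trans_lt h)
    omega
  · have : {m | tm.a m ≤ s} = ∅ := by
      ext m; simp only [Set.mem_ofPred_eq, Set.mem_empty_iff_false, iff_false, not_le]
      exact (not_le.mp h0).trans_le (tm.a_strictMono.monotone (Nat.zero_le m))
    simp [st, this]
theorem st_eq {s : ℝ} {m : ℕ} (h1 : tm.a m ≤ s) (h2 : s < tm.a (m + 1)) : tm.st s = m := by
  have h0 : tm.a 0 ≤ s := (tm.a_strictMono.monotone (Nat.zero_le m)).trans h1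
  have h3 := tm.a_strictMono.lt_iff_lt.mp ((tm.a_st_le h0).trans_lt h2)
  have h4 := tm.a_strictMono.lt_iff_lt.mp (h1.trans_lt (tm.lt_a_st_succ s))
  omega
theorem st_mono : Monotone tm.st := by
  intro s s' h
  by_cases h0 : tm.a 0 ≤ s
  · exact le_csSup (tm.bdd s') (show tm.st s ∈ {m | tm.a m ≤ s'} from (tm.a_st_le h0).trans h)
  · rw [tm.st_of_lt ((not_le.mp h0).trans (tm.a_strictMono (by norm_num)))]; exact Nat.zero_le _
theorem measurable_st : Measurable tm.st := tm.st_mono.measurable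
theorem b_lt_b (m : ℕ) {j j' : ℝ} (h : j < j') : tm.b m j < tm.b m j' := by
  simp only [b]; nlinarith [tm.T_pos m]
theorem b_le_b (m : ℕ) {j j' : ℝ} (h : j ≤ j') : tm.b m j ≤ tm.b m j' := by
  simp only [b]; nlinarith [tm.T_pos m]
theorem a_le_b (m : ℕ) {j : ℝ} (h : 0 ≤ j) : tm.a m ≤ tm.b m j := by
  simp only [b]; have : (0 : ℝ) ≤ tm.N := Nat.cast_nonneg _; nlinarith [tm.T_pos m]
theorem a_succ_eq (m : ℕ) : tm.a (m + 1) = tm.b m 11 + tm.N := by
  simp only [b, a_succ]; ring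

end Times

end Vale.Agent.P225
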