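import Vale.Agent.P225.Hex
import Vale.Agent.P225.Times

/-! Bounds for two derivatives of smooth functions of one variable. -/

namespace Vale.Agent.P225

open Filter Topology Set

namespace Times
variable (tm : Times) {m : ℕ} {s j c : ℝ}

theorem arg_le (h : s ≤ tm.b m (j + c)) : (s - tm.b m j) / tm.T m ≤ c := by
  rw [div_le_iff₀ (tm.T_pos m)]
  simp only [b] at h ⊢
  linarith

theorem arg_ge (h : tm.b m (j + c) ≤ s) : c ≤ (s - tm.b m j) / tm.T m := by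
  rw [le_div_iff₀ (tm.T_pos m)]
  simp only [b] at h ⊢
  linarith

theorem N_nonneg : (0 : ℝ) ≤ tm.N := Nat.cast_nonneg _

theorem b_zero (m : ℕ) : tm.b m 0 = tm.a m + tm.N := by simp [b]

theorem b_succ (m : ℕ) (j : ℝ) : tm.b m (j + 1) = tm.b m j + tm.T m := by
  simp only [b]; ring

/-- every time lies in the closed interval of its stage, or before the first stage -/
theorem stage_cases (s : ℝ) : (s ≤ tm.a 0 ∧ tm.st s = 0) ∨
    s ∈ Icc (tm.a (tm.st s)) (tm.a (tm.st s + 1)) := by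
  rcases le_total s (tm.a 0) with h | h
  · exact Or.inl ⟨h, tm.st_of_lt (h.trans_lt (tm.a_strictMono (by norm_num)))⟩
  · exact Or.inr ⟨tm.a_st_le h, (tm.lt_a_st_succ s).le⟩

end Times

/-- smooth with bounded first and second derivatives -/
def BsD (f : ℝ → ℝ) (ε : ℝ) : Prop :=
  ContDiff ℝ (⊤ : ℕ∞) f ∧ ∀ s, |deriv f s| ≤ ε ∧ |deriv (deriv f) s| ≤ ε

theorem bs_deriv {f : ℝ → ℝ} (hf : ContDiff ℝ (⊤ : ℕ∞) f) : ContDiff ℝ (⊤ : ℕ∞) (deriv f) :=
  (contDiff_infty_iff_deriv.1 hf).2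

theorem bs_diff {f : ℝ → ℝ} (hf : ContDiff ℝ (⊤ : ℕ∞) f) : Differentiable ℝ f :=
  (contDiff_infty_iff_deriv.1 hf).1

theorem bs_of_eq {f g : ℝ → ℝ} (h : ∀ s, f s = g s)
    (hg : ContDiff ℝ (⊤ : ℕ∞) g) : ContDiff ℝ (⊤ : ℕ∞) f := by
  rwa [show f = g from funext h]

theorem bs_eqOn {f g : ℝ → ℝ} (hf : ContDiff ℝ (⊤ : ℕ∞) f) (hg : ContDiff ℝ (⊤ : ℕ∞) g) {x y : ℝ}
    (hxy : x < y) (h : EqOn f g (Icc x y)) : EqOn (deriv f) (deriv g) (Icc x y) := by
  rw [← closure_Ioo hxy.ne]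
  refine EqOn.closure (fun s hs => ?_) (bs_deriv hf).continuous (bs_deriv hg).continuous
  exact EventuallyEq.deriv_eq (eventually_of_mem (Icc_mem_nhds hs.1 hs.2) h)

theorem bs_zero {f : ℝ → ℝ} {s c : ℝ} (h : f =ᶠ[𝓝 s] fun _ => c) :
    deriv f s = 0 ∧ deriv (deriv f) s = 0 := by
  refine ⟨by simpa using h.deriv_eq, ?_⟩
  have := h.deriv.deriv_eq
  simpa [show (deriv fun _ : ℝ => c) = fun _ => 0 from funext fun _ => deriv_const _ _] using this

namespace BsD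
variable {f g : ℝ → ℝ} {ε ε' : ℝ}

theorem mono (h : BsD f ε) (he : ε ≤ ε') : BsD f ε' :=
  ⟨h.1, fun s => ⟨(h.2 s).1.trans he, (h.2 s).2.trans he⟩⟩

theorem nonneg (h : BsD f ε) : 0 ≤ ε := (abs_nonneg _).trans (h.2 0).1

theorem const (c : ℝ) : BsD (fun _ => c) 0 :=
  ⟨contDiff_const, fun s => by simp⟩

theorem add (hf : BsD f ε) (hg : BsD g ε') : BsD (fun s => f s + g s) (ε + ε') := by
  have e : (deriv fun s => f s + g s) = fun s => deriv f s + deriv g s :=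
    funext fun s => deriv_fun_add (bs_diff hf.1 s) (bs_diff hg.1 s)
  refine ⟨hf.1.add hg.1, fun s => ?_⟩
  rw [e, deriv_fun_add (bs_diff (bs_deriv hf.1) s) (bs_diff (bs_deriv hg.1) s)]
  exact ⟨(abs_add_le _ _).trans (add_le_add (hf.2 s).1 (hg.2 s).1),
    (abs_add_le _ _).trans (add_le_add (hf.2 s).2 (hg.2 s).2)⟩

theorem const_mul (hf : BsD f ε) {c K : ℝ} (hc : |c| ≤ K) : BsD (fun s => c * f s) (K * ε) := by
  have e : (deriv fun s => c * f s) = fun s => c * deriv f s :=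
    funext fun s => deriv_const_mul_field c
  refine ⟨contDiff_const.mul hf.1, fun s => ?_⟩
  rw [e, deriv_const_mul_field, abs_mul, abs_mul]
  have hK := (abs_nonneg c).trans hc
  exact ⟨mul_le_mul hc (hf.2 s).1 (abs_nonneg _) hK, mul_le_mul hc (hf.2 s).2 (abs_nonneg _) hK⟩

theorem div_const (hf : BsD f ε) {T : ℝ} (hT : 0 < T) : BsD (fun s => f s / T) (ε / T) := by
  simpa only [div_eq_inv_mul] using hf.const_mul (abs_of_pos (inv_pos.2 hT)).le

theorem aff (hf : BsD f ε) (c : ℝ) {T : ℝ} (hT : 1 ≤ T) :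
    BsD (fun s => f ((s - c) / T)) (ε / T) := by
  have T0 : 0 < T := by linarith
  have d : ∀ {g : ℝ → ℝ}, ContDiff ℝ (⊤ : ℕ∞) g →
      (deriv fun s => g ((s - c) / T)) = fun s => deriv g ((s - c) / T) / T := by
    intro g hg
    funext s
    have := ((bs_diff hg _).hasDerivAt.comp s (((hasDerivAt_id s).sub_const c).div_const T)).deriv
    rw [mul_one_div] at this
    exact this
  refine ⟨hf.1.comp ((contDiff_id.sub contDiff_const).div_const T), fun s => ?_⟩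
  rw [d hf.1, deriv_div_const, d (bs_deriv hf.1), abs_div, abs_div, abs_div, abs_of_pos T0]
  refine ⟨div_le_div_of_nonneg_right (hf.2 _).1 T0.le,
    div_le_div_of_nonneg_right ((div_le_self (abs_nonneg _) hT).trans (hf.2 _).2) T0.le⟩

theorem aff' (hf : BsD f ε) (c : ℝ) {T : ℝ} (hT : 1 ≤ T) : BsD (fun s => f ((s - c) / T)) ε :=
  (hf.aff c hT).mono (div_le_self hf.nonneg hT)

theorem shift (hf : BsD f ε) (c c' : ℝ) : BsD (fun s => f (s - c - c')) ε := by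
  simpa only [div_one, sub_add_eq_sub_sub] using hf.aff (c + c') le_rfl

theorem loc (hg : BsD g ε) (hf : ContDiff ℝ (⊤ : ℕ∞) f) {x y s : ℝ} (hxy : x < y)
    (h : EqOn f g (Icc x y)) (hs : s ∈ Icc x y) :
    |deriv f s| ≤ ε ∧ |deriv (deriv f) s| ≤ ε := by
  have h1 := bs_eqOn hf hg.1 hxy h
  rw [bs_eqOn (bs_deriv hf) (bs_deriv hg.1) hxy h1 hs, h1 hs]
  exact hg.2 s

end BsD

theorem deriv_stp : deriv stp = bmp := funext fun τ => (hasDerivAt_stp τ).deriv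

theorem bs_all : ∃ K : ℝ, 1 ≤ K ∧ BsD stp K ∧ BsD bmp K ∧ BsD aB K ∧ BsD aD K ∧
    (∀ τ, |bmp τ| ≤ K) ∧ ∀ τ, |aB τ| ≤ K := by
  obtain ⟨K, h1, h⟩ := bmp_bdd
  obtain ⟨K', h1', h'⟩ := aBD_bdd
  have a : K ≤ K + K' := by linarith
  have b : K' ≤ K + K' := by linarith
  refine ⟨K + K', by linarith, BsD.mono ⟨stp_smooth, fun s => ?_⟩ a,
    BsD.mono ⟨bmp_smooth, fun s => (h s).2⟩ a,
    BsD.mono ⟨aB_smooth, fun s => ⟨(h' s).2.1, (h' s).2.2.1⟩⟩ b,
    BsD.mono ⟨aD_smooth, fun s => (h' s).2.2.2.2⟩ b, fun τ => (h τ).1.trans a,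
    fun τ => (h' τ).1.trans b⟩
  rw [deriv_stp]
  exact ⟨(h s).1, (h s).2.1⟩

/-- jets of the logarithm -/
theorem bs_log {f : ℝ → ℝ} (hf : ContDiff ℝ (⊤ : ℕ∞) f) (h0 : ∀ s, 1 / 2 ≤ f s) {s ε K : ℝ}
    (h1 : |deriv f s| ≤ ε) (h2 : |deriv (deriv f) s| ≤ ε) (hK : ε ≤ K) :
    |deriv (fun s => -Real.log (f s) / 6) s| ≤ (1 + K) * ε ∧
      |deriv (deriv fun s => -Real.log (f s) / 6) s| ≤ (1 + K) * ε := by
  have p : ∀ s, 0 < f s := fun s => by linarith [h0 s]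
  have e : (deriv fun s => -Real.log (f s) / 6) = fun s => -(deriv f s / f s) / 6 :=
    funext fun s => (((bs_diff hf s).hasDerivAt.log (p s).ne').neg.div_const 6).deriv
  have e2 := ((((bs_diff (bs_deriv hf) s).hasDerivAt.div (bs_diff hf s).hasDerivAt
    (p s).ne').neg).div_const 6).deriv
  have ε0 := (abs_nonneg _).trans h1
  have K0 := ε0.trans hK
  have q : ∀ x, |x| ≤ ε → |x / f s| ≤ 2 * ε := fun x hx => by
    rw [abs_div, abs_of_pos (p s), div_le_iff₀ (p s)]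
    nlinarith [h0 s]
  rw [e]
  constructor
  · rw [abs_div, abs_neg, abs_of_pos (by norm_num : (0 : ℝ) < 6)]
    have := q _ h1
    nlinarith
  · refine (congrArg abs e2).trans_le ?_
    rw [show -((deriv (deriv f) s * f s - deriv f s * deriv f s) / f s ^ 2) / 6 =
      (deriv f s / f s * (deriv f s / f s) - deriv (deriv f) s / f s) / 6 by
        field_simp [(p s).ne']; ring,
      abs_div, abs_of_pos (by norm_num : (0 : ℝ) < 6)]
    have a1 := q _ h1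
    have a2 := q _ h2
    have a3 := abs_sub (deriv f s / f s * (deriv f s / f s)) (deriv (deriv f) s / f s)
    rw [abs_mul] at a3
    have a4 := mul_le_mul a1 a1 (abs_nonneg _) (by positivity)
    nlinarith

theorem bs_conv {x y σ θ : ℝ} (hx : |x - 1| ≤ θ) (hy : |y - 1| ≤ θ) (h0 : 0 ≤ σ) (h1 : σ ≤ 1) :
    |x + (y - x) * σ - 1| ≤ θ := by
  rw [abs_le] at *
  constructor <;> nlinarith [hx.1, hx.2, hy.1, hy.2]

theorem bs_abs_log {t θ : ℝ} (h : |t - 1| ≤ 2 * θ) (hθ : θ ≤ 1 / 100) : |Real.log t| ≤ 3 * θ := by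
  rw [abs_le] at h ⊢
  have t0 : 0 < t := by linarith
  have h1 := Real.log_le_sub_one_of_pos t0
  have h2 := Real.one_sub_inv_le_log_of_pos t0
  have h3 : t⁻¹ ≤ 1 + 3 * θ := by
    rw [inv_le_iff_one_le_mul₀ t0]
    nlinarith
  constructor <;> linarith

end Vale.Agent.P225
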