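import Vale.Agent.P225.BaseDefs
import Vale.Agent.P225.BaseA

/-! Basic facts on the profile functions. -/

namespace Vale.Agent.P225

open Filter Topology Set

namespace Sched
variable (S : Sched)
theorem lo_ne_hi (κ : Fin S.nK) {n : ℕ} (hn : n ∈ S.band) : S.lo κ n ≠ S.hi κ n := by
  intro h
  have h1 := S.lo_dg κ n hn
  rw [h, S.hi_dg κ n hn] at h1
  omega
theorem sw_ne (κ : Fin S.nK) : (S.eh κ : ℝ) ^ 2 - (S.el κ : ℝ) ^ 2 ≠ 0 := by
  intro h
  have h1 := S.reson κ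
  simp only [fm] at h1
  push_cast at h1
  rw [sub_eq_zero.1 h] at h1
  have : (0 : ℝ) ≤ S.dl κ := Nat.cast_nonneg _
  nlinarith
theorem perm_succ (n m : ℕ) (i : ℕ × ℕ) : S.perm n (m + 1) i =
    if n ∈ S.band then Equiv.swap (S.lo (S.kd m) n) (S.hi (S.kd m) n) (S.perm n m i)
    else S.perm n m i := by
  simp only [perm, permOf]
  split_ifs <;> rfl
theorem perm_of_not_mem {n : ℕ} {i : ℕ × ℕ} (h : i ∉ S.cl n) (m : ℕ) : S.perm n m i = i := by
  induction m with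
  | zero => rfl
  | succ m ih =>
    rw [perm_succ, ih]
    split_ifs with hn
    · exact Equiv.swap_apply_of_ne_of_ne (fun e => h (e ▸ S.lo_cl _ n hn))
        fun e => h (e ▸ S.hi_cl _ n hn)
    · rfl
theorem perm_mem {n : ℕ} {i : ℕ × ℕ} (h : i ∈ S.cl n) (m : ℕ) : S.perm n m i ∈ S.cl n := by
  induction m with
  | zero => exact h
  | succ m ih =>
    rw [perm_succ]
    split_ifs with hn
    · rw [Equiv.swap_apply_def]
      split_ifs
      exacts [S.hi_cl _ n hn, S.lo_cl _ n hn, ih]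
    · exact ih
theorem perm_symm_mem {n : ℕ} {i : ℕ × ℕ} (h : i ∈ S.cl n) (m : ℕ) :
    (S.perm n m).symm i ∈ S.cl n := by
  by_contra h'
  have := S.perm_of_not_mem h' m
  rw [Equiv.apply_symm_apply] at this
  exact h' (this ▸ h)
theorem perm_LL {n : ℕ} {i : ℕ × ℕ} (h : (n, i) ∈ S.LL) (m : ℕ) : (n, S.perm n m i) ∈ S.LL := by
  by_cases hi : i ∈ S.cl n
  · exact S.cl_LL n _ (S.perm_mem hi m)
  · rwa [S.perm_of_not_mem hi]
theorem perm_dg_le {n : ℕ} {i : ℕ × ℕ} (m : ℕ) : dg n (S.perm n m i) ≤ S.D ↔ dg n i ≤ S.D := by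
  have key : ∀ j ∈ S.cl n, dg n j ≤ S.D := fun j hj => by
    have := S.LL_dg _ (S.cl_LL n j hj)
    have := S.dp_D
    simp only at *
    omega
  by_cases hi : i ∈ S.cl n
  · exact iff_of_true (key _ (S.perm_mem hi m)) (key _ hi)
  · rw [S.perm_of_not_mem hi]
theorem cl_dg {n : ℕ} {i : ℕ × ℕ} (h : i ∈ S.cl n) : dg n i ≤ S.D := by
  have := S.LL_dg _ (S.cl_LL n i h)
  have := S.dp_D
  simp only at *
  omega
theorem sgn_sq (n m : ℕ) (i : ℕ × ℕ) : S.sgn n m i * S.sgn n m i = 1 := by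
  induction m with
  | zero => simp [sgn]
  | succ m ih =>
    simp only [sgn]
    split_ifs
    · rw [neg_mul_neg, ih]
    · exact ih
theorem abs_sgn (n m : ℕ) (i : ℕ × ℕ) : |S.sgn n m i| = 1 := by
  rcases mul_self_eq_one_iff.1 (S.sgn_sq n m i) with h | h <;> simp [h]
end Sched

theorem fm_sub (t t' : ℝ) (d : ℕ) (e : ℤ) : fm t d e = fm t' d e + (t - t') * (e : ℝ) ^ 2 := by
  simp only [fm]; ring

theorem shp_Ty (S : Sched) (St : Static S) (l : JJ S St) : Ty (shp S St l) = shp S St l := by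
  rcases l with ⟨κ, ⟨a, p⟩ | n⟩
  · simp [shp, Ty_mm, St.gw_Ty, mul_comm]
  · simp [shp, Ty_mm, St.gb_Ty, mul_comm]

namespace Base

variable {P : Par} {Kc : ℝ} (C : Base P Kc)

theorem tinc_of_le {m : ℕ} {s : ℝ} (h : s ≤ C.tm.a m) : C.tinc m s = 0 := by
  have h' : ∀ j, 0 ≤ j → s ≤ C.tm.b m j := fun j hj => h.trans (C.tm.a_le_b m hj)
  have h3 : (s - (C.tm.b m 10 + C.tm.N)) / C.tm.T m ≤ 0 :=
    div_nonpos_of_nonpos_of_nonneg (by linarith [h' 10 (by norm_num), C.tm.N_nonneg])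
      (C.tm.T_pos m).le
  rw [tinc, τ, stp_of_le (C.tm.arg_le (h' _ (by norm_num))),
    aD_of_le (C.tm.arg_le (h' _ (by norm_num))), stp_of_le (C.tm.arg_le (h' _ (by norm_num))),
    stp_of_le h3]
  simp

theorem tinc_of_ge {m : ℕ} {s : ℝ} (h : C.tm.a (m + 1) ≤ s) :
    C.tinc m s = P.St.t2 (P.S.kd (m + 1)) - P.St.t2 (P.S.kd m) := by
  rw [C.tm.a_succ_eq] at h
  have h' : ∀ j, j ≤ 11 → C.tm.b m j ≤ s := fun j hj => by
    linarith [C.tm.b_le_b m hj, C.tm.N_nonneg]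
  have h3 : 1 ≤ (s - (C.tm.b m 10 + C.tm.N)) / C.tm.T m := by
    rw [le_div_iff₀ (C.tm.T_pos m)]
    have := C.tm.b_succ m 10
    norm_num at this
    linarith
  rw [tinc, τ, stp_of_ge (C.tm.arg_ge (h' _ (by norm_num))),
    aD_of_ge (C.tm.arg_ge (h' _ (by norm_num))), stp_of_ge (C.tm.arg_ge (h' _ (by norm_num))),
    stp_of_ge h3]
  ring

theorem tt_init {s : ℝ} (h : s ≤ C.tm.a 0) :
    C.tt s = 1 + (P.St.t2 (P.S.kd 0) - 1) * stp ((s - C.tm.T 0) / C.tm.T 0) := by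
  rw [tt, glue_eq C.tm.a_strictMono.monotone (fun _ _ h => C.tinc_of_le h) 0 h]
  simp

theorem stp_last {m : ℕ} {s : ℝ} (h : s ≤ C.tm.b m 10 + C.tm.N) :
    stp ((s - (C.tm.b m 10 + C.tm.N)) / C.tm.T m) = 0 :=
  stp_of_le (div_nonpos_of_nonpos_of_nonneg (by linarith) (C.tm.T_pos m).le)

theorem sub_stage {m : ℕ} {s x y : ℝ} (h : s ∈ Icc x y) (hx : C.tm.a m ≤ x)
    (hy : y ≤ C.tm.b m 10 + C.tm.N) : s ∈ Icc (C.tm.a m) (C.tm.a (m + 1)) :=
  ⟨hx.trans h.1, by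
    rw [C.tm.a_succ_eq]
    linarith [h.2, C.tm.b_le_b m (show (10 : ℝ) ≤ 11 by norm_num)]⟩

theorem b_le_last (m : ℕ) {j : ℝ} (hj : j ≤ 10) : C.tm.b m j ≤ C.tm.b m 10 + C.tm.N := by
  linarith [C.tm.b_le_b m hj, C.tm.N_nonneg]

theorem t2_near (κ : Fin P.S.nK) : |P.St.t2 κ - 1| ≤ 2 * P.S.θ := by
  have h1 := abs_le.1 (P.S.t0_near κ)
  have h2 := P.St.t2_ge κ
  have h3 := P.St.t2_le κ
  have h4 := P.St.ϑ_pos
  have h5 := P.S.θ_pos
  rw [abs_le]
  constructor <;> linarith [h1.1, h1.2]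

theorem tt_neg {s : ℝ} (h : s ≤ C.tm.T 0) : C.tt s = 1 := by
  have h0 := C.tm.T_pos 0
  rw [C.tt_init (by rw [C.tm.a_zero]; linarith),
    stp_of_le (div_nonpos_of_nonpos_of_nonneg (by linarith) h0.le)]
  simp
theorem tt_stage {m : ℕ} {s : ℝ} (h : s ∈ Icc (C.tm.a m) (C.tm.a (m + 1))) :
    C.tt s = P.St.t2 (P.S.kd m) + C.tinc m s := by
  have h0 := C.tm.T_pos 0
  have h1 : C.tm.a 0 ≤ s := (C.tm.a_strictMono.monotone (Nat.zero_le m)).trans h.1
  rw [C.tm.a_zero] at h1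
  rw [tt, glue_eq C.tm.a_strictMono.monotone (fun _ _ h => C.tinc_of_le h) (m + 1) h.2,
    Finset.sum_range_succ, Finset.sum_congr rfl fun k hk => C.tinc_of_ge
      ((C.tm.a_strictMono.monotone (Finset.mem_range.1 hk)).trans h.1),
    Finset.sum_range_sub fun k => P.St.t2 (P.S.kd k),
    stp_of_ge ((le_div_iff₀ h0).2 (by linarith))]
  ring
theorem tt_pre {m : ℕ} {s : ℝ} (h : s ∈ Icc (C.tm.a m) (C.tm.b m 0)) :
    C.tt s = P.St.t2 (P.S.kd m) := by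
  have h' : ∀ j, 0 ≤ j → s ≤ C.tm.b m j := fun j hj => h.2.trans (C.tm.b_le_b m hj)
  rw [C.tt_stage (C.sub_stage h le_rfl (C.b_le_last m (by norm_num))), tinc, τ,
    stp_of_le (C.tm.arg_le (h' _ (by norm_num))), aD_of_le (C.tm.arg_le (h' _ (by norm_num))),
    stp_of_le (C.tm.arg_le (h' _ (by norm_num))),
    C.stp_last (h.2.trans (C.b_le_last m (by norm_num)))]
  simp
theorem tt_M1 {m : ℕ} {s : ℝ} (h : s ∈ Icc (C.tm.a m) (C.tm.b m 1)) :
    C.tt s = P.S.t0 (P.S.kd m) + (P.St.t2 (P.S.kd m) - P.S.t0 (P.S.kd m)) *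
      (1 - stp ((s - C.tm.b m 0) / C.tm.T m)) := by
  have h' : ∀ j, 1 ≤ j → s ≤ C.tm.b m j := fun j hj => h.2.trans (C.tm.b_le_b m hj)
  rw [C.tt_stage (C.sub_stage h le_rfl (C.b_le_last m (by norm_num))), tinc, τ,
    aD_of_le (C.tm.arg_le (h' _ (by norm_num))),
    stp_of_le (τ := (s - C.tm.b m 9) / _) (C.tm.arg_le (h' _ (by norm_num))),
    C.stp_last (h.2.trans (C.b_le_last m (by norm_num)))]
  ring
theorem tt_sw {m : ℕ} {s : ℝ} (h : s ∈ Icc (C.tm.b m 1) (C.tm.b m 9)) :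
    C.tt s = P.S.t0 (P.S.kd m) + P.cD (P.S.kd m) * aD (C.τ m s) / C.tm.T m := by
  rw [C.tt_stage (C.sub_stage h (C.tm.a_le_b m (by norm_num)) (C.b_le_last m (by norm_num))), tinc,
    stp_of_ge (C.tm.arg_ge (by simpa using h.1)),
    stp_of_le (τ := (s - C.tm.b m 9) / _) (C.tm.arg_le (by simpa using h.2)),
    C.stp_last (h.2.trans (C.b_le_last m (by norm_num)))]
  ring
theorem tt_M2 {m : ℕ} {s : ℝ} (h : s ∈ Icc (C.tm.b m 9) (C.tm.b m 10 + C.tm.N)) :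
    C.tt s = P.S.t0 (P.S.kd m) + (P.St.t2 (P.S.kd m) - P.S.t0 (P.S.kd m)) *
      stp ((s - C.tm.b m 9) / C.tm.T m) := by
  have h' : ∀ j, j ≤ 9 → C.tm.b m j ≤ s := fun j hj => (C.tm.b_le_b m hj).trans h.1
  rw [C.tt_stage (C.sub_stage h (C.tm.a_le_b m (by norm_num)) le_rfl), tinc, τ,
    stp_of_ge (C.tm.arg_ge (h' _ (by norm_num))), aD_of_ge (C.tm.arg_ge (h' _ (by norm_num))),
    C.stp_last h.2]
  ring
theorem tt_post {m : ℕ} {s : ℝ} (h : s ∈ Icc (C.tm.b m 10) (C.tm.b m 10 + C.tm.N)) :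
    C.tt s = P.St.t2 (P.S.kd m) := by
  rw [C.tt_M2 ⟨(C.tm.b_le_b m (by norm_num)).trans h.1, h.2⟩,
    stp_of_ge (C.tm.arg_ge (by norm_num; exact h.1))]
  ring
theorem tt_core {m : ℕ} {s : ℝ} (h : s ∈ Icc (C.tm.a m) (C.tm.b m 10 + C.tm.N)) :
    C.tt s ∈ Icc (P.S.t0 (P.S.kd m) - P.St.ϑ) (P.St.t2 (P.S.kd m)) := by
  have h2 := P.St.t2_ge (P.S.kd m)
  have h4 := P.St.ϑ_pos
  rcases le_total s (C.tm.b m 1) with h1 | h1
  · rw [C.tt_M1 ⟨h.1, h1⟩]
    have := stp_nonneg ((s - C.tm.b m 0) / C.tm.T m)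
    have := stp_le_one ((s - C.tm.b m 0) / C.tm.T m)
    constructor <;> nlinarith
  rcases le_total s (C.tm.b m 9) with h9 | h9
  · rw [C.tt_sw ⟨h1, h9⟩]
    have := abs_le.1 (C.hϑ (P.S.kd m) m (C.τ m s))
    constructor <;> linarith [this.1, this.2]
  · rw [C.tt_M2 ⟨h9, h.2⟩]
    have := stp_nonneg ((s - C.tm.b m 9) / C.tm.T m)
    have := stp_le_one ((s - C.tm.b m 9) / C.tm.T m)
    constructor <;> nlinarith
theorem tt_near (s : ℝ) : |C.tt s - 1| ≤ 2 * P.S.θ := by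
  rcases C.tm.stage_cases s with ⟨h, -⟩ | h
  · rw [C.tt_init h]
    exact bs_conv (by simpa using P.S.θ_pos.le) (t2_near _) (stp_nonneg _) (stp_le_one _)
  generalize C.tm.st s = m at h
  rcases le_total s (C.tm.b m 10 + C.tm.N) with h1 | h1
  · have h2 := C.tt_core ⟨h.1, h1⟩
    have h3 := abs_le.1 (P.S.t0_near (P.S.kd m))
    have h4 := P.St.t2_ge (P.S.kd m)
    have h5 := P.St.t2_le (P.S.kd m)
    rw [abs_le]
    constructor <;> linarith [h2.1, h2.2, h3.1, h3.2]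
  · have h' : ∀ j, j ≤ 10 → C.tm.b m j ≤ s := fun j hj => (C.b_le_last m hj).trans h1
    have := bs_conv (t2_near (P.S.kd m)) (t2_near (P.S.kd (m + 1)))
      (stp_nonneg ((s - (C.tm.b m 10 + C.tm.N)) / C.tm.T m)) (stp_le_one _)
    rw [C.tt_stage h, tinc, τ, stp_of_ge (C.tm.arg_ge (h' _ (by norm_num))),
      aD_of_ge (C.tm.arg_ge (h' _ (by norm_num))),
      stp_of_ge (τ := (s - C.tm.b m 9) / _) (C.tm.arg_ge (h' _ (by norm_num)))]
    convert this using 2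
    ring
theorem tinc_smooth (m : ℕ) : ContDiff ℝ (⊤ : ℕ∞) (C.tinc m) := by
  have h1 := stp_smooth
  have h2 := aD_smooth
  unfold tinc τ
  fun_prop

theorem tt_ge (s : ℝ) : 1 / 2 ≤ C.tt s := by
  linarith [(abs_le.1 (C.tt_near s)).1, P.S.θ_le]

theorem tt_pos (s : ℝ) : 0 < C.tt s := by linarith [C.tt_ge s]

theorem tt_smooth : ContDiff ℝ (⊤ : ℕ∞) C.tt := by
  have h1 := stp_smooth
  have h2 := glue_smooth C.tm.tendsto_a C.tinc_smooth fun _ _ h => C.tinc_of_le h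
  exact ContDiff.add (by fun_prop) h2
theorem uu_smooth : ContDiff ℝ (⊤ : ℕ∞) C.uu := by
  exact (C.tt_smooth.log fun s => (C.tt_pos s).ne').neg.div_const 6
theorem uu_le (s : ℝ) : |C.uu s| ≤ P.S.θ := by
  have := bs_abs_log (C.tt_near s) P.S.θ_le
  rw [uu, abs_div, abs_neg, abs_of_pos (by norm_num : (0 : ℝ) < 6)]
  linarith [P.S.θ_pos]
theorem exp_uu (s : ℝ) : Real.exp (2 * C.uu s) = XX (C.tt s) := by
  rw [uu, XX]
  congr 1
  ring
theorem lam_eq (s : ℝ) (d : ℕ) (e : ℤ) : lam (C.uu s) d e = XX (C.tt s) * fm (C.tt s) d e := by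
  have : Real.exp (-4 * C.uu s) = XX (C.tt s) * C.tt s := by
    conv_rhs => enter [2]; rw [← Real.exp_log (C.tt_pos s)]
    rw [uu, XX, ← Real.exp_add]
    congr 1
    ring
  rw [lam, exp_uu, this, fm]
  ring
theorem XX_near (s : ℝ) : |XX (C.tt s) - 1| ≤ 2 * P.S.θ := by
  have h := bs_abs_log (C.tt_near s) P.S.θ_le
  have h1 : |-Real.log (C.tt s) / 3| ≤ P.S.θ := by
    rw [abs_div, abs_neg, abs_of_pos (by norm_num : (0 : ℝ) < 3)]
    linarith
  exact (Real.abs_exp_sub_one_le (h1.trans (by linarith [P.S.θ_le]))).trans (by linarith)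

theorem pp_ev {s : ℝ} (h : s < 0) : C.pp =ᶠ[𝓝 s] fun _ => 1 := by
  filter_upwards [Iio_mem_nhds h] with r hr
  rw [pp, stp_of_le (div_nonpos_of_nonpos_of_nonneg (le_of_lt hr) (C.tm.T_pos 0).le)]
  simp

theorem qq_bd {s : ℝ} (h : 0 ≤ s) : 0 ≤ Kc / (s + C.tm.T 0) ∧ Kc / (s + C.tm.T 0) ≤ del / 2 := by
  have h0 := C.tm.T_pos 0
  exact ⟨div_nonneg C.hKc (by linarith),
    (div_le_div_of_nonneg_left C.hKc h0 (by linarith)).trans C.hKc'⟩

theorem hasDerivAt_pp {s : ℝ} (h : -C.tm.T 0 < s) : HasDerivAt C.pp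
    (bmp (s / C.tm.T 0) / C.tm.T 0 * (P.St.pinf + Kc / (s + C.tm.T 0) - 1) -
      stp (s / C.tm.T 0) * (Kc / (s + C.tm.T 0) ^ 2)) s := by
  have h1 := (hasDerivAt_stp _).comp s ((hasDerivAt_id s).div_const (C.tm.T 0))
  have h2 := (hasDerivAt_const s Kc).div ((hasDerivAt_id s).add_const (C.tm.T 0))
    (by simp only [id]; linarith)
  refine ((h1.mul ((h2.const_add P.St.pinf).sub_const 1)).const_add 1).congr_deriv ?_
  simp only [id, Function.comp, Pi.div_apply]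
  ring

theorem pp_smooth : ContDiff ℝ (⊤ : ℕ∞) C.pp := by
  refine contDiff_iff_contDiffAt.2 fun s => ?_
  rcases lt_or_ge s 0 with h | h
  · exact contDiffAt_const.congr_of_eventuallyEq (C.pp_ev h)
  · have h0 := C.tm.T_pos 0
    have h1 := stp_smooth
    have h2 : ContDiffAt ℝ (⊤ : ℕ∞) (fun s => Kc / (s + C.tm.T 0)) s :=
      contDiffAt_const.div (by fun_prop) (by linarith)
    exact contDiffAt_const.add (ContDiffAt.mul (ContDiff.contDiffAt (by fun_prop))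
      ((contDiffAt_const.add h2).sub contDiffAt_const))
theorem pp_neg {s : ℝ} (h : s ≤ 0) : C.pp s = 1 := by
  rw [pp, stp_of_le (div_nonpos_of_nonpos_of_nonneg h (C.tm.T_pos 0).le)]
  simp
theorem pp_ge (s : ℝ) : P.St.pinf ≤ C.pp s := by
  have h1 := P.St.pinf_le
  have h2 : 0 < del := by norm_num [del]
  rcases le_total s 0 with h | h
  · rw [C.pp_neg h]
    linarith
  · have := C.qq_bd h
    have := stp_nonneg (s / C.tm.T 0)
    have := stp_le_one (s / C.tm.T 0)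
    rw [pp]
    nlinarith
theorem pp_le (s : ℝ) : C.pp s ≤ 1 := by
  have h1 := P.St.pinf_le
  have h2 : 0 < del := by norm_num [del]
  rcases le_total s 0 with h | h
  · rw [C.pp_neg h]
  · have := C.qq_bd h
    have := stp_nonneg (s / C.tm.T 0)
    rw [pp]
    nlinarith
theorem pp_le' {s : ℝ} (h : C.tm.T 0 ≤ s) : C.pp s ≤ 1 - del := by
  have h0 := C.tm.T_pos 0
  have := C.qq_bd (h0.le.trans h)
  rw [pp, stp_of_ge ((one_le_div h0).2 h)]
  linarith [P.St.pinf_le]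
theorem deriv_pp_nonpos (s : ℝ) : deriv C.pp s ≤ 0 := by
  rcases lt_or_ge s 0 with h | h
  · exact (bs_zero (C.pp_ev h)).1.le
  · have h0 := C.tm.T_pos 0
    have h1 := P.St.pinf_le
    have h2 : 0 < del := by norm_num [del]
    have h3 := C.qq_bd h
    have h4 := mul_nonneg (stp_nonneg (s / C.tm.T 0))
      (div_nonneg C.hKc (sq_nonneg (s + C.tm.T 0)))
    have h5 := div_nonneg (bmp_nonneg (s / C.tm.T 0)) h0.le
    rw [(C.hasDerivAt_pp (by linarith)).deriv]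
    nlinarith
theorem deriv_pp {s : ℝ} (h : C.tm.T 0 ≤ s) : deriv C.pp s = -(Kc / (s + C.tm.T 0) ^ 2) := by
  have h0 := C.tm.T_pos 0
  rw [(C.hasDerivAt_pp (by linarith)).deriv, stp_of_ge ((one_le_div h0).2 h),
    bmp_of_ge ((one_le_div h0).2 h)]
  ring
theorem hasDerivAt_ph (s : ℝ) : HasDerivAt C.ph (C.pp s) s := by
  exact (C.pp_smooth.continuous.integral_hasStrictDerivAt 0 s).hasDerivAt
theorem ph_smooth : ContDiff ℝ (⊤ : ℕ∞) C.ph := by
  refine contDiff_infty_iff_deriv.2 ⟨fun s => (C.hasDerivAt_ph s).differentiableAt, ?_⟩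
  rw [show deriv C.ph = C.pp from funext fun s => (C.hasDerivAt_ph s).deriv]
  exact C.pp_smooth
theorem ph_neg {s : ℝ} (h : s ≤ 0) : C.ph s = s := by
  rw [ph, intervalIntegral.integral_congr (g := fun _ => 1) fun r hr => C.pp_neg
    (by rw [uIcc_of_ge h] at hr; exact hr.2)]
  simp
theorem Vf_neg {s : ℝ} (h : s ≤ 0) : C.Vf s = 1 := by
  have h0 := C.tm.T_pos 0
  have : deriv C.pp s = 0 := by
    rcases h.lt_or_eq with h | rfl
    · exact (bs_zero (C.pp_ev h)).1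
    · rw [(C.hasDerivAt_pp (by linarith)).deriv, zero_div, stp_of_le le_rfl, bmp_of_le le_rfl]
      simp
  rw [Vf, this, C.pp_neg h]
  simp
theorem Vf_smooth : ContDiff ℝ (⊤ : ℕ∞) C.Vf := by
  exact (C.pp_smooth.pow 2).add (bs_deriv C.pp_smooth)

theorem ainc_zero (η : Eta P.LT KK) (l : JJ P.S P.St) {m : ℕ} {s : ℝ}
    (h1 : s ≤ C.tm.a m ∨ C.tm.b m 0 ≤ s) (h2 : s ≤ C.tm.b m 2 ∨ C.tm.b m 9 ≤ s)
    (h3 : s ≤ C.tm.b m 10 ∨ C.tm.b m 10 + C.tm.N ≤ s) : C.ainc η l m s = 0 := by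
  rcases l with ⟨κ, ⟨a, p⟩ | n⟩
  · have ha : ((a : ℕ) : ℝ) + 1 ≤ C.tm.N := by
      rw [C.hN]
      exact_mod_cast a.2
    have ha0 : (0 : ℝ) ≤ (a : ℕ) := Nat.cast_nonneg _
    rw [C.tm.b_zero] at h1
    have e1 : bmp (s - C.tm.a m - (a : ℕ)) = 0 :=
      h1.elim (fun h => bmp_of_le (by linarith)) fun h => bmp_of_ge (by linarith)
    have e2 : bmp (s - C.tm.b m 10 - (a : ℕ)) = 0 :=
      h3.elim (fun h => bmp_of_le (by linarith)) fun h => bmp_of_ge (by linarith)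
    simp [ainc, e1, e2]
  · have e1 : aB (C.τ m s) = 0 :=
      h2.elim (fun h => aB_of_le (C.tm.arg_le (by simpa using h))) fun h =>
        aB_of_ge (C.tm.arg_ge ((C.tm.b_le_b m (by norm_num)).trans h))
    have e2 : bmp ((s - C.tm.b m 8) / C.tm.T m) = 0 :=
      h2.elim (fun h => bmp_of_le (C.tm.arg_le (h.trans (C.tm.b_le_b m (by norm_num))))) fun h =>
        bmp_of_ge (C.tm.arg_ge ((C.tm.b_le_b m (by norm_num)).trans h))
    simp [ainc, e1, e2]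

theorem ainc_of_le (η : Eta P.LT KK) (l : JJ P.S P.St) (m : ℕ) (s : ℝ) (h : s ≤ C.tm.a m) :
    C.ainc η l m s = 0 :=
  C.ainc_zero η l (Or.inl h) (Or.inl (h.trans (C.tm.a_le_b m (by norm_num))))
    (Or.inl (h.trans (C.tm.a_le_b m (by norm_num))))

theorem ainc_of_ge (η : Eta P.LT KK) (l : JJ P.S P.St) {m : ℕ} {s : ℝ} (h : C.tm.a (m + 1) ≤ s) :
    C.ainc η l m s = 0 := by
  have h1 : C.tm.b m 10 + C.tm.N ≤ s := by
    rw [C.tm.a_succ_eq] at h
    linarith [C.tm.b_le_b m (show (10 : ℝ) ≤ 11 by norm_num)]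
  exact C.ainc_zero η l (Or.inr ((C.b_le_last m (by norm_num)).trans h1))
    (Or.inr ((C.b_le_last m (by norm_num)).trans h1)) (Or.inr h1)

theorem ainc_smooth (η : Eta P.LT KK) (l : JJ P.S P.St) (m : ℕ) :
    ContDiff ℝ (⊤ : ℕ∞) (C.ainc η l m) := by
  have h1 := bmp_smooth
  have h2 := aB_smooth
  rcases l with ⟨κ, ⟨a, p⟩ | n⟩
  · by_cases h : P.S.kd m = κ
    · refine bs_of_eq (fun s => if_pos h) ?_
      fun_prop
    · exact bs_of_eq (fun s => if_neg h) contDiff_const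
  · by_cases h : P.S.kd m = κ
    · refine bs_of_eq (fun s => if_pos h) ?_
      unfold τ
      fun_prop
    · exact bs_of_eq (fun s => if_neg h) contDiff_const

theorem amp_stage (η : Eta P.LT KK) (l : JJ P.S P.St) {m : ℕ} {s : ℝ}
    (h : s ∈ Icc (C.tm.a m) (C.tm.a (m + 1))) : C.amp η l s = C.ainc η l m s := by
  rw [amp, glue_eq C.tm.a_strictMono.monotone (C.ainc_of_le η l) (m + 1) h.2,
    Finset.sum_range_succ, Finset.sum_eq_zero fun k hk => C.ainc_of_ge η l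
      ((C.tm.a_strictMono.monotone (Finset.mem_range.1 hk)).trans h.1), zero_add]
theorem amp_neg (η : Eta P.LT KK) (l : JJ P.S P.St) {s : ℝ} (h : s ≤ C.tm.a 0) :
    C.amp η l s = 0 := by
  rw [amp, glue_eq C.tm.a_strictMono.monotone (C.ainc_of_le η l) 0 h]
  simp
theorem amp_smooth (η : Eta P.LT KK) (l : JJ P.S P.St) : ContDiff ℝ (⊤ : ℕ∞) (C.amp η l) := by
  exact glue_smooth C.tm.tendsto_a (C.ainc_smooth η l) (C.ainc_of_le η l)
theorem amp_supp (η : Eta P.LT KK) (l : JJ P.S P.St) {s : ℝ} (h : ¬ C.tm.Src s) :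
    C.amp η l s = 0 := by
  have key : ∀ {x y : ℝ}, s ∉ Icc x y → s ≤ x ∨ y ≤ s := fun h =>
    (not_and_or.1 h).imp (fun h => (not_le.1 h).le) fun h => (not_le.1 h).le
  have : ∀ m, C.ainc η l m s = 0 := fun m => C.ainc_zero η l
    (key fun h' => h ⟨m, Or.inl h'⟩) (key fun h' => h ⟨m, Or.inr (Or.inl h')⟩)
    (key fun h' => h ⟨m, Or.inr (Or.inr h')⟩)
  simp [amp, this]
theorem abs_tgt_le {η : Eta P.LT KK} {c : ℝ} (hc : 0 ≤ c) (h : EtaLe C.tm η c) (m : ℕ) (δ : Slot)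
    (m' : ℕ) (p : ℕ × (ℕ × ℕ) × (ℕ × ℕ)) : |tgt η m δ m' p| ≤ c * C.tm.eps m δ := by
  rw [tgt, abs_mul, abs_mul, P.S.abs_sgn, P.S.abs_sgn, one_mul, one_mul, etaX]
  split_ifs
  · exact h _ _ _ _
  · have := C.tm.T_pos m
    have := C.tm.sg_pos m
    rw [abs_zero]
    cases δ <;> simp only [Times.eps] <;> positivity
theorem tgt_sub (η η' : Eta P.LT KK) (m : ℕ) (δ : Slot) (m' : ℕ) (p : ℕ × (ℕ × ℕ) × (ℕ × ℕ)) :
    tgt (η - η') m δ m' p = tgt η m δ m' p - tgt η' m δ m' p := by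
  simp only [tgt, etaX]
  split_ifs <;> simp [mul_sub]

noncomputable def geo (η : Eta P.LT KK) : Geo (JJ P.S P.St) where
  φ := C.ph
  u := C.uu
  amp := C.amp η
  sh := shp P.S P.St
  φ_smooth := C.ph_smooth
  u_smooth := C.uu_smooth
  amp_smooth := C.amp_smooth η
  φ_neg := fun _ h => C.ph_neg h
  u_neg := fun s h => by
    simp [uu, C.tt_neg (h.trans (C.tm.T_pos 0).le)]
  amp_neg := fun l _ h => C.amp_neg η l (h.trans (C.tm.a_pos 0).le)

theorem geo_p (η : Eta P.LT KK) : (C.geo η).p = C.pp := by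
  funext s; exact (C.hasDerivAt_ph s).deriv
theorem geo_V (η : Eta P.LT KK) : (C.geo η).V = C.Vf := by
  funext s; simp only [Geo.V, geo_p, Vf]

theorem geo_round (η : Eta P.LT KK) {s : ℝ} (h : s < C.tm.T 0) : (C.geo η).Round s := by
  have h0 := C.tm.T_pos 0
  have e1 : C.uu =ᶠ[𝓝 s] fun _ => 0 := by
    filter_upwards [Iio_mem_nhds h] with r hr
    simp [uu, C.tt_neg (le_of_lt hr)]
  have e2 : ∀ l, C.amp η l =ᶠ[𝓝 s] fun _ => 0 := fun l => by
    filter_upwards [Iio_mem_nhds h] with r hr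
    exact C.amp_neg η l (by rw [C.tm.a_zero]; linarith [mem_Iio.1 hr])
  exact ⟨e1.eq_of_nhds, (bs_zero e1).1, (bs_zero e1).2,
    fun l => ⟨(e2 l).eq_of_nhds, bs_zero (e2 l)⟩⟩

end Base

/-- comparison of the stage scale with the time -/
theorem scale_cmp (P : Par) : ∃ M : ℝ, 1 ≤ M ∧ ∀ (Kc : ℝ) (C : Base P Kc) (s : ℝ),
    max s 0 + C.tm.T 0 ≤ M * C.tm.T (C.tm.st s) ∧
      C.tm.T (C.tm.st s) ≤ max s 0 + C.tm.T 0 := by
  have hG : 1 < P.Γ ^ 4 := one_lt_pow₀ P.hΓ (by norm_num)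
  have hN : (0 : ℝ) ≤ P.St.N := Nat.cast_nonneg _
  obtain ⟨M, hM1, hM2⟩ : ∃ M : ℝ, 2 * P.St.N + 13 ≤ M ∧
      M + (2 * P.St.N + 13) * P.Γ ^ 4 = M * P.Γ ^ 4 := by
    refine ⟨(2 * P.St.N + 13) * P.Γ ^ 4 / (P.Γ ^ 4 - 1), ?_, ?_⟩
    · rw [le_div_iff₀ (by linarith)]
      nlinarith
    · field_simp [(sub_pos.2 hG).ne']
      ring
  refine ⟨M + 1, by linarith, fun Kc C s => ⟨?_, ?_⟩⟩
  · have key : ∀ m, C.tm.a (m + 1) ≤ M * C.tm.T m := by
      intro m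
      induction m with
      | zero =>
        rw [C.tm.a_succ, C.tm.a_zero, C.hN]
        nlinarith [C.tm.one_le_T 0]
      | succ m ih =>
        have h1 := C.tm.one_le_T (m + 1)
        have h2 : M * C.tm.T (m + 1) = M * C.tm.T m + (2 * P.St.N + 13) * C.tm.T (m + 1) := by
          rw [C.tm.T_succ, C.hΓ, ← mul_assoc, ← hM2]
          ring
        rw [C.tm.a_succ (m + 1), C.hN, h2]
        nlinarith
    have h1 := key (C.tm.st s)
    have h2 := C.tm.T_mono (Nat.zero_le (C.tm.st s))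
    have h3 := max_le (C.tm.lt_a_st_succ s).le (C.tm.a_pos (C.tm.st s + 1)).le
    linarith
  · rcases C.tm.stage_cases s with ⟨-, h⟩ | h
    · rw [h]
      linarith [le_max_right s 0]
    · linarith [le_max_left s 0, h.1, C.tm.T_le_a (C.tm.st s), C.tm.T_pos 0]

namespace Base

variable {P : Par} {Kc : ℝ} (C : Base P Kc) {K : ℝ}

theorem t2_sub (κ κ' : Fin P.S.nK) : |P.St.t2 κ - P.St.t2 κ'| ≤ 1 := by
  have h1 := abs_le.1 (t2_near κ)
  have h2 := abs_le.1 (t2_near κ')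
  rw [abs_le]
  constructor <;> linarith [h1.1, h1.2, h2.1, h2.2, P.S.θ_le]

theorem t2_t0 (κ : Fin P.S.nK) : |P.St.t2 κ - P.S.t0 κ| ≤ 1 := by
  rw [abs_le]
  constructor <;> linarith [P.St.t2_ge κ, P.St.t2_le κ, P.St.ϑ_pos, P.S.θ_le]

theorem tt_jets (h1 : BsD stp K) (h2 : BsD aD K) (s : ℝ) :
    |deriv C.tt s| ≤ (3 + ∑ κ, |P.cD κ|) * K / C.tm.T (C.tm.st s) ∧
      |deriv (deriv C.tt) s| ≤ (3 + ∑ κ, |P.cD κ|) * K / C.tm.T (C.tm.st s) := by
  have hc : 0 ≤ ∑ κ, |P.cD κ| := Finset.sum_nonneg fun _ _ => abs_nonneg _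
  have hK := h1.nonneg
  rcases C.tm.stage_cases s with ⟨h, h0⟩ | h
  · rw [h0]
    have hT := C.tm.T_pos 0
    refine (((BsD.const 1).add ((h1.aff (C.tm.T 0) (C.tm.one_le_T 0)).const_mul
      ((t2_near (P.S.kd 0)).trans (show _ ≤ (1 : ℝ) by linarith [P.S.θ_le])))).mono ?_).loc
      C.tt_smooth (show s - 1 < C.tm.a 0 by linarith) (fun r hr => C.tt_init hr.2)
      ⟨by linarith, h⟩
    rw [zero_add, one_mul]
    gcongr
    nlinarith
  · generalize C.tm.st s = m at h ⊢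
    have hT := C.tm.one_le_T m
    refine (((BsD.const (P.St.t2 (P.S.kd m))).add
      (((((h1.aff (C.tm.b m 0) hT).const_mul ((abs_sub_comm _ _).trans_le (t2_t0 (P.S.kd m)))).add
        (((h2.aff' (C.tm.b m 2) hT).const_mul (Finset.single_le_sum (f := fun κ => |P.cD κ|)
          (fun _ _ => abs_nonneg _) (Finset.mem_univ (P.S.kd m)))).div_const (C.tm.T_pos m))).add
        ((h1.aff (C.tm.b m 9) hT).const_mul (t2_t0 (P.S.kd m)))).add
        ((h1.aff (C.tm.b m 10 + C.tm.N) hT).const_mul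
          (t2_sub (P.S.kd (m + 1)) (P.S.kd m))))).mono (le_of_eq (by ring))).loc
      C.tt_smooth (C.tm.a_strictMono m.lt_succ_self) (fun r hr => C.tt_stage hr) h

theorem eps_pul (m : ℕ) : C.tm.eps m .pul ≤ 1 :=
  (div_le_one (pow_pos (C.tm.sg_pos m) 2)).2 (one_le_pow₀ (C.tm.one_le_sg m))

theorem ainc_jets (h1 : BsD bmp K) (h2 : BsD aB K) {η : Eta P.LT KK} (hη : EtaLe C.tm η 1)
    (l : JJ P.S P.St) (m : ℕ) : BsD (C.ainc η l m) (2 * K / C.tm.T m) := by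
  have hT := C.tm.one_le_T m
  have T0 := C.tm.T_pos m
  have hK := h1.nonneg
  have z : ∀ f : ℝ → ℝ, (∀ s, f s = 0) → BsD f (2 * K / C.tm.T m) := fun f hf => by
    rw [show f = fun _ => 0 from funext hf]
    exact (BsD.const 0).mono (by positivity)
  rcases l with ⟨κ, ⟨a, p⟩ | n⟩
  · by_cases h : P.S.kd m = κ
    · rw [show C.ainc η (κ, .inl (a, p)) m = _ from funext fun s => if_pos h]
      refine (((h1.shift _ _).const_mul (C.abs_tgt_le zero_le_one hη m .pre m p)).add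
        ((h1.shift _ _).const_mul (C.abs_tgt_le zero_le_one hη m .post (m + 1) p))).mono
        (le_of_eq ?_)
      simp only [Times.eps]
      ring
    · exact z _ fun s => if_neg h
  · by_cases h : P.S.kd m = κ
    · rw [show C.ainc η (κ, .inr n) m = _ from funext fun s => if_pos h]
      exact (((h2.aff' (C.tm.b m 2) hT).div_const T0).add (((h1.aff' (C.tm.b m 8) hT).const_mul
        ((C.abs_tgt_le zero_le_one hη m .pul (m + 1) _).trans
          ((one_mul _).trans_le (C.eps_pul m)))).div_const T0)).mono (le_of_eq (by ring))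
    · exact z _ fun s => if_neg h

theorem ainc_sub (h1 : ∀ τ, |bmp τ| ≤ K) {η η' : Eta P.LT KK} {c : ℝ} (hc : 0 ≤ c)
    (hη : EtaLe C.tm (η - η') c) (l : JJ P.S P.St) (m : ℕ) (s : ℝ) :
    |C.ainc η l m s - C.ainc η' l m s| ≤ c * (2 * K) / C.tm.T m := by
  have T0 := C.tm.T_pos m
  have hK := (abs_nonneg _).trans (h1 0)
  have q := fun δ m' p => (congrArg abs (tgt_sub η η' m δ m' p)).symm.trans_le
    (C.abs_tgt_le hc hη m δ m' p)
  rcases l with ⟨κ, ⟨a, p⟩ | n⟩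
  · simp only [ainc]
    split_ifs
    · rw [add_sub_add_comm, ← sub_mul, ← sub_mul]
      refine (abs_add_le _ _).trans ?_
      rw [abs_mul, abs_mul]
      refine (add_le_add (mul_le_mul (q _ _ _) (h1 _) (abs_nonneg _) ((abs_nonneg _).trans
        (q _ m p))) (mul_le_mul (q _ _ _) (h1 _) (abs_nonneg _) ((abs_nonneg _).trans
        (q _ m p)))).trans (le_of_eq ?_)
      simp only [Times.eps]
      ring
    · rw [sub_zero, abs_zero]
      positivity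
  · simp only [ainc]
    split_ifs
    · rw [add_sub_add_left_eq_sub, ← sub_div, ← sub_mul, abs_div, abs_mul, abs_of_pos T0]
      refine div_le_div_of_nonneg_right ((mul_le_mul ((q _ _ _).trans
        (mul_le_of_le_one_right hc (C.eps_pul m))) (h1 _) (abs_nonneg _) hc).trans ?_) T0.le
      nlinarith
    · rw [sub_zero, abs_zero]
      positivity

theorem ainc_zero_le (h1 : ∀ τ, |aB τ| ≤ K) (l : JJ P.S P.St) (m : ℕ) (s : ℝ) :
    |C.ainc 0 l m s| ≤ K / C.tm.T m := by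
  have T0 := C.tm.T_pos m
  have hK := (abs_nonneg _).trans (h1 0)
  have q : ∀ δ m' p, tgt (0 : Eta P.LT KK) m δ m' p = 0 := fun δ m' p => by simp [tgt, etaX]
  rcases l with ⟨κ, ⟨a, p⟩ | n⟩
  · simp only [ainc, q, zero_mul, add_zero, ite_self, abs_zero]
    positivity
  · simp only [ainc, q, zero_mul, zero_div, add_zero]
    split_ifs
    · rw [abs_div, abs_of_pos T0]
      exact div_le_div_of_nonneg_right (h1 _) T0.le
    · rw [abs_zero]
      positivity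

theorem amp_loc (s : ℝ) : ∃ x y, x < y ∧ s ∈ Icc x y ∧ ∀ (η : Eta P.LT KK) l,
    EqOn (C.amp η l) (C.ainc η l (C.tm.st s)) (Icc x y) := by
  rcases C.tm.stage_cases s with ⟨h, h0⟩ | h
  · refine ⟨s - 1, C.tm.a 0, by linarith, ⟨by linarith, h⟩, fun η l r hr => ?_⟩
    rw [h0, C.amp_neg η l hr.2, C.ainc_of_le η l 0 r hr.2]
  · exact ⟨_, _, C.tm.a_strictMono (Nat.lt_succ_self _), h, fun η l r hr => C.amp_stage η l hr⟩

end Base

/-- jets of the profile -/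
theorem jets (P : Par) : ∃ Ka : ℝ, 1 ≤ Ka ∧ ∀ (Kc : ℝ) (C : Base P Kc),
    (∀ s, |deriv C.tt s| ≤ Ka / C.tm.T (C.tm.st s)) ∧
    (∀ η, EtaLe C.tm η 1 → ∀ s, (C.geo η).Small s (Ka / C.tm.T (C.tm.st s))) ∧
    ∀ η η' c, 0 ≤ c → EtaLe C.tm (η - η') c → ∀ l s,
      |C.amp η l s - C.amp η' l s| ≤ c * Ka / C.tm.T (C.tm.st s) := by
  obtain ⟨K, hK, k1, k2, k3, k4, k5, k6⟩ := bs_all
  have hc : 0 ≤ ∑ κ, |P.cD κ| := Finset.sum_nonneg fun _ _ => abs_nonneg _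
  obtain ⟨A, hA⟩ : ∃ A, A = (3 + ∑ κ, |P.cD κ|) * K := ⟨_, rfl⟩
  have hA3 : 3 * K ≤ A := by rw [hA]; nlinarith
  have hB : A ≤ (1 + A) * A := by nlinarith
  refine ⟨(1 + A) * A, by linarith, fun Kc C => ⟨fun s => ?_, fun η hη s => ?_,
    fun η η' c hc h l s => ?_⟩⟩
  · refine (C.tt_jets k1 k4 s).1.trans ?_
    rw [← hA]
    exact div_le_div_of_nonneg_right hB (C.tm.T_pos _).le
  · have T0 := C.tm.T_pos (C.tm.st s)
    have h1 := C.tt_jets k1 k4 s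
    rw [← hA] at h1
    have h2 := bs_log C.tt_smooth C.tt_ge h1.1 h1.2
      (div_le_self (by linarith) (C.tm.one_le_T (C.tm.st s)))
    rw [← mul_div_assoc] at h2
    refine ⟨h2.1, h2.2, fun l => ?_⟩
    obtain ⟨x, y, hxy, hs, he⟩ := C.amp_loc s
    have h3 := ((C.ainc_jets k2 k3 hη l _).mono (div_le_div_of_nonneg_right
      (show 2 * K ≤ (1 + A) * A by linarith) T0.le)).loc (C.amp_smooth η l) hxy (he η l) hs
    refine ⟨?_, h3⟩
    have h4 := C.ainc_sub k5 (η' := 0) zero_le_one (by rwa [sub_zero]) l (C.tm.st s) s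
    have h5 := C.ainc_zero_le k6 l (C.tm.st s) s
    have h6 := abs_add_le (C.ainc η l (C.tm.st s) s - C.ainc 0 l (C.tm.st s) s)
      (C.ainc 0 l (C.tm.st s) s)
    rw [sub_add_cancel, ← he η l hs] at h6
    refine (h6.trans ?_).trans (div_le_div_of_nonneg_right
      (show 1 * (2 * K) + K ≤ (1 + A) * A by linarith) T0.le)
    rw [add_div, he η l hs]
    exact add_le_add h4 h5
  · obtain ⟨x, y, -, hs, he⟩ := C.amp_loc s
    rw [he η l hs, he η' l hs]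
    exact (C.ainc_sub k5 hc h l _ s).trans (div_le_div_of_nonneg_right
      (mul_le_mul_of_nonneg_left (by linarith) hc) (C.tm.T_pos _).le)

theorem Base.deriv2_pp {P : Par} {Kc : ℝ} (C : Base P Kc) {s : ℝ} (h : -C.tm.T 0 < s) :
    deriv (deriv C.pp) s =
      deriv bmp (s / C.tm.T 0) / C.tm.T 0 / C.tm.T 0 * (P.St.pinf + Kc / (s + C.tm.T 0) - 1) -
        2 * (bmp (s / C.tm.T 0) / C.tm.T 0 * (Kc / (s + C.tm.T 0) ^ 2)) +
        2 * (stp (s / C.tm.T 0) * (Kc / (s + C.tm.T 0) ^ 3)) := by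
  have e : deriv C.pp =ᶠ[𝓝 s] _ :=
    eventually_of_mem (Ioi_mem_nhds h) fun r hr => (C.hasDerivAt_pp hr).deriv
  have r0 : s + C.tm.T 0 ≠ 0 := by linarith
  have T0 := (C.tm.T_pos 0).ne'
  have h0 := (hasDerivAt_id s).div_const (C.tm.T 0)
  have h1 := (hasDerivAt_stp _).comp s h0
  have h1' := ((bs_diff bmp_smooth _).hasDerivAt.comp s h0).div_const (C.tm.T 0)
  have h2 := (hasDerivAt_const s Kc).div ((hasDerivAt_id s).add_const (C.tm.T 0)) r0
  have h3 := (hasDerivAt_const s Kc).div (((hasDerivAt_id s).add_const (C.tm.T 0)).pow 2)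
    (pow_ne_zero 2 r0)
  rw [e.deriv_eq]
  refine ((h1'.mul ((h2.const_add P.St.pinf).sub_const 1)).sub (h1.mul h3)).deriv.trans ?_
  simp only [id, Function.comp, Pi.div_apply, Pi.pow_apply]
  field_simp
  ring

theorem bs_vf {β1 β2 σ q k2 k3 K Kc T : ℝ} (hT : 0 < T) (hK : 0 ≤ K)
    (b1 : |β1| ≤ K / T) (b2 : |β2| ≤ K / T) (hσ : |σ| ≤ 1) (hq : |q| ≤ 1) (h2 : |k2| ≤ Kc / T)
    (h2' : |k2| ≤ Kc) (h3 : |k3| ≤ Kc / T) :
    |β1 * q - σ * k2| ≤ (K + Kc) / T ∧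
      |β2 * q - 2 * (β1 * k2) + 2 * (σ * k3)| ≤ (K + 2 * K * Kc + 2 * Kc) / T := by
  have p1 : 0 ≤ K / T := by positivity
  have a1 : |β1 * q| ≤ K / T := by
    rw [abs_mul]; simpa using mul_le_mul b1 hq (abs_nonneg _) p1
  have a2 : |β2 * q| ≤ K / T := by
    rw [abs_mul]; simpa using mul_le_mul b2 hq (abs_nonneg _) p1
  have a3 : |σ * k2| ≤ Kc / T := by
    rw [abs_mul]; simpa using mul_le_mul hσ h2 (abs_nonneg _) zero_le_one
  have a4 : |σ * k3| ≤ Kc / T := by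
    rw [abs_mul]; simpa using mul_le_mul hσ h3 (abs_nonneg _) zero_le_one
  have a5 : |β1 * k2| ≤ K / T * Kc := by
    rw [abs_mul]; exact mul_le_mul b1 h2' (abs_nonneg _) p1
  rw [show (K + 2 * K * Kc + 2 * Kc) / T = K / T + 2 * (K / T * Kc) + 2 * (Kc / T) by ring,
    add_div]
  rw [abs_le] at a1 a2 a3 a4 a5
  exact ⟨abs_le.2 ⟨by linarith [a1.1, a3.2], by linarith [a1.2, a3.1]⟩,
    abs_le.2 ⟨by linarith [a2.1, a4.1, a5.2], by linarith [a2.2, a4.2, a5.1]⟩⟩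

theorem Base.pp_jets {P : Par} {Kc : ℝ} (C : Base P Kc) {K : ℝ} (k2 : BsD bmp K)
    (k5 : ∀ τ, |bmp τ| ≤ K) (s : ℝ) :
    |deriv C.pp s| ≤ (K + Kc) / C.tm.T (C.tm.st s) ∧
      |deriv (deriv C.pp) s| ≤ (K + 2 * K * Kc + 2 * Kc) / C.tm.T (C.tm.st s) := by
  have hK := k2.nonneg
  have hc := C.hKc
  have T0 := C.tm.T_pos 0
  have T1 := C.tm.one_le_T 0
  have Tm := C.tm.T_pos (C.tm.st s)
  rcases lt_or_ge s 0 with h | h
  · rw [(bs_zero (C.pp_ev h)).1, (bs_zero (C.pp_ev h)).2, abs_zero]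
    exact ⟨by positivity, by positivity⟩
  obtain ⟨M, -, hM⟩ := scale_cmp P
  have h1 := (hM Kc C s).2
  rw [max_eq_left h] at h1
  have r1 : 1 ≤ s + C.tm.T 0 := by linarith
  have q : ∀ n, n ≠ 0 → |Kc / (s + C.tm.T 0) ^ n| ≤ Kc / C.tm.T (C.tm.st s) := fun n hn => by
    rw [abs_of_nonneg (by positivity)]
    exact div_le_div_of_nonneg_left hc Tm (h1.trans (le_self_pow₀ r1 hn))
  have b : |bmp (s / C.tm.T 0) / C.tm.T 0| ≤ K / C.tm.T (C.tm.st s) ∧
      |deriv bmp (s / C.tm.T 0) / C.tm.T 0 / C.tm.T 0| ≤ K / C.tm.T (C.tm.st s) := by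
    rcases le_or_gt s (C.tm.T 0) with h2 | h2
    · rw [C.tm.st_of_lt (h2.trans_lt ((C.tm.T_le_a 0).trans_lt (C.tm.a_strictMono one_pos))),
        abs_div, abs_div, abs_div, abs_of_pos T0]
      exact ⟨div_le_div_of_nonneg_right (k5 _) T0.le, div_le_div_of_nonneg_right
        ((div_le_self (abs_nonneg _) T1).trans (k2.2 _).1) T0.le⟩
    · have h3 := (one_lt_div T0).2 h2
      rw [bmp_of_ge h3.le, (bs_zero (c := 0) (eventually_of_mem (Ioi_mem_nhds h3)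
        fun r hr => bmp_of_ge (le_of_lt hr))).1]
      simp only [zero_div, abs_zero]
      exact ⟨by positivity, by positivity⟩
  have h3 := C.qq_bd h
  have h4 : del = 1 / 1000000 := rfl
  rw [(C.hasDerivAt_pp (by linarith)).deriv, C.deriv2_pp (by linarith)]
  exact bs_vf Tm hK b.1 b.2 (by rw [abs_of_nonneg (stp_nonneg _)]; exact stp_le_one _)
    (abs_le.2 ⟨by linarith [P.St.pinf_ge, h3.1], by linarith [P.St.pinf_le, h3.2]⟩)
    (q 2 two_ne_zero) ((q 2 two_ne_zero).trans (div_le_self hc (C.tm.one_le_T _)))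
    (q 3 three_ne_zero)

/-- the potential -/
theorem Vf_est (P : Par) (Kc : ℝ) : ∃ KV : ℝ, 1 ≤ KV ∧ ∀ C : Base P Kc,
    (∀ s, |deriv C.pp s| ≤ KV / C.tm.T (C.tm.st s)) ∧
    (∀ s, |deriv C.Vf s| ≤ KV / C.tm.T (C.tm.st s)) ∧
    ∀ s, C.tm.T 0 ≤ s → |C.Vf s - P.St.pinf ^ 2| ≤ KV / C.tm.T (C.tm.st s) := by
  obtain ⟨K, hK, -, k2, -, -, k5, -⟩ := bs_all
  obtain ⟨M, -, hM⟩ := scale_cmp P
  refine ⟨3 * K + 2 * K * |Kc| + 4 * |Kc|, by nlinarith [abs_nonneg Kc], fun C => ?_⟩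
  have hc := C.hKc
  have hKc : 0 ≤ K * Kc := by positivity
  have h4 : del = 1 / 1000000 := rfl
  rw [abs_of_nonneg hc]
  refine ⟨fun s => (C.pp_jets k2 k5 s).1.trans (div_le_div_of_nonneg_right (by linarith)
    (C.tm.T_pos _).le), fun s => ?_, fun s hs => ?_⟩
  · have e := (((bs_diff C.pp_smooth s).hasDerivAt.pow 2).add
      (bs_diff (bs_deriv C.pp_smooth) s).hasDerivAt).deriv
    obtain ⟨h1, h2⟩ := C.pp_jets k2 k5 s
    have h3 : |C.pp s| ≤ 1 := abs_le.2 ⟨by linarith [C.pp_ge s, P.St.pinf_ge], C.pp_le s⟩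
    refine ((congrArg abs e).trans_le (abs_add_le _ _)).trans ?_
    rw [abs_mul, abs_mul, show (3 * K + 2 * K * Kc + 4 * Kc) / C.tm.T (C.tm.st s) =
      2 * 1 * ((K + Kc) / C.tm.T (C.tm.st s)) + (K + 2 * K * Kc + 2 * Kc) / C.tm.T (C.tm.st s) by
        ring]
    refine add_le_add (mul_le_mul (mul_le_mul (by simp) (by simpa using h3) (abs_nonneg _)
      (by norm_num)) h1 (abs_nonneg _) (by norm_num)) h2
  · have T0 := C.tm.T_pos 0
    have Tm := C.tm.T_pos (C.tm.st s)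
    have h0 : 0 ≤ s := by linarith
    have h1 := (hM Kc C s).2
    rw [max_eq_left h0] at h1
    have h2 := div_le_div_of_nonneg_left hc Tm h1
    have h3 := C.qq_bd h0
    have h5 := abs_le.1 (C.pp_jets k2 k5 s).1
    have e : C.pp s = P.St.pinf + Kc / (s + C.tm.T 0) := by
      rw [Base.pp, stp_of_ge ((one_le_div T0).2 hs)]
      ring
    have h6 : 0 ≤ (2 * K + 2 * K * Kc + Kc) / C.tm.T (C.tm.st s) := by positivity
    have h7 : 0 ≤ Kc / C.tm.T (C.tm.st s) := by positivity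
    rw [Base.Vf, e, show (3 * K + 2 * K * Kc + 4 * Kc) / C.tm.T (C.tm.st s) =
      (K + Kc) / C.tm.T (C.tm.st s) + 2 * (Kc / C.tm.T (C.tm.st s)) +
        (2 * K + 2 * K * Kc + Kc) / C.tm.T (C.tm.st s) by ring, abs_le]
    have p1 := P.St.pinf_ge
    have p2 := P.St.pinf_le
    constructor <;> nlinarith [h3.1, h3.2, h5.1, h5.2]

end Vale.Agent.P225
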