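import Vale.Agent.P225.Times

/-! The abstract controlled system: data, hypotheses, Green operators. -/

namespace Vale.Agent.P225

open Filter Topology MeasureTheory Set

/-- class of a component relative to a lineage: up tail, down tail, zero rate, controlled -/
inductive Cls | U | Dn | Z | C
  deriving DecidableEq
/-- designation of a controlled component in a stage -/
inductive Des | pre | post | split | pulse
  deriving DecidableEq
/-- control slots -/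
inductive Slot | pre | post | pul
  deriving DecidableEq

def Des.s1 : Des → ℝ
  | .pre => 1 | .post => -1 | .split => 1 | .pulse => -1
def Des.s2 : Des → ℝ
  | .pre => 1 | .post => -1 | .split => -1 | .pulse => 1
def Des.Act : Des → Slot → Prop
  | .pre, .pre => True
  | .split, .pre => True
  | .post, .post => True
  | .split, .post => True
  | .pulse, .pul => True
  | _, _ => False

namespace Times
variable (tm : Times)

/-- size of the controls -/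
noncomputable def eps (m : ℕ) : Slot → ℝ
  | .pre => 1 / tm.T m
  | .post => 1 / tm.T m
  | .pul => 1 / tm.sg m ^ 2
/-- start of a control slot -/
noncomputable def s0 (m : ℕ) : Slot → ℝ
  | .pre => tm.a m
  | .post => tm.b m 10
  | .pul => tm.b m 8
/-- end of a control slot -/
noncomputable def s1 (m : ℕ) : Slot → ℝ
  | .pre => tm.b m 0
  | .post => tm.b m 10 + tm.N
  | .pul => tm.b m 9
/-- times at which sources may be present -/
def Src (s : ℝ) : Prop := ∃ m, s ∈ Icc (tm.a m) (tm.b m 0) ∨ s ∈ Icc (tm.b m 2) (tm.b m 9) ∨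
  s ∈ Icc (tm.b m 10) (tm.b m 10 + tm.N)
/-- left end of the interval of a condition -/
noncomputable def xl (m : ℕ) (d : Des) : Slot → ℝ
  | .pre => tm.a m
  | .post => if d = .split then tm.b m 9 else tm.a m
  | .pul => tm.a m
/-- right end of the interval of a condition -/
noncomputable def xr (m : ℕ) (d : Des) : Slot → ℝ
  | .pre => if d = .split then tm.b m 9 else tm.a (m + 1)
  | .post => tm.a (m + 1)
  | .pul => tm.a (m + 1)
/-- reference time of a controlled component in stage `m` -/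
noncomputable def refC (m : ℕ) (s : ℝ) : Des → ℝ
  | .pre => tm.a (m + 1)
  | .post => if s < tm.b m 10 then tm.a m else tm.a (m + 1)
  | .split => if s < tm.b m 10 then tm.b m 9 else tm.a (m + 1)
  | .pulse => if s < tm.b m 8 then tm.a m else tm.a (m + 1)

end Times

/-- controls -/
abbrev Eta (L Kk : Type) := L → Kk → ℕ → Slot → ℝ

def EtaLe {L Kk : Type} (tm : Times) (η : Eta L Kk) (c : ℝ) : Prop :=
  ∀ l κ m δ, |η l κ m δ| ≤ c * tm.eps m δ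

/-- the combinatorial and kernel data of the system -/
structure KData (L Kk : Type) (tm : Times) (K Λ : ℝ) where
  deg : Kk → ℕ
  nb : Kk → Finset Kk
  main : L → Kk
  D : L → Kk → ℝ → ℝ
  cls : L → Kk → Cls
  des : L → Kk → ℕ → Des
  res : L → Kk → ℕ → Prop
  hK : 1 ≤ K
  hΛ : 1 ≤ Λ
  hN : (tm.N : ℝ) ≤ K
  hΓ : 1 / (1 - (tm.Γ ^ 2)⁻¹) ≤ K
  nb_card : ∀ κ, ((nb κ).card : ℝ) ≤ K
  nb_deg : ∀ κ, ∀ κ' ∈ nb κ, Λ ^ deg κ ≤ K * Λ ^ deg κ'
  main_deg : ∀ l, Λ ^ deg (main l) ≤ K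
  D_int : ∀ l κ x y, IntervalIntegrable (D l κ) volume x y
  main_Z : ∀ l, cls l (main l) = .Z
  kU : ∀ l κ, cls l κ = .U → (∀ s, ((deg κ : ℝ) + 1) / K ≤ D l κ s) ∧ ∀ m, ¬ res l κ m
  kD : ∀ l κ, cls l κ = .Dn → (∀ s, D l κ s ≤ -(((deg κ : ℝ) + 1) / K)) ∧ ∀ m, ¬ res l κ m
  kZ : ∀ l κ, cls l κ = .Z → (∀ s, D l κ s = 0) ∧ (∀ m, res l κ m) ∧ (deg κ : ℝ) + 1 ≤ K
  kC_deg : ∀ l κ, cls l κ = .C → (deg κ : ℝ) + 1 ≤ K
  kC_bd : ∀ l κ m, cls l κ = .C → ∀ s ∈ Ico (tm.a m) (tm.a (m + 1)), |D l κ s| ≤ K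
  kC_1 : ∀ l κ m, cls l κ = .C → ∀ s ∈ Icc (tm.a m) (tm.b m 1),
    -(K / tm.T m) ≤ (des l κ m).s1 * D l κ s
  kC_1' : ∀ l κ m, cls l κ = .C →
    tm.T m / K ≤ (des l κ m).s1 * ∫ s in tm.b m 0..tm.b m 1, D l κ s
  kC_2 : ∀ l κ m, cls l κ = .C → ∀ s ∈ Icc (tm.b m 9) (tm.b m 10 + tm.N),
    -(K / tm.T m) ≤ (des l κ m).s2 * D l κ s
  kC_2' : ∀ l κ m, cls l κ = .C →
    tm.T m / K ≤ (des l κ m).s2 * ∫ s in tm.b m 9..tm.b m 10, D l κ s
  kC_res : ∀ l κ m, cls l κ = .C → res l κ m → ∀ s ∈ Icc (tm.b m 1) (tm.b m 9),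
    |D l κ s| ≤ K / tm.T m
  kC_gap : ∀ l κ m, cls l κ = .C → ¬ res l κ m → (des l κ m = .pre ∨ des l κ m = .post) ∧
    ∀ s ∈ Icc (tm.a m) (tm.b m 10 + tm.N), 1 / K ≤ (des l κ m).s1 * D l κ s

namespace KData

variable {L Kk : Type} {tm : Times} {K Λ : ℝ} (X : KData L Kk tm K Λ)

/-- bounds for a coupling matrix -/
structure HB (H : L → ℝ → Kk → Kk → ℝ) (c : ℝ) : Prop where
  meas : ∀ l κ κ', Measurable fun s => H l s κ κ'
  band : ∀ l s κ κ', κ' ∉ X.nb κ → H l s κ κ' = 0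
  supp : ∀ l s κ κ', ¬ tm.Src s → H l s κ κ' = 0
  bd : ∀ l s κ κ', |H l s κ κ'| ≤ c * K * ((X.deg κ : ℝ) + 1) / tm.T (tm.st s)
  res1 : ∀ l m κ κ', X.res l κ m → X.res l κ' m → ∀ s ∈ Ico (tm.b m 2) (tm.b m 8),
    |H l s κ κ'| ≤ c * K / tm.T m ^ 2
  res2 : ∀ l m κ κ', X.res l κ m → X.res l κ' m → ∀ s ∈ Icc (tm.b m 8) (tm.b m 9),
    |H l s κ κ'| ≤ c * K / (tm.sg m ^ 2 * tm.T m)

noncomputable def Pi (l : L) (κ : Kk) (s : ℝ) : ℝ := ∫ r in (0 : ℝ)..s, X.D l κ r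

/-- a condition is active -/
def Act (l : L) (κ : Kk) (m : ℕ) (δ : Slot) : Prop := X.cls l κ = .C ∧ (X.des l κ m).Act δ

/-- first-order effect of the coupling in its own slot -/
noncomputable def lin (H : L → ℝ → Kk → Kk → ℝ) (l : L) (κ : Kk) (m : ℕ) (δ : Slot) : ℝ :=
  ∫ s in tm.s0 m δ..tm.s1 m δ, Real.exp (X.Pi l κ (tm.s0 m δ) - X.Pi l κ s) * H l s κ (X.main l)

noncomputable def src (H : L → ℝ → Kk → Kk → ℝ) (ρ : L → Kk → ℝ → ℝ) (l : L) (κ : Kk) (s : ℝ) : ℝ :=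
  ∑ κ' ∈ X.nb κ, H l s κ κ' * ρ l κ' s

noncomputable def prim (S : L → Kk → ℝ → ℝ) (l : L) (κ : Kk) (s : ℝ) : ℝ :=
  ∫ r in (0 : ℝ)..s, Real.exp (-X.Pi l κ r) * S l κ r

noncomputable def ref (l : L) (κ : Kk) (s : ℝ) : ℝ :=
  if X.cls l κ = .C ∧ tm.a 0 ≤ s then tm.refC (tm.st s) s (X.des l κ (tm.st s)) else 0

/-- the Green operator -/
noncomputable def out (S : L → Kk → ℝ → ℝ) (l : L) (κ : Kk) (s : ℝ) : ℝ :=
  if X.cls l κ = .U then
    -(Real.exp (X.Pi l κ s) * ∫ r in Ioi s, Real.exp (-X.Pi l κ r) * S l κ r)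
  else Real.exp (X.Pi l κ s) * (X.prim S l κ s - X.prim S l κ (X.ref l κ s))

/-- the value of a condition -/
noncomputable def Phi (S : L → Kk → ℝ → ℝ) (l : L) (κ : Kk) (m : ℕ) (δ : Slot) : ℝ :=
  Real.exp (X.Pi l κ (tm.s0 m δ)) *
    (X.prim S l κ (tm.xr m (X.des l κ m) δ) - X.prim S l κ (tm.xl m (X.des l κ m) δ))

open Classical in
/-- weight of a component -/
noncomputable def wt (l : L) (κ : Kk) (s : ℝ) : ℝ :=
  (if X.res l κ (tm.st s) then 1 / tm.σ0 else 1 / tm.sg (tm.st s) ^ 3) / Λ ^ X.deg κ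

/-- bounds for a vector of components -/
structure RB (ρ : L → Kk → ℝ → ℝ) (c : ℝ) : Prop where
  meas : ∀ l κ, Measurable (ρ l κ)
  bd : ∀ l κ s, |ρ l κ s| ≤ c * X.wt l κ s

open Classical in
noncomputable def emain (l : L) (κ : Kk) (_ : ℝ) : ℝ := if κ = X.main l then 1 else 0

/-- integrability needed for linearity of `out` and `Phi` -/
structure SInt (S : L → Kk → ℝ → ℝ) : Prop where
  meas : ∀ l κ, Measurable (S l κ)
  loc : ∀ l κ x y, IntervalIntegrable (fun r => Real.exp (-X.Pi l κ r) * S l κ r) volume x y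
  inf : ∀ l κ s, X.cls l κ = .U → IntegrableOn (fun r => Real.exp (-X.Pi l κ r) * S l κ r) (Ioi s)
  supp : ∀ l κ s, ¬ tm.Src s → S l κ s = 0

/-- a family of couplings depending on the controls -/
structure Ctl (H : Eta L Kk → L → ℝ → Kk → Kk → ℝ) : Prop where
  hb : ∀ η, EtaLe tm η 1 → X.HB (H η) 1
  hb' : ∀ η η' c, 0 ≤ c → EtaLe tm η 1 → EtaLe tm η' 1 → EtaLe tm (η - η') c →
    X.HB (H η - H η') c
  acc : ∀ η, EtaLe tm η 1 → ∀ l κ m δ, X.Act l κ m δ →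
    |X.lin (H η) l κ m δ - η l κ m δ| ≤ K * tm.eps m δ / tm.sg m
  acc' : ∀ η η' c, 0 ≤ c → EtaLe tm η 1 → EtaLe tm η' 1 → EtaLe tm (η - η') c →
    ∀ l κ m δ, X.Act l κ m δ →
    |X.lin (H η - H η') l κ m δ - (η l κ m δ - η' l κ m δ)| ≤ c * K * tm.eps m δ / tm.sg m

/-- the estimates for the Green operator -/
structure Est : Prop where
  int_small : ∀ H c ρ c', 0 ≤ c → 0 ≤ c' → X.HB H c → X.RB ρ c' → X.SInt (X.src H ρ)
  int_main : ∀ H c, 0 ≤ c → X.HB H c → X.SInt (X.src H X.emain)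
  out_small : ∀ H c ρ c', 0 ≤ c → 0 ≤ c' → X.HB H c → X.RB ρ c' →
    X.RB (X.out (X.src H ρ)) (c * c' / 8)
  out_main : ∀ H c, 0 ≤ c → X.HB H c → X.RB (X.out (X.src H X.emain)) (c / 8)
  phi_small : ∀ H c ρ c', 0 ≤ c → 0 ≤ c' → X.HB H c → X.RB ρ c' → ∀ l κ m δ, X.Act l κ m δ →
    |X.Phi (X.src H ρ) l κ m δ| ≤ c * c' / 8 * tm.eps m δ
  phi_main : ∀ H c, 0 ≤ c → X.HB H c → ∀ l κ m δ, X.Act l κ m δ →
    |X.Phi (X.src H X.emain) l κ m δ - X.lin H l κ m δ| ≤ c / 8 * tm.eps m δ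

/-- a solution of the controlled system -/
structure FSol (H : Eta L Kk → L → ℝ → Kk → Kk → ℝ) where
  η : Eta L Kk
  ρ : L → Kk → ℝ → ℝ
  c : L → Kk → ℝ
  hη : EtaLe tm η 1
  bd : ∀ l κ s, |ρ l κ s| ≤ 2 * K / Λ ^ X.deg κ
  sint : X.SInt (X.src (H η) ρ)
  eq : ∀ l κ s, ρ l κ s = Real.exp (X.Pi l κ s) * (c l κ + X.prim (X.src (H η) ρ) l κ s)
  c_main : ∀ l, c l (X.main l) = 1
  c_zero : ∀ l κ, κ ≠ X.main l → X.cls l κ ≠ .U → c l κ = 0

end KData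

end Vale.Agent.P225
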