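import Vale.Agent.P225.Geo

/-! Bounds for the jets of the connection form. -/

namespace Vale.Agent.P225.Rc

open Filter Topology

/-- smooth away from the origin -/
def Sm (f : E 4 → ℝ) : Prop := ∀ y, y ≠ 0 → ContDiffAt ℝ (⊤ : ℕ∞) f y

variable {f g : E 4 → ℝ} {x y : E 4}

lemma Sm.diff (hf : Sm f) (hy : y ≠ 0) : DifferentiableAt ℝ f y :=
  (hf y hy).differentiableAt (by simp)

lemma Sm.DD (hf : Sm f) (m : Fin 4) : Sm (DD (ef m) f) := fun y hy =>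
  ((hf y hy).fderiv_right (m := (⊤ : ℕ∞)) (by exact_mod_cast le_top)).clm_apply
    (contDiff_ef m).contDiffAt

lemma Sm.mul (hf : Sm f) (hg : Sm g) : Sm fun y => f y * g y := fun y hy => (hf y hy).mul (hg y hy)

lemma Sm.sum {J : Type} [Fintype J] {f : J → E 4 → ℝ} (hf : ∀ l, Sm (f l)) :
    Sm fun y => ∑ l, f l y := fun y hy => ContDiffAt.sum fun l _ => hf l y hy

lemma sm_lg {a : ℝ → ℝ} (ha : ContDiff ℝ (⊤ : ℕ∞) a) : Sm fun y => a (lg y) := fun _ hy =>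
  ha.contDiffAt.comp _ (contDiffAt_lg hy)

lemma DD_congr {V : Type} [NormedAddCommGroup V] [NormedSpace ℝ V] {f g : E 4 → V}
    (h : ∀ y, y ≠ 0 → f y = g y) (hx : x ≠ 0) (X : E 4 → E 4) : DD X f x = DD X g x := by
  have : f =ᶠ[𝓝 x] g := by
    filter_upwards [isOpen_ne.mem_nhds hx] with y hy using h y hy
  simp only [DD, this.fderiv_eq]

lemma DD_mul (hf : Sm f) (hg : Sm g) (hy : y ≠ 0) (X : E 4 → E 4) :
    DD X (fun y => f y * g y) y = DD X f y * g y + f y * DD X g y := by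
  simp only [DD, fderiv_fun_mul (hf.diff hy) (hg.diff hy), _root_.add_apply, _root_.smul_apply,
    smul_eq_mul]
  ring

lemma DD_add (hf : Sm f) (hg : Sm g) (hy : y ≠ 0) (X : E 4 → E 4) :
    DD X (fun y => f y + g y) y = DD X f y + DD X g y := by
  simp only [DD, fderiv_fun_add (hf.diff hy) (hg.diff hy), _root_.add_apply]

lemma DD_sum {J : Type} [Fintype J] {f : J → E 4 → ℝ} (hf : ∀ l, Sm (f l)) (hy : y ≠ 0)
    (X : E 4 → E 4) : DD X (fun y => ∑ l, f l y) y = ∑ l, DD X (f l) y := by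
  simp only [DD, fderiv_fun_sum fun l _ => (hf l).diff hy, _root_.sum_apply]

lemma fderiv_lg {a : ℝ → ℝ} (ha : ContDiff ℝ (⊤ : ℕ∞) a) (hy : y ≠ 0) (v : E 4) :
    fderiv ℝ (fun y => a (lg y)) y v = deriv a (lg y) * fderiv ℝ lg y v := by
  have h := ((ha.differentiable (by simp)) (lg y)).hasDerivAt.comp_hasFDerivAt y
    ((contDiffAt_lg hy).differentiableAt (by simp)).hasFDerivAt
  have h2 : fderiv ℝ (fun y => a (lg y)) y = _ := h.fderiv
  rw [h2]; simp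

lemma DD_comp_lg {a : ℝ → ℝ} (ha : ContDiff ℝ (⊤ : ℕ∞) a) (hy : y ≠ 0) (m : Fin 4) :
    DD (ef m) (fun y => a (lg y)) y = deriv a (lg y) * if m = 0 then 1 else 0 := by
  rw [← DD_lg hy m]; exact fderiv_lg ha hy _

lemma cd_deriv {a : ℝ → ℝ} (ha : ContDiff ℝ (⊤ : ℕ∞) a) : ContDiff ℝ (⊤ : ℕ∞) (deriv a) :=
  (contDiff_infty_iff_deriv.1 ha).2

/-- the jets of order at most two are bounded by `K` at `x` -/
def J2 (f : E 4 → ℝ) (x : E 4) (K : ℝ) : Prop :=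
  |f x| ≤ K ∧ (∀ m, |DD (ef m) f x| ≤ K) ∧ ∀ m m', |DD (ef m') (DD (ef m) f) x| ≤ K

lemma J2.mono {K K' : ℝ} (h : J2 f x K) (hK : K ≤ K') : J2 f x K' :=
  ⟨h.1.trans hK, fun m => (h.2.1 m).trans hK, fun m m' => (h.2.2 m m').trans hK⟩

lemma J2.congr {K : ℝ} (h : J2 f x K) (hx : x ≠ 0) (hfg : ∀ y, y ≠ 0 → f y = g y) : J2 g x K := by
  have h1 : ∀ m y, y ≠ 0 → DD (ef m) f y = DD (ef m) g y := fun m y hy => DD_congr hfg hy _
  refine ⟨hfg x hx ▸ h.1, fun m => h1 m x hx ▸ h.2.1 m, fun m m' => ?_⟩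
  rw [← DD_congr (h1 m) hx]
  exact h.2.2 m m'

lemma abs_mul_le {a b K L : ℝ} (ha : |a| ≤ K) (hb : |b| ≤ L) : |a * b| ≤ K * L := by
  rw [abs_mul]; exact mul_le_mul ha hb (abs_nonneg _) ((abs_nonneg _).trans ha)

lemma J2.mul {K L : ℝ} (hf : Sm f) (hg : Sm g) (hx : x ≠ 0) (h : J2 f x K) (h' : J2 g x L) :
    J2 (fun y => f y * g y) x (4 * (K * L)) := by
  have h0 := abs_mul_le h.1 h'.1
  have hp : 0 ≤ K * L := (abs_nonneg _).trans h0
  refine ⟨by linarith, fun m => ?_, fun m m' => ?_⟩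
  · rw [DD_mul hf hg hx]
    have := abs_add_le (DD (ef m) f x * g x) (f x * DD (ef m) g x)
    linarith [abs_mul_le (h.2.1 m) h'.1, abs_mul_le h.1 (h'.2.1 m)]
  · rw [DD_congr (fun y hy => DD_mul hf hg hy (ef m)) hx,
      DD_add ((hf.DD m).mul hg) (hf.mul (hg.DD m)) hx, DD_mul (hf.DD m) hg hx,
      DD_mul hf (hg.DD m) hx]
    refine (abs_add_le _ _).trans ((add_le_add (abs_add_le _ _) (abs_add_le _ _)).trans ?_)
    linarith [abs_mul_le (h.2.2 m m') h'.1, abs_mul_le (h.2.1 m) (h'.2.1 m'),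
      abs_mul_le (h.2.1 m') (h'.2.1 m), abs_mul_le h.1 (h'.2.2 m m')]

lemma J2.sum {J : Type} [Fintype J] {f : J → E 4 → ℝ} {K : J → ℝ} (hf : ∀ l, Sm (f l))
    (hx : x ≠ 0) (h : ∀ l, J2 (f l) x (K l)) : J2 (fun y => ∑ l, f l y) x (∑ l, K l) := by
  refine ⟨(Finset.abs_sum_le_sum_abs _ _).trans (Finset.sum_le_sum fun l _ => (h l).1),
    fun m => ?_, fun m m' => ?_⟩
  · rw [DD_sum hf hx]
    exact (Finset.abs_sum_le_sum_abs _ _).trans (Finset.sum_le_sum fun l _ => (h l).2.1 m)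
  · rw [DD_congr (fun y hy => DD_sum hf hy (ef m)) hx, DD_sum (fun l => (hf l).DD m) hx]
    exact (Finset.abs_sum_le_sum_abs _ _).trans (Finset.sum_le_sum fun l _ => (h l).2.2 m m')

lemma abs_ite_le {a K : ℝ} (h : |a| ≤ K) (m : Fin 4) : |a * if m = 0 then 1 else 0| ≤ K := by
  split_ifs
  · simpa using h
  · simpa using (abs_nonneg _).trans h

lemma J2_lg {a : ℝ → ℝ} (ha : ContDiff ℝ (⊤ : ℕ∞) a) (hx : x ≠ 0) {ε : ℝ} (h0 : |a (lg x)| ≤ ε)
    (h1 : |deriv a (lg x)| ≤ ε) (h2 : |deriv (deriv a) (lg x)| ≤ ε) :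
    J2 (fun y => a (lg y)) x ε := by
  refine ⟨h0, fun m => ?_, fun m m' => ?_⟩
  · rw [DD_comp_lg ha hx]; exact abs_ite_le h1 m
  · rw [DD_congr (fun y hy => DD_comp_lg ha hy m) hx]
    have hb : ContDiff ℝ (⊤ : ℕ∞) fun s => deriv a s * if m = 0 then 1 else 0 :=
      (cd_deriv ha).mul contDiff_const
    rw [DD_comp_lg hb hx, deriv_mul_const_field]
    exact abs_ite_le (abs_ite_le h2 m) m'

/-- real parts of spherical polynomials -/
noncomputable def sp (c : ℂ) (P : R) (y : E 4) : ℝ := (c * evn P y).re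

lemma sm_sp (c : ℂ) (P : R) : Sm (sp c P) := fun _ hy =>
  Complex.reCLM.contDiff.contDiffAt.comp _ (contDiffAt_const.mul (contDiffAt_evn P hy))

lemma DD_sp (c : ℂ) (P : R) (hy : y ≠ 0) (X : E 4 → E 4) :
    DD X (sp c P) y = (c * DD X (evn P) y).re := by
  have h := Complex.reCLM.hasFDerivAt.comp y
    (((contDiffAt_evn P hy).differentiableAt (by simp)).hasFDerivAt.const_mul c)
  have h2 : fderiv ℝ (sp c P) y = _ := h.fderiv
  simp [DD, h2]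

lemma exists_DD_sp (c : ℂ) (P : R) (m : Fin 4) :
    ∃ c' P', ∀ y, y ≠ 0 → DD (ef m) (sp c P) y = sp c' P' y := by
  fin_cases m
  · exact ⟨0, 0, fun y hy => by simp [DD_sp c P hy, DD_evn0 P hy, sp]⟩
  · exact ⟨c, Lm P - Lp P, fun y hy => by simp [DD_sp c P hy, DD_evn1 P hy, sp]⟩
  · exact ⟨c * Complex.I, Lm P + Lp P, fun y hy => by
      simp only [Fin.reduceFinMk, DD_sp c P hy, DD_evn2 P hy, sp, mul_assoc]⟩
  · exact ⟨c * Complex.I, Hd P, fun y hy => by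
      simp only [Fin.reduceFinMk, DD_sp c P hy, DD_evn3 P hy, sp, mul_assoc]⟩

lemma sp_bdd (c : ℂ) (P : R) : ∃ K, 0 ≤ K ∧ ∀ y, y ≠ 0 → |sp c P y| ≤ K := by
  obtain ⟨C, h0, hC⟩ := evn_bdd P
  refine ⟨‖c‖ * C, by positivity, fun y hy => (Complex.abs_re_le_norm _).trans ?_⟩
  rw [norm_mul]
  exact mul_le_mul_of_nonneg_left (hC y hy) (norm_nonneg _)

lemma J2_sp (c : ℂ) (P : R) : ∃ K, 0 ≤ K ∧ ∀ y, y ≠ 0 → J2 (sp c P) y K := by
  choose c1 P1 h1 using exists_DD_sp c P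
  choose c2 P2 h2 using fun m => exists_DD_sp (c1 m) (P1 m)
  obtain ⟨K0, a0, b0⟩ := sp_bdd c P
  choose K1 a1 b1 using fun m => sp_bdd (c1 m) (P1 m)
  choose K2 a2 b2 using fun m m' => sp_bdd (c2 m m') (P2 m m')
  have s1 : 0 ≤ ∑ m, K1 m := Finset.sum_nonneg fun m _ => a1 m
  have s2 : 0 ≤ ∑ m, ∑ m', K2 m m' := Finset.sum_nonneg fun m _ => Finset.sum_nonneg fun m' _ => a2 m m'
  refine ⟨K0 + ∑ m, K1 m + ∑ m, ∑ m', K2 m m', by positivity, fun y hy =>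
    ⟨by linarith [b0 y hy], fun m => ?_, fun m m' => ?_⟩⟩
  · rw [h1 m y hy]
    linarith [b1 m y hy, Finset.single_le_sum (fun m _ => a1 m) (Finset.mem_univ m)]
  · rw [DD_congr (h1 m) hy, h2 m m' y hy]
    linarith [b2 m m' y hy, Finset.single_le_sum (fun m' _ => a2 m m') (Finset.mem_univ m'),
      Finset.single_le_sum (f := fun m => ∑ m', K2 m m')
        (fun m _ => Finset.sum_nonneg fun m' _ => a2 m m') (Finset.mem_univ m)]

lemma evn_wh {J : Type} [Fintype J] (Γ : Geo J) (c : ℂ) (y : E 4) :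
    (c * evn (Γ.wh (lg y)) y).re = ∑ l, Γ.amp l (lg y) * sp c (Γ.sh l) y := by
  simp only [evn, Geo.wh, map_sum, map_smul, sp, Finset.mul_sum, Complex.re_sum, Complex.real_smul]
  refine Finset.sum_congr rfl fun l _ => ?_
  rw [mul_left_comm, Complex.re_ofReal_mul]

lemma J2_W {J : Type} [Fintype J] (sh : J → R) : ∃ K, 0 ≤ K ∧ ∀ Γ : Geo J, Γ.sh = sh →
    ∀ x, x ≠ 0 → ∀ ε, (∀ l, |Γ.amp l (lg x)| ≤ ε ∧ |deriv (Γ.amp l) (lg x)| ≤ ε ∧
      |deriv (deriv (Γ.amp l)) (lg x)| ≤ ε) → 0 ≤ ε →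
      J2 Γ.W1 x (K * ε) ∧ J2 Γ.W2 x (K * ε) := by
  choose K1 a1 b1 using fun l => J2_sp Complex.I (sh l)
  choose K2 a2 b2 using fun l => J2_sp 1 (sh l)
  have s1 : 0 ≤ ∑ l, 4 * K1 l := Finset.sum_nonneg fun l _ => by linarith [a1 l]
  have s2 : 0 ≤ ∑ l, 4 * K2 l := Finset.sum_nonneg fun l _ => by linarith [a2 l]
  refine ⟨∑ l, 4 * K1 l + ∑ l, 4 * K2 l, by positivity, fun Γ hΓ x hx ε h hε => ?_⟩
  subst hΓ
  have key : ∀ (c : ℂ) (K : J → ℝ), (∀ l, J2 (sp c (Γ.sh l)) x (K l)) →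
      J2 (fun y => (c * evn (Γ.wh (lg y)) y).re) x ((∑ l, 4 * K l) * ε) := by
    intro c K hK
    have := J2.sum (fun l => (sm_lg (Γ.amp_smooth l)).mul (sm_sp c (Γ.sh l))) hx fun l =>
      J2.mul (sm_lg (Γ.amp_smooth l)) (sm_sp c (Γ.sh l)) hx
        (J2_lg (Γ.amp_smooth l) hx (h l).1 (h l).2.1 (h l).2.2) (hK l)
    simp only [evn_wh]
    refine this.mono (le_of_eq ?_)
    rw [Finset.sum_mul]
    exact Finset.sum_congr rfl fun l _ => by ring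
  constructor
  · refine ((key _ _ fun l => b1 l x hx).congr hx fun y _ => ?_).mono (by nlinarith)
    simp [Geo.W1]
  · refine ((key _ _ fun l => b2 l x hx).congr hx fun y _ => ?_).mono (by nlinarith)
    simp [Geo.W2]

end Vale.Agent.P225.Rc
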