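import Vale.Agent.P225.RicA
import Vale.Agent.P225.RicB

/-! Nonnegativity of the Ricci curvature. -/

namespace Vale.Agent.P225

open Filter Topology

/-- the profile is exactly round to second order at `s` -/
def Geo.Round {J : Type} [Fintype J] (Γ : Geo J) (s : ℝ) : Prop :=
  Γ.u s = 0 ∧ deriv Γ.u s = 0 ∧ deriv (deriv Γ.u) s = 0 ∧
    ∀ l, Γ.amp l s = 0 ∧ deriv (Γ.amp l) s = 0 ∧ deriv (deriv (Γ.amp l)) s = 0

/-- the jets of the profile at `s` are bounded by `ε` -/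
def Geo.Small {J : Type} [Fintype J] (Γ : Geo J) (s ε : ℝ) : Prop :=
  |deriv Γ.u s| ≤ ε ∧ |deriv (deriv Γ.u) s| ≤ ε ∧
    ∀ l, |Γ.amp l s| ≤ ε ∧ |deriv (Γ.amp l) s| ≤ ε ∧ |deriv (deriv (Γ.amp l)) s| ≤ ε

namespace Rc

variable {J : Type} [Fintype J] (Γ : Geo J) {x : E 4}

noncomputable def vj (y : E 4) : VJ :=
  (Real.exp (Γ.u (lg y)), (Real.exp (Γ.u (lg y)))⁻¹, deriv Γ.u (lg y), Γ.W1 y, Γ.W2 y,
    fun m => DD (ef m) Γ.W1 y, fun m => DD (ef m) Γ.W2 y)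

noncomputable def AA (y : E 4) : ℝ := Real.exp (-Γ.φ (lg y))

noncomputable def XX (i : Fin 4) (x : E 4) : E 4 :=
  ![ef 0 x, Real.exp (Γ.u (lg x)) • (ef 1 x + Γ.W1 x • ef 3 x),
    Real.exp (Γ.u (lg x)) • (ef 2 x + Γ.W2 x • ef 3 x), (Real.exp (Γ.u (lg x)))⁻¹ ^ 2 • ef 3 x] i

lemma fr_eq (i : Fin 4) (x : E 4) : Γ.fr i x = AA Γ x • XX Γ i x := by
  have h : Real.exp (-Γ.φ (lg x) - 2 * Γ.u (lg x)) =
      Real.exp (-Γ.φ (lg x)) * (Real.exp (Γ.u (lg x)))⁻¹ ^ 2 := by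
    rw [← Real.exp_neg, sq, ← Real.exp_add, ← Real.exp_add]; congr 1; ring
  fin_cases i
  · rfl
  · simp only [Geo.fr, AA, XX, Real.exp_add, mul_smul]; rfl
  · simp only [Geo.fr, AA, XX, Real.exp_add, mul_smul]; rfl
  · simp only [Geo.fr, AA, XX, h, mul_smul]; rfl

lemma cup_eq (y : E 4) (i j k : Fin 4) :
    Γ.cup y i j k = cup0 (vj Γ y) i j k - Γ.p (lg y) * cupd i j k := by
  fin_cases i <;> fin_cases j <;> fin_cases k <;> simp [Geo.cup, cup0, vj, cupd]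
  ring

lemma cs_eq (i j k : Fin 4) (y : E 4) : Γ.cs i j k y = AA Γ y * gam (Γ.p (lg y)) (vj Γ y) i j k := by
  simp only [Geo.cs, cup_eq, AA, gam, asym]; ring

lemma om_eq (i j k : Fin 4) (y : E 4) :
    om Γ.cs i j k y = AA Γ y * omf (Γ.p (lg y)) (vj Γ y) i j k := by
  simp only [om, cs_eq, omf_eq, omJ]; ring

lemma lg_XX (hx : x ≠ 0) (i : Fin 4) : fderiv ℝ lg x (XX Γ i x) = d0 i := by
  have h : ∀ m, fderiv ℝ lg x (ef m x) = if m = 0 then 1 else 0 := DD_lg hx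
  fin_cases i <;> simp [XX, d0, h]

lemma sm_W1 : Sm Γ.W1 := fun _ hy => Γ.contDiffAt_W1 hy
lemma sm_W2 : Sm Γ.W2 := fun _ hy => Γ.contDiffAt_W2 hy

lemma cd_e : ContDiff ℝ (⊤ : ℕ∞) fun s => Real.exp (Γ.u s) := Γ.u_smooth.exp
lemma cd_ei : ContDiff ℝ (⊤ : ℕ∞) fun s => (Real.exp (Γ.u s))⁻¹ :=
  (cd_e Γ).inv fun _ => (Real.exp_pos _).ne'

lemma hasF_vj (hx : x ≠ 0) : HasFDerivAt (vj Γ)
    ((fderiv ℝ (fun y => Real.exp (Γ.u (lg y))) x).prod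
      ((fderiv ℝ (fun y => (Real.exp (Γ.u (lg y)))⁻¹) x).prod
      ((fderiv ℝ (fun y => deriv Γ.u (lg y)) x).prod ((fderiv ℝ Γ.W1 x).prod
      ((fderiv ℝ Γ.W2 x).prod
      ((ContinuousLinearMap.pi fun m => fderiv ℝ (DD (ef m) Γ.W1) x).prod
      (ContinuousLinearMap.pi fun m => fderiv ℝ (DD (ef m) Γ.W2) x))))))) x :=
  ((sm_lg (cd_e Γ)).diff hx).hasFDerivAt.prodMk (((sm_lg (cd_ei Γ)).diff hx).hasFDerivAt.prodMk
    (((sm_lg (cd_deriv Γ.u_smooth)).diff hx).hasFDerivAt.prodMk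
    (((sm_W1 Γ).diff hx).hasFDerivAt.prodMk (((sm_W2 Γ).diff hx).hasFDerivAt.prodMk
    ((hasFDerivAt_pi.2 fun m => (((sm_W1 Γ).DD m).diff hx).hasFDerivAt).prodMk
    (hasFDerivAt_pi.2 fun m => (((sm_W2 Γ).DD m).diff hx).hasFDerivAt))))))

lemma DD_om (hx : x ≠ 0) (i j k l : Fin 4) : DD (Γ.fr i) (om Γ.cs j k l) x =
    AA Γ x ^ 2 * (fderiv ℝ (om0 j k l) (vj Γ x) (fderiv ℝ (vj Γ) x (XX Γ i x)) -
      d0 i * deriv Γ.p (lg x) * omd j k l - d0 i * Γ.p (lg x) * omf (Γ.p (lg x)) (vj Γ x) j k l) := by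
  have cA : ContDiff ℝ (⊤ : ℕ∞) fun s => Real.exp (-Γ.φ s) := Γ.φ_smooth.neg.exp
  have cp : ContDiff ℝ (⊤ : ℕ∞) Γ.p := cd_deriv Γ.φ_smooth
  have hA : HasFDerivAt (AA Γ) (fderiv ℝ (fun y => Real.exp (-Γ.φ (lg y))) x) x :=
    ((sm_lg cA).diff hx).hasFDerivAt
  have hp := ((sm_lg cp).diff hx).hasFDerivAt
  have hv := (hasF_vj Γ hx).differentiableAt.hasFDerivAt
  have ho := (((contDiff_om0 j k l).differentiable (by norm_num)) (vj Γ x)).hasFDerivAt.comp x hv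
  have h := (hA.fun_mul (ho.fun_sub (hp.mul_const (omd j k l)))).fderiv
  have e : om Γ.cs j k l = fun y => AA Γ y * ((om0 j k l ∘ vj Γ) y - Γ.p (lg y) * omd j k l) :=
    funext fun y => om_eq Γ j k l y
  have dA : deriv (fun s => Real.exp (-Γ.φ s)) (lg x) = AA Γ x * -Γ.p (lg x) :=
    (((Γ.φ_smooth.differentiable (by simp)) (lg x)).hasDerivAt.neg.exp).deriv
  rw [DD, e, h, fr_eq, map_smul]
  simp only [_root_.add_apply, _root_.smul_apply, _root_.sub_apply, smul_eq_mul,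
    ContinuousLinearMap.comp_apply, fderiv_lg cA hx, fderiv_lg cp hx, lg_XX Γ hx, dA,
    Function.comp_apply, omf]
  ring

noncomputable def zj (x : E 4) : ZJ := (Γ.p (lg x), vj Γ x, fun i => fderiv ℝ (vj Γ) x (XX Γ i x))

lemma ricF_eq (hx : x ≠ 0) (j k : Fin 4) : ricF Γ.fr Γ.cs j k x =
    AA Γ x ^ 2 * (SS j k (zj Γ x) - deriv Γ.p (lg x) * TT j k) := by
  simp only [ricF, DD_om Γ hx, om_eq, cs_eq, SS, alg, TT, zj, Finset.mul_sum,
    ← Finset.sum_add_distrib, ← Finset.sum_sub_distrib]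
  refine Finset.sum_congr rfl fun i _ => ?_
  have : ∑ l, (AA Γ x * omf (Γ.p (lg x)) (vj Γ x) j k l * (AA Γ x * omf (Γ.p (lg x)) (vj Γ x) i l i) -
      AA Γ x * omf (Γ.p (lg x)) (vj Γ x) i k l * (AA Γ x * omf (Γ.p (lg x)) (vj Γ x) j l i) -
      AA Γ x * gam (Γ.p (lg x)) (vj Γ x) i j l * (AA Γ x * omf (Γ.p (lg x)) (vj Γ x) l k i)) =
      AA Γ x ^ 2 * ∑ l, (omf (Γ.p (lg x)) (vj Γ x) j k l * omf (Γ.p (lg x)) (vj Γ x) i l i -
      omf (Γ.p (lg x)) (vj Γ x) i k l * omf (Γ.p (lg x)) (vj Γ x) j l i -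
      gam (Γ.p (lg x)) (vj Γ x) i j l * omf (Γ.p (lg x)) (vj Γ x) l k i) := by
    rw [Finset.mul_sum]
    exact Finset.sum_congr rfl fun l _ => by ring
  rw [this]
  ring

lemma norm_dv (hx : x ≠ 0) {η : ℝ} (e1 : 1 / 2 ≤ Real.exp (Γ.u (lg x)))
    (e2 : Real.exp (Γ.u (lg x)) ≤ 2) (u1 : |deriv Γ.u (lg x)| ≤ η)
    (u2 : |deriv (deriv Γ.u) (lg x)| ≤ η) (w1 : J2 Γ.W1 x η) (w2 : J2 Γ.W2 x η) (hη : η ≤ 1)
    (i : Fin 4) : ‖fderiv ℝ (vj Γ) x (XX Γ i x)‖ ≤ 8 * η := by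
  have h0 : 0 ≤ η := (abs_nonneg _).trans u1
  have ep := Real.exp_pos (Γ.u (lg x))
  have e3 : (Real.exp (Γ.u (lg x)))⁻¹ ≤ 2 := by
    rw [inv_le_comm₀ ep (by norm_num)]; linarith
  have hu := ((Γ.u_smooth.differentiable (by simp)) (lg x)).hasDerivAt
  have d1 : |deriv (fun s => Real.exp (Γ.u s)) (lg x)| ≤ 2 * η := by
    rw [hu.exp.deriv]
    exact abs_mul_le (by rwa [abs_of_pos ep]) u1
  have d2 : |deriv (fun s => (Real.exp (Γ.u s))⁻¹) (lg x)| ≤ 2 * η := by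
    simp only [← Real.exp_neg]
    have h2 : deriv (fun s => Real.exp (-Γ.u s)) (lg x) = _ := hu.neg.exp.deriv
    rw [h2]
    exact abs_mul_le (by rw [abs_of_pos (Real.exp_pos _)]; simpa [Real.exp_neg] using e3)
      (by rwa [abs_neg])
  have key : ∀ m, ‖fderiv ℝ (vj Γ) x (ef m x)‖ ≤ 2 * η := by
    intro m
    rw [(hasF_vj Γ hx).fderiv]
    simp only [ContinuousLinearMap.prod_apply, norm_prod_le_iff, Real.norm_eq_abs]
    refine ⟨?_, ?_, ?_, (w1.2.1 m).trans (by linarith), (w2.2.1 m).trans (by linarith), ?_, ?_⟩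
    · exact (congrArg abs (DD_comp_lg (cd_e Γ) hx m)).trans_le (abs_ite_le d1 m)
    · exact (congrArg abs (DD_comp_lg (cd_ei Γ) hx m)).trans_le (abs_ite_le d2 m)
    · exact (congrArg abs (DD_comp_lg (cd_deriv Γ.u_smooth) hx m)).trans_le
        ((abs_ite_le u2 m).trans (by linarith))
    · exact (pi_norm_le_iff_of_nonneg (by positivity)).2 fun a => (w1.2.2 a m).trans (by linarith)
    · exact (pi_norm_le_iff_of_nonneg (by positivity)).2 fun a => (w2.2.2 a m).trans (by linarith)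
  have key2 : ∀ m (w : ℝ), |w| ≤ η → ‖fderiv ℝ (vj Γ) x
      (Real.exp (Γ.u (lg x)) • (ef m x + w • ef 3 x))‖ ≤ 8 * η := by
    intro m w hw
    rw [map_smul, map_add, map_smul, norm_smul, Real.norm_eq_abs, abs_of_pos ep]
    have a1 := norm_add_le (fderiv ℝ (vj Γ) x (ef m x)) (w • fderiv ℝ (vj Γ) x (ef 3 x))
    rw [norm_smul, Real.norm_eq_abs] at a1
    have a2 : |w| * ‖fderiv ℝ (vj Γ) x (ef 3 x)‖ ≤ 1 * (2 * η) :=
      mul_le_mul (hw.trans hη) (key 3) (norm_nonneg _) zero_le_one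
    have a3 := key m
    exact (mul_le_mul e2 (a1.trans (by linarith : _ ≤ 4 * η)) (norm_nonneg _)
      (by norm_num)).trans (by linarith)
  fin_cases i
  · exact (key 0).trans (by linarith)
  · exact key2 1 _ w1.1
  · exact key2 2 _ w2.1
  · change ‖fderiv ℝ (vj Γ) x ((Real.exp (Γ.u (lg x)))⁻¹ ^ 2 • ef 3 x)‖ ≤ _
    rw [map_smul, norm_smul, Real.norm_eq_abs, abs_of_pos (by positivity)]
    have a1 : (Real.exp (Γ.u (lg x)))⁻¹ ^ 2 ≤ 2 ^ 2 := by gcongr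
    exact (mul_le_mul a1 (key 3) (norm_nonneg _) (by norm_num)).trans (by linarith)

lemma core {M : ℝ} (hM0 : 0 ≤ M) (hM : ∀ j k, ∀ z z' : ZJ, ‖z‖ ≤ 2 → ‖z'‖ ≤ 2 →
      |SS j k z - SS j k z'| ≤ M * ‖z - z'‖) (hx : x ≠ 0) {η d r : ℝ}
    (p0 : 0 ≤ Γ.p (lg x)) (p1 : Γ.p (lg x) ≤ 1) (p2 : deriv Γ.p (lg x) ≤ 0)
    (e1 : 1 / 2 ≤ Real.exp (Γ.u (lg x)))
    (e2 : Real.exp (Γ.u (lg x)) ≤ 2) (u1 : |deriv Γ.u (lg x)| ≤ η)
    (u2 : |deriv (deriv Γ.u) (lg x)| ≤ η) (w1 : J2 Γ.W1 x η) (w2 : J2 Γ.W2 x η) (hη : 4 * η ≤ 1)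
    (hd : ∀ j, j ≠ 0 → d ≤ dgl (Γ.p (lg x)) (Real.exp (Γ.u (lg x))) j) (h1 : 48 * M * η ≤ d)
    (hr : 0 ≤ r) (h2 : r ≤ -3 * deriv Γ.p (lg x) - 70 * η ^ 2) (h3 : 384 * M ^ 2 * η ^ 2 ≤ r * d)
    (v : Fin 4 → ℝ) : 0 ≤ ∑ j, ∑ k, ricF Γ.fr Γ.cs j k x * v j * v k := by
  have h0 : 0 ≤ η := (abs_nonneg _).trans u1
  have ep := Real.exp_pos (Γ.u (lg x))
  have e3 : (Real.exp (Γ.u (lg x)))⁻¹ ≤ 2 := by
    rw [inv_le_comm₀ ep (by norm_num)]; linarith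
  have hdv := norm_dv Γ hx e1 e2 u1 u2 w1 w2 (by linarith)
  obtain ⟨e, he⟩ : ∃ e, e = Real.exp (Γ.u (lg x)) := ⟨_, rfl⟩
  have n1 : ‖zj Γ x‖ ≤ 2 := by
    simp only [zj, vj, norm_prod_le_iff, Real.norm_eq_abs]
    refine ⟨by rw [abs_of_nonneg p0]; linarith, ⟨by rwa [abs_of_pos ep],
      by rwa [abs_of_pos (inv_pos.2 ep)], by linarith, by linarith [w1.1], by linarith [w2.1],
      ?_, ?_⟩, ?_⟩
    · exact (pi_norm_le_iff_of_nonneg (by norm_num)).2 fun a => (w1.2.1 a).trans (by linarith)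
    · exact (pi_norm_le_iff_of_nonneg (by norm_num)).2 fun a => (w2.2.1 a).trans (by linarith)
    · exact (pi_norm_le_iff_of_nonneg (by norm_num)).2 fun a => (hdv a).trans (by linarith)
  have n2 : ‖((Γ.p (lg x), (e, e⁻¹, 0, 0, 0, 0, 0), 0) : ZJ)‖ ≤ 2 := by
    simp only [norm_prod_le_iff, Real.norm_eq_abs, he, norm_zero]
    exact ⟨by rw [abs_of_nonneg p0]; linarith, ⟨by rwa [abs_of_pos ep],
      by rwa [abs_of_pos (inv_pos.2 ep)], by norm_num, by norm_num, by norm_num, by norm_num,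
      by norm_num⟩, by norm_num⟩
  have n3 : ‖zj Γ x - (Γ.p (lg x), (e, e⁻¹, 0, 0, 0, 0, 0), 0)‖ ≤ 8 * η := by
    simp only [zj, vj, he, Prod.mk_sub_mk, sub_self, sub_zero, norm_prod_le_iff, Real.norm_eq_abs,
      abs_zero]
    refine ⟨by linarith, ⟨by linarith, by linarith, by linarith, by linarith [w1.1],
      by linarith [w2.1], ?_, ?_⟩, ?_⟩
    · exact (pi_norm_le_iff_of_nonneg (by linarith)).2 fun a => (w1.2.1 a).trans (by linarith)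
    · exact (pi_norm_le_iff_of_nonneg (by linarith)).2 fun a => (w2.2.1 a).trans (by linarith)
    · exact (pi_norm_le_iff_of_nonneg (by linarith)).2 hdv
  have key := psd (Rm := fun j k => SS j k (zj Γ x) - deriv Γ.p (lg x) * TT j k)
    (D := fun j => dgl (Γ.p (lg x)) e j - deriv Γ.p (lg x) * TT j j) (r := r) (d := d)
    (m := M * (8 * η)) hr (by positivity) ?_ (fun j k => ?_) (fun j hj => ?_) (by linarith)
    (by nlinarith) v
  · have e : ∑ j, ∑ k, ricF Γ.fr Γ.cs j k x * v j * v k = AA Γ x ^ 2 *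
        ∑ j, ∑ k, (SS j k (zj Γ x) - deriv Γ.p (lg x) * TT j k) * v j * v k := by
      simp only [ricF_eq Γ hx, Finset.mul_sum, mul_assoc]
    rw [e]
    exact mul_nonneg (sq_nonneg _) key
  · rw [SS_00, TT_eq]
    simp only [zj, vj, if_true]
    have a1 := sq_le_sq' (abs_le.1 u1).1 (abs_le.1 u1).2
    have a2 := sq_le_sq' (abs_le.1 (w1.2.1 0)).1 (abs_le.1 (w1.2.1 0)).2
    have a3 := sq_le_sq' (abs_le.1 (w2.2.1 0)).1 (abs_le.1 (w2.2.1 0)).2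
    have a4 : Real.exp (Γ.u (lg x)) ^ 6 ≤ 2 ^ 6 := by gcongr
    have a5 := mul_le_mul a4 (add_le_add a2 a3) (by positivity) (by norm_num)
    linarith
  · have a1 := (hM j k _ _ n1 n2).trans (mul_le_mul_of_nonneg_left n3 hM0)
    rw [SS_zero _ (he ▸ ep.ne')] at a1
    refine le_trans (le_of_eq (congrArg abs ?_)) a1
    by_cases hjk : j = k
    · subst hjk; simp
    · simp [TT_eq, hjk]
  · have := hd j hj
    rw [← he] at this
    simp only [TT_eq, if_true, if_neg hj]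
    linarith

end Rc

open Rc in
theorem ric_nonneg {δ : ℝ} (hδ : 0 < δ) : ∃ η₀ > 0, ∀ (J : Type) [Fintype J] (sh : J → R),
    ∃ C : ℝ, 1 ≤ C ∧ ∀ Γ : Geo J, Γ.sh = sh →
      (∀ s, 0 ≤ Γ.p s ∧ Γ.p s ≤ 1 ∧ deriv Γ.p s ≤ 0) →
      (∀ s, Γ.Round s ∨ ∃ ε, 0 ≤ ε ∧ C * ε ≤ 1 ∧ Γ.p s ≤ 1 - δ ∧ |Γ.u s| ≤ η₀ ∧ Γ.Small s ε ∧
        C * ε ^ 2 ≤ -deriv Γ.p s) →
      Γ.metric.RicNonneg := by
  obtain ⟨M, hM0, hM⟩ := lip
  have ev : ∀ᶠ t in 𝓝 (0 : ℝ), 1 / 2 < Real.exp t ∧ Real.exp t < 2 ∧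
      2 - δ < 4 * Real.exp t ^ 2 - 2 * Real.exp t ^ 8 ∧ 2 - δ < 2 * Real.exp t ^ 8 := by
    refine (ContinuousAt.eventually_lt (by fun_prop) (by fun_prop) (by norm_num)).and
      ((ContinuousAt.eventually_lt (by fun_prop) (by fun_prop) (by norm_num)).and
      ((ContinuousAt.eventually_lt (by fun_prop) (by fun_prop) ?_).and
      (ContinuousAt.eventually_lt (by fun_prop) (by fun_prop) ?_)))
    · simp only [Real.exp_zero]; linarith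
    · simp only [Real.exp_zero]; linarith
  obtain ⟨ρ, hρ, hev⟩ := Metric.eventually_nhds_iff.1 ev
  refine ⟨ρ / 2, by positivity, fun J _ sh => ?_⟩
  obtain ⟨K, hK0, hK⟩ := J2_W sh
  obtain ⟨L, hL⟩ : ∃ L, L = K + 1 := ⟨_, rfl⟩
  have hL1 : 1 ≤ L := by linarith
  have c1 : 0 ≤ 48 * M * L / δ := by positivity
  have c2 : 0 ≤ 192 * M ^ 2 * L ^ 2 / δ := by positivity
  have c3 : 0 ≤ 70 * L ^ 2 := by positivity
  refine ⟨70 * L ^ 2 + 4 * L + 48 * M * L / δ + 192 * M ^ 2 * L ^ 2 / δ, by linarith,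
    fun Γ hΓ hp hs x v => ?_⟩
  generalize hC : 70 * L ^ 2 + 4 * L + 48 * M * L / δ + 192 * M ^ 2 * L ^ 2 / δ = C at hs
  by_cases hx : x = 0
  · have hf : ∀ᶠ y in 𝓝 x, Γ.metric.g y = 1 := by
      rw [hx]
      filter_upwards [Metric.closedBall_mem_nhds (0 : E 4) one_pos] with y hy
      exact Γ.gm_eq_one (by simpa using hy)
    simp [ricci_eq_zero_of_flat _ hf]
  refine Γ.oframe.ric_nonneg hx (fun w => ?_) v
  obtain ⟨p0, p1, p2⟩ := hp (lg x)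
  rcases hs (lg x) with ⟨a0, a1, a2, a3⟩ | ⟨ε, b0, b1, b2, b3, ⟨a1, a2, a3⟩, b4⟩
  · obtain ⟨w1, w2⟩ := hK Γ hΓ x hx 0 (fun l => by simp [a3 l]) le_rfl
    rw [mul_zero] at w1 w2
    refine core Γ hM0 hM hx (d := 0) (r := 0) p0 p1 p2 (by rw [a0]; norm_num) (by rw [a0]; norm_num)
      (by simp [a1]) (by simp [a2]) w1 w2 (by norm_num) (fun j hj => ?_) (by simp) le_rfl
      (by linarith) (by simp) w
    have : Γ.p (lg x) ^ 2 ≤ 1 := by nlinarith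
    rw [a0]
    fin_cases j
    · exact absurd rfl hj
    all_goals simp [dgl, -sq_le_one_iff_abs_le_one]; linarith
  · obtain ⟨w1, w2⟩ := hK Γ hΓ x hx ε a3 b0
    obtain ⟨e1, e2, e3, e4⟩ := hev (y := Γ.u (lg x)) (by rw [dist_zero_right, Real.norm_eq_abs]; linarith)
    have l1 : K * ε ≤ L * ε := by gcongr; linarith
    have l2 : ε ≤ L * ε := le_mul_of_one_le_left b0 hL1
    have k1 : 4 * L * ε ≤ C * ε := by gcongr; linarith
    have k2 : 48 * M * L / δ * ε ≤ C * ε := by gcongr; linarith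
    have k3 : 70 * L ^ 2 * ε ^ 2 ≤ C * ε ^ 2 := by gcongr; linarith
    have k4 : 192 * M ^ 2 * L ^ 2 / δ * ε ^ 2 ≤ C * ε ^ 2 := by gcongr; linarith
    have hC0 : 0 ≤ C := by linarith
    refine core Γ hM0 hM hx (η := L * ε) (d := δ) (r := 2 * (C * ε ^ 2)) p0 p1 p2 e1.le e2.le
      (a1.trans l2) (a2.trans l2) (w1.mono l1) (w2.mono l1) (by linarith) (fun j hj => ?_) ?_
      (by positivity) (by nlinarith) ?_ w
    · have : Γ.p (lg x) ^ 2 ≤ 1 - δ := by nlinarith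
      fin_cases j
      · exact absurd rfl hj
      all_goals simp [dgl]; linarith
    · have := k2.trans b1
      rw [div_mul_eq_mul_div, div_le_one hδ] at this
      linarith
    · rw [div_mul_eq_mul_div, div_le_iff₀ hδ] at k4
      nlinarith

end Vale.Agent.P225
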