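import Vale.Agent.P225.Defs

/-! Completeness and a distance lower bound from a proper function with `|dF|_g ≤ 1`. -/

namespace Vale.Agent.P225

open Filter Topology

section
variable {n : ℕ} (G : RMetric n)

lemma compl_cont : Continuous fun p : E n × E n => √(G.inner p.1 p.2 p.2) := by
  have h := fun i j => (G.smooth i j).continuous
  unfold RMetric.inner
  fun_prop

lemma compl_smul (x v : E n) {t : ℝ} (ht : 0 ≤ t) :
    √(G.inner x (t • v) (t • v)) = t * √(G.inner x v v) := by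
  have : G.inner x (t • v) (t • v) = t ^ 2 * G.inner x v v := by
    simp only [RMetric.inner, Finset.mul_sum, PiLp.smul_apply, smul_eq_mul]
    exact Finset.sum_congr rfl fun i _ => Finset.sum_congr rfl fun j _ => by ring
  rw [this, Real.sqrt_mul (sq_nonneg t), Real.sqrt_sq ht]

lemma compl_pos (x : E n) {v : E n} (hv : v ≠ 0) : 0 < √(G.inner x v v) := by
  have := (G.posDef x).dotProduct_mulVec_pos (x := v.ofLp) (by simpa using hv)
  refine Real.sqrt_pos.2 (this.trans_eq ?_)
  simp only [RMetric.inner, dotProduct, Matrix.mulVec, star_trivial, Finset.mul_sum]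
  exact Finset.sum_congr rfl fun i _ => Finset.sum_congr rfl fun j _ => by ring

lemma compl_bounds {K : Set (E n)} (hK : IsCompact K) : ∃ c, 0 < c ∧ ∃ C, ∀ x ∈ K, ∀ v,
    c * ‖v‖ ≤ √(G.inner x v v) ∧ √(G.inner x v v) ≤ C * ‖v‖ := by
  have h := hK.prod (isCompact_sphere (0 : E n) 1)
  obtain ⟨c, hc, h1⟩ := h.exists_forall_le' (compl_cont G).continuousOn (a := 0) fun p hp =>
    compl_pos G _ (norm_ne_zero_iff.1 (by have := hp.2; simp_all))
  obtain ⟨C, h2⟩ := h.exists_bound_of_continuousOn (compl_cont G).continuousOn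
  refine ⟨c, hc, C, fun x hx v => ?_⟩
  rcases eq_or_ne v 0 with rfl | hv
  · simp [RMetric.inner]
  have hn := norm_pos_iff.2 hv
  have hm : (x, ‖v‖⁻¹ • v) ∈ K ×ˢ Metric.sphere (0 : E n) 1 :=
    ⟨hx, by simp [norm_smul, hn.ne']⟩
  have a1 := h1 _ hm
  have a2 := (le_abs_self _).trans (h2 _ hm)
  simp only [compl_smul G x v (inv_nonneg.2 hn.le), inv_mul_eq_div] at a1 a2
  exact ⟨(le_div_iff₀ hn).1 a1, (div_le_iff₀ hn).1 a2⟩

lemma compl_speed {c : ℝ → E n} (hc : ContDiff ℝ 1 c) :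
    Continuous fun t => √(G.inner (c t) (deriv c t) (deriv c t)) :=
  (compl_cont G).comp (hc.continuous.prodMk (hc.continuous_deriv le_rfl))

/-- a function whose derivative along the curve is bounded by the speed -/
lemma compl_ftc {V : Type} [NormedAddCommGroup V] [NormedSpace ℝ V] [CompleteSpace V]
    {c : ℝ → E n} (hc : ContDiff ℝ 1 c) {f : ℝ → V} (hf : ContDiff ℝ 1 f) {t : ℝ}
    (ht : t ∈ Set.Icc (0 : ℝ) 1)
    (h : ∀ s ∈ Set.Icc (0 : ℝ) 1, ‖deriv f s‖ ≤ √(G.inner (c s) (deriv c s) (deriv c s))) :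
    ‖f t - f 0‖ ≤ G.length c := by
  have hs := compl_speed G hc
  rw [← intervalIntegral.integral_deriv_eq_sub (fun s _ => hf.differentiable one_ne_zero s)
    ((hf.continuous_deriv le_rfl).intervalIntegrable _ _)]
  refine (intervalIntegral.norm_integral_le_of_norm_le ht.1 (MeasureTheory.ae_of_all _ fun s hs => ?_)
    (hs.intervalIntegrable _ _)).trans (intervalIntegral.integral_mono_interval le_rfl ht.1 ht.2
      (MeasureTheory.ae_of_all _ fun _ => Real.sqrt_nonneg _) (hs.intervalIntegrable _ _))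
  exact h s ⟨hs.1.le, hs.2.trans ht.2⟩

lemma compl_lip {F : E n → ℝ} (hF : ContDiff ℝ 1 F)
    (hl : ∀ x v, |fderiv ℝ F x v| ≤ √(G.inner x v v)) {c : ℝ → E n} (hc : ContDiff ℝ 1 c) {t : ℝ}
    (ht : t ∈ Set.Icc (0 : ℝ) 1) : |F (c t) - F (c 0)| ≤ G.length c :=
  compl_ftc G hc (f := F ∘ c) (hF.comp hc) ht fun s _ => by
    rw [((hF.differentiable one_ne_zero (c s)).hasFDerivAt.comp_hasDerivAt s
      (hc.differentiable one_ne_zero s).hasDerivAt).deriv]
    exact hl _ _

lemma compl_seg (x y : E n) : ContDiff ℝ 1 fun t : ℝ => x + t • (y - x) := by fun_prop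

lemma compl_ne (x y : E n) :
    {L | ∃ c : ℝ → E n, ContDiff ℝ 1 c ∧ c 0 = x ∧ c 1 = y ∧ L = G.length c}.Nonempty :=
  ⟨_, _, compl_seg x y, by simp, by simp, rfl⟩

lemma compl_len (c : ℝ → E n) : 0 ≤ G.length c :=
  intervalIntegral.integral_nonneg zero_le_one fun _ _ => Real.sqrt_nonneg _

end

theorem dist_ge_of_lip {n : ℕ} (G : RMetric n) {F : E n → ℝ} (hF : ContDiff ℝ 1 F)
    (hl : ∀ x v, |fderiv ℝ F x v| ≤ √(G.inner x v v)) (x y : E n) :
    |F y - F x| ≤ G.dist x y := by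
  refine le_csInf (compl_ne G x y) ?_
  rintro _ ⟨c, hc, rfl, rfl, rfl⟩
  exact compl_lip G hF hl hc ⟨zero_le_one, le_rfl⟩

theorem dist_nonneg' {n : ℕ} (G : RMetric n) (x y : E n) : 0 ≤ G.dist x y := by
  refine le_csInf (compl_ne G x y) ?_
  rintro _ ⟨c, -, -, -, rfl⟩
  exact compl_len G c

theorem complete_of_proper {n : ℕ} (G : RMetric n) {F : E n → ℝ} (hF : ContDiff ℝ 1 F)
    (hl : ∀ x v, |fderiv ℝ F x v| ≤ √(G.inner x v v))
    (hp : ∀ C : ℝ, ∃ R : ℝ, ∀ x, F x ≤ C → ‖x‖ ≤ R) : G.Complete := by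
  intro a ha
  obtain ⟨N, hN⟩ := ha 1 one_pos
  obtain ⟨R, hR⟩ := hp (F (a N) + 2)
  obtain ⟨c0, hc0, C1, hb⟩ := compl_bounds G (isCompact_closedBall (0 : E n) R)
  have h1 : ∀ p ≥ N, F (a p) ≤ F (a N) + 1 := fun p hp => by
    have := (abs_le.1 (dist_ge_of_lip G hF hl (a N) (a p))).2
    have := hN N le_rfl p hp
    linarith
  have hc : CauchySeq a := by
    refine Metric.cauchySeq_iff.2 fun ε hε => ?_
    obtain ⟨M, hM⟩ := ha (min 1 (c0 * ε)) (by positivity)
    refine ⟨max M N, fun p hp q hq => ?_⟩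
    obtain ⟨_, ⟨c, hc, e0, e1, rfl⟩, hL⟩ := exists_lt_of_csInf_lt (compl_ne G (a q) (a p))
      (hM q (le_of_max_le_left hq) p (le_of_max_le_left hp))
    have h2 := compl_ftc G hc (f := fun s => c0 • c s) (by fun_prop) ⟨zero_le_one, le_rfl⟩
      fun s hs => by
        rw [deriv_fun_const_smul _ (hc.differentiable one_ne_zero s), norm_smul,
          Real.norm_of_nonneg hc0.le]
        refine (hb _ (mem_closedBall_zero_iff.2 (hR _ ?_)) _).1
        have := (abs_le.1 (compl_lip G hF hl hc hs)).2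
        have := h1 q (le_of_max_le_right hq)
        have := hL.trans_le (min_le_left _ _)
        rw [e0] at *
        linarith
    rw [← smul_sub, norm_smul, Real.norm_of_nonneg hc0.le, e0, e1, ← dist_eq_norm] at h2
    exact lt_of_mul_lt_mul_left (h2.trans_lt (hL.trans_le (min_le_right _ _))) hc0.le
  obtain ⟨x, hx⟩ := cauchySeq_tendsto_of_complete hc
  have hm : ∀ p ≥ N, a p ∈ Metric.closedBall (0 : E n) R := fun p hp =>
    mem_closedBall_zero_iff.2 (hR _ (by linarith [h1 p hp]))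
  have hxm : x ∈ Metric.closedBall (0 : E n) R :=
    Metric.isClosed_closedBall.mem_of_tendsto hx (eventually_atTop.2 ⟨N, hm⟩)
  refine ⟨x, squeeze_zero' (Eventually.of_forall fun p => dist_nonneg' G _ _)
    (g := fun p => C1 * ‖x - a p‖) (eventually_atTop.2 ⟨N, fun p hp => ?_⟩) ?_⟩
  · refine le_trans (b := G.length fun t : ℝ => a p + t • (x - a p))
      (csInf_le ⟨0, ?_⟩ ⟨_, compl_seg (a p) x, by simp, by simp, rfl⟩) ?_
    · rintro _ ⟨c, -, -, -, rfl⟩
      exact compl_len G c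
    refine (intervalIntegral.integral_mono_on zero_le_one
      ((compl_speed G (compl_seg (a p) x)).intervalIntegrable _ _)
      (intervalIntegrable_const (c := C1 * ‖x - a p‖)) fun t ht => ?_).trans (by simp)
    have e : deriv (fun t : ℝ => a p + t • (x - a p)) t = x - a p := by
      simpa using (((hasDerivAt_id t).smul_const (x - a p)).const_add (a p)).deriv
    rw [e]
    exact (hb _ ((convex_closedBall _ _).add_smul_sub_mem (hm p hp) hxm ht) _).2
  · simpa using ((hx.const_sub x).norm).const_mul C1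

end Vale.Agent.P225
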