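import Vale.Agent.P225.Geo
import Vale.Agent.P225.Compl

/-! Completeness of the metric and the radial distance bound. -/

namespace Vale.Agent.P225

open Filter Topology

namespace Geo

variable {J : Type} [Fintype J] (Γ : Geo J)

open Classical in
/-- the square of the radial function -/
noncomputable def rad2 (x : E 4) : ℝ := if x = 0 then 0 else Real.exp (2 * Γ.φ (lg x))

lemma rad2_nonneg (x : E 4) : 0 ≤ Γ.rad2 x := by
  unfold rad2; split_ifs <;> positivity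

lemma rad2_ne {x : E 4} (hx : x ≠ 0) : Γ.rad2 =ᶠ[𝓝 x] fun y => Real.exp (2 * Γ.φ (lg y)) := by
  filter_upwards [isOpen_ne.mem_nhds hx] with y hy using if_neg hy

lemma rad2_zero : Γ.rad2 =ᶠ[𝓝 0] fun y => ‖y‖ ^ 2 := by
  filter_upwards [Metric.ball_mem_nhds (0 : E 4) one_pos] with y hy
  rcases eq_or_ne y 0 with rfl | h
  · simp [rad2]
  · rw [rad2, if_neg h, lg, Γ.φ_neg _ (Real.log_nonpos (norm_nonneg _) (mem_ball_zero_iff.1 hy).le),
      show 2 * Real.log ‖y‖ = (2 : ℕ) * Real.log ‖y‖ by norm_num, Real.exp_nat_mul,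
      Real.exp_log (norm_pos_iff.2 h)]

lemma rad2_smooth : ContDiff ℝ 1 Γ.rad2 := by
  refine contDiff_iff_contDiffAt.2 fun x => ?_
  rcases eq_or_ne x 0 with rfl | h
  · exact (contDiff_norm_sq ℝ).contDiffAt.congr_of_eventuallyEq Γ.rad2_zero
  · exact (((contDiffAt_const.mul (Γ.φ_smooth.contDiffAt.comp x (contDiffAt_lg h))).exp).of_le
      (by norm_cast)).congr_of_eventuallyEq (Γ.rad2_ne h)

lemma rad_smooth : ContDiff ℝ 1 fun x => √(1 + Γ.rad2 x) :=
  (contDiff_const.add Γ.rad2_smooth).sqrt fun x => by have := Γ.rad2_nonneg x; positivity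

lemma rad_lip (hp : ∀ s, 1 / 2 ≤ Γ.p s ∧ Γ.p s ≤ 1) (x v : E 4) :
    |fderiv ℝ (fun x => √(1 + Γ.rad2 x)) x v| ≤ √(Γ.metric.inner x v v) := by
  have h0 : 1 + Γ.rad2 x ≠ 0 := by have := Γ.rad2_nonneg x; positivity
  rcases eq_or_ne x 0 with rfl | h
  · have h1 := ((hasStrictFDerivAt_norm_sq (0 : E 4)).hasFDerivAt.congr_of_eventuallyEq
      Γ.rad2_zero).const_add 1
    rw [(h1.sqrt h0).fderiv]
    simp
  have hn := norm_pos_iff.2 h
  have hl : HasFDerivAt lg ((‖x‖ ^ 2)⁻¹ • innerSL ℝ x) x := by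
    have := ((hasStrictFDerivAt_norm_sq x).hasFDerivAt.log (by positivity)).const_mul (1 / 2)
    refine (this.congr_of_eventuallyEq (Eventually.of_forall fun y => ?_)).congr_fderiv ?_
    · simp [lg]
    · ext w; simp; ring
  have h1 := (((((Γ.φ_smooth.differentiable (by simp) (lg x)).hasDerivAt.comp_hasFDerivAt x
    hl).const_mul 2).exp).congr_of_eventuallyEq (Γ.rad2_ne h)).const_add 1
  rw [(h1.sqrt h0).fderiv]
  have e : Γ.metric.inner x v v = ∑ k, (∑ a, Γ.cof k x a * v a) ^ 2 := by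
    simp only [RMetric.inner, metric, gm, if_neg h, Matrix.of_apply, Fin.sum_univ_four]
    ring
  have e0 : ∑ a, Γ.cof 0 x a * v a = Real.exp (Γ.φ (lg x)) / ‖x‖ ^ 2 * inner ℝ x v := by
    simp [cof, ef, Fin.sum_univ_four, PiLp.inner_apply]; ring
  refine le_trans ?_ (Real.abs_le_sqrt (e ▸ e0 ▸ Finset.single_le_sum
    (f := fun k => (∑ a, Γ.cof k x a * v a) ^ 2) (fun _ _ => sq_nonneg _) (Finset.mem_univ 0)))
  have hs : Real.exp (Γ.φ (lg x)) ≤ √(1 + Γ.rad2 x) := by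
    refine Real.le_sqrt_of_sq_le ?_
    rw [rad2, if_neg h, ← Real.exp_nat_mul]; simp
  have hE := Real.exp_pos (Γ.φ (lg x))
  have hq := hE.trans_le hs
  have e2 : Real.exp (2 * Γ.φ (lg x)) = Real.exp (Γ.φ (lg x)) * Real.exp (Γ.φ (lg x)) := by
    rw [← Real.exp_add, two_mul]
  have e3 : ((1 / (2 * √(1 + Γ.rad2 x))) • Real.exp (2 * (Γ.φ ∘ lg) x) •
      (2 : ℝ) • deriv Γ.φ (lg x) • (‖x‖ ^ 2)⁻¹ • innerSL ℝ x) v =
      (Γ.p (lg x) * (Real.exp (Γ.φ (lg x)) / √(1 + Γ.rad2 x))) *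
        (Real.exp (Γ.φ (lg x)) / ‖x‖ ^ 2 * inner ℝ x v) := by
    simp only [smul_apply, smul_eq_mul, innerSL_apply_apply, Function.comp, e2, p]
    field_simp
  rw [e3, abs_mul]
  refine mul_le_of_le_one_left (abs_nonneg _) ?_
  have := hp (lg x)
  rw [abs_of_nonneg (mul_nonneg (by linarith) (by positivity))]
  exact mul_le_one₀ this.2 (by positivity) ((div_le_one hq).2 hs)

lemma exp_le_rad {x : E 4} (hx : x ≠ 0) : Real.exp (Γ.φ (lg x)) ≤ √(1 + Γ.rad2 x) := by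
  refine Real.le_sqrt_of_sq_le ?_
  rw [rad2, if_neg hx, ← Real.exp_nat_mul]; simp

theorem complete (hp : ∀ s, 1 / 2 ≤ Γ.p s ∧ Γ.p s ≤ 1) : Γ.metric.Complete := by
  refine complete_of_proper _ Γ.rad_smooth (Γ.rad_lip hp) fun C => ⟨max 1 (C ^ 2), fun x hx => ?_⟩
  rcases le_total ‖x‖ 1 with h | h
  · exact le_max_of_le_left h
  have h0 : x ≠ 0 := norm_pos_iff.1 (one_pos.trans_le h)
  have h1 := mul_sub_le_image_sub_of_le_deriv (Γ.φ_smooth.differentiable (by simp))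
    (fun s => (hp s).1) (Real.log_nonneg h)
  rw [Γ.φ_neg 0 le_rfl] at h1
  refine le_max_of_le_right (le_trans ?_
    (pow_le_pow_left₀ (Real.exp_pos _).le ((Γ.exp_le_rad h0).trans hx) 2))
  rw [← Real.exp_nat_mul, ← Real.exp_log (norm_pos_iff.2 h0)]
  exact Real.exp_le_exp.2 (by unfold lg; push_cast; linarith)

theorem exp_le_dist (hp : ∀ s, 1 / 2 ≤ Γ.p s ∧ Γ.p s ≤ 1) {x : E 4} (hx : x ≠ 0) :
    Real.exp (Γ.φ (lg x)) ≤ 1 + Γ.metric.dist 0 x := by
  have h := (abs_le.1 (dist_ge_of_lip _ Γ.rad_smooth (Γ.rad_lip hp) 0 x)).2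
  have := Γ.exp_le_rad hx
  simp only [rad2, if_true, add_zero, Real.sqrt_one] at h this
  linarith

end Geo

end Vale.Agent.P225
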