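import Vale.Agent.P225.Lapl
import Vale.Agent.P225.Band
import Vale.Agent.P225.GeoC

/-! From solutions of the mode system to harmonic functions. -/

namespace Vale.Agent.P225

/-- perturbation matrix of the mode system -/
noncomputable def Geo.Qmat {J : Type} [Fintype J] (Γ : Geo J) (D n : ℕ) (s : ℝ) (j i : ℕ × ℕ) : ℝ :=
  -(Real.exp (2 * Γ.u s) *
    mat D n (fun P => Q1 (Γ.wh s) P + Q2 (Γ.wh s) (Γ.wh s) P) j i)

/-- a solution of the mode system in type `n` with growth `e^{(k+1) φ}` -/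
structure Sol {J : Type} [Fintype J] (Γ : Geo J) (D n k B : ℕ) where
  w : ℕ × ℕ → ℝ → ℝ
  w1 : ℕ × ℕ → ℝ → ℝ
  c : ℕ × ℕ → ℝ
  hw : ∀ i s, HasDerivAt (w i) (w1 i s) s
  hw1 : ∀ i s, HasDerivAt (w1 i)
    ((lam (Γ.u s) (dg n i) (ch n i) + Γ.V s) * w i s - ∑ j ∈ box B i, Γ.Qmat D n s i j * w j s) s
  neg : ∀ i s, s ≤ 0 → w i s = c i * Real.exp (((dg n i : ℝ) + 1) * s)
  bd : ∀ r : ℝ, ∃ A : ℝ, ∀ i s, |s| ≤ r → |w i s| ≤ A / 100 ^ dg n i ∧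
    |w1 i s| ≤ A * ((dg n i : ℝ) + 1) / 100 ^ dg n i
  gr : ∃ A : ℝ, ∀ i s, 0 ≤ s → |w i s| ≤ A * Real.exp (((k : ℝ) + 1) * Γ.φ s) / 100 ^ dg n i

/-- the function attached to a solution -/
noncomputable def Sol.fn {J : Type} [Fintype J] {Γ : Geo J} {D n k B : ℕ} (w : Sol Γ D n k B)
    (x : E 4) : ℂ := ∑' i : ℕ × ℕ, Γ.term (w.w i) (Vh D n i) x

end Vale.Agent.P225
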