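import Vale.Agent.P225.Hex
import Vale.Agent.P225.FPDefs
import Vale.Agent.P225.SolDefs
import Vale.Agent.P225.Ric

/-! The concrete profile functions. -/

namespace Vale.Agent.P225

open Filter Topology Set

/-- index set of the connection shapes -/
abbrev JJ (S : Sched) (St : Static S) := Fin S.nK × ((Fin St.N × alw S.D) ⊕ S.band)

noncomputable def shp (S : Sched) (St : Static S) : JJ S St → R
  | (κ, .inl (a, p)) => mm * St.gw κ p a
  | (κ, .inr n) => mm * St.gb κ n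

/-- static parameters -/
structure Par where
  S : Sched
  St : Static S
  Γ : ℝ
  B : ℕ
  CB : ℝ
  hΓ : 1 < Γ
  hΓ2 : Γ ^ 4 ≤ 2
  hCB : 1 ≤ CB
  hB1 : ∀ l, Banded S.D (Q1 (shp S St l)) B CB
  hB2 : ∀ l l', Banded S.D (Q2 (shp S St l) (shp S St l')) B CB

namespace Par
variable (P : Par)
abbrev LT := ↥P.S.LL
noncomputable def mu0 (κ : Fin P.S.nK) : ℝ :=
  muI (P.St.pinf ^ 2) (P.S.t0 κ) (P.S.dl κ) (P.S.el κ)
noncomputable def cD (κ : Fin P.S.nK) : ℝ :=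
  -(4 * P.mu0 κ / (XX (P.S.t0 κ) * ((P.S.eh κ : ℝ) ^ 2 - (P.S.el κ : ℝ) ^ 2)))
/-- the mode of the swapped pair that is faster at the window anisotropy -/
noncomputable def fast (κ : Fin P.S.nK) (n : ℕ) : ℕ × ℕ :=
  if fm (P.St.t2 κ) (P.S.dl κ) (P.S.el κ) < fm (P.St.t2 κ) (P.S.dl κ + 1) (P.S.eh κ)
  then P.S.hi κ n else P.S.lo κ n
noncomputable def slow (κ : Fin P.S.nK) (n : ℕ) : ℕ × ℕ :=
  if fm (P.St.t2 κ) (P.S.dl κ) (P.S.el κ) < fm (P.St.t2 κ) (P.S.dl κ + 1) (P.S.eh κ)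
  then P.S.lo κ n else P.S.hi κ n
end Par

/-- components: a mode label and the sign (`true` growing, `false` decaying) -/
abbrev KK := (ℕ × ℕ) × Bool

structure Base (P : Par) (Kc : ℝ) where
  tm : Times
  hN : tm.N = P.St.N
  hΓ : tm.Γ = P.Γ
  hKc : 0 ≤ Kc
  hKc' : Kc / tm.T 0 ≤ del / 2
  hϑ : ∀ κ m τ, |P.cD κ * aD τ / tm.T m| ≤ P.St.ϑ

namespace Base

variable {P : Par} {Kc : ℝ} (C : Base P Kc)

noncomputable def τ (m : ℕ) (s : ℝ) : ℝ := (s - C.tm.b m 2) / C.tm.T m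

noncomputable def tinc (m : ℕ) (s : ℝ) : ℝ :=
  (P.S.t0 (P.S.kd m) - P.St.t2 (P.S.kd m)) * stp ((s - C.tm.b m 0) / C.tm.T m) +
    P.cD (P.S.kd m) * aD (C.τ m s) / C.tm.T m +
    (P.St.t2 (P.S.kd m) - P.S.t0 (P.S.kd m)) * stp ((s - C.tm.b m 9) / C.tm.T m) +
    (P.St.t2 (P.S.kd (m + 1)) - P.St.t2 (P.S.kd m)) *
      stp ((s - (C.tm.b m 10 + C.tm.N)) / C.tm.T m)

/-- the anisotropy -/
noncomputable def tt (s : ℝ) : ℝ :=
  1 + (P.St.t2 (P.S.kd 0) - 1) * stp ((s - C.tm.T 0) / C.tm.T 0) + ∑' m, C.tinc m s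
noncomputable def uu (s : ℝ) : ℝ := -Real.log (C.tt s) / 6
/-- the slope of the cone -/
noncomputable def pp (s : ℝ) : ℝ :=
  1 + stp (s / C.tm.T 0) * (P.St.pinf + Kc / (s + C.tm.T 0) - 1)
noncomputable def ph (s : ℝ) : ℝ := ∫ r in (0 : ℝ)..s, C.pp r
noncomputable def Vf (s : ℝ) : ℝ := C.pp s ^ 2 + deriv C.pp s
noncomputable def mu (d : ℕ) (e : ℤ) (s : ℝ) : ℝ := √(lam (C.uu s) d e + C.Vf s)

open Classical in
noncomputable def etaX (η : Eta P.LT KK) (n : ℕ) (i κ : ℕ × ℕ) (m : ℕ) (δ : Slot) : ℝ :=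
  if h : (n, i) ∈ P.S.LL then η ⟨(n, i), h⟩ (κ, true) m δ else 0

/-- the target for the pair of modes `p`, labels read at the start of stage `m'` -/
noncomputable def tgt (η : Eta P.LT KK) (m : ℕ) (δ : Slot) (m' : ℕ)
    (p : ℕ × (ℕ × ℕ) × (ℕ × ℕ)) : ℝ :=
  P.S.sgn p.1 m' ((P.S.perm p.1 m').symm p.2.1) * P.S.sgn p.1 m' ((P.S.perm p.1 m').symm p.2.2) *
    etaX η p.1 ((P.S.perm p.1 m').symm p.2.1) ((P.S.perm p.1 m').symm p.2.2) m δ

noncomputable def ainc (η : Eta P.LT KK) : JJ P.S P.St → ℕ → ℝ → ℝ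
  | (κ, .inl (a, p)), m, s =>
      if P.S.kd m = κ then
        tgt η m .pre m p * bmp (s - C.tm.a m - (a : ℕ)) +
          tgt η m .post (m + 1) p * bmp (s - C.tm.b m 10 - (a : ℕ))
      else 0
  | (κ, .inr n), m, s =>
      if P.S.kd m = κ then
        aB (C.τ m s) / C.tm.T m +
          tgt η m .pul (m + 1) (n, P.slow κ n, P.fast κ n) *
            bmp ((s - C.tm.b m 8) / C.tm.T m) / C.tm.T m
      else 0

noncomputable def amp (η : Eta P.LT KK) (l : JJ P.S P.St) (s : ℝ) : ℝ := ∑' m, C.ainc η l m s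

end Base

end Vale.Agent.P225
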