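import Vale.Agent.P225.Int

/-! Spatial controllability. -/

namespace Vale.Agent.P225

open MvPolynomial AlgH IntH

namespace CtrlH

/-- first part of the bilinear density -/
noncomputable def T1 (A C : R) (a b : ℝ) : R := mm * (a • (A * Lm (sg C)) - b • (Lm A * sg C))
/-- second part of the bilinear density -/
noncomputable def T2 (A C : R) (a b : ℝ) : R := mm * (a • (sg A * Lm C) - b • (Lm (sg A) * C))

theorem mat_eq {D n : ℕ} (i : ℕ × ℕ) {j : ℕ × ℕ} (hj : dg n j ≤ D) (g : R) :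
    mat D n (Q1 (mm * g)) j i = -II (g * T1 (Vh D n i) (Vh D n j) (ch n i) (ch n j)) +
      II (g * T2 (Vh D n i) (Vh D n j) (ch n i) (ch n j)) := by
  have hA : Hd (Vh D n i) = (ch n i : ℝ) • Vh D n i := ch_Hd_Vh D n i
  have hC : Hd (sg (Vh D n j)) = (-ch n j : ℝ) • sg (Vh D n j) := (ch_Hd_Vh D n j).sg sg_Hd
  rw [mat, II_Vh_one hj, div_one, II_Q1, ← II_sg (sg (mm * g) * _), hA, hC, sub_eq_add_neg,
    ← II_neg (sg _)]
  simp only [map_mul, map_add, sg_sg, sg_Lp, T1, T2, smul_eq_C_mul, map_neg,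
    show ∀ c : ℝ, sg (C c) = C c from fun c => sg.commutes c]
  congr 1
  · congr 2; ring
  · congr 1; ring

theorem mm_Lm (n : ℕ) (W : R) :
    mm * Lm (yy ^ n * W) = yy ^ n * ((n : ℝ) • (xx * xb * W) + mm * Lm W) := by
  simp only [der_mul, der_pow, Lm_yy, smul_eq_C_mul, mm]
  linear_combination (xx * xb * W) * pow_pred n yy

theorem Lm_sg (n : ℕ) (W : R) : Lm (sg (yy ^ n * W)) = yb ^ n * Lm (sg W) := by
  simp only [map_mul, map_pow, sg_yy, der_mul, der_pow, Lm_yb]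
  simp

theorem eval_sg (W : R) : eval ![1, 1, 0, 0] (sg W) = eval ![1, 1, 0, 0] W := by
  have := ev_sg (1, 0) W
  rw [ev_one, ev_one, Complex.conj_ofReal] at this
  exact_mod_cast this

theorem T_div (D n : ℕ) (i j : ℕ × ℕ) (a b : ℝ) : ∃ κ : ℝ, 0 < κ ∧ ∃ U1 U2 : R,
    T1 (Vh D n i) (Vh D n j) a b = (yy * yb) ^ n * U1 ∧ eval ![1, 1, 0, 0] U1 = -(n * b * κ) ∧
    T2 (Vh D n i) (Vh D n j) a b = (yy * yb) ^ n * U2 ∧ eval ![1, 1, 0, 0] U2 = n * a * κ := by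
  have h : ∀ i, ∃ W : R, Vh D n i = yy ^ n * W ∧ 0 < eval ![1, 1, 0, 0] W := fun i => by
    obtain ⟨W, h1, h2⟩ := VV_div n i
    exact ⟨scl D n i • W, by rw [Vh, h1, mul_smul_comm], by
      rw [smul_eval]; exact mul_pos (scl_pos D n i) h2⟩
  obtain ⟨W, h1, h2⟩ := h i
  obtain ⟨W', h1', h2'⟩ := h j
  have e0 : eval ![1, 1, 0, 0] mm = 0 := by simp [mm, xx, yy]
  have e1 : eval ![1, 1, 0, 0] (xx * xb) = 1 := by simp [xx, xb]
  refine ⟨_, mul_pos h2 h2',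
    a • (W * (mm * Lm (sg W'))) - b • (((n : ℝ) • (xx * xb * W) + mm * Lm W) * sg W'),
    a • (sg W * ((n : ℝ) • (xx * xb * W') + mm * Lm W')) - b • (mm * Lm (sg W) * W'), ?_, ?_, ?_, ?_⟩
  · have := mm_Lm n W
    rw [T1, h1, h1', Lm_sg]
    simp only [map_mul, map_pow, sg_yy, smul_eq_C_mul, mul_pow] at this ⊢
    linear_combination (-(C b * yb ^ n * sg W')) * this
  · rw [map_sub, smul_eval, smul_eval, map_mul, map_mul, map_mul, map_add, smul_eval, map_mul,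
      map_mul _ mm, e0, e1, eval_sg]
    ring
  · have := mm_Lm n W'
    rw [T2, h1, h1', Lm_sg]
    simp only [map_mul, map_pow, sg_yy, smul_eq_C_mul, mul_pow] at this ⊢
    linear_combination (C a * yb ^ n * sg W) * this
  · rw [map_sub, smul_eval, smul_eval, map_mul, map_mul, map_mul, map_add, smul_eval, map_mul,
      map_mul _ mm, e0, e1, eval_sg]
    ring

theorem ch_mm_x : Ch Tx 1 mm := by rw [Ch, Tx_mm, one_smul]
theorem ch_mm_y : Ch Ty 1 mm := by rw [Ch, Ty_mm, one_smul]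

theorem T1_x (D n : ℕ) (i j : ℕ × ℕ) (a b : ℝ) :
    Ch Tx ((ch n i - ch n j : ℤ) : ℝ) (T1 (Vh D n i) (Vh D n j) a b) := by
  have hA := ch_Tx_Vh D n i
  have hC := (ch_Tx_Vh D n j).sg sg_Tx
  exact (ch_mm_x.mul (((hA.mul (hC.lm Tx_Lm)).smul a).sub
    ((((hA.lm Tx_Lm).mul hC).cast (by ring)).smul b))).cast (by push_cast; ring)

theorem T2_x (D n : ℕ) (i j : ℕ × ℕ) (a b : ℝ) :
    Ch Tx ((ch n j - ch n i : ℤ) : ℝ) (T2 (Vh D n i) (Vh D n j) a b) := by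
  have hA := (ch_Tx_Vh D n i).sg sg_Tx
  have hC := ch_Tx_Vh D n j
  exact (ch_mm_x.mul (((hA.mul (hC.lm Tx_Lm)).smul a).sub
    ((((hA.lm Tx_Lm).mul hC).cast (by ring)).smul b))).cast (by push_cast; ring)

theorem T1_y (D n : ℕ) (i j : ℕ × ℕ) (a b : ℝ) : Ch Ty 0 (T1 (Vh D n i) (Vh D n j) a b) := by
  have hA := ch_Ty_Vh D n i
  have hC := (ch_Ty_Vh D n j).sg sg_Ty
  exact (ch_mm_y.mul (((hA.mul (hC.lm Ty_Lm)).smul a).sub
    ((((hA.lm Ty_Lm).mul hC).cast (by ring)).smul b))).cast (by ring)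

theorem T2_y (D n : ℕ) (i j : ℕ × ℕ) (a b : ℝ) : Ch Ty 0 (T2 (Vh D n i) (Vh D n j) a b) := by
  have hA := (ch_Ty_Vh D n i).sg sg_Ty
  have hC := ch_Ty_Vh D n j
  exact (ch_mm_y.mul (((hA.mul (hC.lm Ty_Lm)).smul a).sub
    ((((hA.lm Ty_Lm).mul hC).cast (by ring)).smul b))).cast (by ring)

theorem ch_zero (D : Derivation ℝ R R) (c : ℝ) : Ch D c 0 := by simp [Ch]

theorem ch_sum {D : Derivation ℝ R R} {c : ℝ} {ι : Type} (s : Finset ι) {f : ι → R}
    (h : ∀ p ∈ s, Ch D c (f p)) : Ch D c (∑ p ∈ s, f p) :=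
  Finset.sum_induction f (Ch D c) (fun _ _ => Ch.add) (ch_zero D c) h

theorem ch_ite {D : Derivation ℝ R R} {c : ℝ} {q : Prop} [Decidable q] {P : R}
    (h : q → Ch D c P) : Ch D c (if q then P else 0) := by
  split_ifs with hq
  exacts [h hq, ch_zero D c]

theorem II_ite {g P : R} {u k : ℤ} (hg : Ch Tx (-(u : ℝ)) g) (hP : Ch Tx (k : ℝ) P) :
    II (g * P) = II (g * if k = u then P else 0) := by
  split_ifs with h
  · rfl
  · rw [mul_zero, II_zero]
    refine (hg.mul hP).II_eq II_Tx fun h' => h ?_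
    have : (k : ℝ) = u := by linarith
    exact_mod_cast this

/-- the leading coefficient -/
def ph (u a b : ℤ) : ℤ := (if a - b = u then b else 0) + if b - a = u then a else 0

theorem ph_key {e e' a b : ℤ} (ha : a ^ 2 = e ^ 2) (hb : b ^ 2 = e' ^ 2) (hne : ¬ (a = e ∧ b = e'))
    (hu : e ≠ e') : e' * ph (e - e') a b - e * ph (e' - e) a b = 0 := by
  unfold ph
  rcases sq_eq_sq_iff_eq_or_eq_neg.1 ha with rfl | rfl <;>
    rcases sq_eq_sq_iff_eq_or_eq_neg.1 hb with rfl | rfl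
  · exact absurd ⟨rfl, rfl⟩ hne
  · by_cases h : a = 0
    · subst h; split_ifs <;> omega
    · rw [if_neg (by omega), if_neg (by omega), if_neg (by omega), if_neg (by omega)]; ring
  · by_cases h : b = 0
    · subst h; split_ifs <;> omega
    · rw [if_neg (by omega), if_neg (by omega), if_neg (by omega), if_neg (by omega)]; ring
  · rw [if_neg (by omega), if_pos (by omega), if_pos (by omega), if_neg (by omega)]; ring

theorem ph_self {e e' : ℤ} (hu : e ≠ e') :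
    e' * ph (e - e') e e' - e * ph (e' - e) e e' = (e' - e) * (e' + e) := by
  unfold ph
  rw [if_pos rfl, if_neg (by omega), if_neg (by omega), if_pos rfl]; ring

/-- the leading order equation at type `m` -/
theorem lead {D : ℕ} {w : ℤ} {s : Finset (ℕ × (ℕ × ℕ) × (ℕ × ℕ))}
    (hs : ∀ p ∈ s, dg p.1 p.2.2 ≤ D) {c : ℕ × (ℕ × ℕ) × (ℕ × ℕ) → ℝ}
    (h : ∀ g : R, Ty g = 0 → (Tx g = (w : ℝ) • g ∨ Tx g = (-w : ℝ) • g) →
      ∑ p ∈ s, c p * mat D p.1 (Q1 (mm * g)) p.2.2 p.2.1 = 0) :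
    ∃ κ : ℕ × (ℕ × ℕ) × (ℕ × ℕ) → ℝ, (∀ p, 0 < κ p) ∧ ∀ m : ℕ, 1 ≤ m →
      (∀ p ∈ s, p.1 < m → (ch p.1 p.2.2 - ch p.1 p.2.1 = w ∨ ch p.1 p.2.2 - ch p.1 p.2.1 = -w) →
        c p = 0) → ∀ u : ℤ, (u = w ∨ u = -w) →
      ∑ p ∈ s, (if p.1 = m then c p * κ p * ph u (ch p.1 p.2.1) (ch p.1 p.2.2) else 0) = 0 := by
  choose κ hκ U1 U2 h1 h2 h3 h4 using fun p : ℕ × (ℕ × ℕ) × (ℕ × ℕ) =>
    T_div D p.1 p.2.1 p.2.2 (ch p.1 p.2.1) (ch p.1 p.2.2)
  refine ⟨κ, hκ, fun m hm ih u hu => ?_⟩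
  let Pt : R := ∑ p ∈ s, c p • ((if ch p.1 p.2.1 - ch p.1 p.2.2 = u then
      T1 (Vh D p.1 p.2.1) (Vh D p.1 p.2.2) (ch p.1 p.2.1) (ch p.1 p.2.2) else 0) -
    if ch p.1 p.2.2 - ch p.1 p.2.1 = u then
      T2 (Vh D p.1 p.2.1) (Vh D p.1 p.2.2) (ch p.1 p.2.1) (ch p.1 p.2.2) else 0)
  have px : Ch Tx u Pt := ch_sum s fun p _ => Ch.smul (Ch.sub
    (ch_ite fun e => (T1_x _ _ _ _ _ _).cast (by rw [e]))
    (ch_ite fun e => (T2_x _ _ _ _ _ _).cast (by rw [e]))) _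
  have py : Ch Ty 0 Pt := ch_sum s fun p _ => Ch.smul (Ch.sub
    (ch_ite fun _ => T1_y _ _ _ _ _ _) (ch_ite fun _ => T2_y _ _ _ _ _ _)) _
  have gx := px.sg sg_Tx
  have gy : Ty (sg Pt) = 0 := by
    have := py.sg sg_Ty
    rwa [Ch, neg_zero, zero_smul] at this
  have e1 := h (sg Pt) gy (by
    rcases hu with rfl | rfl
    · exact Or.inr gx
    · exact Or.inl (gx.cast (by push_cast; ring)))
  have e2 : II (Pt * sg Pt) = 0 := by
    rw [← neg_eq_zero, ← e1, mul_comm]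
    conv_lhs => enter [1, 1, 2]; unfold Pt
    rw [Finset.mul_sum, II_sum, ← Finset.sum_neg_distrib]
    refine Finset.sum_congr rfl fun p hp => ?_
    rw [mat_eq _ (hs p hp), II_ite gx (T1_x _ _ _ _ _ _), II_ite gx (T2_x _ _ _ _ _ _),
      mul_smul_comm, II_smul, mul_sub, II_sub]
    ring
  let S : R := ∑ p ∈ s, c p • ((yy * yb) ^ (p.1 - m) *
    ((if ch p.1 p.2.1 - ch p.1 p.2.2 = u then U1 p else 0) -
      if ch p.1 p.2.2 - ch p.1 p.2.1 = u then U2 p else 0))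
  have hc : ∀ p ∈ s, p.1 < m → c p = 0 ∨
      (ch p.1 p.2.1 - ch p.1 p.2.2 ≠ u ∧ ch p.1 p.2.2 - ch p.1 p.2.1 ≠ u) := by
    intro p hp hlt
    by_cases e : ch p.1 p.2.2 - ch p.1 p.2.1 = w ∨ ch p.1 p.2.2 - ch p.1 p.2.1 = -w
    · exact Or.inl (ih p hp hlt e)
    · right; omega
  have e3 : Pt = (yy * yb) ^ m * S := by
    unfold Pt S
    rw [Finset.mul_sum]
    refine Finset.sum_congr rfl fun p hp => ?_
    rcases lt_or_ge p.1 m with hlt | hle
    · rcases hc p hp hlt with e | e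
      · simp [e]
      · simp [e.1, e.2]
    · rw [h1, h3, mul_smul_comm, ← mul_assoc, ← pow_add, Nat.add_sub_cancel' hle]
      split_ifs <;> simp only [mul_sub, mul_zero]
  have e4 : eval ![1, 1, 0, 0] S = 0 := eval_eq_zero fun z hz h0 => by
    have := II_sq_eq_zero e2 z hz
    rw [e3, map_mul, map_pow, map_mul, ev_yy, ev_yb] at this
    exact (mul_eq_zero.1 this).resolve_left (pow_ne_zero _ (mul_ne_zero h0 (by simpa using h0)))
  have e5 : eval ![1, 1, 0, 0] (yy * yb) = 0 := by simp [yy, yb]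
  have e6 : eval ![1, 1, 0, 0] S = -(m : ℝ) * ∑ p ∈ s,
      (if p.1 = m then c p * κ p * ph u (ch p.1 p.2.1) (ch p.1 p.2.2) else 0) := by
    unfold S
    rw [map_sum, Finset.mul_sum]
    refine Finset.sum_congr rfl fun p hp => ?_
    rw [smul_eval, map_mul, map_pow, e5, map_sub]
    rcases lt_trichotomy p.1 m with hlt | e | hlt
    · rw [if_neg hlt.ne]
      rcases hc p hp hlt with e | e
      · simp [e]
      · simp [e.1, e.2]
    · rw [if_pos e, ← e, Nat.sub_self, pow_zero, ph]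
      split_ifs <;> simp only [h2, h4, map_zero] <;> push_cast <;> ring
    · rw [if_neg hlt.ne', zero_pow (by omega)]; ring
  rw [e4] at e6
  have : (m : ℝ) ≠ 0 := by positivity
  exact (mul_eq_zero.1 e6.symm).resolve_left (neg_ne_zero.2 this)

end CtrlH

open CtrlH

/-- inside one family of multiplets the first-order matrix elements are independent -/
theorem spatial_indep (D d d' : ℕ) (Ee Ee' : ℤ) (w : ℤ) (s : Finset (ℕ × (ℕ × ℕ) × (ℕ × ℕ)))
    (hs : ∀ p ∈ s, Alw D p.1 p.2.1 p.2.2 ∧ dg p.1 p.2.1 = d ∧ dg p.1 p.2.2 = d' ∧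
      ch p.1 p.2.1 ^ 2 = Ee ∧ ch p.1 p.2.2 ^ 2 = Ee')
    (c : ℕ × (ℕ × ℕ) × (ℕ × ℕ) → ℝ)
    (h : ∀ g : R, Ty g = 0 → (Tx g = (w : ℝ) • g ∨ Tx g = (-w : ℝ) • g) →
      ∑ p ∈ s, c p * mat D p.1 (Q1 (mm * g)) p.2.2 p.2.1 = 0) :
    ∀ p ∈ s, (ch p.1 p.2.2 - ch p.1 p.2.1 = w ∨ ch p.1 p.2.2 - ch p.1 p.2.1 = -w) → c p = 0 := by
  obtain ⟨κ, hκ, hl⟩ := lead (fun p hp => (hs p hp).1.2.2.1) h
  suffices H : ∀ m, ∀ p ∈ s, p.1 = m →
      (ch p.1 p.2.2 - ch p.1 p.2.1 = w ∨ ch p.1 p.2.2 - ch p.1 p.2.1 = -w) → c p = 0 from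
    fun p hp => H _ p hp rfl
  intro m
  induction m using Nat.strong_induction_on with
  | _ m ih =>
    rintro ⟨n, i, j⟩ hp rfl hw
    obtain ⟨⟨a1, a2, a3, -, a5, a6⟩, b1, b2, b3, b4⟩ := hs _ hp
    simp only at a1 a2 a3 a5 a6 b1 b2 b3 b4 hw ih ⊢
    have hl' := hl n a1 fun p hp hlt => ih _ hlt p hp rfl
    have hsame : ∀ p ∈ s, p.1 = n → ch p.1 p.2.1 = ch n i → ch p.1 p.2.2 = ch n j →
        p = (n, i, j) := by
      rintro ⟨n', i', j'⟩ hp' rfl e1 e2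
      obtain ⟨-, c1, c2, -⟩ := hs _ hp'
      simp only at e1 e2 c1 c2
      rw [mode_ext (c1.trans b1.symm) e1, mode_ext (c2.trans b2.symm) e2]
    have k0 := (hκ (n, i, j)).ne'
    by_cases hu : ch n i = ch n j
    · have e1 := hl' 0 (by omega)
      rw [Finset.sum_eq_single_of_mem _ hp] at e1
      · rw [if_pos rfl, ph] at e1
        simp only [hu, sub_self, if_true] at e1
        have : ((ch n j + ch n j : ℤ) : ℝ) ≠ 0 := by exact_mod_cast (show _ ≠ (0 : ℤ) by omega)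
        exact (mul_eq_zero.1 ((mul_eq_zero.1 e1).resolve_right this)).resolve_right k0
      · intro p hp' hne
        refine if_neg fun e => hne (hsame p hp' e ?_ ?_)
        · obtain ⟨⟨-, d2, -⟩, -, -, c3, -⟩ := hs _ hp'
          rw [e] at d2 c3 ⊢
          exact (sq_eq_sq_iff_eq_or_eq_neg.1 (c3.trans b3.symm)).resolve_right (a6 hu.symm _ d2)
        · obtain ⟨⟨-, -, d3, -⟩, -, -, -, c4⟩ := hs _ hp'
          rw [e] at d3 c4 ⊢
          exact (sq_eq_sq_iff_eq_or_eq_neg.1 (c4.trans b4.symm)).resolve_right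
            (hu ▸ a6 hu.symm _ d3)
    · have e1 := hl' (ch n i - ch n j) (by omega)
      have e2 := hl' (ch n j - ch n i) (by omega)
      have e3 : ∑ p ∈ s, (if p.1 = n then c p * κ p *
          ((ch n j * ph (ch n i - ch n j) (ch p.1 p.2.1) (ch p.1 p.2.2) -
            ch n i * ph (ch n j - ch n i) (ch p.1 p.2.1) (ch p.1 p.2.2) : ℤ) : ℝ) else 0) = 0 := by
        have := congrArg₂ (fun x y => (ch n j : ℝ) * x - (ch n i : ℝ) * y) e1 e2
        simp only [Finset.mul_sum, ← Finset.sum_sub_distrib, mul_zero, sub_zero] at this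
        refine Eq.trans (Finset.sum_congr rfl fun p _ => ?_) this
        split_ifs
        · push_cast; ring
        · ring
      rw [Finset.sum_eq_single_of_mem _ hp] at e3
      · rw [if_pos rfl, ph_self hu] at e3
        have : (((ch n j - ch n i) * (ch n j + ch n i) : ℤ) : ℝ) ≠ 0 := by
          exact_mod_cast mul_ne_zero (show _ ≠ (0 : ℤ) by omega) (show _ ≠ (0 : ℤ) by omega)
        exact (mul_eq_zero.1 ((mul_eq_zero.1 e3).resolve_right this)).resolve_right k0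
      · intro p hp' hne
        split_ifs with e
        · obtain ⟨-, -, -, c3, c4⟩ := hs _ hp'
          rw [ph_key (c3.trans b3.symm) (c4.trans b4.symm)
            (fun e' => hne (hsame p hp' e e'.1 e'.2)) hu]
          simp
        · rfl

end Vale.Agent.P225
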