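import Mathlib

namespace Vale.Agent.P225

open Filter Topology

/-- Euclidean coordinate space, the underlying manifold. -/
abbrev E (n : ℕ) := EuclideanSpace ℝ (Fin n)

/-- Coordinate derivative. -/
noncomputable def pd {n : ℕ} (i : Fin n) (f : E n → ℝ) (x : E n) : ℝ :=
  fderiv ℝ f x (EuclideanSpace.single i 1)

/-- A smooth Riemannian metric on `ℝ^n`, given by its coefficient matrix. -/
structure RMetric (n : ℕ) where
  g : E n → Matrix (Fin n) (Fin n) ℝ
  smooth : ∀ i j, ContDiff ℝ (⊤ : ℕ∞) fun x => g x i j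
  posDef : ∀ x, (g x).PosDef

namespace RMetric

variable {n : ℕ} (G : RMetric n)

/-- Christoffel symbols `Γ^k_{ij}` of the Levi-Civita connection. -/
noncomputable def christoffel (k i j : Fin n) (x : E n) : ℝ :=
  (1 / 2) * ∑ l, (G.g x)⁻¹ k l *
    (pd i (fun y => G.g y j l) x + pd j (fun y => G.g y i l) x - pd l (fun y => G.g y i j) x)

/-- Ricci tensor `R_{ij}`. -/
noncomputable def ricci (i j : Fin n) (x : E n) : ℝ :=
  ∑ k, (pd k (G.christoffel k i j) x - pd i (G.christoffel k k j) x +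
    ∑ l, (G.christoffel k k l x * G.christoffel l i j x -
      G.christoffel k i l x * G.christoffel l k j x))

/-- Nonnegative Ricci curvature. -/
def RicNonneg : Prop :=
  ∀ (x v : E n), 0 ≤ ∑ i, ∑ j, G.ricci i j x * v i * v j

/-- The inner product of two tangent vectors at `x`. -/
noncomputable def inner (x v w : E n) : ℝ := ∑ i, ∑ j, G.g x i j * v i * w j

/-- Riemannian length of a curve on `[0,1]`. -/
noncomputable def length (c : ℝ → E n) : ℝ :=
  ∫ t in (0 : ℝ)..1, √(G.inner (c t) (deriv c t) (deriv c t))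

/-- Riemannian distance. -/
noncomputable def dist (x y : E n) : ℝ :=
  sInf {L | ∃ c : ℝ → E n, ContDiff ℝ 1 c ∧ c 0 = x ∧ c 1 = y ∧ L = G.length c}

/-- Completeness for the Riemannian distance. -/
def Complete : Prop :=
  ∀ a : ℕ → E n, (∀ ε > 0, ∃ N, ∀ p ≥ N, ∀ q ≥ N, G.dist (a p) (a q) < ε) →
    ∃ x, Tendsto (fun p => G.dist (a p) x) atTop (𝓝 0)

/-- Laplace-Beltrami operator. -/
noncomputable def laplacian (u : E n → ℝ) (x : E n) : ℝ :=
  ∑ i, ∑ j, (G.g x)⁻¹ i j * (pd i (pd j u) x - ∑ k, G.christoffel k i j x * pd k u x)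

/-- Harmonic functions of polynomial growth of degree at most `d`. -/
def PolyHarm (d : ℕ) (u : E n → ℝ) : Prop :=
  ContDiff ℝ 2 u ∧ (∀ x, G.laplacian u x = 0) ∧
    ∃ C : ℝ, ∀ x, |u x| ≤ C * (1 + G.dist 0 x) ^ d

end RMetric

end Vale.Agent.P225
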