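import Vale.Agent.P225.Frame
import Vale.Agent.P225.Alg

/-! The linear frame of `ℝ⁴ ∖ 0` and polynomial functions on spheres. -/

namespace Vale.Agent.P225

open Filter Topology

noncomputable def toC (x : E 4) : ℂ × ℂ := (⟨x 0, x 1⟩, ⟨x 2, x 3⟩)

/-- the linear fields `e₀ = x`, `e₁`, `e₂`, `e₃` -/
noncomputable def ef (i : Fin 4) (x : E 4) : E 4 :=
  ![x, !₂[-x 2, x 3, x 0, -x 1], !₂[-x 3, -x 2, x 1, x 0], !₂[-x 1, x 0, -x 3, x 2]] i

/-- logarithmic radius -/
noncomputable def lg (x : E 4) : ℝ := Real.log ‖x‖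

/-- a polynomial on the sphere, extended homogeneously of degree zero -/
noncomputable def evn (P : R) (x : E 4) : ℂ := ev (toC (‖x‖⁻¹ • x)) P

theorem norm_sq_E4 (x : E 4) : ‖x‖ ^ 2 = x 0 ^ 2 + x 1 ^ 2 + x 2 ^ 2 + x 3 ^ 2 := by
  rw [EuclideanSpace.real_norm_sq_eq, Fin.sum_univ_four]

theorem toC_mem {x : E 4} (hx : x ≠ 0) : toC (‖x‖⁻¹ • x) ∈ Sph := by
  have h : ‖x‖ ≠ 0 := norm_ne_zero_iff.2 hx
  have h2 := norm_sq_E4 x
  simp only [Sph, toC, Set.mem_ofPred_eq, Complex.normSq_mk, PiLp.smul_apply, smul_eq_mul]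
  field_simp
  linarith

theorem toC_smul (r : ℝ) (x : E 4) : toC (r • x) = r • toC x := by
  simp only [toC, PiLp.smul_apply, smul_eq_mul, Prod.smul_mk, Prod.mk.injEq]
  constructor <;> apply Complex.ext <;> simp

theorem exists_toC {z : ℂ × ℂ} (hz : z ∈ Sph) : ∃ x : E 4, ‖x‖ = 1 ∧ toC x = z := by
  refine ⟨!₂[z.1.re, z.1.im, z.2.re, z.2.im], ?_, rfl⟩
  have h : Complex.normSq z.1 + Complex.normSq z.2 = 1 := hz
  rw [Complex.normSq_apply, Complex.normSq_apply] at h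
  rw [← sq_eq_sq₀ (norm_nonneg _) zero_le_one, norm_sq_E4]
  simp
  linarith

/-- the fields as continuous linear maps -/
noncomputable def efL (i : Fin 4) : E 4 →L[ℝ] E 4 :=
  LinearMap.toContinuousLinearMap
    { toFun := ef i
      map_add' := fun x y => by
        ext a
        fin_cases i <;> fin_cases a <;> simp [ef] <;> ring
      map_smul' := fun c x => by
        ext a
        fin_cases i <;> fin_cases a <;> simp [ef] }

theorem efL_eq (i : Fin 4) : ef i = efL i := rfl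

theorem ef_smul (i : Fin 4) (c : ℝ) (x : E 4) : ef i (c • x) = c • ef i x := (efL i).map_smul c x
theorem ef_add (i : Fin 4) (x y : E 4) : ef i (x + y) = ef i x + ef i y := (efL i).map_add x y
theorem hasFDerivAt_ef (i : Fin 4) (x : E 4) : HasFDerivAt (ef i) (efL i) x := (efL i).hasFDerivAt

theorem contDiff_ef (i : Fin 4) : ContDiff ℝ (⊤ : ℕ∞) (ef i) := (efL i).contDiff

theorem ef_inner (i j : Fin 4) (x : E 4) :
    ∑ a, ef i x a * ef j x a = if i = j then ‖x‖ ^ 2 else 0 := by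
  rw [norm_sq_E4, Fin.sum_univ_four]
  fin_cases i <;> fin_cases j <;> simp [ef] <;> ring

theorem ef_complete (x : E 4) (a b : Fin 4) :
    ∑ i, ef i x a * ef i x b = if a = b then ‖x‖ ^ 2 else 0 := by
  rw [norm_sq_E4, Fin.sum_univ_four]
  fin_cases a <;> fin_cases b <;> simp [ef] <;> ring

/-- `DD F (ef j) = ef j ∘ F` since `ef j` is linear -/
theorem DD_ef (F : E 4 → E 4) (j : Fin 4) (x : E 4) : DD F (ef j) x = ef j (F x) := by
  rw [DD, (hasFDerivAt_ef j x).fderiv]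
  rfl

theorem contDiffAt_lg {x : E 4} (hx : x ≠ 0) : ContDiffAt ℝ (⊤ : ℕ∞) lg x :=
  (contDiffAt_norm ℝ hx).log (norm_ne_zero_iff.2 hx)

theorem hasFDerivAt_lg {x : E 4} (hx : x ≠ 0) :
    HasFDerivAt lg ((‖x‖ ^ 2)⁻¹ • innerSL ℝ x) x := by
  have h : ‖x‖ ^ 2 ≠ 0 := pow_ne_zero _ (norm_ne_zero_iff.2 hx)
  have h1 := (((hasStrictFDerivAt_norm_sq x).hasFDerivAt.log h).const_mul (1 / 2))
  have e : lg = fun y : E 4 => 1 / 2 * Real.log (‖y‖ ^ 2) := by
    funext y
    rw [Real.log_pow, lg]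
    push_cast
    ring
  rw [e]
  refine h1.congr_fderiv ?_
  ext v
  simp
  ring

theorem inner_ef (i : Fin 4) (x : E 4) :
    inner ℝ x (ef i x) = if i = 0 then ‖x‖ ^ 2 else 0 := by
  rw [← ef_inner i 0 x, PiLp.inner_apply]
  rfl

theorem DD_lg {x : E 4} (hx : x ≠ 0) (i : Fin 4) : DD (ef i) lg x = if i = 0 then 1 else 0 := by
  have h : ‖x‖ ^ 2 ≠ 0 := pow_ne_zero _ (norm_ne_zero_iff.2 hx)
  rw [DD, (hasFDerivAt_lg hx).fderiv, smul_apply, innerSL_apply_apply, inner_ef]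
  split_ifs
  · exact inv_mul_cancel₀ h
  · simp

/-- the complex coordinates -/
noncomputable def cv (i : Fin 4) : E 4 →L[ℝ] ℂ :=
  LinearMap.toContinuousLinearMap
    { toFun := fun x => ev (toC x) (MvPolynomial.X i)
      map_add' := fun x y => by
        fin_cases i <;> apply Complex.ext <;> simp [ev, toC] <;> ring
      map_smul' := fun c x => by
        fin_cases i <;> apply Complex.ext <;> simp [ev, toC] }

theorem cv_apply (i : Fin 4) (x : E 4) : cv i x = ev (toC x) (MvPolynomial.X i) := rfl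

theorem contDiff_ev (P : R) : ContDiff ℝ (⊤ : ℕ∞) fun x : E 4 => ev (toC x) P := by
  induction P using MvPolynomial.induction_on with
  | C c => simpa [ev] using contDiff_const
  | add P Q hP hQ => simpa only [map_add] using hP.add hQ
  | mul_X P i hP =>
    simp only [map_mul]
    exact hP.mul (cv i).contDiff

theorem fderiv_ev (D : Derivation ℝ R R) (c : ℂ) (x v : E 4)
    (h : ∀ i, cv i v = c * ev (toC x) (D (MvPolynomial.X i))) (P : R) :
    fderiv ℝ (fun x : E 4 => ev (toC x) P) x v = c * ev (toC x) (D P) := by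
  have hd : ∀ Q : R, DifferentiableAt ℝ (fun x : E 4 => ev (toC x) Q) x := fun Q =>
    (contDiff_ev Q).differentiable (by simp) x
  induction P using MvPolynomial.induction_on with
  | C a =>
    have e : (fun x : E 4 => ev (toC x) (MvPolynomial.C a)) = fun _ => (a : ℂ) := by
      funext y
      simp [ev]
    rw [e, MvPolynomial.derivation_C]
    simp
  | add P Q hP hQ =>
    simp only [map_add]
    rw [fderiv_fun_add (hd P) (hd Q), add_apply, hP, hQ, mul_add]
  | mul_X P i hP =>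
    simp only [map_mul, Derivation.leibniz, smul_eq_mul, map_add]
    rw [fderiv_fun_mul (hd P) (hd _)]
    have e : fderiv ℝ (fun x : E 4 => ev (toC x) (MvPolynomial.X i)) x = cv i := (cv i).fderiv
    simp only [add_apply, smul_apply, smul_eq_mul, hP, e, h]
    ring

theorem contDiffAt_nrmz {x : E 4} (hx : x ≠ 0) :
    ContDiffAt ℝ (⊤ : ℕ∞) (fun y : E 4 => ‖y‖⁻¹ • y) x :=
  ((contDiffAt_norm ℝ hx).inv (norm_ne_zero_iff.2 hx)).smul contDiffAt_id

theorem contDiffAt_evn (P : R) {x : E 4} (hx : x ≠ 0) : ContDiffAt ℝ (⊤ : ℕ∞) (evn P) x :=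
  (contDiff_ev P).contDiffAt.comp x (contDiffAt_nrmz hx)

theorem exp_neg_lg {x : E 4} (hx : x ≠ 0) : Real.exp (-lg x) = ‖x‖⁻¹ := by
  rw [Real.exp_neg, lg, Real.exp_log (norm_pos_iff.2 hx)]

theorem fderiv_nrmz {x : E 4} (hx : x ≠ 0) (i : Fin 4) :
    fderiv ℝ (fun y : E 4 => ‖y‖⁻¹ • y) x (ef i x) =
      if i = 0 then 0 else ef i (‖x‖⁻¹ • x) := by
  have h : ‖x‖ ^ 2 ≠ 0 := pow_ne_zero _ (norm_ne_zero_iff.2 hx)
  have h1 := ((hasFDerivAt_lg hx).neg.exp).smul (hasFDerivAt_id x)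
  have e : (fun y : E 4 => ‖y‖⁻¹ • y) =ᶠ[𝓝 x] fun y => Real.exp (-lg y) • y := by
    filter_upwards [isOpen_ne.mem_nhds hx] with y hy
    rw [exp_neg_lg hy]
  rw [(h1.congr_of_eventuallyEq e).fderiv]
  simp only [add_apply, smul_apply,
    ContinuousLinearMap.smulRight_apply, neg_apply, innerSL_apply_apply,
    inner_ef, Pi.neg_apply, exp_neg_lg hx, id, ContinuousLinearMap.id_apply, smul_eq_mul]
  split_ifs with hi
  · subst hi
    rw [inv_mul_cancel₀ h]
    simp [ef]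
  · simp [ef_smul]

theorem DD_evn (P : R) {x : E 4} (hx : x ≠ 0) (i : Fin 4) : DD (ef i) (evn P) x =
    fderiv ℝ (fun x : E 4 => ev (toC x) P) (‖x‖⁻¹ • x)
      (if i = 0 then 0 else ef i (‖x‖⁻¹ • x)) := by
  rw [← fderiv_nrmz hx]
  have := fderiv_comp x (g := fun x : E 4 => ev (toC x) P) (f := fun y : E 4 => ‖y‖⁻¹ • y)
    ((contDiff_ev P).differentiable (by simp) _) ((contDiffAt_nrmz hx).differentiableAt (by simp))
  exact congrArg (fun L : E 4 →L[ℝ] ℂ => L (ef i x)) this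

theorem DD_evn0 (P : R) {x : E 4} (hx : x ≠ 0) : DD (ef 0) (evn P) x = 0 := by
  rw [DD_evn P hx, if_pos rfl, map_zero]

theorem DD_evn1 (P : R) {x : E 4} (hx : x ≠ 0) :
    DD (ef 1) (evn P) x = evn (Lm P - Lp P) x := by
  rw [DD_evn P hx, if_neg (by decide), fderiv_ev (Lm - Lp) 1, one_mul]
  · rfl
  · intro i
    generalize ‖x‖⁻¹ • x = y
    fin_cases i <;> apply Complex.ext <;>
      simp [cv_apply, ev, toC, ef, Lm, Lp, xx, xb, yy, yb]

theorem DD_evn2 (P : R) {x : E 4} (hx : x ≠ 0) :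
    DD (ef 2) (evn P) x = Complex.I * evn (Lm P + Lp P) x := by
  rw [DD_evn P hx, if_neg (by decide), fderiv_ev (Lm + Lp) Complex.I]
  · rfl
  · intro i
    generalize ‖x‖⁻¹ • x = y
    fin_cases i <;> apply Complex.ext <;>
      simp [cv_apply, ev, toC, ef, Lm, Lp, xx, xb, yy, yb]

theorem DD_evn3 (P : R) {x : E 4} (hx : x ≠ 0) :
    DD (ef 3) (evn P) x = Complex.I * evn (Hd P) x := by
  rw [DD_evn P hx, if_neg (by decide), fderiv_ev Hd Complex.I]
  · rfl
  · intro i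
    generalize ‖x‖⁻¹ • x = y
    fin_cases i <;> apply Complex.ext <;>
      simp [cv_apply, ev, toC, ef, Hd, xx, xb, yy, yb]

theorem evn_bdd (P : R) : ∃ C : ℝ, 0 ≤ C ∧ ∀ x : E 4, x ≠ 0 → ‖evn P x‖ ≤ C := by
  obtain ⟨C, hC⟩ := (isCompact_closedBall (0 : E 4) 1).exists_bound_of_continuousOn
    (contDiff_ev P).continuous.continuousOn
  refine ⟨max C 0, le_max_right _ _, fun x hx => le_max_of_le_left (hC _ ?_)⟩
  rw [mem_closedBall_zero_iff, norm_smul, norm_inv, norm_norm,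
    inv_mul_cancel₀ (norm_ne_zero_iff.2 hx)]

end Vale.Agent.P225
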