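import Vale.Agent.P225.FPDefs

/-! The fixed point. -/

namespace Vale.Agent.P225

open Filter Topology MeasureTheory Set

theorem picard_FP {ι : Type} (w : ι → ℝ) (P : (ι → ℝ) → Prop)
    (hP : ∀ (x : ℕ → ι → ℝ) (y : ι → ℝ), (∀ n, P (x n)) →
      (∀ i, Tendsto (fun n => x n i) atTop (𝓝 (y i))) → P y)
    (T : (ι → ℝ) → ι → ℝ) (h0 : P 0) (hw : ∀ i, 0 ≤ w i)
    (hT : ∀ x, P x → (∀ i, |x i| ≤ w i) → P (T x) ∧ ∀ i, |T x i| ≤ w i)
    (hC : ∀ x y c, 0 ≤ c → P x → (∀ i, |x i| ≤ w i) → P y → (∀ i, |y i| ≤ w i) →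
      (∀ i, |x i - y i| ≤ c * w i) → ∀ i, |T x i - T y i| ≤ c / 2 * w i) :
    ∃ x, P x ∧ (∀ i, |x i| ≤ w i) ∧ T x = x := by
  let x : ℕ → ι → ℝ := fun n => T^[n] 0
  have hx : ∀ n, x (n + 1) = T (x n) := fun n => Function.iterate_succ_apply' T n 0
  have hG : ∀ n, P (x n) ∧ ∀ i, |x n i| ≤ w i := by
    intro n
    induction n with
    | zero => exact ⟨h0, fun i => by simpa [x] using hw i⟩
    | succ n ih => rw [hx]; exact hT _ ih.1 ih.2
  have hD : ∀ n i, |x n i - x (n + 1) i| ≤ (1 / 2) ^ n * w i := by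
    intro n
    induction n with
    | zero =>
      intro i
      have := (hG 1).2 i
      simpa [x] using this
    | succ n ih =>
      intro i
      have := hC _ _ _ (by positivity) (hG n).1 (hG n).2 (hG (n + 1)).1 (hG (n + 1)).2 ih i
      rw [← hx, ← hx] at this
      exact this.trans (le_of_eq (by ring))
  have hd : ∀ i n, dist (x n i) (x (n + 1) i) ≤ w i * (1 / 2) ^ n := fun i n => by
    rw [Real.dist_eq, mul_comm]; exact hD n i
  have hlim : ∀ i, ∃ y, Tendsto (fun n => x n i) atTop (𝓝 y) := fun i =>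
    cauchySeq_tendsto_of_complete
      (cauchySeq_of_le_geometric (1 / 2) (w i) (by norm_num) (hd i))
  choose y hy using hlim
  have hPy : P y := hP x y (fun n => (hG n).1) hy
  have hwy : ∀ i, |y i| ≤ w i := fun i =>
    le_of_tendsto' (hy i).abs fun n => (hG n).2 i
  have hclose : ∀ n i, |x n i - y i| ≤ (2 * (1 / 2) ^ n) * w i := fun n i => by
    have := dist_le_of_le_geometric_of_tendsto (1 / 2) (w i) (by norm_num) (hd i) (hy i) n
    rw [Real.dist_eq] at this
    exact this.trans (le_of_eq (by ring))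
  refine ⟨y, hPy, hwy, funext fun i => ?_⟩
  have h1 : Tendsto (fun n => x (n + 1) i) atTop (𝓝 (y i)) := (hy i).comp (tendsto_add_atTop_nat 1)
  have h2 : Tendsto (fun n => x (n + 1) i) atTop (𝓝 (T y i)) := by
    rw [tendsto_iff_dist_tendsto_zero]
    have h3 : Tendsto (fun n : ℕ => (2 * (1 / 2 : ℝ) ^ n) / 2 * w i) atTop (𝓝 ((2 * 0) / 2 * w i)) :=
      (((tendsto_pow_atTop_nhds_zero_of_lt_one (by norm_num) (by norm_num)).const_mul 2).div_const
        2).mul_const _
    rw [show (2 * 0 : ℝ) / 2 * w i = 0 by ring] at h3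
    refine squeeze_zero (fun n => dist_nonneg) (fun n => ?_) h3
    rw [Real.dist_eq, hx]
    exact hC _ _ _ (by positivity) (hG n).1 (hG n).2 hPy hwy (hclose n) i
  exact tendsto_nhds_unique h2 h1

namespace KData

variable {L Kk : Type} {tm : Times} {K Λ : ℝ} (X : KData L Kk tm K Λ)

theorem sint_add_FP {S S' : L → Kk → ℝ → ℝ} (h : X.SInt S) (h' : X.SInt S') : X.SInt (S + S') where
  meas l κ := (h.meas l κ).add (h'.meas l κ)
  loc l κ x y := by
    simp only [Pi.add_apply, mul_add]; exact (h.loc l κ x y).add (h'.loc l κ x y)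
  inf l κ s hU := by
    simp only [Pi.add_apply, mul_add]; exact (h.inf l κ s hU).add (h'.inf l κ s hU)
  supp l κ s hs := by simp [h.supp l κ s hs, h'.supp l κ s hs]

theorem prim_add_FP {S S' : L → Kk → ℝ → ℝ} (h : X.SInt S) (h' : X.SInt S') (l : L) (κ : Kk)
    (s : ℝ) : X.prim (S + S') l κ s = X.prim S l κ s + X.prim S' l κ s := by
  simp only [prim, Pi.add_apply, mul_add]
  exact intervalIntegral.integral_add (h.loc l κ 0 s) (h'.loc l κ 0 s)

theorem out_add_FP {S S' : L → Kk → ℝ → ℝ} (h : X.SInt S) (h' : X.SInt S') (l : L) (κ : Kk)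
    (s : ℝ) : X.out (S + S') l κ s = X.out S l κ s + X.out S' l κ s := by
  unfold out
  split_ifs with hU
  · simp only [Pi.add_apply, mul_add]
    rw [integral_add (h.inf l κ s hU) (h'.inf l κ s hU)]; ring
  · rw [X.prim_add_FP h h', X.prim_add_FP h h']; ring

theorem Phi_add_FP {S S' : L → Kk → ℝ → ℝ} (h : X.SInt S) (h' : X.SInt S') (l : L) (κ : Kk)
    (m : ℕ) (δ : Slot) : X.Phi (S + S') l κ m δ = X.Phi S l κ m δ + X.Phi S' l κ m δ := by
  unfold Phi
  rw [X.prim_add_FP h h', X.prim_add_FP h h']; ring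

theorem src_split_FP (H H' : L → ℝ → Kk → Kk → ℝ) (ρ : L → Kk → ℝ → ℝ) :
    X.src H ρ = X.src (H - H') ρ + X.src H' ρ := by
  funext l κ s
  simp only [src, Pi.add_apply, Pi.sub_apply, ← Finset.sum_add_distrib]
  exact Finset.sum_congr rfl fun _ _ => by ring

theorem src_add_FP (H : L → ℝ → Kk → Kk → ℝ) (ρ ρ' : L → Kk → ℝ → ℝ) :
    X.src H (ρ + ρ') = X.src H ρ + X.src H ρ' := by
  funext l κ s
  simp only [src, Pi.add_apply, ← Finset.sum_add_distrib]
  exact Finset.sum_congr rfl fun _ _ => by ring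

theorem wt_nonneg_FP (l : L) (κ : Kk) (s : ℝ) : 0 ≤ X.wt l κ s := by
  have := X.hΛ
  have := tm.hσ
  have := tm.sg_pos (tm.st s)
  unfold wt
  split_ifs <;> positivity

theorem wt_le_FP (l : L) (κ : Kk) (s : ℝ) : X.wt l κ s ≤ K / Λ ^ X.deg κ := by
  have := X.hΛ
  have h1 := tm.hσ
  have h2 := tm.one_le_sg (tm.st s)
  have h3 := X.hK
  unfold wt
  refine div_le_div_of_nonneg_right ?_ (by positivity)
  split_ifs
  · exact (div_le_one (by linarith)).mpr h1 |>.trans h3
  · exact (div_le_one (by positivity)).mpr (one_le_pow₀ h2) |>.trans h3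

theorem prim_a_FP {S : L → Kk → ℝ → ℝ} (h : X.SInt S) {l : L} {κ : Kk} (hC : X.cls l κ = .C)
    (hΦ : ∀ m δ, X.Act l κ m δ → X.Phi S l κ m δ = 0) (m : ℕ) : X.prim S l κ (tm.a m) = 0 := by
  have hz : ∀ m δ, (X.des l κ m).Act δ → X.prim S l κ (tm.xr m (X.des l κ m) δ) =
      X.prim S l κ (tm.xl m (X.des l κ m) δ) := fun m δ hA => by
    have := hΦ m δ ⟨hC, hA⟩
    unfold Phi at this
    exact sub_eq_zero.mp ((mul_eq_zero.mp this).resolve_left (Real.exp_pos _).ne')
  induction m with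
  | zero =>
    unfold prim
    rw [intervalIntegral.integral_of_le (tm.a_pos 0).le, integral_Ioc_eq_integral_Ioo]
    refine setIntegral_eq_zero_of_forall_eq_zero fun r hr => ?_
    rw [h.supp l κ r, mul_zero]
    rintro ⟨m, hm⟩
    have h1 : tm.a 0 ≤ tm.a m := tm.a_strictMono.monotone (Nat.zero_le m)
    have h2 := tm.a_le_b m (j := 2) (by norm_num)
    have h3 := tm.a_le_b m (j := 10) (by norm_num)
    rcases hm with hm | hm | hm <;> linarith [hm.1, hr.2]
  | succ m ih =>
    have h1 := hz m .pre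
    have h2 := hz m .post
    have h3 := hz m .pul
    rcases hd : X.des l κ m with _ | _ | _ | _ <;> rw [hd] at h1 h2 h3
    · have := h1 trivial
      simp only [Times.xr, Times.xl, reduceCtorEq, if_false] at this
      rw [this, ih]
    · have := h2 trivial
      simp only [Times.xr, Times.xl, reduceCtorEq, if_false] at this
      rw [this, ih]
    · have h4 := h1 trivial
      have h5 := h2 trivial
      simp only [Times.xr, Times.xl, if_true] at h4 h5
      rw [h5, h4, ih]
    · have := h3 trivial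
      simp only [Times.xr, Times.xl] at this
      rw [this, ih]

theorem prim_ref_FP {S : L → Kk → ℝ → ℝ} (h : X.SInt S) {l : L} {κ : Kk}
    (hΦ : ∀ m δ, X.Act l κ m δ → X.Phi S l κ m δ = 0) (s : ℝ) :
    X.prim S l κ (X.ref l κ s) = 0 := by
  unfold ref
  split_ifs with hc
  · have ha := X.prim_a_FP h hc.1 hΦ
    rcases hd : X.des l κ (tm.st s) with _ | _ | _ | _ <;> simp only [Times.refC]
    · exact ha _
    · split_ifs <;> exact ha _
    · split_ifs
      · have := hΦ (tm.st s) .pre ⟨hc.1, by rw [hd]; trivial⟩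
        unfold Phi at this
        have := sub_eq_zero.mp ((mul_eq_zero.mp this).resolve_left (Real.exp_pos _).ne')
        rw [hd] at this
        simp only [Times.xr, Times.xl, if_true] at this
        rw [this, ha]
      · exact ha _
    · split_ifs <;> exact ha _
  · simp [prim]

end KData

theorem eps_pos_FP (tm : Times) (m : ℕ) (δ : Slot) : 0 < tm.eps m δ := by
  have := tm.T_pos m
  have := tm.sg_pos m
  cases δ <;> simp only [Times.eps] <;> positivity

/-- index type of the state -/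
abbrev Ix_FP (L Kk : Type) := (L × Kk × ℝ) ⊕ (L × Kk × ℕ × Slot)

def rho_FP {L Kk : Type} (x : Ix_FP L Kk → ℝ) : L → Kk → ℝ → ℝ := fun l κ s => x (.inl (l, κ, s))
def eta_FP {L Kk : Type} (x : Ix_FP L Kk → ℝ) : Eta L Kk := fun l κ m δ => x (.inr (l, κ, m, δ))

open Classical in
theorem fp_exists {L Kk : Type} {tm : Times} {K Λ : ℝ} (X : KData L Kk tm K Λ) (hE : X.Est)
    (hσ : 8 * K ≤ tm.σ0) {H : Eta L Kk → L → ℝ → Kk → Kk → ℝ} (hH : X.Ctl H) :
    Nonempty (X.FSol H) := by
  let w : Ix_FP L Kk → ℝ := Sum.elim (fun p => X.wt p.1 p.2.1 p.2.2)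
    fun p => tm.eps p.2.2.1 p.2.2.2
  let T : (Ix_FP L Kk → ℝ) → Ix_FP L Kk → ℝ := fun x => Sum.elim
    (fun p => X.out (X.src (H (eta_FP x)) X.emain) p.1 p.2.1 p.2.2 +
      X.out (X.src (H (eta_FP x)) (rho_FP x)) p.1 p.2.1 p.2.2)
    fun p => if X.Act p.1 p.2.1 p.2.2.1 p.2.2.2 then
      eta_FP x p.1 p.2.1 p.2.2.1 p.2.2.2 -
        (X.Phi (X.src (H (eta_FP x)) X.emain) p.1 p.2.1 p.2.2.1 p.2.2.2 +
          X.Phi (X.src (H (eta_FP x)) (rho_FP x)) p.1 p.2.1 p.2.2.1 p.2.2.2) else 0
  let P : (Ix_FP L Kk → ℝ) → Prop := fun x => ∀ l κ, Measurable (rho_FP x l κ)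
  have hw : ∀ i, 0 ≤ w i := by
    rintro (p | p)
    · exact X.wt_nonneg_FP _ _ _
    · exact (eps_pos_FP tm _ _).le
  have hRB : ∀ x c, P x → (∀ i, |x i| ≤ c * w i) → X.RB (rho_FP x) c := fun x c hx hb =>
    ⟨hx, fun l κ s => hb (.inl (l, κ, s))⟩
  have hEL : ∀ x c, (∀ i, |x i| ≤ c * w i) → EtaLe tm (eta_FP x) c := fun x c hb l κ m δ =>
    hb (.inr (l, κ, m, δ))
  have hK8 : ∀ m δ, K * tm.eps m δ / tm.sg m ≤ 1 / 8 * tm.eps m δ := fun m δ => by
    rw [div_le_iff₀ (tm.sg_pos m)]
    have := eps_pos_FP tm m δ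
    have := tm.σ0_le_sg m
    nlinarith
  obtain ⟨x, hPx, hbx, hfix⟩ := picard_FP w P
    (fun x y hx hy l κ => measurable_of_tendsto_metrizable (fun n => hx n l κ)
      (tendsto_pi_nhds.mpr fun s => hy (.inl (l, κ, s)))) T (fun l κ => measurable_const) hw
    (by
      intro x hx hb
      have hρ := hRB x 1 hx (by simpa using hb)
      have hη := hEL x 1 (by simpa using hb)
      have hHb := hH.hb _ hη
      have o1 := hE.out_main _ 1 zero_le_one hHb
      have o2 := hE.out_small _ 1 _ 1 zero_le_one zero_le_one hHb hρ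
      refine ⟨fun l κ => (o1.meas l κ).add (o2.meas l κ), ?_⟩
      rintro (⟨l, κ, s⟩ | ⟨l, κ, m, δ⟩)
      · simp only [T, w, Sum.elim_inl]
        have := X.wt_nonneg_FP l κ s
        refine (abs_add_le _ _).trans ?_
        linarith [o1.bd l κ s, o2.bd l κ s]
      · simp only [T, w, Sum.elim_inr]
        have := eps_pos_FP tm m δ
        split_ifs with hA
        · have p1 := abs_le.mp (hE.phi_main _ 1 zero_le_one hHb l κ m δ hA)
          have p2 := abs_le.mp (hE.phi_small _ 1 _ 1 zero_le_one zero_le_one hHb hρ l κ m δ hA)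
          have p3 := abs_le.mp ((hH.acc _ hη l κ m δ hA).trans (hK8 m δ))
          exact abs_le.mpr ⟨by linarith, by linarith⟩
        · simpa using this.le)
    (by
      intro x y c hc hx hbx hy hby hd
      have hρ := hRB x 1 hx (by simpa using hbx)
      have hη := hEL x 1 (by simpa using hbx)
      have hρ' := hRB y 1 hy (by simpa using hby)
      have hη' := hEL y 1 (by simpa using hby)
      have hdρ : X.RB (rho_FP x - rho_FP y) c :=
        hRB (x - y) c (fun l κ => (hx l κ).sub (hy l κ)) hd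
      have hdη : EtaLe tm (eta_FP x - eta_FP y) c := hEL (x - y) c hd
      have hHb' := hH.hb _ hη'
      have hHd := hH.hb' _ _ c hc hη hη' hdη
      have i1 := hE.int_main _ c hc hHd
      have i2 := hE.int_main _ 1 zero_le_one hHb'
      have i3 := hE.int_small _ c _ 1 hc zero_le_one hHd hρ
      have i4 := hE.int_small _ 1 _ c zero_le_one hc hHb' hdρ
      have i5 := hE.int_small _ 1 _ 1 zero_le_one zero_le_one hHb' hρ'
      have s1 := X.src_split_FP (H (eta_FP x)) (H (eta_FP y)) X.emain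
      have s2 : X.src (H (eta_FP x)) (rho_FP x) = X.src (H (eta_FP x) - H (eta_FP y)) (rho_FP x) +
          (X.src (H (eta_FP y)) (rho_FP x - rho_FP y) + X.src (H (eta_FP y)) (rho_FP y)) := by
        rw [← X.src_add_FP, sub_add_cancel]
        exact X.src_split_FP _ _ _
      rintro (⟨l, κ, s⟩ | ⟨l, κ, m, δ⟩)
      · simp only [T, w, Sum.elim_inl]
        rw [s1, s2, X.out_add_FP i1 i2, X.out_add_FP i3 (X.sint_add_FP i4 i5), X.out_add_FP i4 i5]
        have o1 := abs_le.mp ((hE.out_main _ c hc hHd).bd l κ s)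
        have o2 := abs_le.mp ((hE.out_small _ c _ 1 hc zero_le_one hHd hρ).bd l κ s)
        have o3 := abs_le.mp ((hE.out_small _ 1 _ c zero_le_one hc hHb' hdρ).bd l κ s)
        have := mul_nonneg hc (X.wt_nonneg_FP l κ s)
        exact abs_le.mpr ⟨by linarith, by linarith⟩
      · simp only [T, w, Sum.elim_inr]
        have := mul_nonneg hc (eps_pos_FP tm m δ).le
        split_ifs with hA
        · rw [s1, s2, X.Phi_add_FP i1 i2, X.Phi_add_FP i3 (X.sint_add_FP i4 i5),
            X.Phi_add_FP i4 i5]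
          have p1 := abs_le.mp (hE.phi_main _ c hc hHd l κ m δ hA)
          have p2 := abs_le.mp (hE.phi_small _ c _ 1 hc zero_le_one hHd hρ l κ m δ hA)
          have p3 := abs_le.mp (hE.phi_small _ 1 _ c zero_le_one hc hHb' hdρ l κ m δ hA)
          have p4 : c * K * tm.eps m δ / tm.sg m ≤ c * (1 / 8 * tm.eps m δ) := by
            rw [mul_assoc, mul_div_assoc]
            exact mul_le_mul_of_nonneg_left (hK8 m δ) hc
          have p5 := abs_le.mp ((hH.acc' _ _ c hc hη hη' hdη l κ m δ hA).trans p4)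
          exact abs_le.mpr ⟨by linarith, by linarith⟩
        · simp only [sub_self, abs_zero]; linarith)
  have hρ := hRB x 1 hPx (by simpa using hbx)
  have hη := hEL x 1 (by simpa using hbx)
  have hHb := hH.hb _ hη
  have i1 := hE.int_main _ 1 zero_le_one hHb
  have i2 := hE.int_small _ 1 _ 1 zero_le_one zero_le_one hHb hρ
  have hS : X.SInt (X.src (H (eta_FP x)) (X.emain + rho_FP x)) := by
    rw [X.src_add_FP]; exact X.sint_add_FP i1 i2
  have hout : ∀ l κ s, rho_FP x l κ s =
      X.out (X.src (H (eta_FP x)) (X.emain + rho_FP x)) l κ s := fun l κ s => by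
    rw [X.src_add_FP, X.out_add_FP i1 i2]
    exact (congrFun hfix (.inl (l, κ, s))).symm
  have hΦ : ∀ l κ m δ, X.Act l κ m δ →
      X.Phi (X.src (H (eta_FP x)) (X.emain + rho_FP x)) l κ m δ = 0 := fun l κ m δ hA => by
    rw [X.src_add_FP, X.Phi_add_FP i1 i2]
    have := congrFun hfix (.inr (l, κ, m, δ))
    simp only [T, Sum.elim_inr, if_pos hA] at this
    have e : eta_FP x l κ m δ = x (.inr (l, κ, m, δ)) := rfl
    linarith
  refine ⟨⟨eta_FP x, X.emain + rho_FP x, fun l κ => if κ = X.main l then 1 else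
    if X.cls l κ = .U then -∫ r in Ioi 0, Real.exp (-X.Pi l κ r) *
      X.src (H (eta_FP x)) (X.emain + rho_FP x) l κ r else 0, hη, ?_, hS, ?_, ?_, ?_⟩⟩
  · intro l κ s
    have h1 := (hρ.bd l κ s).trans ((one_mul _).le.trans (X.wt_le_FP l κ s))
    have hΛ : 0 < Λ ^ X.deg κ := pow_pos (by linarith [X.hΛ]) _
    have h2 : |X.emain l κ s| ≤ K / Λ ^ X.deg κ := by
      unfold KData.emain
      split_ifs with hm
      · rw [abs_one, le_div_iff₀ hΛ, one_mul, hm]; exact X.main_deg l
      · rw [abs_zero]; exact div_nonneg (by linarith [X.hK]) hΛ.le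
    simp only [Pi.add_apply]
    refine (abs_add_le _ _).trans ?_
    rw [mul_div_assoc]; linarith
  · intro l κ s
    rw [Pi.add_apply, Pi.add_apply, Pi.add_apply, hout l κ s]
    by_cases hm : κ = X.main l
    · have hZ : X.cls l κ = .Z := by rw [hm]; exact X.main_Z l
      have hD := (X.kZ l κ hZ).1
      have hPi : X.Pi l κ s = 0 := by simp [KData.Pi, hD]
      unfold KData.out
      rw [if_neg (by rw [hZ]; simp), X.prim_ref_FP hS (hΦ l κ), if_pos hm, hPi]
      simp [KData.emain, hm]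
    · have he : X.emain l κ s = 0 := by simp [KData.emain, hm]
      rw [if_neg hm, he, zero_add]
      unfold KData.out
      split_ifs with hU
      · unfold KData.prim
        rw [← intervalIntegral.integral_Ioi_sub_Ioi' (hS.inf l κ 0 hU) (hS.inf l κ s hU)]
        ring
      · rw [X.prim_ref_FP hS (hΦ l κ)]; ring
  · intro l; simp
  · intro l κ hm hU; simp [hm, hU]

end Vale.Agent.P225
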