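import Vale.Agent.P225.FPEstD

/-! Estimates for the Green operator. -/

namespace Vale.Agent.P225

open Filter Topology MeasureTheory Set

namespace KData

variable {L Kk : Type} {tm : Times} {K Λ : ℝ} {X : KData L Kk tm K Λ}
  {S : L → Kk → ℝ → ℝ} {l : L} {κ : Kk} {A μ : ℝ}

theorem ker_const (h : X.SB l κ (S l κ) A μ) {x y t E B : ℝ} (hB : 0 ≤ B)
    (hk : ∀ r, min x y < r → r < max x y → tm.Src r → t - X.Pi l κ r ≤ E ∧ |S l κ r| ≤ B) :
    |∫ r in x..y, Real.exp (t - X.Pi l κ r) * S l κ r| ≤ Real.exp E * B * |y - x| := by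
  refine int_const_major fun r h1 h2 => ?_
  by_cases hr : tm.Src r
  · rw [abs_mul, abs_of_pos (Real.exp_pos _)]
    exact mul_le_mul (Real.exp_le_exp.2 (hk r h1 h2 hr).1) (hk r h1 h2 hr).2 (abs_nonneg _)
      (Real.exp_pos _).le
  · rw [h.supp r hr, mul_zero, abs_zero]; positivity

theorem supp_small (h : X.SB l κ (S l κ) A μ) (hC : X.cls l κ = .C)
    (hσ : 1000 * Real.exp (E0 K) * K ^ 7 ≤ tm.σ0) {m : ℕ} {x y t : ℝ}
    (hx : tm.a m ≤ x) (hxy : x ≤ y) (hy : y ≤ tm.a (m + 1))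
    (hk : ∀ r, x < r → r < y → tm.Src r → t - X.Pi l κ r ≤ E0 K - tm.T m / K) :
    |∫ r in x..y, Real.exp (t - X.Pi l κ r) * S l κ r| ≤ A / 32 * (1 / tm.T m) := by
  have hK1 := X.hK
  have hK : 0 < K := by linarith
  have hA := h.hA
  have hμ := h.hμ
  have hT := tm.T_pos m
  have hT1 := tm.one_le_T m
  refine (ker_const h (E := E0 K - tm.T m / K) (B := A * (μ * K ^ 4 / tm.T m)) (by positivity)
    fun r h1 h2 hr => ?_).trans ?_
  · rw [min_eq_left hxy] at h1; rw [max_eq_right hxy] at h2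
    exact ⟨hk r h1 h2 hr, h.s1' (X.kC_deg l κ hC) (hx.trans h1.le) (h2.trans_le hy)⟩
  · have h1 : |y - x| ≤ 13 * K * tm.T m := by
      rw [abs_of_nonneg (sub_nonneg.2 hxy)]
      rw [tm.a_succ] at hy
      nlinarith [X.hN]
    have hE : 1 ≤ Real.exp (E0 K) := Real.one_le_exp (by unfold E0; positivity)
    have h2 : (tm.T m / K) ^ 2 / 2 ≤ Real.exp (tm.T m / K) := by
      have := Real.quadratic_le_exp_of_nonneg (show 0 ≤ tm.T m / K by positivity)
      have h' : 0 ≤ tm.T m / K := by positivity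
      linarith
    have h3 : K ≤ tm.σ0 := by
      have : K ≤ K ^ 7 := le_self_pow₀ hK1 (by norm_num)
      nlinarith [pow_pos hK 7]
    have h4 : tm.σ0 * tm.σ0 ≤ tm.T m := by
      have := tm.σ0_le_sg m
      calc _ ≤ tm.sg m * tm.sg m := mul_self_le_mul_self (by linarith [tm.hσ]) this
        _ = tm.sg m ^ 2 := by ring
        _ ≤ _ := pow_le_pow_right₀ (tm.one_le_sg _) (by norm_num)
    have h5 : 1000 * Real.exp (E0 K) * K ^ 7 * K ≤ tm.T m :=
      (mul_le_mul hσ h3 hK.le (by linarith [tm.hσ])).trans h4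
    have h6 : 416 * Real.exp (E0 K) * K ^ 6 * tm.T m ≤ Real.exp (tm.T m / K) := by
      refine le_trans ?_ h2
      rw [div_pow, div_div, le_div_iff₀ (by positivity)]
      nlinarith [mul_le_mul_of_nonneg_right h5 hT.le, show 0 < Real.exp (E0 K) * K ^ 8 * tm.T m by
        positivity]
    calc _ ≤ Real.exp (E0 K - tm.T m / K) * (A * (K * K ^ 4 / tm.T m)) * (13 * K * tm.T m) := by
          gcongr; exact h.hμ'
      _ = A / 32 * ((416 * Real.exp (E0 K) * K ^ 6 * tm.T m) / Real.exp (tm.T m / K) / tm.T m) := by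
          rw [Real.exp_sub]; field_simp; ring
      _ ≤ _ := by
          gcongr
          exact (div_le_one (Real.exp_pos _)).2 h6

theorem pul_small (h : X.SB l κ (S l κ) A μ) (hC : X.cls l κ = .C)
    (hσ : 1000 * Real.exp (E0 K) * K ^ 7 ≤ tm.σ0) {m : ℕ} (hr : X.res l κ m) {x y t : ℝ}
    (hx : tm.a m ≤ x) (hxy : x ≤ y) (hy : y ≤ tm.a (m + 1))
    (hk : ∀ r, x < r → r < y → tm.Src r → t - X.Pi l κ r ≤ E0 K)
    (hw : ∀ r, x < r → r < y → r ∉ Icc (tm.b m 8) (tm.b m 9)) :
    |∫ r in x..y, Real.exp (t - X.Pi l κ r) * S l κ r| ≤ A / 32 * (1 / tm.sg m ^ 2) := by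
  have hK1 := X.hK
  have hK : 0 < K := by linarith
  have hA := h.hA
  have hs := tm.sg_pos m
  refine (stage_res h (X.kC_deg l κ hC) hr (E := E0 K) le_rfl ⟨hx, hxy.trans hy⟩ ⟨hx.trans hxy, hy⟩
    (fun r h1 h2 => hk r (by rwa [min_eq_left hxy] at h1) (by rwa [max_eq_right hxy] at h2))
    fun r h1 h2 h3 => absurd h3
      (hw r (by rwa [min_eq_left hxy] at h1) (by rwa [max_eq_right hxy] at h2))).trans ?_
  have h6 : Real.exp (E0 K) * K ^ 6 ≤ Real.exp (E0 K) * K ^ 7 := by gcongr; norm_num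
  have h7 : 0 < Real.exp (E0 K) * K ^ 6 := by positivity
  have h8 : 256 * (Real.exp (E0 K) * K ^ 6) ≤ tm.sg m := by linarith [tm.σ0_le_sg m]
  calc _ = A / 32 * (256 * (Real.exp (E0 K) * K ^ 6) / tm.sg m / tm.sg m ^ 2) := by
        field_simp; ring
    _ ≤ _ := by gcongr; exact (div_le_one hs).2 h8

theorem phi_rest (hi : X.SInt S) (h : X.SB l κ (S l κ) A μ)
    (hσ : 1000 * Real.exp (E0 K) * K ^ 7 ≤ tm.σ0) {m : ℕ} {δ : Slot} (ha : X.Act l κ m δ) :
    |X.Phi S l κ m δ - ∫ r in tm.s0 m δ..tm.s1 m δ,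
      Real.exp (X.Pi l κ (tm.s0 m δ) - X.Pi l κ r) * S l κ r| ≤ A / 16 * tm.eps m δ := by
  have hK1 := X.hK
  have hK : 0 < K := by linarith
  have hN : (0 : ℝ) ≤ tm.N := Nat.cast_nonneg _
  obtain ⟨hC, hact⟩ := ha
  suffices H : |∫ r in tm.xl m (X.des l κ m) δ..tm.s0 m δ,
      Real.exp (X.Pi l κ (tm.s0 m δ) - X.Pi l κ r) * S l κ r| ≤ A / 32 * tm.eps m δ ∧
      |∫ r in tm.s1 m δ..tm.xr m (X.des l κ m) δ,
      Real.exp (X.Pi l κ (tm.s0 m δ) - X.Pi l κ r) * S l κ r| ≤ A / 32 * tm.eps m δ by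
    unfold Phi
    rw [hi.ker_eq, ← intervalIntegral.integral_add_adjacent_intervals (b := tm.s0 m δ)
      (h.loc _ _ _) (h.loc _ _ _), ← intervalIntegral.integral_add_adjacent_intervals
      (a := tm.s0 m δ) (b := tm.s1 m δ) (c := tm.xr m (X.des l κ m) δ) (h.loc _ _ _) (h.loc _ _ _)]
    have h1 := abs_le.1 H.1
    have h2 := abs_le.1 H.2
    rw [abs_le]; constructor <;> linarith
  have e0 := tm.a_le_b m (show (0 : ℝ) ≤ 0 by norm_num)
  have e1 := tm.b_le_b m (show (0 : ℝ) ≤ 1 by norm_num)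
  have e2 := tm.b_le_b m (show (1 : ℝ) ≤ 2 by norm_num)
  have e3 := tm.b_le_b m (show (2 : ℝ) ≤ 8 by norm_num)
  have e4 := tm.b_le_b m (show (8 : ℝ) ≤ 9 by norm_num)
  have e5 := tm.b_le_b m (show (9 : ℝ) ≤ 10 by norm_num)
  have e6 := tm.b10N_lt m
  have hE : K * (2 * K + 10) ≤ E0 K := by unfold E0; linarith
  have l1 := fun r => low1 hC m (r := r)
  have l2 := fun r => low2 hC m (r := r)
  have l12 := fun e r => low12 hC m e (r := r)
  have k1 := X.kC_1' l κ m hC
  have k2 := X.kC_2' l κ m hC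
  rw [← X.Pi_sub] at k1 k2
  have KL : ∀ {ε x y : ℝ}, tm.a m ≤ x → x ≤ y → y ≤ tm.b m 10 + tm.N →
      (∀ r, x ≤ r → r ≤ y → -(K / tm.T m) ≤ ε * X.D l κ r) →
      -(K / tm.T m) * (y - x) ≤ ε * (X.Pi l κ y - X.Pi l κ x) :=
    fun _ hxy _ hh => X.Pi_ge l κ hxy fun r hr => hh r hr.1 hr.2
  have hT := tm.T_pos m
  have tot : ∀ u, u ≤ 2 * tm.N + 10 * tm.T m → -E0 K ≤ -(K / tm.T m) * u := by
    intro u hu
    have h3 : u ≤ (2 * K + 10) * tm.T m := by nlinarith [X.hN, tm.one_le_T m]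
    have : K / tm.T m * u ≤ K / tm.T m * ((2 * K + 10) * tm.T m) := by gcongr
    have h4 : K / tm.T m * ((2 * K + 10) * tm.T m) = K * (2 * K + 10) := by field_simp
    linarith
  have pre : (X.des l κ m).s1 = 1 → ∀ r, tm.b m 0 < r → r < tm.a (m + 1) → tm.Src r →
      (∀ u, tm.b m 1 ≤ u → u ≤ r → -(K / tm.T m) ≤ 1 * X.D l κ u) →
      X.Pi l κ (tm.a m) - X.Pi l κ r ≤ E0 K - tm.T m / K := by
    intro e r h1 h2 hr hu
    rw [e] at l1 k1
    have hc := src_le_b10 (by linarith) h2 hr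
    have hb : tm.b m 1 ≤ r := by
      rcases tm.src_stage (by linarith) h2 hr with h | h | h <;> linarith [h.1, h.2]
    have a1 := KL le_rfl e0 (by linarith) fun u h h' => l1 u h (by linarith)
    have a2 := KL (by linarith) hb hc hu
    have a3 := tot (tm.b m 0 - tm.a m + (r - tm.b m 1)) (by
      simp only [Times.b] at hc ⊢; linarith)
    linarith
  cases δ
  · simp only [Times.xl, Times.xr, Times.s0, Times.s1, Times.eps]
    refine ⟨by simp; have := h.hA; positivity, ?_⟩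
    rcases hd : X.des l κ m with _ | _ | _ | _ <;> rw [hd] at hact l1 l2 l12 pre <;>
      simp only [Des.Act, Des.s1, Des.s2, forall_true_left] at hact l1 l2 l12 pre
    · rw [if_neg (by simp)]
      exact supp_small h hC hσ e0 (by linarith) le_rfl fun r h1 h2 hr => pre r h1 h2 hr
        fun u h h' => l2 u h (h'.trans (src_le_b10 (by linarith) h2 hr))
    · rw [if_pos rfl]
      exact supp_small h hC hσ e0 (by linarith) (by linarith) fun r h1 h2 hr =>
        pre r h1 (by linarith) hr fun u h h' => l1 u (by linarith) (by linarith)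
  · simp only [Times.xl, Times.xr, Times.s0, Times.s1, Times.eps]
    refine ⟨?_, supp_small h hC hσ (by linarith) e6.le le_rfl fun r h1 h2 hr =>
      absurd (src_le_b10 (by linarith) h2 hr) (not_le.2 h1)⟩
    have h9 : ∀ r, tm.a m ≤ r → r < tm.b m 10 → tm.Src r → r ≤ tm.b m 9 := fun r h1 h2 hr => by
      rcases tm.src_stage h1 (by linarith) hr with h | h | h <;> linarith [h.1, h.2]
    rcases hd : X.des l κ m with _ | _ | _ | _ <;> rw [hd] at hact l1 l2 l12 k2 <;>
      simp only [Des.Act, Des.s1, Des.s2, forall_true_left] at hact l1 l2 l12 k2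
    · rw [if_neg (by simp)]
      refine supp_small h hC hσ le_rfl (by linarith) (by linarith) fun r h1 h2 hr => ?_
      have hb := h9 r h1.le h2 hr
      have a1 := KL h1.le hb (by linarith) fun u h h' => l1 u (by linarith) h'
      have a3 := tot (tm.b m 9 - r) (by simp only [Times.b] at h1 ⊢; linarith)
      linarith
    · rw [if_pos rfl]
      exact supp_small h hC hσ (by linarith) e5 (by linarith) fun r h1 h2 hr =>
        absurd (h9 r (by linarith) h2 hr) (not_le.2 h1)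
  · simp only [Times.xl, Times.xr, Times.s0, Times.s1, Times.eps]
    have hd : X.des l κ m = .pulse := by
      rcases hd : X.des l κ m with _ | _ | _ | _ <;> rw [hd] at hact <;> simp [Des.Act] at hact ⊢
    have hr : X.res l κ m := by
      by_contra hn
      have := (X.kC_gap l κ m hC hn).1
      simp [hd] at this
    rw [hd] at l1 l2
    simp only [Des.s1, Des.s2] at l1 l2
    constructor
    · refine pul_small h hC hσ hr le_rfl (by linarith) (by linarith) (fun r h1 h2 _ => ?_)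
        fun r _ h2 h3 => by linarith [h3.1]
      have := ker_low (X := X) (l := l) (κ := κ) h1.le h2.le (by linarith)
        fun u h h' => l1 u (by linarith) (by linarith)
      linarith
    · refine pul_small h hC hσ hr (by linarith) (by linarith) le_rfl (fun r h1 h2 hs => ?_)
        fun r h1 _ h3 => by linarith [h3.2]
      have hc := src_le_b10 (by linarith) h2 hs
      have := ker_low (X := X) (l := l) (κ := κ) (x := tm.b m 8) (y := r) (by linarith)
        (by linarith) hc fun u h h' => l2 u (by linarith) (by linarith)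
      linarith

theorem phi_own (h : X.SB l κ (S l κ) A μ) {m : ℕ} {δ : Slot} (ha : X.Act l κ m δ) :
    |∫ r in tm.s0 m δ..tm.s1 m δ, Real.exp (X.Pi l κ (tm.s0 m δ) - X.Pi l κ r) * S l κ r| ≤
      Real.exp (E0 K) * A * (μ * K ^ 5) * tm.eps m δ := by
  have hK1 := X.hK
  have hK : 0 < K := by linarith
  have hA := h.hA
  have hμ := h.hμ
  have hT := tm.T_pos m
  have hs := tm.sg_pos m
  have hN : (0 : ℝ) ≤ tm.N := Nat.cast_nonneg _
  obtain ⟨hC, hact⟩ := ha
  have hd := X.kC_deg l κ hC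
  have e6 := tm.b10N_lt m
  have win : ∀ x, tm.a m ≤ x → x + tm.N < tm.a (m + 1) →
      |∫ r in x..x + tm.N, Real.exp (X.Pi l κ x - X.Pi l κ r) * S l κ r| ≤
      Real.exp (E0 K) * A * (μ * K ^ 5) * (1 / tm.T m) := by
    intro x h1 h2
    refine (ker_const h (E := E0 K) (B := A * (μ * K ^ 4 / tm.T m)) (by positivity)
      fun r h3 h4 _ => ?_).trans ?_
    · rw [min_eq_left (by linarith)] at h3; rw [max_eq_right (by linarith)] at h4
      refine ⟨?_, h.s1' hd (by linarith) (by linarith)⟩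
      have := abs_le.1 (ker_win hC h1 h3.le (by linarith) (by linarith))
      unfold E0; nlinarith
    · rw [add_sub_cancel_left, abs_of_nonneg hN]
      calc _ ≤ Real.exp (E0 K) * (A * (μ * K ^ 4 / tm.T m)) * K := by gcongr; exact X.hN
        _ = _ := by ring
  cases δ <;> simp only [Times.s0, Times.s1, Times.eps]
  · have : tm.b m 0 = tm.a m + tm.N := by simp [Times.b]
    rw [this]
    exact win _ le_rfl (by linarith [tm.a_le_b m (show (0 : ℝ) ≤ 10 by norm_num)])
  · exact win _ (tm.a_le_b m (by norm_num)) e6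
  · have hd' : X.des l κ m = .pulse := by
      rcases hd : X.des l κ m with _ | _ | _ | _ <;> rw [hd] at hact <;> simp [Des.Act] at hact ⊢
    have hr : X.res l κ m := by
      by_contra hn
      have := (X.kC_gap l κ m hC hn).1
      simp [hd'] at this
    have e3 := tm.b_le_b m (show (1 : ℝ) ≤ 8 by norm_num)
    have e4 := tm.b_le_b m (show (8 : ℝ) ≤ 9 by norm_num)
    have e5 := tm.b_le_b m (show (9 : ℝ) ≤ 10 by norm_num)
    refine (ker_const h (E := E0 K) (B := A * (μ * K ^ 4 / (tm.sg m ^ 2 * tm.T m))) (by positivity)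
      fun r h3 h4 _ => ?_).trans ?_
    · rw [min_eq_left e4] at h3; rw [max_eq_right e4] at h4
      refine ⟨?_, h.s3 m hr hd r ⟨h3.le, h4.le⟩⟩
      have := ker_low (X := X) (l := l) (κ := κ) (x := tm.b m 8) (y := r)
        (tm.a_le_b m (by norm_num)) h3.le (by linarith)
        fun u h h' => low2 hC m (r := u) (by linarith) (by linarith)
      rw [hd'] at this
      simp only [Des.s2] at this
      unfold E0; linarith
    · have : |tm.b m 9 - tm.b m 8| = tm.T m := by
        rw [abs_of_nonneg (sub_nonneg.2 e4)]; simp only [Times.b]; ring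
      rw [this]
      calc _ = Real.exp (E0 K) * A * (μ * K ^ 4) * (1 / tm.sg m ^ 2) := by field_simp
        _ ≤ _ := by gcongr; norm_num

theorem rb_out {H : L → ℝ → Kk → Kk → ℝ} {ρ : L → Kk → ℝ → ℝ} {c ν μ : ℝ} (hc : 0 ≤ c)
    (hH : X.HB H c) (hρ : X.GB ρ ν μ) (hσ : 1000 * Real.exp (E0 K) * K ^ 7 ≤ tm.σ0) :
    X.RB (X.out (X.src H ρ)) (c * ν / 8) := by
  have hi := sint_of fun l κ => X.sb_src hc hH hρ l κ
  refine ⟨hi.meas_out, fun l κ s => (out_le hi (X.sb_src hc hH hρ l κ) hσ s).trans_eq ?_⟩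
  unfold wt; ring

theorem eps_nonneg (m : ℕ) (δ : Slot) : 0 ≤ tm.eps m δ := by
  have := tm.T_pos m
  cases δ <;> simp only [Times.eps] <;> positivity

end KData

open KData in
theorem fp_est (K : ℝ) : ∃ σ : ℝ, ∀ (L Kk : Type) (tm : Times) (Λ : ℝ) (X : KData L Kk tm K Λ),
    σ ≤ tm.σ0 → X.Est := by
  refine ⟨1000 * Real.exp (E0 K) * K ^ 7, fun L Kk tm Λ X hσ => ?_⟩
  have hK1 := X.hK
  have hK : 0 < K := by linarith
  have hA : ∀ (c : ℝ) κ, 0 ≤ c → c / Λ ^ X.deg κ ≤ c := fun c κ hc =>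
    div_le_self hc (one_le_pow₀ X.hΛ)
  refine ⟨fun H c ρ c' hc hc' hH hρ => sint_of fun l κ => X.sb_src hc hH (X.gb_small hc' hρ) l κ,
    fun H c hc hH => sint_of fun l κ => X.sb_src hc hH X.gb_main l κ,
    fun H c ρ c' hc hc' hH hρ => rb_out hc hH (X.gb_small hc' hρ) hσ,
    fun H c hc hH => by simpa using rb_out hc hH X.gb_main hσ,
    fun H c ρ c' hc hc' hH hρ l κ m δ ha => ?_, fun H c hc hH l κ m δ ha => ?_⟩
  · have hs := fun l κ => X.sb_src hc hH (X.gb_small hc' hρ) l κ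
    have h1 := phi_rest (sint_of hs) (hs l κ) hσ ha
    have h2 := phi_own (hs l κ) ha
    have h3 := abs_sub_abs_le_abs_sub (X.Phi (X.src H ρ) l κ m δ) (∫ r in tm.s0 m δ..tm.s1 m δ,
      Real.exp (X.Pi l κ (tm.s0 m δ) - X.Pi l κ r) * X.src H ρ l κ r)
    have h4 := hA (c * c') κ (by positivity)
    have h5 := (hs l κ).hA
    have h6 := eps_nonneg (tm := tm) m δ
    have hσ0 : 0 < tm.σ0 := by linarith [tm.hσ]
    have h7 : Real.exp (E0 K) * (1 / tm.σ0 * K ^ 5) ≤ 1 / 16 := by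
      have : Real.exp (E0 K) * K ^ 5 ≤ Real.exp (E0 K) * K ^ 7 := by gcongr; norm_num
      have h8 : 0 < Real.exp (E0 K) * K ^ 5 := by positivity
      rw [one_div_mul_eq_div, ← mul_div_assoc, div_le_div_iff₀ hσ0 (by norm_num)]
      linarith
    set B := c * c' / Λ ^ X.deg κ
    have h8 : Real.exp (E0 K) * B * (1 / tm.σ0 * K ^ 5) * tm.eps m δ ≤ B / 16 * tm.eps m δ := by
      refine mul_le_mul_of_nonneg_right ?_ h6
      nlinarith [mul_le_mul_of_nonneg_left h7 h5]
    nlinarith [mul_le_mul_of_nonneg_right h4 h6]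
  · have hs := fun l κ => X.sb_src hc hH X.gb_main l κ
    have h1 := phi_rest (sint_of hs) (hs l κ) hσ ha
    have h2 : ∀ r, X.src H X.emain l κ r = H l r κ (X.main l) := fun r => by
      unfold src emain
      rw [Finset.sum_eq_single (X.main l) (fun b _ hb => by rw [if_neg hb, mul_zero])
        (fun h => by rw [hH.band l r κ _ h, zero_mul]), if_pos rfl, mul_one]
    simp only [h2] at h1
    have h4 := hA (c * 1) κ (by positivity)
    have h6 := eps_nonneg (tm := tm) m δ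
    unfold lin
    nlinarith [mul_le_mul_of_nonneg_right h4 h6, mul_nonneg hc h6]

end Vale.Agent.P225
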