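import Vale.Agent.P225.FPDefs

/-! Generic integral estimates. -/

namespace Vale.Agent.P225

open Filter Topology MeasureTheory Set

theorem set_major {f g : ℝ → ℝ} {A : Set ℝ} (hA : MeasurableSet A) (hg : Integrable g)
    (h0 : ∀ r, 0 ≤ g r) (h : ∀ r ∈ A, |f r| ≤ g r) : |∫ r in A, f r| ≤ ∫ r, g r := by
  rw [← Real.norm_eq_abs]
  refine le_trans (norm_integral_le_of_norm_le (g := g) hg.integrableOn ?_)
    (setIntegral_le_integral hg (Eventually.of_forall h0))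
  exact (ae_restrict_iff' hA).2 (Eventually.of_forall h)

theorem int_major {f g : ℝ → ℝ} {x y : ℝ} (hg : Integrable g) (h0 : ∀ r, 0 ≤ g r)
    (h : ∀ r, min x y < r → r < max x y → |f r| ≤ g r) : |∫ r in x..y, f r| ≤ ∫ r, g r := by
  rw [intervalIntegral.abs_integral_eq_abs_integral_uIoc, uIoc, integral_Ioc_eq_integral_Ioo]
  exact set_major measurableSet_Ioo hg h0 fun r hr => h r hr.1 hr.2

theorem expabs_aux {lam : ℝ} (hl : 0 < lam) :
    Integrable (fun r : ℝ => Real.exp (-lam * |r|)) ∧ ∫ r : ℝ, Real.exp (-lam * |r|) = 2 / lam := by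
  constructor
  · rw [← integrableOn_univ, ← Iic_union_Ioi (a := (0 : ℝ))]
    refine IntegrableOn.union ?_ ?_
    · refine (integrableOn_exp_mul_Iic hl 0).congr_fun (fun r hr => ?_) measurableSet_Iic
      simp only [abs_of_nonpos (mem_Iic.1 hr)]; congr 1; ring
    · refine (integrableOn_exp_mul_Ioi (neg_lt_zero.2 hl) 0).congr_fun (fun r hr => ?_)
        measurableSet_Ioi
      simp only [abs_of_pos (mem_Ioi.1 hr)]
  · rw [integral_comp_abs (f := fun r => Real.exp (-lam * r)),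
      integral_exp_mul_Ioi (neg_lt_zero.2 hl)]
    simp; field_simp

theorem expabs_int {lam : ℝ} (hl : 0 < lam) (B s : ℝ) :
    Integrable (fun r : ℝ => B * Real.exp (-lam * |r - s|)) ∧
      ∫ r : ℝ, B * Real.exp (-lam * |r - s|) = B * (2 / lam) := by
  obtain ⟨h1, h2⟩ := expabs_aux hl
  refine ⟨(h1.comp_sub_right s).const_mul B, ?_⟩
  rw [integral_const_mul, integral_sub_right_eq_self (fun r : ℝ => Real.exp (-lam * |r|)) s, h2]

theorem int_exp_major {f : ℝ → ℝ} {x y lam B s : ℝ} (hl : 0 < lam) (hB : 0 ≤ B)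
    (h : ∀ r, min x y < r → r < max x y → |f r| ≤ B * Real.exp (-lam * |r - s|)) :
    |∫ r in x..y, f r| ≤ B * (2 / lam) := by
  obtain ⟨h1, h2⟩ := expabs_int hl B s
  rw [← h2]
  exact int_major h1 (fun r => by positivity) h

theorem int_const_major {f : ℝ → ℝ} {x y B : ℝ}
    (h : ∀ r, min x y < r → r < max x y → |f r| ≤ B) : |∫ r in x..y, f r| ≤ B * |y - x| := by
  rw [← Real.norm_eq_abs]
  refine intervalIntegral.norm_integral_le_of_norm_le_const_ae ?_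
  have : ∀ᵐ r : ℝ, r ≠ max x y := by simp [ae_iff]
  filter_upwards [this] with r hr hr'
  exact h r hr'.1 (lt_of_le_of_ne hr'.2 hr)

namespace Times

variable (tm : Times)

/-- stage majorant -/
noncomputable def maj (m : ℕ) (B1 B2 B3 : ℝ) (r : ℝ) : ℝ :=
  (Icc (tm.a m) (tm.b m 0)).indicator (fun _ => B1) r +
  (Icc (tm.b m 2) (tm.b m 8)).indicator (fun _ => B2) r +
  (Icc (tm.b m 8) (tm.b m 9)).indicator (fun _ => B3) r +
  (Icc (tm.b m 10) (tm.b m 10 + tm.N)).indicator (fun _ => B1) r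

theorem ind_int (x y B : ℝ) (h : x ≤ y) : Integrable ((Icc x y).indicator (fun _ => B)) ∧
    ∫ r, (Icc x y).indicator (fun _ => B) r = B * (y - x) := by
  constructor
  · exact (integrable_indicator_iff measurableSet_Icc).2 (integrableOn_const (by simp))
  · rw [integral_indicator measurableSet_Icc]; simp [h, mul_comm]

theorem maj_int (m : ℕ) (B1 B2 B3 : ℝ) : Integrable (tm.maj m B1 B2 B3) ∧
    ∫ r, tm.maj m B1 B2 B3 r = 2 * tm.N * B1 + 6 * tm.T m * B2 + tm.T m * B3 := by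
  have hN : (0 : ℝ) ≤ tm.N := Nat.cast_nonneg _
  obtain ⟨a1, a2⟩ := ind_int (tm.a m) (tm.b m 0) B1 (tm.a_le_b m le_rfl)
  obtain ⟨b1, b2⟩ := ind_int (tm.b m 2) (tm.b m 8) B2 (tm.b_le_b m (by norm_num))
  obtain ⟨c1, c2⟩ := ind_int (tm.b m 8) (tm.b m 9) B3 (tm.b_le_b m (by norm_num))
  obtain ⟨d1, d2⟩ := ind_int (tm.b m 10) (tm.b m 10 + tm.N) B1 (by linarith)
  refine ⟨((a1.add b1).add c1).add d1, ?_⟩
  unfold maj
  rw [integral_add (by exact (a1.add b1).add c1) d1, integral_add (by exact a1.add b1) c1,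
    integral_add a1 b1, a2, b2, c2, d2]
  simp only [b]; ring

theorem maj_nonneg (m : ℕ) {B1 B2 B3 : ℝ} (h1 : 0 ≤ B1) (h2 : 0 ≤ B2) (h3 : 0 ≤ B3) (r : ℝ) :
    0 ≤ tm.maj m B1 B2 B3 r := by
  unfold maj
  have := indicator_nonneg (s := Icc (tm.a m) (tm.b m 0)) (f := fun _ => B1) (fun _ _ => h1) r
  have := indicator_nonneg (s := Icc (tm.b m 2) (tm.b m 8)) (f := fun _ => B2) (fun _ _ => h2) r
  have := indicator_nonneg (s := Icc (tm.b m 8) (tm.b m 9)) (f := fun _ => B3) (fun _ _ => h3) r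
  have := indicator_nonneg (s := Icc (tm.b m 10) (tm.b m 10 + tm.N)) (f := fun _ => B1)
    (fun _ _ => h1) r
  linarith

theorem b10N_lt (m : ℕ) : tm.b m 10 + tm.N < tm.a (m + 1) := by
  rw [a_succ_eq]; have := tm.b_lt_b m (show (10 : ℝ) < 11 by norm_num); linarith

theorem src_stage {m : ℕ} {r : ℝ} (h1 : tm.a m ≤ r) (h2 : r < tm.a (m + 1)) (h : tm.Src r) :
    r ∈ Icc (tm.a m) (tm.b m 0) ∨ r ∈ Icc (tm.b m 2) (tm.b m 9) ∨
      r ∈ Icc (tm.b m 10) (tm.b m 10 + tm.N) := by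
  obtain ⟨j, hj⟩ := h
  have hN : (0 : ℝ) ≤ tm.N := Nat.cast_nonneg _
  have e1 := tm.a_le_b j (show (0 : ℝ) ≤ 2 by norm_num)
  have e2 := tm.a_le_b j (show (0 : ℝ) ≤ 10 by norm_num)
  have e3 := tm.b_le_b j (show (0 : ℝ) ≤ 10 by norm_num)
  have e4 := tm.b_le_b j (show (9 : ℝ) ≤ 10 by norm_num)
  have e5 := tm.b10N_lt j
  have : tm.st r = j := by
    rcases hj with hj | hj | hj <;> exact tm.st_eq (by linarith [hj.1]) (by linarith [hj.2])
  rw [tm.st_eq h1 h2] at this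
  subst this; exact hj

theorem not_src_of_lt {r : ℝ} (h : r < tm.a 0) : ¬ tm.Src r := by
  rintro ⟨j, hj⟩
  have e0 := tm.a_strictMono.monotone (Nat.zero_le j)
  have e1 := tm.a_le_b j (show (0 : ℝ) ≤ 2 by norm_num)
  have e2 := tm.a_le_b j (show (0 : ℝ) ≤ 10 by norm_num)
  rcases hj with hj | hj | hj <;> linarith [hj.1]

theorem le_maj {m : ℕ} {B1 B2 B3 v r : ℝ} (h1 : 0 ≤ B1) (h2 : 0 ≤ B2) (h3 : 0 ≤ B3)
    (hr1 : tm.a m ≤ r) (hr2 : r < tm.a (m + 1)) (h0 : ¬ tm.Src r → v = 0) (k1 : |v| ≤ B1)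
    (k2 : r ∈ Ico (tm.b m 2) (tm.b m 8) → |v| ≤ B2)
    (k3 : r ∈ Icc (tm.b m 8) (tm.b m 9) → |v| ≤ B3) : |v| ≤ tm.maj m B1 B2 B3 r := by
  by_cases hs : tm.Src r
  swap
  · rw [h0 hs, abs_zero]; exact tm.maj_nonneg m h1 h2 h3 r
  unfold maj
  have := indicator_nonneg (s := Icc (tm.a m) (tm.b m 0)) (f := fun _ => B1) (fun _ _ => h1) r
  have := indicator_nonneg (s := Icc (tm.b m 2) (tm.b m 8)) (f := fun _ => B2) (fun _ _ => h2) r
  have := indicator_nonneg (s := Icc (tm.b m 8) (tm.b m 9)) (f := fun _ => B3) (fun _ _ => h3) r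
  have := indicator_nonneg (s := Icc (tm.b m 10) (tm.b m 10 + tm.N)) (f := fun _ => B1)
    (fun _ _ => h1) r
  rcases tm.src_stage hr1 hr2 hs with h | h | h
  · rw [indicator_of_mem h]; linarith
  · by_cases h8 : r < tm.b m 8
    · rw [indicator_of_mem (s := Icc (tm.b m 2) (tm.b m 8)) ⟨h.1, h8.le⟩]
      linarith [k2 ⟨h.1, h8⟩]
    · rw [indicator_of_mem (s := Icc (tm.b m 8) (tm.b m 9)) ⟨not_lt.1 h8, h.2⟩]
      linarith [k3 ⟨not_lt.1 h8, h.2⟩]
  · rw [indicator_of_mem h]; linarith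

theorem T_cmp_a {K : ℝ} (hK : 0 < K) (hσ : K ≤ tm.σ0) {i j : ℕ} (h : i ≤ j) :
    tm.T j ≤ tm.T i * Real.exp ((tm.a j - tm.a i) / (2 * K)) := by
  induction j, h using Nat.le_induction with
  | base => simp
  | succ j hj ih =>
    have hN : (0 : ℝ) ≤ tm.N := Nat.cast_nonneg _
    have h1 : (2 : ℝ) ≤ Real.exp ((tm.a (j + 1) - tm.a j) / (2 * K)) := by
      have := Real.add_one_le_exp ((tm.a (j + 1) - tm.a j) / (2 * K))
      have h2 : 1 ≤ (tm.a (j + 1) - tm.a j) / (2 * K) := by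
        rw [le_div_iff₀ (by positivity), a_succ]; linarith [tm.σ0_le_T j]
      linarith
    have h3 : (tm.a (j + 1) - tm.a i) / (2 * K) =
        (tm.a j - tm.a i) / (2 * K) + (tm.a (j + 1) - tm.a j) / (2 * K) := by ring
    rw [h3, Real.exp_add]
    have h4 := tm.T_pos i
    have h5 := Real.exp_pos ((tm.a j - tm.a i) / (2 * K))
    calc tm.T (j + 1) ≤ 2 * tm.T j := tm.T_succ_le j
      _ ≤ 2 * (tm.T i * Real.exp ((tm.a j - tm.a i) / (2 * K))) := by linarith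
      _ ≤ _ := by nlinarith [mul_pos h4 h5]

theorem T_cmp {K : ℝ} (hK : 0 < K) (hσ : K ≤ tm.σ0) {r s : ℝ} (h : r ≤ s) :
    tm.T (tm.st s) ≤ 2 * tm.T (tm.st r) * Real.exp ((s - r) / (2 * K)) := by
  have h1 : 1 ≤ Real.exp ((s - r) / (2 * K)) := Real.one_le_exp (by
    apply div_nonneg <;> linarith)
  have h4 := tm.T_pos (tm.st r)
  by_cases hc : tm.st s ≤ tm.st r
  · have := tm.T_mono hc; nlinarith
  · have hc' : tm.st r + 1 ≤ tm.st s := by omega
    have h2 := tm.T_cmp_a hK hσ hc'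
    have h0 : tm.a 0 ≤ s := by
      by_contra h0
      have := tm.st_of_lt ((not_le.1 h0).trans (tm.a_strictMono (show 0 < 1 by norm_num)))
      omega
    have h3 : Real.exp ((tm.a (tm.st s) - tm.a (tm.st r + 1)) / (2 * K)) ≤
        Real.exp ((s - r) / (2 * K)) := by
      apply Real.exp_le_exp.2
      apply div_le_div_of_nonneg_right _ (by positivity)
      linarith [tm.a_st_le h0, tm.lt_a_st_succ r]
    calc _ ≤ _ := h2
      _ ≤ (2 * tm.T (tm.st r)) * Real.exp ((s - r) / (2 * K)) :=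
        mul_le_mul (tm.T_succ_le _) h3 (Real.exp_pos _).le (by positivity)

theorem sum_sg {K : ℝ} (hΓ : 1 / (1 - (tm.Γ ^ 2)⁻¹) ≤ K) (m : ℕ) :
    ∑ j ∈ Finset.range m, 1 / tm.sg j ^ 2 ≤ K / tm.σ0 ^ 2 := by
  have h1 : 1 < tm.Γ ^ 2 := one_lt_pow₀ tm.hΓ (by norm_num)
  have h2 : (tm.Γ ^ 2)⁻¹ < 1 := inv_lt_one_of_one_lt₀ h1
  have h3 : (0 : ℝ) ≤ (tm.Γ ^ 2)⁻¹ := by positivity
  have hs : 0 < tm.σ0 := by linarith [tm.hσ]
  have : ∀ j, 1 / tm.sg j ^ 2 = ((tm.Γ ^ 2)⁻¹) ^ j / tm.σ0 ^ 2 := fun j => by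
    have : tm.Γ ≠ 0 := by linarith [tm.hΓ]
    simp only [sg]; field_simp; rw [one_div, inv_pow, ← pow_mul, ← pow_mul, mul_comm j 2]; field_simp
  simp_rw [this]
  rw [← Finset.sum_div]
  apply div_le_div_of_nonneg_right _ (by positivity)
  refine le_trans ?_ hΓ
  rw [one_div, ← tsum_geometric_of_lt_one h3 h2]
  exact (summable_geometric_of_lt_one h3 h2).sum_le_tsum _ (fun _ _ => by positivity)

end Times

end Vale.Agent.P225
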