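import Vale.Agent.P225.FPEstB

/-! Bounds for the Green operator. -/

namespace Vale.Agent.P225

open Filter Topology MeasureTheory Set

noncomputable def E0 (K : ℝ) : ℝ := K * (2 * K + 11)

namespace KData

variable {L Kk : Type} {tm : Times} {K Λ : ℝ} {X : KData L Kk tm K Λ}
  {S : L → Kk → ℝ → ℝ} {l : L} {κ : Kk} {A μ : ℝ}

theorem out_U (h : X.SB l κ (S l κ) A μ) (hU : X.cls l κ = .U) (s : ℝ) :
    |X.out S l κ s| ≤ A * (2 * K ^ 5 / tm.T (tm.st s)) := by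
  have hK : 0 < K := by linarith [X.hK]
  have hl : 0 < ((X.deg κ : ℝ) + 1) / K := by positivity
  have hT := tm.T_pos (tm.st s)
  have hA := h.hA
  have hμ := h.hμ
  unfold out
  rw [if_pos hU, abs_neg, ← integral_const_mul]
  obtain ⟨h1, h2⟩ := expabs_int hl (A * (μ * K ^ 3 * ((X.deg κ : ℝ) + 1) / tm.T (tm.st s))) s
  refine (set_major measurableSet_Ioi h1 (fun r => by positivity) fun r hr => ?_).trans ?_
  · have hr' : s ≤ r := le_of_lt hr
    have h1 := X.Pi_ge l κ (ε := 1) hr' fun r _ => by rw [one_mul]; exact (X.kU l κ hU).1 r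
    rw [← mul_assoc, ← Real.exp_add, abs_mul, abs_of_pos (Real.exp_pos _), mul_comm,
      abs_of_nonneg (sub_nonneg.2 hr')]
    refine mul_le_mul ((h.s1 r).trans ?_) (Real.exp_le_exp.2 (by linarith)) (Real.exp_pos _).le
      (by positivity)
    gcongr
    exact tm.T_mono (tm.st_mono hr')
  · rw [h2]
    calc _ = A * (2 * μ * K ^ 4 / tm.T (tm.st s)) := by field_simp
      _ ≤ A * (2 * K * K ^ 4 / tm.T (tm.st s)) := by gcongr; exact h.hμ'
      _ = _ := by ring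

theorem out_D (hi : X.SInt S) (h : X.SB l κ (S l κ) A μ) (hD : X.cls l κ = .Dn) (hσ : K ≤ tm.σ0)
    (s : ℝ) : |X.out S l κ s| ≤ A * (8 * K ^ 5 / tm.T (tm.st s)) := by
  have hK : 0 < K := by linarith [X.hK]
  have hl : 0 < ((X.deg κ : ℝ) + 1) / (2 * K) := by positivity
  have hT := tm.T_pos (tm.st s)
  have hA := h.hA
  have hμ := h.hμ
  unfold out ref
  rw [if_neg (by simp [hD]), if_neg (by simp [hD]), hi.ker_eq]
  refine (int_exp_major (B := A * (2 * μ * K ^ 3 * ((X.deg κ : ℝ) + 1) / tm.T (tm.st s))) (s := s)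
    hl (by positivity) fun r hr1 hr2 => ?_).trans ?_
  · by_cases hr' : r ≤ s
    swap
    · have : r < tm.a 0 := by
        have := tm.a_pos 0
        rcases lt_max_iff.1 hr2 with h' | h' <;> linarith
      rw [h.supp r (tm.not_src_of_lt this), mul_zero, abs_zero]; positivity
    have h1 := X.Pi_ge l κ (ε := -1) (β := ((X.deg κ : ℝ) + 1) / K) hr' fun r _ => by
      linarith [(X.kD l κ hD).1 r]
    have h2 := tm.T_cmp hK hσ hr'
    have hT' := tm.T_pos (tm.st r)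
    have h3 : |S l κ r| ≤ A * (2 * μ * K ^ 3 * ((X.deg κ : ℝ) + 1) / tm.T (tm.st s)) *
        Real.exp ((s - r) / (2 * K)) := by
      refine (h.s1 r).trans ?_
      rw [mul_assoc A]
      refine mul_le_mul_of_nonneg_left ?_ hA
      rw [div_mul_eq_mul_div, div_le_div_iff₀ hT' hT]
      have : 0 ≤ μ * K ^ 3 * ((X.deg κ : ℝ) + 1) := by positivity
      nlinarith [mul_le_mul_of_nonneg_left h2 this]
    rw [abs_mul, abs_of_pos (Real.exp_pos _), mul_comm, abs_sub_comm,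
      abs_of_nonneg (sub_nonneg.2 hr')]
    refine (mul_le_mul_of_nonneg_right h3 (Real.exp_pos _).le).trans ?_
    rw [mul_assoc, ← Real.exp_add]
    refine mul_le_mul_of_nonneg_left (Real.exp_le_exp.2 ?_) (by positivity)
    have h4 : (s - r) / (2 * K) ≤ ((X.deg κ : ℝ) + 1) / (2 * K) * (s - r) := by
      rw [div_mul_eq_mul_div]
      apply div_le_div_of_nonneg_right _ (by positivity)
      have : (0 : ℝ) ≤ X.deg κ := Nat.cast_nonneg _
      nlinarith
    have h5 : ((X.deg κ : ℝ) + 1) / K = 2 * (((X.deg κ : ℝ) + 1) / (2 * K)) := by field_simp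
    rw [h5] at h1
    linarith
  · calc _ = A * (8 * μ * K ^ 4 / tm.T (tm.st s)) := by field_simp; ring
      _ ≤ A * (8 * K * K ^ 4 / tm.T (tm.st s)) := by gcongr; exact h.hμ'
      _ = _ := by ring

theorem SB.s1' (h : X.SB l κ (S l κ) A μ) (hd : (X.deg κ : ℝ) + 1 ≤ K) {m : ℕ} {r : ℝ}
    (h1 : tm.a m ≤ r) (h2 : r < tm.a (m + 1)) : |S l κ r| ≤ A * (μ * K ^ 4 / tm.T m) := by
  have hK : 0 < K := by linarith [X.hK]
  have := h.s1 r
  rw [tm.st_eq h1 h2] at this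
  refine this.trans ?_
  have hA := h.hA
  have hμ := h.hμ
  have hT := tm.T_pos m
  calc _ ≤ A * (μ * K ^ 3 * K / tm.T m) := by gcongr
    _ = _ := by ring

theorem stage_res (h : X.SB l κ (S l κ) A μ) (hd : (X.deg κ : ℝ) + 1 ≤ K) {m : ℕ}
    (hr : X.res l κ m) {x y t E w : ℝ} (hw : 0 ≤ w) (hx : x ∈ Icc (tm.a m) (tm.a (m + 1)))
    (hy : y ∈ Icc (tm.a m) (tm.a (m + 1)))
    (hk : ∀ r, min x y < r → r < max x y → tm.Src r → t - X.Pi l κ r ≤ E)
    (hw' : ∀ r, min x y < r → r < max x y → r ∈ Icc (tm.b m 8) (tm.b m 9) → 1 ≤ w) :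
    |∫ r in x..y, Real.exp (t - X.Pi l κ r) * S l κ r| ≤
      Real.exp E * A * (8 * K ^ 6 / tm.sg m ^ 3 + w * K ^ 5 / tm.sg m ^ 2) := by
  have hK1 := X.hK
  have hK : 0 < K := by linarith
  have hA := h.hA
  have hμ := h.hμ
  have hμ' := h.hμ'
  have hT := tm.T_pos m
  have hs := tm.sg_pos m
  obtain ⟨h1, h2⟩ := tm.maj_int m (A * (μ * K ^ 4 / tm.T m)) (A * (K ^ 4 / (tm.T m * tm.sg m ^ 3)))
    (w * (A * (μ * K ^ 4 / (tm.sg m ^ 2 * tm.T m))))
  refine (int_major (h1.const_mul (Real.exp E)) (fun r => mul_nonneg (Real.exp_pos _).le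
    (tm.maj_nonneg m (by positivity) (by positivity) (by positivity) r)) fun r hr1 hr2 => ?_).trans ?_
  · have ha : tm.a m ≤ r := (le_min hx.1 hy.1).trans hr1.le
    have hb : r < tm.a (m + 1) := hr2.trans_le (max_le hx.2 hy.2)
    have hm := tm.le_maj (B3 := w * (A * (μ * K ^ 4 / (tm.sg m ^ 2 * tm.T m))))
      (by positivity) (by positivity) (by positivity) ha hb (h.supp r)
      (h.s1' hd ha hb) (h.s2 m hr hd r) (fun hr8 => (h.s3 m hr hd r hr8).trans
        (le_mul_of_one_le_left (by positivity) (hw' r hr1 hr2 hr8)))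
    rw [abs_mul, abs_of_pos (Real.exp_pos _)]
    by_cases hs : tm.Src r
    · exact mul_le_mul (Real.exp_le_exp.2 (hk r hr1 hr2 hs)) hm (abs_nonneg _) (Real.exp_pos _).le
    · rw [h.supp r hs, abs_zero, mul_zero]
      exact mul_nonneg (Real.exp_pos _).le ((abs_nonneg _).trans hm)
  · rw [integral_const_mul, h2, mul_assoc (Real.exp E)]
    refine mul_le_mul_of_nonneg_left ?_ (Real.exp_pos _).le
    have h3 : tm.sg m ^ 3 ≤ tm.T m := pow_le_pow_right₀ (tm.one_le_sg m) (by norm_num)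
    have e1 : 2 * tm.N * (μ * K ^ 4 / tm.T m) ≤ 2 * K * (K * K ^ 4 / tm.sg m ^ 3) := by
      have := X.hN
      gcongr
    have e2 : K ^ 4 / tm.sg m ^ 3 ≤ K ^ 6 / tm.sg m ^ 3 := by
      gcongr
      norm_num
    have e3 : w * (μ * K ^ 4) / tm.sg m ^ 2 ≤ w * (K * K ^ 4) / tm.sg m ^ 2 := by gcongr
    calc _ = A * (2 * tm.N * (μ * K ^ 4 / tm.T m) + 6 * (K ^ 4 / tm.sg m ^ 3) +
          w * (μ * K ^ 4) / tm.sg m ^ 2) := by field_simp
      _ ≤ A * (2 * K * (K * K ^ 4 / tm.sg m ^ 3) + 6 * (K ^ 6 / tm.sg m ^ 3) +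
          w * (K * K ^ 4) / tm.sg m ^ 2) := by gcongr
      _ = _ := by ring

theorem stage_res' (h : X.SB l κ (S l κ) A μ) (hd : (X.deg κ : ℝ) + 1 ≤ K) {m : ℕ}
    (hr : X.res l κ m) {x y t E : ℝ} (hx : x ∈ Icc (tm.a m) (tm.a (m + 1)))
    (hy : y ∈ Icc (tm.a m) (tm.a (m + 1)))
    (hk : ∀ r, min x y < r → r < max x y → tm.Src r → t - X.Pi l κ r ≤ E) :
    |∫ r in x..y, Real.exp (t - X.Pi l κ r) * S l κ r| ≤
      Real.exp E * A * (9 * K ^ 6) * (1 / tm.sg m ^ 2) := by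
  refine (stage_res h hd hr zero_le_one hx hy hk fun _ _ _ _ => le_rfl).trans ?_
  have hK1 := X.hK
  have hK : 0 < K := by linarith
  have hA := h.hA
  have hs := tm.sg_pos m
  have hs1 := tm.one_le_sg m
  rw [mul_assoc (Real.exp E * A)]
  refine mul_le_mul_of_nonneg_left ?_ (by positivity)
  calc _ ≤ 8 * K ^ 6 / tm.sg m ^ 2 + 1 * K ^ 6 / tm.sg m ^ 2 := by gcongr <;> norm_num
    _ = _ := by ring

theorem prim_zero (hi : X.SInt S) {s : ℝ} (hs : s ≤ tm.a 0) : X.prim S l κ s = 0 := by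
  have := int_const_major (f := fun r => Real.exp (-X.Pi l κ r) * S l κ r) (x := 0) (y := s) (B := 0)
    fun r _ hr => by
      rw [hi.supp l κ r (tm.not_src_of_lt (hr.trans_le (max_le (tm.a_pos 0).le hs)))]; simp
  unfold prim
  simpa using this

theorem out_Z (hi : X.SInt S) (h : X.SB l κ (S l κ) A μ) (hZ : X.cls l κ = .Z)
    (s : ℝ) : |X.out S l κ s| ≤ A * (9 * K ^ 7 / tm.σ0 ^ 2) := by
  have hK : 0 < K := by linarith [X.hK]
  have hA := h.hA
  obtain ⟨hD, hr, hd⟩ := X.kZ l κ hZ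
  have hP : ∀ r, X.Pi l κ r = 0 := fun r => by simp [Pi, hD]
  have step : ∀ m, ∀ y ∈ Icc (tm.a m) (tm.a (m + 1)),
      |X.prim S l κ y - X.prim S l κ (tm.a m)| ≤ A * (9 * K ^ 6) * (1 / tm.sg m ^ 2) := by
    intro m y hy
    have := stage_res' h hd (hr m) (t := 0) (E := 0) ⟨le_rfl, hy.1.trans hy.2⟩ hy
      (fun r _ _ _ => by rw [hP]; simp)
    rw [← hi.ker_eq] at this
    simpa using this
  have ind : ∀ m, |X.prim S l κ (tm.a m)| ≤
      A * (9 * K ^ 6) * ∑ j ∈ Finset.range m, 1 / tm.sg j ^ 2 := by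
    intro m
    induction m with
    | zero => rw [prim_zero hi le_rfl]; simp
    | succ m ih =>
      rw [Finset.sum_range_succ, mul_add]
      have := step m _ ⟨(tm.a_strictMono (Nat.lt_succ_self m)).le, le_rfl⟩
      have h2 := abs_sub_abs_le_abs_sub (X.prim S l κ (tm.a (m + 1))) (X.prim S l κ (tm.a m))
      linarith
  unfold out ref
  rw [if_neg (by simp [hZ]), if_neg (by simp [hZ]), hP, prim_zero hi (tm.a_pos 0).le]
  simp only [Real.exp_zero, one_mul, sub_zero]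
  by_cases hs : s ≤ tm.a 0
  · rw [prim_zero hi hs, abs_zero]; positivity
  · have h1 := step (tm.st s) s ⟨tm.a_st_le (not_le.1 hs).le, (tm.lt_a_st_succ s).le⟩
    have h2 := abs_sub_abs_le_abs_sub (X.prim S l κ s) (X.prim S l κ (tm.a (tm.st s)))
    have h3 := ind (tm.st s)
    have h4 := tm.sum_sg X.hΓ (tm.st s + 1)
    rw [Finset.sum_range_succ] at h4
    have h5 := mul_le_mul_of_nonneg_left h4 (show 0 ≤ A * (9 * K ^ 6) by positivity)
    calc _ ≤ A * (9 * K ^ 6) * (K / tm.σ0 ^ 2) := by linarith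
      _ = _ := by ring

theorem s1_sq (d : Des) : d.s1 = 1 ∨ d.s1 = -1 := by cases d <;> simp [Des.s1]
theorem s2_sq (d : Des) : d.s2 = 1 ∨ d.s2 = -1 := by cases d <;> simp [Des.s2]

theorem low1 (hC : X.cls l κ = .C) (m : ℕ) {r : ℝ} (h1 : tm.a m ≤ r) (h2 : r ≤ tm.b m 9) :
    -(K / tm.T m) ≤ (X.des l κ m).s1 * X.D l κ r := by
  have hK : 0 < K := by linarith [X.hK]
  have hN : (0 : ℝ) ≤ tm.N := Nat.cast_nonneg _
  by_cases h : r ≤ tm.b m 1
  · exact X.kC_1 l κ m hC r ⟨h1, h⟩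
  by_cases hr : X.res l κ m
  · have := abs_le.1 (X.kC_res l κ m hC hr r ⟨(not_le.1 h).le, h2⟩)
    rcases s1_sq (X.des l κ m) with e | e <;> rw [e] <;> linarith
  · have := (X.kC_gap l κ m hC hr).2 r ⟨h1, by
      linarith [tm.b_le_b m (show (9 : ℝ) ≤ 10 by norm_num)]⟩
    have h3 : 0 < K / tm.T m := div_pos hK (tm.T_pos m)
    have h4 : 0 < 1 / K := by positivity
    linarith

theorem low2 (hC : X.cls l κ = .C) (m : ℕ) {r : ℝ} (h1 : tm.b m 1 ≤ r)
    (h2 : r ≤ tm.b m 10 + tm.N) : -(K / tm.T m) ≤ (X.des l κ m).s2 * X.D l κ r := by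
  have hK : 0 < K := by linarith [X.hK]
  by_cases h : tm.b m 9 ≤ r
  · exact X.kC_2 l κ m hC r ⟨h, h2⟩
  by_cases hr : X.res l κ m
  · have := abs_le.1 (X.kC_res l κ m hC hr r ⟨h1, (not_le.1 h).le⟩)
    rcases s2_sq (X.des l κ m) with e | e <;> rw [e] <;> linarith
  · obtain ⟨e, h5⟩ := X.kC_gap l κ m hC hr
    have := h5 r ⟨(tm.a_le_b m (by norm_num)).trans h1, h2⟩
    have h3 : 0 < K / tm.T m := div_pos hK (tm.T_pos m)
    have h4 : 0 < 1 / K := by positivity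
    have : (X.des l κ m).s2 = (X.des l κ m).s1 := by rcases e with e | e <;> rw [e] <;> rfl
    rw [this]; linarith

theorem low12 (hC : X.cls l κ = .C) (m : ℕ) (e : (X.des l κ m).s2 = (X.des l κ m).s1) {r : ℝ}
    (h1 : tm.a m ≤ r) (h2 : r ≤ tm.b m 10 + tm.N) :
    -(K / tm.T m) ≤ (X.des l κ m).s1 * X.D l κ r := by
  by_cases h : r ≤ tm.b m 9
  · exact low1 hC m h1 h
  · rw [← e]; exact low2 hC m ((tm.b_le_b m (by norm_num)).trans (not_le.1 h).le) h2

theorem ker_low {m : ℕ} {ε x y : ℝ} (h1 : tm.a m ≤ x) (hxy : x ≤ y) (h2 : y ≤ tm.b m 10 + tm.N)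
    (h : ∀ r, x ≤ r → r ≤ y → -(K / tm.T m) ≤ ε * X.D l κ r) :
    -(K * (2 * K + 10)) ≤ ε * (X.Pi l κ y - X.Pi l κ x) := by
  refine le_trans ?_ (X.Pi_ge l κ hxy fun r hr => h r hr.1 hr.2)
  have hK : 0 < K := by linarith [X.hK]
  have hT := tm.T_pos m
  have hT1 := tm.one_le_T m
  have h3 : y - x ≤ (2 * K + 10) * tm.T m := by
    simp only [Times.b] at h2
    nlinarith [X.hN]
  have : K / tm.T m * (y - x) ≤ K / tm.T m * ((2 * K + 10) * tm.T m) := by gcongr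
  have h4 : K / tm.T m * ((2 * K + 10) * tm.T m) = K * (2 * K + 10) := by field_simp
  linarith

theorem ker_win (hC : X.cls l κ = .C) {m : ℕ} {x y : ℝ} (h1 : tm.a m ≤ x) (hxy : x ≤ y)
    (h2 : y < tm.a (m + 1)) (h3 : y - x ≤ tm.N) : |X.Pi l κ y - X.Pi l κ x| ≤ K ^ 2 := by
  have hK : 0 < K := by linarith [X.hK]
  have hb := fun r (hr : r ∈ Icc x y) =>
    abs_le.1 (X.kC_bd l κ m hC r ⟨h1.trans hr.1, hr.2.trans_lt h2⟩)
  have a1 := X.Pi_ge l κ (ε := 1) (β := -K) hxy fun r hr => by linarith [hb r hr]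
  have a2 := X.Pi_ge l κ (ε := -1) (β := -K) hxy fun r hr => by linarith [hb r hr]
  have : K * (y - x) ≤ K ^ 2 := by nlinarith [X.hN]
  rw [abs_le]; constructor <;> linarith

end KData

end Vale.Agent.P225
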