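import Vale.Agent.P225.FPEstC

/-! Bounds for the Green operator: controlled components. -/

namespace Vale.Agent.P225

open Filter Topology MeasureTheory Set

namespace KData

variable {L Kk : Type} {tm : Times} {K Λ : ℝ} {X : KData L Kk tm K Λ}
  {S : L → Kk → ℝ → ℝ} {l : L} {κ : Kk} {A μ : ℝ}

theorem src_le_b10 {m : ℕ} {r : ℝ} (h1 : tm.a m ≤ r) (h2 : r < tm.a (m + 1)) (h : tm.Src r) :
    r ≤ tm.b m 10 + tm.N := by
  have hN : (0 : ℝ) ≤ tm.N := Nat.cast_nonneg _
  have e3 := tm.b_le_b m (show (0 : ℝ) ≤ 10 by norm_num)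
  have e4 := tm.b_le_b m (show (9 : ℝ) ≤ 10 by norm_num)
  rcases tm.src_stage h1 h2 h with h | h | h <;> linarith [h.2]

theorem refC_mem (m : ℕ) (s : ℝ) (d : Des) : tm.refC m s d ∈ Icc (tm.a m) (tm.a (m + 1)) := by
  have hN : (0 : ℝ) ≤ tm.N := Nat.cast_nonneg _
  have h0 := (tm.a_strictMono (Nat.lt_succ_self m)).le
  have h1 := tm.a_le_b m (show (0 : ℝ) ≤ 9 by norm_num)
  have h2 := tm.b10N_lt m
  have e4 := tm.b_le_b m (show (9 : ℝ) ≤ 10 by norm_num)
  cases d <;> simp only [Times.refC] <;> (try split_ifs) <;> constructor <;> linarith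

theorem lt_cases {x s r : ℝ} (h1 : min x s < r) (h2 : r < max x s) :
    (x < r ∧ r < s) ∨ (s < r ∧ r < x) := by
  rcases le_total x s with h | h
  · rw [min_eq_left h] at h1; rw [max_eq_right h] at h2; exact Or.inl ⟨h1, h2⟩
  · rw [min_eq_right h] at h1; rw [max_eq_left h] at h2; exact Or.inr ⟨h1, h2⟩

theorem ker_C (hC : X.cls l κ = .C) {m : ℕ} {s r : ℝ} (hs1 : tm.a m ≤ s) (hs2 : s < tm.a (m + 1))
    (h1 : min (tm.refC m s (X.des l κ m)) s < r) (h2 : r < max (tm.refC m s (X.des l κ m)) s)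
    (hr : tm.Src r) : X.Pi l κ s - X.Pi l κ r ≤ E0 K ∧
      (¬ X.res l κ m → X.Pi l κ s - X.Pi l κ r ≤ E0 K + -(1 / K) * |r - s|) := by
  have hK1 := X.hK
  have hK : 0 < K := by linarith
  have hN : (0 : ℝ) ≤ tm.N := Nat.cast_nonneg _
  have hm := refC_mem (tm := tm) m s (X.des l κ m)
  have ha : tm.a m ≤ r := (le_min hm.1 hs1).trans h1.le
  have hb : r < tm.a (m + 1) := h2.trans_le (max_le hm.2 hs2.le)
  have hc := src_le_b10 ha hb hr
  have e1 := tm.b_le_b m (show (1 : ℝ) ≤ 8 by norm_num)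
  have e2 := tm.b_le_b m (show (8 : ℝ) ≤ 9 by norm_num)
  have e3 := tm.b_le_b m (show (9 : ℝ) ≤ 10 by norm_num)
  have hE : K * (2 * K + 10) + 1 ≤ E0 K := by unfold E0; linarith
  have hE' : K ^ 2 + 1 ≤ E0 K := by unfold E0; nlinarith
  have hE0 : 0 ≤ E0 K := by nlinarith
  have win : tm.b m 10 ≤ s → s < r → X.Pi l κ s - X.Pi l κ r ≤ E0 K + -(1 / K) * |r - s| := by
    intro h h'
    have := abs_le.1 (ker_win hC hs1 h'.le hb (by linarith))
    have h3 : 1 / K * |r - s| ≤ 1 := by
      rw [abs_of_pos (sub_pos.2 h'), div_mul_eq_mul_div, div_le_one hK]; linarith [X.hN]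
    linarith
  have win' : tm.b m 10 ≤ s → s < r → X.Pi l κ s - X.Pi l κ r ≤ E0 K := by
    intro h h'
    have := win h h'
    have h3 : 0 ≤ 1 / K * |r - s| := by positivity
    linarith
  have hl := lt_cases h1 h2
  have l1 := fun r => low1 hC m (r := r)
  have l2 := fun r => low2 hC m (r := r)
  have l12 := fun e r => low12 hC m e (r := r)
  have g := fun h => (X.kC_gap l κ m hC h)
  rcases hd : X.des l κ m with _ | _ | _ | _ <;> rw [hd] at hl l1 l2 l12 g <;>
    simp only [Times.refC, Des.s1, Des.s2, forall_true_left] at hl l1 l2 l12 g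
  · have hsr : s < r := by rcases hl with h | h <;> linarith [h.1]
    constructor
    · have := ker_low (X := X) (l := l) (κ := κ) hs1 hsr.le hc
        fun u h h' => l12 u (hs1.trans h) (h'.trans hc)
      linarith
    · intro hn
      have := X.Pi_ge l κ hsr.le fun u hu => (g hn).2 u ⟨hs1.trans hu.1, hu.2.trans hc⟩
      rw [abs_of_pos (sub_pos.2 hsr)]; linarith
  · split_ifs at hl with h10
    · have hsr : r < s := by rcases hl with h | h <;> linarith [h.2]
      constructor
      · have := ker_low (X := X) (l := l) (κ := κ) ha hsr.le (by linarith)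
          fun u h h' => l12 u (ha.trans h) (by linarith)
        linarith
      · intro hn
        have := X.Pi_ge l κ hsr.le fun u hu => (g hn).2 u ⟨ha.trans hu.1, by linarith [hu.2]⟩
        rw [abs_sub_comm, abs_of_pos (sub_pos.2 hsr)]; linarith
    · have hsr : s < r := by rcases hl with h | h <;> linarith [h.1]
      exact ⟨win' (not_lt.1 h10) hsr, fun _ => win (not_lt.1 h10) hsr⟩
  · refine ⟨?_, fun hn => absurd (g hn).1 (by simp)⟩
    split_ifs at hl with h10
    · rcases hl with h | h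
      · have := ker_low (X := X) (l := l) (κ := κ) ha h.2.le (by linarith)
          fun u h' h'' => l2 u (by linarith [h.1]) (by linarith)
        linarith
      · have := ker_low (X := X) (l := l) (κ := κ) hs1 h.1.le hc
          fun u h' h'' => l1 u (by linarith) (by linarith [h.2])
        linarith
    · have hsr : s < r := by rcases hl with h | h <;> linarith [h.1]
      exact win' (not_lt.1 h10) hsr
  · refine ⟨?_, fun hn => absurd (g hn).1 (by simp)⟩
    split_ifs at hl with h10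
    · have hsr : r < s := by rcases hl with h | h <;> linarith [h.2]
      have := ker_low (X := X) (l := l) (κ := κ) ha hsr.le (by linarith)
        fun u h h' => l1 u (ha.trans h) (by linarith)
      linarith
    · have hsr : s < r := by rcases hl with h | h <;> linarith [h.1]
      have := ker_low (X := X) (l := l) (κ := κ) hs1 hsr.le hc
        fun u h h' => l2 u (by linarith) (by linarith)
      linarith

theorem out_C (hi : X.SInt S) (h : X.SB l κ (S l κ) A μ) (hC : X.cls l κ = .C) (s : ℝ) :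
    |X.out S l κ s| ≤ Real.exp (E0 K) * A * (9 * K ^ 6) * (1 / tm.sg (tm.st s) ^ 2) ∧
    (¬ X.res l κ (tm.st s) →
      |X.out S l κ s| ≤ Real.exp (E0 K) * A * (2 * K ^ 6) * (1 / tm.T (tm.st s))) := by
  have hK1 := X.hK
  have hK : 0 < K := by linarith
  have hA := h.hA
  have hμ := h.hμ
  have hT := tm.T_pos (tm.st s)
  have hsg := tm.sg_pos (tm.st s)
  have hd := X.kC_deg l κ hC
  unfold out ref
  rw [if_neg (by simp [hC])]
  by_cases hs : tm.a 0 ≤ s
  swap
  · rw [if_neg (by simp [hs]), prim_zero hi (not_le.1 hs).le, prim_zero hi (tm.a_pos 0).le]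
    simp only [sub_zero, mul_zero, abs_zero]
    exact ⟨by positivity, fun _ => by positivity⟩
  rw [if_pos ⟨hC, hs⟩, hi.ker_eq]
  have hs1 := tm.a_st_le hs
  have hs2 := tm.lt_a_st_succ s
  have hm := refC_mem (tm := tm) (tm.st s) s (X.des l κ (tm.st s))
  have nr : ¬ X.res l κ (tm.st s) → |∫ r in tm.refC (tm.st s) s (X.des l κ (tm.st s))..s,
      Real.exp (X.Pi l κ s - X.Pi l κ r) * S l κ r| ≤
      Real.exp (E0 K) * A * (2 * K ^ 6) * (1 / tm.T (tm.st s)) := by
    intro hn
    refine (int_exp_major (B := Real.exp (E0 K) * (A * (μ * K ^ 4 / tm.T (tm.st s)))) (s := s)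
      (lam := 1 / K) (by positivity) (by positivity) fun r h1 h2 => ?_).trans ?_
    · by_cases hr : tm.Src r
      · rw [abs_mul, abs_of_pos (Real.exp_pos _), mul_right_comm, ← Real.exp_add]
        exact mul_le_mul (Real.exp_le_exp.2 ((ker_C hC hs1 hs2 h1 h2 hr).2 hn))
          (h.s1' hd ((le_min hm.1 hs1).trans h1.le) (h2.trans_le (max_le hm.2 hs2.le)))
          (abs_nonneg _) (Real.exp_pos _).le
      · rw [h.supp r hr, mul_zero, abs_zero]; positivity
    · calc _ = Real.exp (E0 K) * A * (2 * μ * K ^ 5) * (1 / tm.T (tm.st s)) := by field_simp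
        _ ≤ Real.exp (E0 K) * A * (2 * K * K ^ 5) * (1 / tm.T (tm.st s)) := by
          gcongr; exact h.hμ'
        _ = _ := by ring
  refine ⟨?_, nr⟩
  by_cases hn : X.res l κ (tm.st s)
  · exact stage_res' h hd hn hm ⟨hs1, hs2.le⟩ fun r h1 h2 hr => (ker_C hC hs1 hs2 h1 h2 hr).1
  · refine (nr hn).trans ?_
    have h3 : tm.sg (tm.st s) ^ 2 ≤ tm.T (tm.st s) :=
      pow_le_pow_right₀ (tm.one_le_sg _) (by norm_num)
    gcongr; norm_num

open Classical in
theorem out_le (hi : X.SInt S) (h : X.SB l κ (S l κ) A μ)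
    (hσ : 1000 * Real.exp (E0 K) * K ^ 7 ≤ tm.σ0) (s : ℝ) : |X.out S l κ s| ≤
      A / 8 * (if X.res l κ (tm.st s) then 1 / tm.σ0 else 1 / tm.sg (tm.st s) ^ 3) := by
  have hK1 := X.hK
  have hK : 0 < K := by linarith
  have hA := h.hA
  have hE : 1 ≤ Real.exp (E0 K) := Real.one_le_exp (by unfold E0; positivity)
  have hsg := tm.sg_pos (tm.st s)
  have hσ0 : 0 < tm.σ0 := by linarith [tm.hσ]
  have hle := tm.σ0_le_sg (tm.st s)
  have p7 : ∀ j ≤ 7, K ^ j ≤ Real.exp (E0 K) * K ^ 7 := fun j hj =>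
    (pow_le_pow_right₀ hK1 hj).trans (le_mul_of_one_le_left (by positivity) hE)
  have nr : ∀ B : ℝ, 8 * B ≤ tm.σ0 → A * (B / tm.T (tm.st s)) ≤
      A / 8 * (1 / tm.sg (tm.st s) ^ 3) := fun B hB => by
    have : B / tm.T (tm.st s) ≤ 1 / 8 * (1 / tm.sg (tm.st s) ^ 3) := by
      unfold Times.T
      rw [div_mul_div_comm, div_le_div_iff₀ (by positivity) (by positivity)]
      nlinarith [mul_le_mul_of_nonneg_right (hB.trans hle) (pow_pos hsg 3).le]
    nlinarith [mul_le_mul_of_nonneg_left this hA]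
  have rs : ∀ B : ℝ, 8 * B ≤ tm.σ0 → A * (B / tm.σ0 ^ 2) ≤ A / 8 * (1 / tm.σ0) := fun B hB => by
    have : B / tm.σ0 ^ 2 ≤ 1 / 8 * (1 / tm.σ0) := by
      rw [div_mul_div_comm, div_le_div_iff₀ (by positivity) (by positivity)]
      nlinarith [mul_le_mul_of_nonneg_right hB hσ0.le]
    nlinarith [mul_le_mul_of_nonneg_left this hA]
  rcases hc : X.cls l κ with _ | _ | _ | _
  · rw [if_neg ((X.kU l κ hc).2 _)]
    exact (out_U h hc s).trans (nr _ (by nlinarith [p7 5 (by norm_num), pow_pos hK 5]))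
  · rw [if_neg ((X.kD l κ hc).2 _)]
    refine (out_D hi h hc ?_ s).trans (nr _ (by nlinarith [p7 5 (by norm_num), pow_pos hK 5]))
    have := p7 1 (by norm_num)
    rw [pow_one] at this
    linarith
  · rw [if_pos ((X.kZ l κ hc).2.1 _)]
    exact (out_Z hi h hc s).trans (rs _ (by nlinarith [p7 7 (by norm_num), pow_pos hK 7]))
  · have h6 : Real.exp (E0 K) * K ^ 6 ≤ Real.exp (E0 K) * K ^ 7 := by gcongr; norm_num
    have h7 : 0 < Real.exp (E0 K) * K ^ 6 := by positivity
    split_ifs with hn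
    · refine (out_C hi h hc s).1.trans (le_trans ?_ (rs (9 * (Real.exp (E0 K) * K ^ 6))
        (by linarith)))
      calc _ ≤ Real.exp (E0 K) * A * (9 * K ^ 6) * (1 / tm.σ0 ^ 2) := by gcongr
        _ = _ := by ring
    · refine ((out_C hi h hc s).2 hn).trans (le_trans (le_of_eq (by ring))
        (nr (2 * (Real.exp (E0 K) * K ^ 6)) (by linarith)))

end KData

end Vale.Agent.P225
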