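import Vale.Agent.P225.FrameA

/-! General orthonormal-frame formulas for Ricci curvature and the Laplacian. -/

namespace Vale.Agent.P225

open Filter Topology

/-- derivative of `f` along the vector field `F` -/
noncomputable def DD {n : ℕ} {V : Type} [NormedAddCommGroup V] [NormedSpace ℝ V]
    (F : E n → E n) (f : E n → V) (x : E n) : V := fderiv ℝ f x (F x)

/-- an orthonormal frame on an open set with structure functions `c` -/
structure OFrame {n : ℕ} (G : RMetric n) (U : Set (E n)) (F : Fin n → E n → E n)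
    (c : Fin n → Fin n → Fin n → E n → ℝ) : Prop where
  isOpen : IsOpen U
  smoothF : ∀ i, ContDiffOn ℝ 2 (F i) U
  smoothc : ∀ i j k, ContDiffOn ℝ 1 (c i j k) U
  orth : ∀ x ∈ U, ∀ i j, G.inner x (F i x) (F j x) = if i = j then 1 else 0
  brk : ∀ x ∈ U, ∀ i j, DD (F i) (F j) x - DD (F j) (F i) x = ∑ k, c i j k x • F k x

/-- connection coefficients: `∇_{F i} F j = ∑ k, om c i j k • F k` -/
noncomputable def om {n : ℕ} (c : Fin n → Fin n → Fin n → E n → ℝ) (i j k : Fin n) (x : E n) : ℝ :=
  (c i j k x - c i k j x - c j k i x) / 2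

/-- Ricci tensor in the frame -/
noncomputable def ricF {n : ℕ} (F : Fin n → E n → E n) (c : Fin n → Fin n → Fin n → E n → ℝ)
    (j k : Fin n) (x : E n) : ℝ :=
  ∑ i, (DD (F i) (om c j k i) x - DD (F j) (om c i k i) x +
    ∑ l, (om c j k l x * om c i l i x - om c i k l x * om c j l i x - c i j l x * om c l k i x))

section aux

open Fr

variable {n : ℕ} {G : RMetric n} {U : Set (E n)} {F : Fin n → E n → E n}
  {c : Fin n → Fin n → Fin n → E n → ℝ} {x : E n}

lemma OFrame.inv_eq (h : OFrame G U F c) (hx : x ∈ U) :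
    (Matrix.of fun a k => F k x a) * ((Matrix.of fun a k => F k x a).transpose * G.g x) = 1 := by
  rw [mul_eq_one_comm]
  ext i j
  have := h.orth x hx i j
  rw [Matrix.one_apply, ← this, RMetric.inner]
  simp only [Matrix.mul_apply, Matrix.transpose_apply, Matrix.of_apply, Finset.sum_mul]
  rw [Finset.sum_comm]
  exact Finset.sum_congr rfl fun a _ => Finset.sum_congr rfl fun b _ => by ring

lemma OFrame.ginv (h : OFrame G U F c) (hx : x ∈ U) (a b : Fin n) :
    (G.g x)⁻¹ a b = ∑ k, F k x a * F k x b := by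
  have h1 := h.inv_eq hx
  rw [← Matrix.mul_assoc] at h1
  rw [Matrix.inv_eq_left_inv h1]
  simp [Matrix.mul_apply]

lemma OFrame.expand (h : OFrame G U F c) (hx : x ∈ U) (v : E n) :
    v = ∑ k, gB G x v (F k x) • F k x := by
  ext a
  have h1 := congrFun (congrArg (fun M => Matrix.mulVec M v.ofLp) (h.inv_eq hx)) a
  simp only [Matrix.one_mulVec] at h1
  rw [← h1, ← Matrix.mulVec_mulVec]
  simp only [WithLp.ofLp_sum, Finset.sum_apply, WithLp.ofLp_smul, Pi.smul_apply, smul_eq_mul,
    gB_symm G x v, gB_apply, RMetric.inner, Matrix.mulVec, dotProduct, Matrix.of_apply,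
    Matrix.mul_apply, Matrix.transpose_apply]
  refine Finset.sum_congr rfl fun k _ => ?_
  rw [mul_comm]
  congr 1
  simp only [Finset.sum_mul]
  rw [Finset.sum_comm]
  exact Finset.sum_congr rfl fun a _ => Finset.sum_congr rfl fun b _ => by ring

lemma OFrame.cd (h : OFrame G U F c) (hx : x ∈ U) (i : Fin n) : ContDiffAt ℝ 2 (F i) x :=
  (h.smoothF i).contDiffAt (h.isOpen.mem_nhds hx)

lemma OFrame.hd (h : OFrame G U F c) (hx : x ∈ U) (i : Fin n) :
    HasFDerivAt (F i) (fderiv ℝ (F i) x) x :=
  ((h.cd hx i).differentiableAt (by norm_num)).hasFDerivAt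

lemma OFrame.gF (h : OFrame G U F c) (hx : x ∈ U) (a : Fin n → ℝ) (k : Fin n) :
    gB G x (∑ l, a l • F l x) (F k x) = a k := by
  simp [map_sum, gB_apply, h.orth x hx]

/-- covariant derivative of a frame field along a frame field -/
noncomputable def nabF (G : RMetric n) (F : Fin n → E n → E n) (i j : Fin n) (x : E n) : E n :=
  fderiv ℝ (F j) x (F i x) + Gam G x (F i x) (F j x)

lemma OFrame.nab_anti (h : OFrame G U F c) (hx : x ∈ U) (i j k : Fin n) :
    gB G x (nabF G F i j x) (F k x) + gB G x (nabF G F i k x) (F j x) = 0 := by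
  have h1 := (((diff_of (contDiff_gB G) x).hasFDerivAt.clm_apply (h.hd hx j)).clm_apply
    (h.hd hx k)).fderiv
  have h2 : (fun y => gB G y (F j y) (F k y)) =ᶠ[𝓝 x] fun _ => if j = k then (1 : ℝ) else 0 := by
    filter_upwards [h.isOpen.mem_nhds hx] with y hy
    rw [gB_apply, h.orth y hy]
  rw [h2.fderiv_eq, fderiv_fun_const] at h1
  have h3 := congrArg (fun L => L (F i x)) h1
  simp only [Pi.zero_apply, _root_.zero_apply, _root_.add_apply, ContinuousLinearMap.comp_apply,
    ContinuousLinearMap.flip_apply, compat] at h3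
  simp only [nabF, map_add, _root_.add_apply]
  rw [gB_symm G x (F j x), gB_symm G x (F j x)] at h3
  linarith

lemma OFrame.nab_sub (h : OFrame G U F c) (hx : x ∈ U) (i j k : Fin n) :
    gB G x (nabF G F i j x) (F k x) - gB G x (nabF G F j i x) (F k x) = c i j k x := by
  have h1 := h.gF hx (fun l => c i j l x) k
  rw [← h.brk x hx i j] at h1
  simp only [nabF, map_add, map_sub, _root_.add_apply, _root_.sub_apply, DD] at h1 ⊢
  rw [Gam_symm G x (F j x)]
  linarith

lemma OFrame.nab_g (h : OFrame G U F c) (hx : x ∈ U) (i j k : Fin n) :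
    gB G x (nabF G F i j x) (F k x) = om c i j k x := by
  unfold om
  rw [← h.nab_sub hx i j k, ← h.nab_sub hx i k j, ← h.nab_sub hx j k i]
  linarith [h.nab_anti hx i j k, h.nab_anti hx j i k, h.nab_anti hx k i j]

lemma OFrame.nab_eq (h : OFrame G U F c) (hx : x ∈ U) (i j : Fin n) :
    nabF G F i j x = ∑ k, om c i j k x • F k x := by
  rw [h.expand hx (nabF G F i j x)]
  simp only [h.nab_g hx]

lemma OFrame.om_diff (h : OFrame G U F c) (hx : x ∈ U) (i j k : Fin n) :
    DifferentiableAt ℝ (om c i j k) x := by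
  have h1 : ∀ i j k, DifferentiableAt ℝ (c i j k) x := fun i j k =>
    ((h.smoothc i j k).contDiffAt (h.isOpen.mem_nhds hx)).differentiableAt (by norm_num)
  unfold om
  simp only [div_eq_mul_inv]
  exact (((h1 i j k).fun_sub (h1 i k j)).fun_sub (h1 j k i)).mul_const _

lemma OFrame.second (h : OFrame G U F c) (hx : x ∈ U) (i j k : Fin n) :
    fderiv ℝ (fderiv ℝ (F k)) x (F i x) (F j x) + fderiv ℝ (F k) x (fderiv ℝ (F j) x (F i x)) +
      (fderiv ℝ (Gam G) x (F i x) (F j x) (F k x) + Gam G x (fderiv ℝ (F j) x (F i x)) (F k x) +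
        Gam G x (F j x) (fderiv ℝ (F k) x (F i x))) + Gam G x (F i x) (nabF G F j k x) =
      ∑ l, (DD (F i) (om c j k l) x • F l x + om c j k l x • nabF G F i l x) := by
  have d2 : HasFDerivAt (fderiv ℝ (F k)) (fderiv ℝ (fderiv ℝ (F k)) x) x :=
    (((h.cd hx k).fderiv_right (m := 1) (by norm_num)).differentiableAt (by norm_num)).hasFDerivAt
  have h1 := ((d2.clm_apply (h.hd hx j)).fun_add
    (((diff_of (contDiff_Gam G) x).hasFDerivAt.clm_apply (h.hd hx j)).clm_apply
      (h.hd hx k))).fderiv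
  have h2 : (fun y => fderiv ℝ (F k) y (F j y) + Gam G y (F j y) (F k y)) =ᶠ[𝓝 x]
      fun y => ∑ l, om c j k l y • F l y := by
    filter_upwards [h.isOpen.mem_nhds hx] with y hy
    exact h.nab_eq hy j k
  have h3 := (HasFDerivAt.fun_sum (u := Finset.univ) fun l _ =>
    (h.om_diff hx j k l).hasFDerivAt.fun_smul (h.hd hx l)).fderiv
  rw [h2.fderiv_eq, h3] at h1
  have h4 := congrArg (fun L => L (F i x)) h1
  simp only [_root_.add_apply, ContinuousLinearMap.comp_apply, _root_.sum_apply,
    _root_.smul_apply, ContinuousLinearMap.smulRight_apply,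
    ContinuousLinearMap.flip_apply, Finset.sum_add_distrib] at h4
  rw [h.nab_eq hx j k]
  simp only [nabF, DD, smul_add, Finset.sum_add_distrib, map_sum, map_smul]
  rw [← add_assoc (∑ l, fderiv ℝ (om c j k l) x (F i x) • F l x),
    add_comm (∑ l, fderiv ℝ (om c j k l) x (F i x) • F l x), h4]
  abel

lemma OFrame.Rm_g (h : OFrame G U F c) (hx : x ∈ U) (i j k : Fin n) :
    gB G x (Rm G x (F i x) (F j x) (F k x)) (F i x) =
      DD (F i) (om c j k i) x - DD (F j) (om c i k i) x +
        ∑ l, (om c j k l x * om c i l i x - om c i k l x * om c j l i x -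
          c i j l x * om c l k i x) := by
  have h1 := h.second hx i j k
  have h2 := h.second hx j i k
  have h3 := (h.cd hx k).isSymmSndFDerivAt (by simp) (F i x) (F j x)
  have h4 := h.brk x hx i j
  have h5 : fderiv ℝ (F k) x (DD (F i) (F j) x - DD (F j) (F i) x) +
      Gam G x (DD (F i) (F j) x - DD (F j) (F i) x) (F k x) = ∑ l, c i j l x • nabF G F l k x := by
    rw [h4]
    simp only [nabF, map_sum, map_smul, _root_.sum_apply, _root_.smul_apply, smul_add,
      Finset.sum_add_distrib]
  have h6 : Rm G x (F i x) (F j x) (F k x) =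
      ∑ l, (DD (F i) (om c j k l) x • F l x + om c j k l x • nabF G F i l x) -
      ∑ l, (DD (F j) (om c i k l) x • F l x + om c i k l x • nabF G F j l x) -
      ∑ l, c i j l x • nabF G F l k x := by
    rw [← h1, ← h2, ← h5, h3]
    simp only [Rm, nabF, DD, map_add, map_sub, _root_.sub_apply]
    abel
  rw [h6]
  simp only [Finset.sum_add_distrib, Finset.sum_sub_distrib, map_sub, map_add, _root_.sub_apply,
    _root_.add_apply, h.gF hx]
  simp only [map_sum, map_smul, _root_.sum_apply, _root_.smul_apply, smul_eq_mul, h.nab_g hx]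
  ring

lemma OFrame.ric_tr (h : OFrame G U F c) (hx : x ∈ U) (v w : E n) :
    ric G x v w = ∑ i, gB G x (Rm G x (F i x) v w) (F i x) := by
  unfold ric
  have h1 : ∀ k, Rm G x (bv k) v w k = ∑ i, gB G x (bv k) (F i x) * Rm G x (F i x) v w k := by
    intro k
    conv_lhs => rw [h.expand hx (bv k), Rm_sum1]
    simp
  simp only [h1]
  rw [Finset.sum_comm]
  refine Finset.sum_congr rfl fun i _ => ?_
  rw [clm_expand (gB G x) (Rm G x (F i x) v w)]
  simp [mul_comm]

lemma OFrame.ric_F (h : OFrame G U F c) (hx : x ∈ U) (j k : Fin n) :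
    ric G x (F j x) (F k x) = ricF F c j k x := by
  rw [h.ric_tr hx]
  exact Finset.sum_congr rfl fun i _ => h.Rm_g hx i j k

end aux

open Fr

theorem OFrame.ric_nonneg {n : ℕ} {G : RMetric n} {U : Set (E n)} {F : Fin n → E n → E n}
    {c : Fin n → Fin n → Fin n → E n → ℝ} (h : OFrame G U F c) {x : E n} (hx : x ∈ U)
    (hp : ∀ v : Fin n → ℝ, 0 ≤ ∑ j, ∑ k, ricF F c j k x * v j * v k) (v : E n) :
    0 ≤ ∑ i, ∑ j, G.ricci i j x * v i * v j := by
  rw [← ric_eq, h.expand hx v, ric_sum]
  simp only [h.ric_F hx]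
  exact hp _

theorem OFrame.laplacian {n : ℕ} {G : RMetric n} {U : Set (E n)} {F : Fin n → E n → E n}
    {c : Fin n → Fin n → Fin n → E n → ℝ} (h : OFrame G U F c) {x : E n} (hx : x ∈ U)
    {u : E n → ℝ} (hu : ContDiffAt ℝ 2 u x) :
    G.laplacian u x =
      ∑ i, (DD (F i) (DD (F i) u) x - ∑ k, om c i i k x * DD (F k) u x) := by
  have d2 : HasFDerivAt (fderiv ℝ u) (fderiv ℝ (fderiv ℝ u) x) x :=
    ((hu.fderiv_right (m := 1) (by norm_num)).differentiableAt (by norm_num)).hasFDerivAt
  let He : E n → E n → ℝ := fun v w => fderiv ℝ (fderiv ℝ u) x v w - fderiv ℝ u x (Gam G x v w)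
  have h1 : ∀ i j, pd i (pd j u) x - ∑ k, G.christoffel k i j x * pd k u x = He (bv i) (bv j) := by
    intro i j
    have e := (d2.clm_apply (hasFDerivAt_const (bv j) x)).fderiv
    simp only [He, fderiv_eq_pd u x (Gam G x _ _), Gam_bv]
    congr 1
    change fderiv ℝ (fun y => fderiv ℝ u y (bv j)) x (bv i) = _
    rw [e]; simp
  have h2 : ∀ v w, He v w = ∑ i, ∑ j, v i * w j * He (bv i) (bv j) := by
    intro v w
    conv_lhs => rw [vec_expand v, vec_expand w]
    simp only [He, map_sum, map_smul, _root_.sum_apply, _root_.smul_apply, smul_eq_mul,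
      Finset.mul_sum, mul_sub, Finset.sum_sub_distrib]
    rw [Finset.sum_comm, Finset.sum_comm (f := fun i j => w i * _)]
    congr 1 <;> exact Finset.sum_congr rfl fun a _ => Finset.sum_congr rfl fun b _ => by ring
  have h3 : ∀ i, DD (F i) (DD (F i) u) x - ∑ k, om c i i k x * DD (F k) u x =
      He (F i x) (F i x) := by
    intro i
    have e := (d2.clm_apply (h.hd hx i)).fderiv
    have e2 := congrArg (fderiv ℝ u x) (h.nab_eq hx i i)
    simp only [nabF, map_add, map_sum, map_smul, smul_eq_mul] at e2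
    change fderiv ℝ (fun y => fderiv ℝ u y (F i y)) x (F i x) - _ = _
    rw [e]
    simp only [DD, He, ← e2, _root_.add_apply, ContinuousLinearMap.comp_apply,
      ContinuousLinearMap.flip_apply]
    ring
  simp only [RMetric.laplacian, h1, h3, h.ginv hx]
  conv_rhs => simp only [h2 (F _ x)]
  simp only [Finset.sum_mul]
  rw [Finset.sum_comm (f := fun k i => ∑ j, F k x i * F k x j * He (bv i) (bv j))]
  exact Finset.sum_congr rfl fun i _ => Finset.sum_comm

/-- where the metric is Euclidean near `x`, Ricci vanishes -/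
theorem ricci_eq_zero_of_flat {n : ℕ} (G : RMetric n) {x : E n} (h : ∀ᶠ y in 𝓝 x, G.g y = 1)
    (i j : Fin n) : G.ricci i j x = 0 := by
  have h1 : ∀ k i j, G.christoffel k i j =ᶠ[𝓝 x] fun _ => 0 := by
    intro k i j
    filter_upwards [h.eventually_nhds] with y hy
    have h2 : ∀ a b m, pd m (fun z => G.g z a b) y = 0 := by
      intro a b m
      have : (fun z => G.g z a b) =ᶠ[𝓝 y] fun _ => (1 : Matrix (Fin n) (Fin n) ℝ) a b := by
        filter_upwards [hy] with z hz
        rw [hz]
      simp [pd, this.fderiv_eq]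
    simp [RMetric.christoffel, h2]
  have h2 : ∀ k i j m, pd m (G.christoffel k i j) x = 0 := fun k i j m => by
    simp [pd, (h1 k i j).fderiv_eq]
  have h3 : ∀ k i j, G.christoffel k i j x = 0 := fun k i j => (h1 k i j).eq_of_nhds
  simp [RMetric.ricci, h2, h3]

/-- the Laplacian of a `C²` function is continuous -/
theorem continuous_laplacian {n : ℕ} (G : RMetric n) {u : E n → ℝ} (hu : ContDiff ℝ 2 u) :
    Continuous (G.laplacian u) := by
  have h1 : ∀ j, ContDiff ℝ 1 (pd j u) := fun j =>
    (hu.fderiv_right (m := 1) (by norm_num)).clm_apply contDiff_const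
  have h2 : ∀ i j, Continuous (pd i (pd j u)) := fun i j =>
    ((h1 j).continuous_fderiv (by norm_num)).clm_apply continuous_const
  unfold RMetric.laplacian
  exact continuous_finsetSum _ fun i _ => continuous_finsetSum _ fun j _ =>
    (contDiff_inv G i j).continuous.mul ((h2 i j).sub (continuous_finsetSum _ fun k _ =>
      (contDiff_chr G k i j).continuous.mul (h1 k).continuous))

end Vale.Agent.P225
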