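import Vale.Agent.P225.Defs

/-! The metric and the Christoffel symbols as bilinear maps. -/

namespace Vale.Agent.P225.Fr

open Filter Topology

variable {n : ℕ} (G : RMetric n)

/-- coordinate vector -/
noncomputable abbrev bv (i : Fin n) : E n := EuclideanSpace.single i 1

lemma clm_expand {V : Type} [NormedAddCommGroup V] [NormedSpace ℝ V] (L : E n →L[ℝ] V) (u : E n) :
    L u = ∑ i, u i • L (bv i) := by
  conv_lhs => rw [← (EuclideanSpace.basisFun (Fin n) ℝ).sum_repr u]
  simp [map_sum]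

lemma fderiv_eq_pd (f : E n → ℝ) (x u : E n) : fderiv ℝ f x u = ∑ i, u i * pd i f x :=
  clm_expand _ _

lemma contDiff_det {A : E n → Matrix (Fin n) (Fin n) ℝ}
    (h : ∀ i j, ContDiff ℝ (⊤ : ℕ∞) fun x => A x i j) : ContDiff ℝ (⊤ : ℕ∞) fun x => (A x).det := by
  simp only [Matrix.det_apply']
  exact ContDiff.sum fun σ _ => contDiff_const.mul (contDiff_prod fun i _ => h _ _)

lemma det_ne (x : E n) : (G.g x).det ≠ 0 := (G.posDef x).det_pos.ne'

lemma contDiff_inv (i j : Fin n) : ContDiff ℝ (⊤ : ℕ∞) fun x => (G.g x)⁻¹ i j := by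
  simp only [Matrix.inv_def, Ring.inverse_eq_inv', Matrix.smul_apply, smul_eq_mul,
    Matrix.adjugate_apply]
  refine ((contDiff_det G.smooth).inv (det_ne G)).mul (contDiff_det fun a b => ?_)
  simp only [Matrix.updateRow_apply]
  split_ifs
  · exact contDiff_const
  · exact G.smooth _ _

lemma contDiff_pd {f : E n → ℝ} (hf : ContDiff ℝ (⊤ : ℕ∞) f) (i : Fin n) :
    ContDiff ℝ (⊤ : ℕ∞) (pd i f) :=
  (hf.fderiv_right (m := (⊤ : ℕ∞)) (by exact_mod_cast le_top)).clm_apply contDiff_const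

lemma contDiff_chr (k i j : Fin n) : ContDiff ℝ (⊤ : ℕ∞) (G.christoffel k i j) := by
  unfold RMetric.christoffel
  exact contDiff_const.mul (ContDiff.sum fun l _ => (contDiff_inv G k l).mul
    (((contDiff_pd (G.smooth _ _) _).add (contDiff_pd (G.smooth _ _) _)).sub
      (contDiff_pd (G.smooth _ _) _)))

lemma g_symm (x : E n) (i j : Fin n) : G.g x i j = G.g x j i := by
  have := (G.posDef x).isHermitian.apply j i
  simpa using this

/-- elementary bilinear maps -/
noncomputable def B2 (i j : Fin n) : E n →L[ℝ] E n →L[ℝ] ℝ :=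
  (EuclideanSpace.proj i : E n →L[ℝ] ℝ).smulRight (EuclideanSpace.proj j)

noncomputable def B3 (k i j : Fin n) : E n →L[ℝ] E n →L[ℝ] E n :=
  (EuclideanSpace.proj i : E n →L[ℝ] ℝ).smulRight
    ((EuclideanSpace.proj j : E n →L[ℝ] ℝ).smulRight (bv k))

noncomputable def gB (x : E n) : E n →L[ℝ] E n →L[ℝ] ℝ := ∑ i, ∑ j, G.g x i j • B2 i j

noncomputable def Gam (x : E n) : E n →L[ℝ] E n →L[ℝ] E n :=
  ∑ k, ∑ i, ∑ j, G.christoffel k i j x • B3 k i j

lemma B2_sum (a : Fin n → Fin n → ℝ) (v w : E n) :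
    (∑ i, ∑ j, a i j • B2 i j) v w = ∑ i, ∑ j, a i j * v i * w j := by
  simp [B2, mul_assoc]

lemma B3_sum (a : Fin n → Fin n → Fin n → ℝ) (v w : E n) (m : Fin n) :
    (∑ k, ∑ i, ∑ j, a k i j • B3 k i j) v w m = ∑ i, ∑ j, a m i j * v i * w j := by
  simp only [B3, _root_.sum_apply, _root_.smul_apply,
    ContinuousLinearMap.smulRight_apply, WithLp.ofLp_sum, Finset.sum_apply, WithLp.ofLp_smul,
    Pi.smul_apply, smul_eq_mul]
  rw [Finset.sum_eq_single m]
  · simp [mul_assoc]
  · intro k _ hk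
    simp [Ne.symm hk]
  · simp

lemma gB_apply (x v w : E n) : gB G x v w = G.inner x v w := B2_sum _ _ _

lemma Gam_apply (x v w : E n) (m : Fin n) :
    Gam G x v w m = ∑ i, ∑ j, G.christoffel m i j x * v i * w j := B3_sum _ _ _ _

lemma diff_of {V : Type} [NormedAddCommGroup V] [NormedSpace ℝ V] {f : E n → V}
    (hf : ContDiff ℝ (⊤ : ℕ∞) f) (x : E n) : DifferentiableAt ℝ f x :=
  hf.differentiable (by simp) x

section lc

variable {V : Type} [NormedAddCommGroup V] [NormedSpace ℝ V]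

lemma lc2 {a : Fin n → Fin n → E n → ℝ} (ha : ∀ i j, ContDiff ℝ (⊤ : ℕ∞) (a i j))
    (B : Fin n → Fin n → V) : ContDiff ℝ (⊤ : ℕ∞) (fun x => ∑ i, ∑ j, a i j x • B i j) ∧
    ∀ x u, fderiv ℝ (fun x => ∑ i, ∑ j, a i j x • B i j) x u =
      ∑ i, ∑ j, fderiv ℝ (a i j) x u • B i j := by
  refine ⟨ContDiff.sum fun i _ => ContDiff.sum fun j _ => (ha i j).smul contDiff_const,
    fun x u => ?_⟩
  have h : HasFDerivAt (fun x => ∑ i, ∑ j, a i j x • B i j)
      (∑ i, ∑ j, (fderiv ℝ (a i j) x).smulRight (B i j)) x :=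
    HasFDerivAt.fun_sum fun i _ => HasFDerivAt.fun_sum fun j _ =>
      (diff_of (ha i j) x).hasFDerivAt.smul_const _
  rw [h.fderiv]
  simp

lemma lc3 {a : Fin n → Fin n → Fin n → E n → ℝ} (ha : ∀ k i j, ContDiff ℝ (⊤ : ℕ∞) (a k i j))
    (B : Fin n → Fin n → Fin n → V) :
    ContDiff ℝ (⊤ : ℕ∞) (fun x => ∑ k, ∑ i, ∑ j, a k i j x • B k i j) ∧
    ∀ x u, fderiv ℝ (fun x => ∑ k, ∑ i, ∑ j, a k i j x • B k i j) x u =
      ∑ k, ∑ i, ∑ j, fderiv ℝ (a k i j) x u • B k i j := by
  refine ⟨ContDiff.sum fun k _ => ContDiff.sum fun i _ => ContDiff.sum fun j _ =>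
    (ha k i j).smul contDiff_const, fun x u => ?_⟩
  have h : HasFDerivAt (fun x => ∑ k, ∑ i, ∑ j, a k i j x • B k i j)
      (∑ k, ∑ i, ∑ j, (fderiv ℝ (a k i j) x).smulRight (B k i j)) x :=
    HasFDerivAt.fun_sum fun k _ => HasFDerivAt.fun_sum fun i _ => HasFDerivAt.fun_sum fun j _ =>
      (diff_of (ha k i j) x).hasFDerivAt.smul_const _
  rw [h.fderiv]
  simp

end lc

lemma contDiff_gB : ContDiff ℝ (⊤ : ℕ∞) (gB G) := (lc2 G.smooth B2).1

lemma contDiff_Gam : ContDiff ℝ (⊤ : ℕ∞) (Gam G) := (lc3 (contDiff_chr G) B3).1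

lemma fderiv_gB (x u : E n) :
    fderiv ℝ (gB G) x u = ∑ i, ∑ j, fderiv ℝ (fun y => G.g y i j) x u • B2 i j :=
  (lc2 G.smooth B2).2 x u

lemma fderiv_Gam (x u : E n) :
    fderiv ℝ (Gam G) x u = ∑ k, ∑ i, ∑ j, fderiv ℝ (G.christoffel k i j) x u • B3 k i j :=
  (lc3 (contDiff_chr G) B3).2 x u

lemma gB_symm (x v w : E n) : gB G x v w = gB G x w v := by
  rw [gB_apply, gB_apply, RMetric.inner, RMetric.inner, Finset.sum_comm]
  exact Finset.sum_congr rfl fun i _ => Finset.sum_congr rfl fun j _ => by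
    rw [g_symm G x j i]; ring

lemma chr_symm (x : E n) (k i j : Fin n) : G.christoffel k i j x = G.christoffel k j i x := by
  unfold RMetric.christoffel
  congr 1
  refine Finset.sum_congr rfl fun l _ => ?_
  have : (fun y => G.g y i j) = fun y => G.g y j i := funext fun y => g_symm G y i j
  rw [this]; ring

lemma Gam_symm (x v w : E n) : Gam G x v w = Gam G x w v := by
  ext m
  rw [Gam_apply, Gam_apply, Finset.sum_comm]
  exact Finset.sum_congr rfl fun i _ => Finset.sum_congr rfl fun j _ => by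
    rw [chr_symm G x m j i]; ring

lemma lower_chr (x : E n) (i j m : Fin n) : ∑ k, G.g x m k * G.christoffel k i j x =
    (pd i (fun y => G.g y j m) x + pd j (fun y => G.g y i m) x - pd m (fun y => G.g y i j) x) / 2 := by
  have h : G.g x * (G.g x)⁻¹ = 1 := Matrix.mul_nonsing_inv _ (det_ne G x).isUnit
  set T : Fin n → ℝ := fun l => pd i (fun y => G.g y j l) x + pd j (fun y => G.g y i l) x -
    pd l (fun y => G.g y i j) x with hT
  have h1 : ∑ k, G.g x m k * G.christoffel k i j x =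
      (1 / 2) * ∑ l, (G.g x * (G.g x)⁻¹) m l * T l := by
    simp only [RMetric.christoffel, Matrix.mul_apply, Finset.sum_mul, Finset.mul_sum]
    rw [Finset.sum_comm]
    exact Finset.sum_congr rfl fun l _ => Finset.sum_congr rfl fun k _ => by simp only [hT]; ring
  rw [h1, h]
  simp only [Matrix.one_apply, ite_mul, one_mul, zero_mul, Finset.sum_ite_eq, Finset.mem_univ,
    if_true, hT]
  ring

lemma Gam_bv (x : E n) (i j m : Fin n) : Gam G x (bv i) (bv j) m = G.christoffel m i j x := by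
  simp [Gam_apply]

lemma gB_bv (x v : E n) (m : Fin n) : gB G x v (bv m) = ∑ k, G.g x m k * v k := by
  simp [gB_apply, RMetric.inner, g_symm G x m]

lemma dg_bv (x : E n) (i j m : Fin n) :
    fderiv ℝ (gB G) x (bv i) (bv j) (bv m) = pd i (fun y => G.g y j m) x := by
  rw [fderiv_gB, B2_sum]
  simp [pd]

/-- compatibility of the connection with the metric -/
lemma compat (x u v w : E n) :
    fderiv ℝ (gB G) x u v w = gB G x (Gam G x u v) w + gB G x v (Gam G x u w) := by
  have key : ∀ i j m, fderiv ℝ (gB G) x (bv i) (bv j) (bv m) =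
      gB G x (Gam G x (bv i) (bv j)) (bv m) + gB G x (Gam G x (bv i) (bv m)) (bv j) := by
    intro i j m
    simp only [gB_bv, Gam_bv, lower_chr, dg_bv]
    have e1 : (fun y => G.g y m j) = fun y => G.g y j m := funext fun y => g_symm G y m j
    rw [e1]; ring
  rw [gB_symm G x v]
  have k1 : ∀ i j w, fderiv ℝ (gB G) x (bv i) (bv j) w =
      gB G x (Gam G x (bv i) (bv j)) w + gB G x (Gam G x (bv i) w) (bv j) := by
    intro i j w
    rw [clm_expand _ w, clm_expand (gB G x _) w, clm_expand (Gam G x (bv i)) w]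
    simp only [key, map_sum, map_smul, _root_.sum_apply,
      _root_.smul_apply, smul_add, Finset.sum_add_distrib]
  have k2 : ∀ i v w, fderiv ℝ (gB G) x (bv i) v w =
      gB G x (Gam G x (bv i) v) w + gB G x (Gam G x (bv i) w) v := by
    intro i v w
    rw [clm_expand (fderiv ℝ (gB G) x (bv i)) v, clm_expand (gB G x (Gam G x (bv i) w)) v,
      clm_expand (Gam G x (bv i)) v]
    simp only [k1, map_sum, map_smul, _root_.sum_apply,
      _root_.smul_apply, smul_add, Finset.sum_add_distrib]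
  rw [clm_expand (fderiv ℝ (gB G) x) u, clm_expand (Gam G x) u]
  simp only [k2, map_sum, map_smul, _root_.sum_apply,
    _root_.smul_apply, smul_add, Finset.sum_add_distrib]

/-- the curvature operator -/
noncomputable def Rm (x u v w : E n) : E n :=
  fderiv ℝ (Gam G) x u v w - fderiv ℝ (Gam G) x v u w + Gam G x u (Gam G x v w) -
    Gam G x v (Gam G x u w)

lemma Rm_bv (x : E n) (i j : Fin n) : ∑ k, Rm G x (bv k) (bv i) (bv j) k = G.ricci i j x := by
  unfold RMetric.ricci
  refine Finset.sum_congr rfl fun k _ => ?_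
  have h1 : ∀ a b c m, fderiv ℝ (Gam G) x (bv a) (bv b) (bv c) m = pd a (G.christoffel m b c) x := by
    intro a b c m
    rw [fderiv_Gam, B3_sum]
    simp [pd]
  have h2 : ∀ a b c m, Gam G x (bv a) (Gam G x (bv b) (bv c)) m =
      ∑ l, G.christoffel m a l x * G.christoffel l b c x := by
    intro a b c m
    rw [Gam_apply]
    simp [Gam_bv, ite_mul]
  simp only [Rm, PiLp.add_apply, PiLp.sub_apply, h1, h2, Finset.sum_sub_distrib]
  ring

lemma Rm_expand1 (x u v w : E n) : Rm G x u v w = ∑ i, u i • Rm G x (bv i) v w := by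
  simp only [Rm]
  rw [clm_expand (fderiv ℝ (Gam G) x) u, clm_expand (fderiv ℝ (Gam G) x v) u,
    clm_expand (Gam G x) u]
  simp only [map_sum, map_smul, _root_.sum_apply,
    _root_.smul_apply, smul_add, smul_sub, Finset.sum_add_distrib,
    Finset.sum_sub_distrib]

/-- the curvature operator is linear in each argument -/
lemma Rm_sum1 (x : E n) (a : Fin n → ℝ) (u : Fin n → E n) (v w : E n) :
    Rm G x (∑ i, a i • u i) v w = ∑ i, a i • Rm G x (u i) v w := by
  simp only [Rm, map_sum, map_smul, _root_.sum_apply,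
    _root_.smul_apply, smul_add, smul_sub, Finset.sum_add_distrib,
    Finset.sum_sub_distrib]

lemma Rm_sum2 (x : E n) (a : Fin n → ℝ) (u : E n) (v : Fin n → E n) (w : E n) :
    Rm G x u (∑ i, a i • v i) w = ∑ i, a i • Rm G x u (v i) w := by
  simp only [Rm, map_sum, map_smul, _root_.sum_apply,
    _root_.smul_apply, smul_add, smul_sub, Finset.sum_add_distrib,
    Finset.sum_sub_distrib]

lemma Rm_sum3 (x : E n) (a : Fin n → ℝ) (u v : E n) (w : Fin n → E n) :
    Rm G x u v (∑ i, a i • w i) = ∑ i, a i • Rm G x u v (w i) := by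
  simp only [Rm, map_sum, map_smul, smul_add, smul_sub, Finset.sum_add_distrib,
    Finset.sum_sub_distrib]

lemma vec_expand (u : E n) : u = ∑ i, u i • bv i := by
  simpa using clm_expand (ContinuousLinearMap.id ℝ (E n)) u

/-- the trace of the curvature operator -/
noncomputable def ric (x v w : E n) : ℝ := ∑ k, Rm G x (bv k) v w k

lemma ric_sum (x : E n) (a b : Fin n → ℝ) (v w : Fin n → E n) :
    ric G x (∑ i, a i • v i) (∑ j, b j • w j) = ∑ i, ∑ j, ric G x (v i) (w j) * a i * b j := by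
  simp only [ric, Rm_sum2]
  simp only [Rm_sum3, WithLp.ofLp_sum, Finset.sum_apply, WithLp.ofLp_smul,
    Pi.smul_apply, smul_eq_mul, Finset.mul_sum, Finset.sum_mul]
  rw [Finset.sum_comm]
  refine Finset.sum_congr rfl fun i _ => ?_
  rw [Finset.sum_comm]
  exact Finset.sum_congr rfl fun j _ => Finset.sum_congr rfl fun k _ => by ring

lemma ric_eq (x v w : E n) : ric G x v w = ∑ i, ∑ j, G.ricci i j x * v i * w j := by
  conv_lhs => rw [vec_expand v, vec_expand w, ric_sum]
  simp only [ric, Rm_bv]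

end Vale.Agent.P225.Fr
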