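import Vale.Agent.P225.Ev

/-! The metric attached to profile functions `φ, u` and connection amplitudes. -/

namespace Vale.Agent.P225

open Filter Topology

structure Geo (J : Type) [Fintype J] where
  φ : ℝ → ℝ
  u : ℝ → ℝ
  amp : J → ℝ → ℝ
  sh : J → R
  φ_smooth : ContDiff ℝ (⊤ : ℕ∞) φ
  u_smooth : ContDiff ℝ (⊤ : ℕ∞) u
  amp_smooth : ∀ l, ContDiff ℝ (⊤ : ℕ∞) (amp l)
  φ_neg : ∀ s ≤ 0, φ s = s
  u_neg : ∀ s ≤ 0, u s = 0
  amp_neg : ∀ l, ∀ s ≤ 0, amp l s = 0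

namespace Geo

variable {J : Type} [Fintype J] (Γ : Geo J)

noncomputable def p (s : ℝ) : ℝ := deriv Γ.φ s
noncomputable def V (s : ℝ) : ℝ := Γ.p s ^ 2 + deriv Γ.p s
noncomputable def wh (s : ℝ) : R := ∑ l, Γ.amp l s • Γ.sh l
noncomputable def W1 (x : E 4) : ℝ := -(evn (Γ.wh (lg x)) x).im
noncomputable def W2 (x : E 4) : ℝ := (evn (Γ.wh (lg x)) x).re

/-- the coframe -/
noncomputable def cof (k : Fin 4) (x : E 4) : E 4 :=
  ![(Real.exp (Γ.φ (lg x)) / ‖x‖ ^ 2) • ef 0 x,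
    (Real.exp (Γ.φ (lg x) - Γ.u (lg x)) / ‖x‖ ^ 2) • ef 1 x,
    (Real.exp (Γ.φ (lg x) - Γ.u (lg x)) / ‖x‖ ^ 2) • ef 2 x,
    (Real.exp (Γ.φ (lg x) + 2 * Γ.u (lg x)) / ‖x‖ ^ 2) •
      (ef 3 x - Γ.W1 x • ef 1 x - Γ.W2 x • ef 2 x)] k

/-- the orthonormal frame -/
noncomputable def fr (k : Fin 4) (x : E 4) : E 4 :=
  ![Real.exp (-Γ.φ (lg x)) • ef 0 x,
    Real.exp (-Γ.φ (lg x) + Γ.u (lg x)) • (ef 1 x + Γ.W1 x • ef 3 x),
    Real.exp (-Γ.φ (lg x) + Γ.u (lg x)) • (ef 2 x + Γ.W2 x • ef 3 x),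
    Real.exp (-Γ.φ (lg x) - 2 * Γ.u (lg x)) • ef 3 x] k

open Classical in
noncomputable def gm (x : E 4) : Matrix (Fin 4) (Fin 4) ℝ :=
  if x = 0 then 1 else Matrix.of fun a b => ∑ k, Γ.cof k x a * Γ.cof k x b

theorem evn_wh (s : ℝ) (x : E 4) : evn (Γ.wh s) x = ∑ l, Γ.amp l s • evn (Γ.sh l) x := by
  simp only [evn, wh, map_sum, map_smul]

theorem contDiffAt_wh {x : E 4} (hx : x ≠ 0) :
    ContDiffAt ℝ (⊤ : ℕ∞) (fun y => evn (Γ.wh (lg y)) y) x := by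
  simp only [evn_wh]
  exact ContDiffAt.sum fun l _ =>
    ((Γ.amp_smooth l).contDiffAt.comp x (contDiffAt_lg hx)).smul (contDiffAt_evn _ hx)

theorem contDiffAt_W1 {x : E 4} (hx : x ≠ 0) : ContDiffAt ℝ (⊤ : ℕ∞) Γ.W1 x :=
  (Complex.imCLM.contDiff.contDiffAt.comp x (Γ.contDiffAt_wh hx)).neg

theorem contDiffAt_W2 {x : E 4} (hx : x ≠ 0) : ContDiffAt ℝ (⊤ : ℕ∞) Γ.W2 x :=
  Complex.reCLM.contDiff.contDiffAt.comp x (Γ.contDiffAt_wh hx)

theorem contDiffAt_φ {x : E 4} (hx : x ≠ 0) : ContDiffAt ℝ (⊤ : ℕ∞) (fun y => Γ.φ (lg y)) x :=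
  Γ.φ_smooth.contDiffAt.comp x (contDiffAt_lg hx)

theorem contDiffAt_u {x : E 4} (hx : x ≠ 0) : ContDiffAt ℝ (⊤ : ℕ∞) (fun y => Γ.u (lg y)) x :=
  Γ.u_smooth.contDiffAt.comp x (contDiffAt_lg hx)

theorem gm_eq_one {x : E 4} (hx : ‖x‖ ≤ 1) : Γ.gm x = 1 := by
  rw [gm]
  split_ifs with h0
  · rfl
  have hn : 0 < ‖x‖ := norm_pos_iff.2 h0
  have hl : lg x ≤ 0 := Real.log_nonpos hn.le hx
  have hw : Γ.wh (lg x) = 0 := by simp [wh, Γ.amp_neg _ _ hl]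
  have he : Real.exp (lg x) = ‖x‖ := Real.exp_log hn
  have hc : ∀ k, Γ.cof k x = ‖x‖⁻¹ • ef k x := by
    intro k
    have : ‖x‖ / ‖x‖ ^ 2 = ‖x‖⁻¹ := by field_simp
    fin_cases k <;> simp [cof, W1, W2, hw, evn, Γ.φ_neg _ hl, Γ.u_neg _ hl, he, this]
  ext a b
  have h := ef_complete x a b
  simp only [hc, Matrix.of_apply, PiLp.smul_apply, smul_eq_mul, Matrix.one_apply]
  have e : ∑ k, ‖x‖⁻¹ * ef k x a * (‖x‖⁻¹ * ef k x b) =
      (‖x‖ ^ 2)⁻¹ * ∑ k, ef k x a * ef k x b := by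
    rw [Finset.mul_sum]
    exact Finset.sum_congr rfl fun k _ => by ring
  rw [e, h]
  split_ifs
  · exact inv_mul_cancel₀ (by positivity)
  · exact mul_zero _

theorem contDiffAt_cof (k : Fin 4) {x : E 4} (hx : x ≠ 0) :
    ContDiffAt ℝ (⊤ : ℕ∞) (Γ.cof k) x := by
  have h1 := Γ.contDiffAt_φ hx
  have h2 := Γ.contDiffAt_u hx
  have h3 := Γ.contDiffAt_W1 hx
  have h4 := Γ.contDiffAt_W2 hx
  have h5 : ContDiffAt ℝ (⊤ : ℕ∞) (fun y : E 4 => ‖y‖ ^ 2) x := (contDiff_norm_sq ℝ).contDiffAt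
  have h6 : ‖x‖ ^ 2 ≠ 0 := pow_ne_zero _ (norm_ne_zero_iff.2 hx)
  have h7 := fun i => (contDiff_ef i).contDiffAt (x := x)
  fin_cases k
  · exact (h1.exp.div h5 h6).smul (h7 0)
  · exact ((h1.sub h2).exp.div h5 h6).smul (h7 1)
  · exact ((h1.sub h2).exp.div h5 h6).smul (h7 2)
  · exact ((h1.add (contDiffAt_const.mul h2)).exp.div h5 h6).smul
      (((h7 3).sub (h3.smul (h7 1))).sub (h4.smul (h7 2)))

theorem gm_smooth (i j : Fin 4) : ContDiff ℝ (⊤ : ℕ∞) fun x => Γ.gm x i j := by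
  rw [contDiff_iff_contDiffAt]
  intro x
  by_cases hx : x = 0
  · refine (contDiffAt_const (c := (1 : Matrix (Fin 4) (Fin 4) ℝ) i j)).congr_of_eventuallyEq ?_
    subst hx
    filter_upwards [Metric.closedBall_mem_nhds (0 : E 4) one_pos] with y hy
    rw [Γ.gm_eq_one (mem_closedBall_zero_iff.1 hy)]
  · have h : ∀ k a, ContDiffAt ℝ (⊤ : ℕ∞) (fun y => Γ.cof k y a) x := fun k a =>
      (EuclideanSpace.proj a : E 4 →L[ℝ] ℝ).contDiff.contDiffAt.comp x (Γ.contDiffAt_cof k hx)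
    refine (ContDiffAt.sum (s := Finset.univ) fun k _ =>
      (h k i).mul (h k j)).congr_of_eventuallyEq ?_
    filter_upwards [isOpen_ne.mem_nhds hx] with y hy
    rw [gm, if_neg hy, Matrix.of_apply]

theorem cof_fr {x : E 4} (hx : x ≠ 0) (k i : Fin 4) :
    ∑ a, Γ.cof k x a * Γ.fr i x a = if k = i then 1 else 0 := by
  have h6 : ‖x‖ ^ 2 ≠ 0 := pow_ne_zero _ (norm_ne_zero_iff.2 hx)
  have h := norm_sq_E4 x
  have e1 := Real.exp_ne_zero (Γ.φ (lg x))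
  have e2 := Real.exp_ne_zero (Γ.u (lg x))
  rw [Fin.sum_univ_four]
  fin_cases k <;> fin_cases i <;>
    simp [cof, fr, ef, Real.exp_add, Real.exp_sub, Real.exp_neg, two_mul] <;>
    field_simp <;> (try rw [h]) <;> ring

theorem fr_cof {x : E 4} (hx : x ≠ 0) (v : E 4) :
    v = ∑ k, (∑ a, Γ.cof k x a * v a) • Γ.fr k x := by
  have h1 : (Matrix.of fun k a => Γ.cof k x a) * (Matrix.of fun a i => Γ.fr i x a) = 1 := by
    ext k i
    rw [Matrix.mul_apply, Matrix.one_apply]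
    exact Γ.cof_fr hx k i
  have h2 := congrArg (fun M => Matrix.mulVec M fun a => v a) (mul_eq_one_comm.1 h1)
  simp only [Matrix.one_mulVec, ← Matrix.mulVec_mulVec] at h2
  ext b
  rw [← congrFun h2 b]
  simp [Matrix.mulVec, dotProduct, mul_comm]

theorem gm_posDef (x : E 4) : (Γ.gm x).PosDef := by
  rw [gm]
  split_ifs with hx
  · exact Matrix.PosDef.one
  have h := Matrix.PosDef.conjTranspose_mul_self (Matrix.of fun k a => Γ.cof k x a) (by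
    refine (injective_iff_map_eq_zero (Matrix.mulVecLin _)).2 fun v hv => ?_
    have h1 := Γ.fr_cof hx (WithLp.toLp 2 v)
    have h2 : ∀ k, ∑ a, Γ.cof k x a * v a = 0 := fun k => congrFun hv k
    simp only [h2, zero_smul, Finset.sum_const_zero] at h1
    exact congrArg WithLp.ofLp h1)
  exact h

noncomputable def metric : RMetric 4 := ⟨Γ.gm, Γ.gm_smooth, Γ.gm_posDef⟩

/-- the nonzero structure functions, without the factor `e^{-φ}`, for `i < j` -/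
noncomputable def cup (x : E 4) : Fin 4 → Fin 4 → Fin 4 → ℝ :=
  let p := Γ.p (lg x)
  let u' := deriv Γ.u (lg x)
  let e := Real.exp (Γ.u (lg x))
  let w1 := Γ.W1 x
  let w2 := Γ.W2 x
  let Fc := -2 + (DD (ef 1) Γ.W2 x + w1 * DD (ef 3) Γ.W2 x) -
    (DD (ef 2) Γ.W1 x + w2 * DD (ef 3) Γ.W1 x) - 2 * w1 ^ 2 - 2 * w2 ^ 2
  ![![0, ![0, u' - p, 0, e ^ 3 * DD (ef 0) Γ.W1 x], ![0, 0, u' - p, e ^ 3 * DD (ef 0) Γ.W2 x],
      ![0, 0, 0, -p - 2 * u']],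
    ![0, 0, ![0, 2 * e * w1, 2 * e * w2, e ^ 4 * Fc],
      ![0, 0, 2 * (e⁻¹) ^ 2, -(e * (DD (ef 3) Γ.W1 x + 2 * w2))]],
    ![0, 0, 0, ![0, -(2 * (e⁻¹) ^ 2), 0, -(e * (DD (ef 3) Γ.W2 x - 2 * w1))]],
    0]

/-- structure functions of the frame -/
noncomputable def cs (i j k : Fin 4) (x : E 4) : ℝ :=
  Real.exp (-Γ.φ (lg x)) * (Γ.cup x i j k - Γ.cup x j i k)

theorem inner_eq {x : E 4} (hx : x ≠ 0) (v w : E 4) : Γ.metric.inner x v w =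
    ∑ k, (∑ a, Γ.cof k x a * v a) * ∑ a, Γ.cof k x a * w a := by
  simp only [RMetric.inner, metric, gm, if_neg hx, Matrix.of_apply, Finset.sum_mul, Finset.mul_sum]
  conv_rhs => rw [Finset.sum_comm]
  rw [Finset.sum_comm]
  refine Finset.sum_congr rfl fun b _ => ?_
  rw [Finset.sum_comm]
  exact Finset.sum_congr rfl fun k _ => Finset.sum_congr rfl fun a _ => by ring

/-- logarithms of the frame factors -/
noncomputable def ψ (k : Fin 4) (s : ℝ) : ℝ :=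
  ![-Γ.φ s, -Γ.φ s + Γ.u s, -Γ.φ s + Γ.u s, -Γ.φ s - 2 * Γ.u s] k

noncomputable def ψ' (k : Fin 4) (s : ℝ) : ℝ :=
  ![-Γ.p s, -Γ.p s + deriv Γ.u s, -Γ.p s + deriv Γ.u s, -Γ.p s - 2 * deriv Γ.u s] k

noncomputable def Wf (k : Fin 4) : E 4 → ℝ := ![fun _ => 0, Γ.W1, Γ.W2, fun _ => 0] k

theorem fr_eq (k : Fin 4) :
    Γ.fr k = fun x => Real.exp (Γ.ψ k (lg x)) • (ef k x + Γ.Wf k x • ef 3 x) := by
  funext x
  fin_cases k <;> simp [fr, ψ, Wf]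

theorem hasDerivAt_φ (s : ℝ) : HasDerivAt Γ.φ (Γ.p s) s :=
  (Γ.φ_smooth.differentiable (by simp) s).hasDerivAt

theorem hasDerivAt_u (s : ℝ) : HasDerivAt Γ.u (deriv Γ.u s) s :=
  (Γ.u_smooth.differentiable (by simp) s).hasDerivAt

theorem hasDerivAt_ψ (k : Fin 4) (s : ℝ) : HasDerivAt (Γ.ψ k) (Γ.ψ' k s) s := by
  have h1 := Γ.hasDerivAt_φ s
  have h2 := Γ.hasDerivAt_u s
  fin_cases k
  · exact h1.neg
  · exact h1.neg.add h2
  · exact h1.neg.add h2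
  · exact h1.neg.sub (h2.const_mul 2)

theorem contDiff_ψ (k : Fin 4) : ContDiff ℝ (⊤ : ℕ∞) (Γ.ψ k) := by
  have h1 := Γ.φ_smooth
  have h2 := Γ.u_smooth
  fin_cases k
  · exact h1.neg
  · exact h1.neg.add h2
  · exact h1.neg.add h2
  · exact h1.neg.sub (contDiff_const.mul h2)

theorem contDiffAt_Wf (k : Fin 4) {x : E 4} (hx : x ≠ 0) : ContDiffAt ℝ (⊤ : ℕ∞) (Γ.Wf k) x := by
  fin_cases k
  · exact contDiffAt_const
  · exact Γ.contDiffAt_W1 hx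
  · exact Γ.contDiffAt_W2 hx
  · exact contDiffAt_const

theorem contDiffAt_fr (k : Fin 4) {x : E 4} (hx : x ≠ 0) : ContDiffAt ℝ (⊤ : ℕ∞) (Γ.fr k) x := by
  rw [fr_eq]
  exact ((Γ.contDiff_ψ k).contDiffAt.comp x (contDiffAt_lg hx)).exp.smul
    ((contDiff_ef k).contDiffAt.add ((Γ.contDiffAt_Wf k hx).smul (contDiff_ef 3).contDiffAt))

theorem DD_fr {V : Type} [NormedAddCommGroup V] [NormedSpace ℝ V] (f : E 4 → V) (k : Fin 4)
    (x : E 4) : DD (Γ.fr k) f x =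
      Real.exp (Γ.ψ k (lg x)) • (DD (ef k) f x + Γ.Wf k x • DD (ef 3) f x) := by
  simp only [DD, fr_eq, map_smul, map_add]

theorem DD_ef_fr {x : E 4} (hx : x ≠ 0) (a k : Fin 4) : DD (ef a) (Γ.fr k) x =
    Real.exp (Γ.ψ k (lg x)) • ((if a = 0 then Γ.ψ' k (lg x) else 0) • (ef k x + Γ.Wf k x • ef 3 x) +
      (ef k (ef a x) + (DD (ef a) (Γ.Wf k) x • ef 3 x + Γ.Wf k x • ef 3 (ef a x)))) := by
  have h1 := ((contDiffAt_lg hx).differentiableAt (by simp)).hasFDerivAt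
  have h2 := ((Γ.contDiffAt_Wf k hx).differentiableAt (by simp)).hasFDerivAt
  have h3 := (((Γ.hasDerivAt_ψ k (lg x)).comp_hasFDerivAt x h1).exp).smul
    ((hasFDerivAt_ef k x).add (h2.smul (hasFDerivAt_ef 3 x)))
  have h4 : fderiv ℝ lg x (ef a x) = if a = 0 then 1 else 0 := DD_lg hx a
  rw [fr_eq, DD, HasFDerivAt.fderiv (f := fun x => Real.exp (Γ.ψ k (lg x)) •
    (ef k x + Γ.Wf k x • ef 3 x)) h3]
  simp only [add_apply, smul_apply, ContinuousLinearMap.smulRight_apply, h4, ← efL_eq, DD,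
    Function.comp, Pi.add_apply, Pi.smul_apply', smul_eq_mul]
  split_ifs <;> module

theorem contDiffAt_DD {V : Type} [NormedAddCommGroup V] [NormedSpace ℝ V] {f : E 4 → V} {x : E 4}
    (hf : ContDiffAt ℝ (⊤ : ℕ∞) f x) (a : Fin 4) : ContDiffAt ℝ (⊤ : ℕ∞) (DD (ef a) f) x :=
  (hf.fderiv_right (by simp)).clm_apply (contDiff_ef a).contDiffAt

theorem contDiffAt_cup {x : E 4} (hx : x ≠ 0) (i j k : Fin 4) :
    ContDiffAt ℝ (⊤ : ℕ∞) (fun y => Γ.cup y i j k) x := by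
  have h1 : ContDiffAt ℝ (⊤ : ℕ∞) (fun y => Γ.p (lg y)) x :=
    (contDiff_infty_iff_deriv.1 Γ.φ_smooth).2.contDiffAt.comp x (contDiffAt_lg hx)
  have h2 : ContDiffAt ℝ (⊤ : ℕ∞) (fun y => deriv Γ.u (lg y)) x :=
    (contDiff_infty_iff_deriv.1 Γ.u_smooth).2.contDiffAt.comp x (contDiffAt_lg hx)
  have h3 := (Γ.contDiffAt_u hx).exp
  have h4 := h3.inv (Real.exp_ne_zero _)
  have h5 := Γ.contDiffAt_W1 hx
  have h6 := Γ.contDiffAt_W2 hx
  have h7 := contDiffAt_DD h5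
  have h8 := contDiffAt_DD h6
  have c := fun r : ℝ => contDiffAt_const (𝕜 := ℝ) (n := (⊤ : ℕ∞)) (x := x) (c := r)
  fin_cases i <;> fin_cases j <;> fin_cases k <;> first
    | exact c 0
    | exact h2.sub h1
    | exact (h3.pow 3).mul (h7 0)
    | exact (h3.pow 3).mul (h8 0)
    | exact h1.neg.sub ((c 2).mul h2)
    | exact ((c 2).mul h3).mul h5
    | exact ((c 2).mul h3).mul h6
    | exact (c 2).mul (h4.pow 2)
    | exact ((c 2).mul (h4.pow 2)).neg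
    | exact (h3.mul ((h7 3).add ((c 2).mul h6))).neg
    | exact (h3.mul ((h8 3).sub ((c 2).mul h5))).neg
    | exact (h3.pow 4).mul (((((c (-2)).add ((h8 1).add (h5.mul (h8 3)))).sub
        ((h7 2).add (h6.mul (h7 3)))).sub ((c 2).mul (h5.pow 2))).sub ((c 2).mul (h6.pow 2)))

theorem ef_tab (x : E 4) : (∀ v, ef 0 v = v) ∧ ef 1 (ef 1 x) = -x ∧ ef 2 (ef 2 x) = -x ∧
    ef 3 (ef 3 x) = -x ∧ ef 1 (ef 2 x) = ef 3 x ∧ ef 2 (ef 1 x) = -ef 3 x ∧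
    ef 2 (ef 3 x) = ef 1 x ∧ ef 3 (ef 2 x) = -ef 1 x ∧ ef 3 (ef 1 x) = ef 2 x ∧
    ef 1 (ef 3 x) = -ef 2 x := by
  refine ⟨fun v => rfl, ?_, ?_, ?_, ?_, ?_, ?_, ?_, ?_, ?_⟩ <;> ext a <;> fin_cases a <;> simp [ef]

theorem brk_lt {x : E 4} (hx : x ≠ 0) {i j : Fin 4} (hij : i < j) :
    DD (Γ.fr i) (Γ.fr j) x - DD (Γ.fr j) (Γ.fr i) x = ∑ k, Γ.cs i j k x • Γ.fr k x := by
  obtain ⟨t0, -, -, t3, t4, t5, t6, t7, t8, t9⟩ := ef_tab x
  have e2 := Real.exp_ne_zero (Γ.u (lg x))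
  have z : ∀ a, DD (ef a) (fun _ : E 4 => (0 : ℝ)) x = 0 := fun a => by simp [DD]
  rw [DD_fr, DD_fr, DD_ef_fr Γ hx, DD_ef_fr Γ hx, DD_ef_fr Γ hx, DD_ef_fr Γ hx, Fin.sum_univ_four]
  fin_cases i <;> fin_cases j <;> simp at hij <;>
    simp [cs, cup, fr, ψ, ψ', Wf, z, t0, t3, t4, t5, t6, t7, t8, t9, Real.exp_add,
      Real.exp_sub, two_mul] <;>
    match_scalars <;> field_simp <;> ring

theorem oframe : OFrame Γ.metric {x | x ≠ 0} Γ.fr Γ.cs where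
  isOpen := isOpen_ne
  smoothF := fun i x hx => ((Γ.contDiffAt_fr i hx).of_le (by norm_cast)).contDiffWithinAt
  smoothc := fun i j k x hx => (((Γ.contDiffAt_φ hx).neg.exp.mul
    ((Γ.contDiffAt_cup hx i j k).sub (Γ.contDiffAt_cup hx j i k))).of_le (by simp)).contDiffWithinAt
  orth := fun x hx i j => by
    rw [Γ.inner_eq hx]
    simp [Γ.cof_fr hx, eq_comm]
  brk := fun x hx i j => by
    rcases lt_trichotomy i j with h | rfl | h
    · exact Γ.brk_lt hx h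
    · simp [cs]
    · rw [← neg_sub, Γ.brk_lt hx h, ← Finset.sum_neg_distrib]
      refine Finset.sum_congr rfl fun k _ => ?_
      rw [← neg_smul, cs, cs]
      congr 1
      ring

end Geo

end Vale.Agent.P225
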