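import Vale.Agent.P225.Ys

/-! Averaged growth of the lineages. -/

namespace Vale.Agent.P225

open Set Filter Topology

lemma growth_len (tm : Times) (m r : ℕ) :
    tm.a (m + 1) - tm.a m ≤ tm.a (m + r + 1) - tm.a (m + r) ∧
      tm.a (m + r + 1) - tm.a (m + r) ≤ tm.Γ ^ (4 * r) * (tm.a (m + 1) - tm.a m) := by
  have h1 := tm.T_mono (Nat.le_add_right m r)
  have h2 : tm.T (m + r) = tm.Γ ^ (4 * r) * tm.T m := by simp only [Times.T, Times.sg]; ring
  have h3 : 1 ≤ tm.Γ ^ (4 * r) := one_le_pow₀ tm.hΓ.le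
  have h4 : (0 : ℝ) ≤ tm.N := Nat.cast_nonneg _
  simp only [Times.a_succ]
  constructor
  · linarith
  · rw [h2]; nlinarith

/-- the abstract averaging lemma -/
lemma growth_avg (tm : Times) {G : ℝ → ℝ} {x : ℕ → ℝ} {X : ℝ} {P : ℕ} (hP : 1 ≤ P) (hX : 1 ≤ X)
    (hq : tm.Γ ^ (4 * P) ≤ 1 + 1 / (2 * X)) (hx : ∀ m, x m ≤ X)
    (h1 : ∀ s t, s ≤ t → G t - G s ≤ X * (t - s))
    (h2 : ∀ m, G (tm.a (m + 1)) - G (tm.a m) ≤ x m * (tm.a (m + 1) - tm.a m))
    (h3 : ∀ j, ∑ m ∈ Finset.Ico (j * P) ((j + 1) * P), x m ≤ -(2 * P)) :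
    ∃ A, ∀ s, 0 ≤ s → G s ≤ A := by
  set q := tm.Γ ^ (4 * P)
  set L : ℕ → ℝ := fun m => tm.a (m + 1) - tm.a m with hL
  have hL0 : ∀ m, 0 ≤ L m := fun m => sub_nonneg.2 (tm.a_strictMono (Nat.lt_succ_self m)).le
  have hq1 : 1 ≤ q := one_le_pow₀ tm.hΓ.le
  have hq2 : X * (q - 1) ≤ 1 / 2 := by
    have : X * (1 / (2 * X)) = 1 / 2 := by field_simp
    nlinarith
  have hq3 : q ≤ 2 := by nlinarith
  have hb : ∀ j m, j * P ≤ m → m ≤ (j + 1) * P → L (j * P) ≤ L m ∧ L m ≤ q * L (j * P) := by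
    intro j m a b
    obtain ⟨r, rfl⟩ := Nat.exists_eq_add_of_le a
    refine ⟨(growth_len tm _ r).1, (growth_len tm _ r).2.trans
      (mul_le_mul_of_nonneg_right (pow_le_pow_right₀ tm.hΓ.le ?_) (hL0 _))⟩
    rw [add_mul] at b; omega
  have hc : ∀ j, ((Finset.Ico (j * P) ((j + 1) * P)).card : ℝ) = P := fun j => by
    simp [add_mul]
  have key : ∀ j, G (tm.a (j * P)) + X * P * q * L (j * P) ≤ G (tm.a 0) + X * P * q * L 0 := by
    intro j
    induction j with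
    | zero => simp
    | succ j ih =>
      have hle : j * P ≤ (j + 1) * P := by nlinarith
      have e := Finset.sum_Ico_sub (fun m => G (tm.a m)) hle
      have b1 : G (tm.a ((j + 1) * P)) - G (tm.a (j * P)) ≤
          ∑ m ∈ Finset.Ico (j * P) ((j + 1) * P), (x m * L (j * P) + L (j * P)) := by
        rw [← e]
        refine Finset.sum_le_sum fun m hm => (h2 m).trans ?_
        obtain ⟨c1, c2⟩ := hb j m (Finset.mem_Ico.1 hm).1 (Finset.mem_Ico.1 hm).2.le
        have c3 := mul_le_mul_of_nonneg_right (hx m) (sub_nonneg.2 c1)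
        have c4 := mul_le_mul_of_nonneg_left c2 (by linarith : 0 ≤ X)
        have c5 := mul_le_mul_of_nonneg_right hq2 (hL0 (j * P))
        have := hL0 (j * P)
        change x m * L m ≤ _
        nlinarith
      rw [Finset.sum_add_distrib, ← Finset.sum_mul, Finset.sum_const, nsmul_eq_mul, hc] at b1
      have b2 := mul_le_mul_of_nonneg_right (h3 j) (hL0 (j * P))
      have b3 := mul_le_mul_of_nonneg_left (hb j _ hle le_rfl).2 (by positivity : 0 ≤ X * P * q)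
      have b4 : X * (q - 1) * q ≤ 1 := by nlinarith
      have b5 := mul_le_mul_of_nonneg_right b4
        (mul_nonneg (Nat.cast_nonneg P) (hL0 (j * P)) : 0 ≤ (P : ℝ) * L (j * P))
      nlinarith
  refine ⟨max (G 0 + X * tm.a 0) (G (tm.a 0) + X * P * q * L 0), fun s hs => ?_⟩
  rcases le_total s (tm.a 0) with h | h
  · refine le_max_of_le_left ?_
    have := h1 0 s hs
    nlinarith
  refine le_max_of_le_right (le_trans ?_ (key (tm.st s / P)))
  set j := tm.st s / P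
  have a1 : j * P ≤ tm.st s := Nat.div_mul_le_self _ _
  have a2 : tm.st s + 1 ≤ (j + 1) * P := by
    rw [mul_comm]; exact Nat.lt_mul_div_succ _ hP
  have a3 := (tm.a_strictMono.monotone a1).trans (tm.a_st_le h)
  have a4 := (tm.lt_a_st_succ s).le.trans (tm.a_strictMono.monotone a2)
  have a5 : tm.a ((j + 1) * P) - tm.a (j * P) ≤ P * (q * L (j * P)) := by
    rw [← Finset.sum_Ico_sub tm.a (by omega), ← hc j, ← nsmul_eq_mul]
    exact Finset.sum_le_card_nsmul _ _ _ fun m hm =>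
      (hb j m (Finset.mem_Ico.1 hm).1 (Finset.mem_Ico.1 hm).2.le).2
  have := h1 _ _ a3
  nlinarith

lemma growth_rate {P : Par} {Kc KY : ℝ} (C : Ctx P Kc KY) (l : P.LT) (s : ℝ) :
    C.rp l.1.1 l.1.2 s ≤ ((max (dg l.1.1 (P.S.perm l.1.1 (C.tm.st s) l.1.2))
      (dg l.1.1 (P.S.perm l.1.1 (C.tm.st s + 1) l.1.2)) : ℕ) : ℝ) + 20 := by
  have hn := P.S.LL_pos _ l.2
  have hD : ∀ m, dg l.1.1 (P.S.perm l.1.1 m l.1.2) ≤ P.S.D := fun m =>
    (P.S.LL_dg _ (P.S.perm_LL l.2 m)).trans (by have := P.S.dp_D; omega)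
  have h1 := C.y1_le hn (hD (C.tm.st s)) s
  have h2 := C.y1_le hn (hD (C.tm.st s + 1)) s
  push_cast
  unfold Ctx.rp
  split_ifs with a b c
  · exact h1.trans (by gcongr; exact le_max_left _ _)
  · have d1 := P.S.lo_dg (P.S.kd (C.tm.st s)) _ c.1
    have d2 := P.S.hi_dg (P.S.kd (C.tm.st s)) _ c.1
    have d3 := P.S.dl_le (P.S.kd (C.tm.st s))
    have h3 := C.y1_le hn (i := C.lo l.1.1 s) (d1.trans_le (by omega)) s
    have h4 := C.y1_le hn (i := C.hi l.1.1 s) (d2.trans_le d3) s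
    have h5 : (dg l.1.1 (C.hi l.1.1 s) : ℝ) ≤ max (dg l.1.1 (P.S.perm l.1.1 (C.tm.st s) l.1.2) : ℝ)
        (dg l.1.1 (P.S.perm l.1.1 (C.tm.st s + 1) l.1.2)) := by
      rcases c.2 with e | e
      · refine le_max_of_le_right (le_of_eq ?_)
        rw [P.S.perm_succ, if_pos c.1, show P.S.perm _ _ _ = _ from e, Ctx.lo, Equiv.swap_apply_left,
          Ctx.hi]
      · exact le_max_of_le_left (le_of_eq (by rw [← e, Ctx.pm]))
    have h6 : (dg l.1.1 (C.lo l.1.1 s) : ℝ) ≤ dg l.1.1 (C.hi l.1.1 s) := by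
      exact_mod_cast (d1.trans_le (Nat.le_succ _)).trans_eq d2.symm
    linarith
  · exact h1.trans (by gcongr; exact le_max_left _ _)
  · exact h2.trans (by gcongr; exact le_max_right _ _)

theorem growth (S : Sched) : ∃ Γ₀ : ℝ, 1 < Γ₀ ∧ ∀ (P : Par), P.S = S → P.Γ ≤ Γ₀ →
    ∀ (Kc KY : ℝ) (C : Ctx P Kc KY) (l : P.LT), ∃ A : ℝ, ∀ s, 0 ≤ s →
      ∫ r in (0 : ℝ)..s, C.rp l.1.1 l.1.2 r ≤ A + ((P.S.k : ℝ) + 1) * C.ph s := by
  have hev : ∀ᶠ Γ : ℝ in 𝓝[>] 1, Γ ^ (4 * S.P) < 1 + 1 / (2 * ((S.D : ℝ) + 20)) :=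
    nhdsWithin_le_nhds ((continuous_pow _).continuousAt.eventually_lt continuousAt_const
      (by simp; positivity))
  obtain ⟨Γ₀, h1, h2⟩ := (hev.and self_mem_nhdsWithin).exists
  refine ⟨Γ₀, h2, ?_⟩
  rintro P rfl hΓ Kc KY C l
  have hn := P.S.LL_pos _ l.2
  have hD : ∀ m, dg l.1.1 (P.S.perm l.1.1 m l.1.2) ≤ P.S.D := fun m =>
    (P.S.LL_dg _ (P.S.perm_LL l.2 m)).trans (by have := P.S.dp_D; omega)
  set c : ℝ := (P.S.k + 1) * (1 - 2 * del)
  have hc : 0 ≤ c := mul_nonneg (by positivity) (by norm_num [del])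
  set M : ℕ → ℝ := fun m => ((max (dg l.1.1 (P.S.perm l.1.1 m l.1.2))
    (dg l.1.1 (P.S.perm l.1.1 (m + 1) l.1.2)) : ℕ) : ℝ) with hM
  have hMD : ∀ m, M m ≤ P.S.D := fun m => by
    simp only [hM]; exact_mod_cast max_le (hD m) (hD (m + 1))
  have hG : ∀ s t b, s ≤ t → (∀ r ∈ Ioo s t, C.rp l.1.1 l.1.2 r ≤ b) →
      (∫ r in (0 : ℝ)..t, C.rp l.1.1 l.1.2 r) - c * t -
        ((∫ r in (0 : ℝ)..s, C.rp l.1.1 l.1.2 r) - c * s) ≤ (b - c) * (t - s) := by
    intro s t b hst hb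
    have := intervalIntegral.integral_mono_on_of_le_Ioo hst (C.rp_int hn l.1.2 s t)
      intervalIntegrable_const hb
    rw [← intervalIntegral.integral_interval_sub_left (C.rp_int hn l.1.2 0 t)
      (C.rp_int hn l.1.2 0 s), intervalIntegral.integral_const, smul_eq_mul] at this
    linarith
  obtain ⟨A, hA⟩ := growth_avg C.tm (G := fun s => (∫ r in (0 : ℝ)..s, C.rp l.1.1 l.1.2 r) - c * s)
    (x := fun m => M m + 20 - c) (X := P.S.D + 20) P.S.P_pos
    (by have : (0 : ℝ) ≤ P.S.D := Nat.cast_nonneg _; linarith)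
    ((pow_le_pow_left₀ (zero_le_one.trans C.tm.hΓ.le) (C.hΓ.trans_le hΓ) _).trans h1.le)
    (fun m => by linarith [hMD m])
    (fun s t hst => (hG s t (P.S.D + 20) hst fun r _ =>
      (growth_rate C l r).trans (by linarith [hMD (C.tm.st r)])).trans (by nlinarith))
    (fun m => hG _ _ _ (C.tm.a_strictMono (Nat.lt_succ_self m)).le fun r hr => by
      have := growth_rate C l r
      rwa [C.tm.st_eq hr.1.le hr.2] at this)
    (fun j => by
      have := P.S.avg _ l.2 j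
      have e : ∑ m ∈ Finset.Ico (j * P.S.P) ((j + 1) * P.S.P), (M m + 20 - c) =
          ∑ m ∈ Finset.Ico (j * P.S.P) ((j + 1) * P.S.P), (M m + 52) - P.S.P * (32 + c) := by
        rw [eq_sub_iff_add_eq, show (P.S.P : ℝ) * (32 + c) =
          ∑ _m ∈ Finset.Ico (j * P.S.P) ((j + 1) * P.S.P), (32 + c) by simp [add_mul, mul_add],
          ← Finset.sum_add_distrib]
        exact Finset.sum_congr rfl fun m _ => by ring
      have h0 : (0 : ℝ) ≤ P.S.P := Nat.cast_nonneg _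
      rw [e]
      change ∑ m ∈ _, (M m + 52) ≤ P.S.P * c at this
      linarith)
  refine ⟨A, fun s hs => ?_⟩
  have h3 := intervalIntegral.integral_mono_on hs
    (intervalIntegrable_const (μ := MeasureTheory.volume) (c := 1 - 2 * del))
    (C.pp_smooth.continuous.intervalIntegrable _ _) fun r _ => P.St.pinf_ge.trans (C.pp_ge r)
  rw [intervalIntegral.integral_const, smul_eq_mul, sub_zero] at h3
  have h4 := mul_le_mul_of_nonneg_left h3 (by positivity : (0 : ℝ) ≤ P.S.k + 1)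
  have := hA s hs
  simp only [c] at this
  unfold Base.ph
  linarith

end Vale.Agent.P225
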