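import Vale.Agent.P225.HBdC

/-! Bounds for the coupling matrices. -/

namespace Vale.Agent.P225

open Set

theorem LT_pos {P : Par} (l : P.LT) : 1 ≤ l.1.1 := P.S.LL_pos _ l.2
theorem LT_le {P : Par} (l : P.LT) : l.1.1 ≤ P.S.D := by
  have h1 := P.S.LL_dg _ l.2
  have h2 := P.S.dp_D
  unfold dg at h1; omega

theorem hb_core {P : Par} {Kc KY K c K1 : ℝ} {C : Ctx P Kc KY} (h : KOK C K) (hc : 0 ≤ c)
    (hK1 : 0 ≤ K1) (hK : 9 * Kg ^ 2 * K1 * (2 * P.S.D + 1) ≤ K)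
    {H : P.LT → ℝ → KK → KK → ℝ} (Z : P.LT → ℝ → KK → KK → ℕ × ℕ → ℕ × ℕ → ℝ)
    (hH : ∀ l s κ κ', H l s κ κ' =
      P.cj l.1.1 (C.tm.st s) (C.τ (C.tm.st s) s) (Z l s κ κ') κ κ')
    (z1 : ∀ l κ κ' i j, Measurable fun s => Z l s κ κ' i j)
    (z2 : ∀ l s κ κ' i j, Z l s κ κ' i j ≠ 0 →
      i ∈ box P.B j ∨ (dg l.1.1 i ≤ P.S.D ∧ dg l.1.1 j ≤ P.S.D))
    (z3 : ∀ l s κ κ' i j, ¬ C.tm.Src s → Z l s κ κ' i j = 0)
    (z4 : ∀ l s κ κ' i j, |Z l s κ κ' i j| ≤ c * K1 * ((dg l.1.1 i : ℝ) + 1) / C.tm.T (C.tm.st s))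
    (z5 : ∀ l m s κ κ' i j, s ∈ Ico (C.tm.b m 2) (C.tm.b m 8) → κ.2 = true → κ'.2 = true →
      dg l.1.1 i ≤ P.S.D → dg l.1.1 j ≤ P.S.D →
      fm (P.S.t0 (P.S.kd m)) (dg l.1.1 j) (ch l.1.1 j) =
        fm (P.S.t0 (P.S.kd m)) (dg l.1.1 i) (ch l.1.1 i) →
      |Z l s κ κ' i j| ≤ c * K1 / C.tm.T m ^ 2)
    (z6 : ∀ l m s κ κ' i j, s ∈ Icc (C.tm.b m 8) (C.tm.b m 9) → dg l.1.1 i ≤ P.S.D →
      |Z l s κ κ' i j| ≤ c * K1 / (C.tm.sg m ^ 2 * C.tm.T m)) : h.kd.HB H c := by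
  have hD : (0 : ℝ) ≤ P.S.D := Nat.cast_nonneg _
  have hK' : 9 * Kg ^ 2 * K1 ≤ K :=
    (le_mul_of_one_le_right (by positivity) (by linarith)).trans hK
  have hst : ∀ m s, C.tm.b m 2 ≤ s → s ≤ C.tm.b m 9 → C.tm.st s = m := fun m s h1 h2 =>
    C.tm.st_of_b ((C.tm.a_le_b m (by norm_num)).trans h1) (by
      linarith [C.tm.b_le_b m (show (9 : ℝ) ≤ 10 by norm_num), C.tm.N_nonneg])
  refine ⟨fun l κ κ' => ?_, fun l s κ κ' hn => ?_, fun l s κ κ' hs => ?_, fun l s κ κ' => ?_,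
    fun l m κ κ' h1 h2 s hs => ?_, fun l m κ κ' h1 h2 s hs => ?_⟩
  · simp only [hH]
    exact C.measurable_stage (f := fun m s => P.cj l.1.1 m (C.τ m s) (Z l s κ κ') κ κ')
      fun m => Par.cj_meas (C.τ_contH m) (z1 l κ κ') κ κ'
  · rw [hH]
    refine Par.cj_zero fun i j hi hj => ?_
    by_contra hz
    apply hn
    simp only [KOK.kd, Par.nbK, Finset.mem_product, Finset.mem_univ, and_true, mem_box]
    have a1 := hi.box
    have a2 := hj.box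
    have a3 := z2 l s κ κ' i j hz
    simp only [mem_box, dg, Prod.ext_iff] at a1 a2 a3
    omega
  · rw [hH]; exact Par.cj_zero fun i j _ _ => z3 l s κ κ' i j hs
  · rw [hH]
    have hT := C.tm.T_pos (C.tm.st s)
    refine (Par.cj_le (B := c * K1 * ((2 * P.S.D + 1) * ((Par.dk κ : ℝ) + 1)) / C.tm.T (C.tm.st s))
      (by positivity) fun i j hi _ => (z4 l s κ κ' i j).trans ?_).trans ?_
    · have a1 := hi.box
      have a2 := LT_le l
      have a3 : dg l.1.1 i ≤ Par.dk κ + P.S.D := by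
        simp only [dg, Par.dk, Prod.ext_iff] at a1 ⊢; omega
      have a4 : (dg l.1.1 i : ℝ) ≤ Par.dk κ + P.S.D := by exact_mod_cast a3
      have a5 : (0 : ℝ) ≤ P.S.D * Par.dk κ := by positivity
      gcongr; nlinarith
    · calc _ = c * (9 * Kg ^ 2 * K1 * (2 * P.S.D + 1)) * ((Par.dk κ : ℝ) + 1) /
            C.tm.T (C.tm.st s) := by ring
        _ ≤ c * K * ((Par.dk κ : ℝ) + 1) / C.tm.T (C.tm.st s) := by gcongr
  · rw [hH, hst m s hs.1 (hs.2.le.trans (C.tm.b_le_b m (by norm_num)))]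
    have hT := C.tm.T_pos m
    refine (Par.cj_le (B := c * K1 / C.tm.T m ^ 2) (by positivity) fun i j hi hj =>
      z5 l m s κ κ' i j hs h1.1 h2.1 (hi.res h1).1 (hj.res h2).1
        ((hj.res h2).2.trans (hi.res h1).2.symm)).trans ?_
    calc _ = c * (9 * Kg ^ 2 * K1) / C.tm.T m ^ 2 := by ring
      _ ≤ _ := by gcongr
  · rw [hH, hst m s ((C.tm.b_le_b m (by norm_num)).trans hs.1) hs.2]
    have hT := C.tm.T_pos m
    have hs' := C.tm.sg_pos m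
    refine (Par.cj_le (B := c * K1 / (C.tm.sg m ^ 2 * C.tm.T m)) (by positivity) fun i j hi hj =>
      z6 l m s κ κ' i j hs (hi.res h1).1).trans ?_
    calc _ = c * (9 * Kg ^ 2 * K1) / (C.tm.sg m ^ 2 * C.tm.T m) := by ring
      _ ≤ _ := by gcongr

namespace Ctx
variable {P : Par} {Kc KY : ℝ} (C : Ctx P Kc KY)

theorem Yd_le {n : ℕ} (hn : 1 ≤ n) (s : ℝ) {a a' : JJ P.S P.St → ℝ} {α β : ℝ} (hα : 0 ≤ α)
    (hβ : 0 ≤ β) (h : ∀ l, |a l - a' l| ≤ α) (h1 : ∀ l, |a l| ≤ β) (h2 : ∀ l, |a' l| ≤ β)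
    (i j : ℕ × ℕ) : |C.hh n i s * P.Qof n a i j - C.hh n i s * P.Qof n a' i j| ≤
      α * (4 * P.cJ * P.CM * (1 + 2 * P.cJ * β)) * ((dg n i : ℝ) + 1) := by
  have a1 := P.lin_le n h i j
  have a2 := P.quad_le n h h1 h2 i j
  have := P.cJ_nonneg
  have := P.CM_pos
  rw [← mul_sub]
  refine (C.hh_mul_le hn i s (A := α * (P.cJ * P.CM * (1 + 2 * P.cJ * β))) (by positivity)
    ?_).trans_eq (by ring)
  have a3 := abs_add_le (P.Qof n a i j - P.Qof n a' i j - ∑ l, (a l - a' l) * P.M1 n l i j)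
    (∑ l, (a l - a' l) * P.M1 n l i j)
  rw [sub_add_cancel] at a3
  linarith

theorem amp_pul_le {Kb c : ℝ} (hb : ∀ τ, |bmp τ| ≤ Kb) {η : Eta P.LT KK} (hc : 0 ≤ c)
    (hη : EtaLe C.tm η c) {m : ℕ} {s : ℝ} (h : s ∈ Icc (C.tm.b m 8) (C.tm.b m 9))
    (l : JJ P.S P.St) : |C.amp η l s| ≤ c * Kb / (C.tm.sg m ^ 2 * C.tm.T m) := by
  have hT := C.tm.T_pos m
  have hs := C.tm.sg_pos m
  have hKb := (abs_nonneg _).trans (hb 0)
  rw [C.amp_pul η h]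
  refine Base.booA_le (by positivity) (fun n => ?_) l
  have h1 := C.abs_tgt_le hc hη m .pul (m + 1) (n, P.slow (P.S.kd m) n, P.fast (P.S.kd m) n)
  rw [abs_div, abs_mul, abs_of_pos hT]
  simp only [Times.eps] at h1
  calc _ ≤ c * (1 / C.tm.sg m ^ 2) * Kb / C.tm.T m := by gcongr; exact hb _
    _ = _ := by field_simp

theorem amp_pul_sub (η η' : Eta P.LT KK) {m : ℕ} {s : ℝ}
    (h : s ∈ Icc (C.tm.b m 8) (C.tm.b m 9)) (l : JJ P.S P.St) :
    C.amp η l s - C.amp η' l s = C.amp (η - η') l s := by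
  rw [C.amp_pul η h, C.amp_pul η' h, C.amp_pul (η - η') h, Base.booA_sub]
  congr 1; funext n; rw [Base.tgt_sub]; ring

theorem st_sw {m : ℕ} {s : ℝ} (h1 : C.tm.b m 2 ≤ s) (h2 : s ≤ C.tm.b m 9) : C.tm.st s = m :=
  C.tm.st_of_b ((C.tm.a_le_b m (by norm_num)).trans h1) (by
    linarith [C.tm.b_le_b m (show (9 : ℝ) ≤ 10 by norm_num), C.tm.N_nonneg])

theorem Dl_le {Kd : ℝ} (hd : ∀ τ, |aB τ| ≤ Kd) (n : ℕ) (s : ℝ) (i j : ℕ × ℕ) :
    |C.Dl n s i j| ≤ (|KY| + Kd) / C.tm.T (C.tm.st s) := by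
  have hT := C.tm.T_pos (C.tm.st s)
  have hT1 := C.tm.one_le_T (C.tm.st s)
  have hKd := (abs_nonneg _).trans (hd 0)
  by_cases h1 : C.Dl n s i j = 0
  · rw [h1, abs_zero]; positivity
  have h2 := C.Dl_mid (n := n) (C.Dl_ne h1).2 i j
  have h3 : |KY| / C.tm.T (C.tm.st s) ^ 2 ≤ |KY| / C.tm.T (C.tm.st s) := by
    gcongr; nlinarith
  have h4 : |aB (C.τ (C.tm.st s) s) / C.tm.T (C.tm.st s)| ≤ Kd / C.tm.T (C.tm.st s) := by
    rw [abs_div, abs_of_pos hT]; gcongr; exact hd _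
  have h5 : 0 ≤ Kd / C.tm.T (C.tm.st s) := by positivity
  rw [add_div]
  split_ifs at h2
  · rw [abs_le] at h2 h4 ⊢; constructor <;> linarith [h2.1, h2.2, h4.1, h4.2]
  · rw [add_zero] at h2; linarith

theorem Dl_pul {n m : ℕ} {s : ℝ} (h1 : C.tm.st s = m) (hs : C.tm.b m 8 ≤ s ∨ s < C.tm.b m 2)
    (i j : ℕ × ℕ) : C.Dl n s i j = 0 := by
  by_contra h
  have := (C.Dl_ne h).2
  rw [h1] at this
  rcases hs with hs | hs <;> linarith [this.1, this.2]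

theorem mid_le {Ka Kn : ℝ} (hKa : 0 ≤ Ka) (hKn : 0 ≤ Kn) {η : Eta P.LT KK} {n m : ℕ} (hn : 1 ≤ n)
    {s : ℝ} (hs : s ∈ Ico (C.tm.b m 2) (C.tm.b m 8)) {i j : ℕ × ℕ} (hi : dg n i ≤ P.S.D)
    (hj : dg n j ≤ P.S.D) (he : fm (P.S.t0 (P.S.kd m)) (dg n j) (ch n j) =
      fm (P.S.t0 (P.S.kd m)) (dg n i) (ch n i)) (a0 : ∀ l, |C.amp η l s| ≤ Ka / C.tm.T m)
    (a2 : |C.hh n i s - P.gI (P.S.t0 (P.S.kd m)) n i| ≤ Kn / C.tm.T m) :
    |C.Dl n s i j + C.Ym η n s i j| ≤ (|KY| + ((P.S.D : ℝ) + 1) ^ 2 * P.cJ * P.CM * Ka *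
      (Kn + 8 * P.cJ * Ka)) / C.tm.T m ^ 2 := by
  have hT := C.tm.T_pos m
  have hJ := P.cJ_nonneg
  have hM := P.CM_pos
  have hD : (0 : ℝ) ≤ P.S.D := Nat.cast_nonneg _
  have hi' : (dg n i : ℝ) ≤ P.S.D := by exact_mod_cast hi
  have a1 := C.Dl_mid (n := n) hs i j
  rw [← Base.booA_sum _ (fun _ => aB (C.τ m s) / C.tm.T m) hn hi hj he] at a1
  simp only [← C.amp_mid η ⟨hs.1, hs.2.le⟩] at a1
  have a3 := P.lin_le n a0 i j
  have a4 := P.quad_le n (a := fun l => C.amp η l s) (a' := 0) (α := Ka / C.tm.T m)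
    (fun l => by rw [Pi.zero_apply, sub_zero]; exact a0 l) a0
    (fun l => by rw [Pi.zero_apply, abs_zero]; positivity) i j
  simp only [P.Qof_zero, sub_zero, Pi.zero_apply] at a4
  have a5 := C.hh_mul_le hn i s
    (A := P.cJ * (P.cJ * (2 * (Ka / C.tm.T m) * (Ka / C.tm.T m) * P.CM))) (by positivity)
    (a4.trans_eq (by ring))
  have a6 := mul_le_mul a2 a3 (abs_nonneg _) (by positivity)
  rw [← abs_mul] at a6
  rw [C.Ym_eq, add_div]
  have a7 : Kn / C.tm.T m * (P.cJ * (Ka / C.tm.T m * (P.CM * ((dg n i : ℝ) + 1) ^ 2))) +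
      4 * (P.cJ * (P.cJ * (2 * (Ka / C.tm.T m) * (Ka / C.tm.T m) * P.CM))) *
        ((dg n i : ℝ) + 1) ≤ ((P.S.D : ℝ) + 1) ^ 2 * P.cJ * P.CM * Ka *
      (Kn + 8 * P.cJ * Ka) / C.tm.T m ^ 2 := by
    have : (dg n i : ℝ) + 1 ≤ ((P.S.D : ℝ) + 1) ^ 2 := by nlinarith
    calc _ ≤ Kn / C.tm.T m * (P.cJ * (Ka / C.tm.T m * (P.CM * ((P.S.D : ℝ) + 1) ^ 2))) +
        4 * (P.cJ * (P.cJ * (2 * (Ka / C.tm.T m) * (Ka / C.tm.T m) * P.CM))) *
        ((P.S.D : ℝ) + 1) ^ 2 := by gcongr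
      _ = _ := by field_simp; ring
  rw [sub_mul] at a6
  rw [mul_sub] at a5
  rw [abs_le] at a1 a5 a6 ⊢
  constructor <;> linarith [a1.1, a1.2, a5.1, a5.2, a6.1, a6.2]

end Ctx

theorem hbd (P : Par) (Kc KY : ℝ) : Evt P Kc KY fun K C => ∀ h : KOK C K,
    (∀ η, EtaLe C.tm η 1 → h.kd.HB (C.HH η) 1) ∧
    ∀ η η' c, 0 ≤ c → EtaLe C.tm η 1 → EtaLe C.tm η' 1 → EtaLe C.tm (η - η') c →
      h.kd.HB (C.HH η - C.HH η') c := by
  obtain ⟨Ka, hKa, hj⟩ := jets P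
  obtain ⟨Kb, hKb, hb⟩ := bmp_bdd
  obtain ⟨Kn, hKn, hnear⟩ := near_all P Kc KY
  obtain ⟨Kd, hKd, hd⟩ := aBD_bdd
  have hJ := P.cJ_nonneg
  have hM := P.CM_pos
  have hD : (0 : ℝ) ≤ P.S.D := Nat.cast_nonneg _
  obtain ⟨A, hA⟩ : ∃ A, A = 4 * P.cJ * P.CM * (1 + 2 * P.cJ * Ka) := ⟨_, rfl⟩
  have hA0 : 0 ≤ A := by rw [hA]; positivity
  obtain ⟨W, hW⟩ : ∃ W, W = ((P.S.D : ℝ) + 1) ^ 2 * P.cJ * P.CM * Ka * (Kn + 8 * P.cJ * Ka) :=
    ⟨_, rfl⟩
  have hW0 : 0 ≤ W := by rw [hW]; positivity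
  obtain ⟨K1, hK1⟩ : ∃ K1, K1 = Ka * A + Kb * A * (P.S.D + 1) + |KY| + Kd + W := ⟨_, rfl⟩
  have p1 : 0 ≤ Ka * A := by positivity
  have p2 : 0 ≤ Kb * A * (P.S.D + 1) := by positivity
  have p3 := abs_nonneg KY
  refine ⟨9 * Kg ^ 2 * K1 * (2 * P.S.D + 1), fun K hK => ⟨0, fun C _ h => ?_⟩⟩
  obtain ⟨-, hj1, hj2⟩ := hj Kc C.toBase
  have am : ∀ η, EtaLe C.tm η 1 → ∀ s l, |C.amp η l s| ≤ Ka / C.tm.T (C.tm.st s) :=
    fun η hη s l => ((hj1 η hη s).2.2 l).1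
  have am' : ∀ η, EtaLe C.tm η 1 → ∀ s l, |C.amp η l s| ≤ Ka := fun η hη s l =>
    (am η hη s l).trans (div_le_self (by linarith) (C.tm.one_le_T _))
  have y6 : ∀ (l : P.LT) m s i j {a a' : JJ P.S P.St → ℝ} {c : ℝ}, 0 ≤ c → dg l.1.1 i ≤ P.S.D →
      (∀ l, |a l - a' l| ≤ c * Kb / (C.tm.sg m ^ 2 * C.tm.T m)) → (∀ l, |a l| ≤ Ka) →
      (∀ l, |a' l| ≤ Ka) → |C.hh l.1.1 i s * P.Qof l.1.1 a i j - C.hh l.1.1 i s * P.Qof l.1.1 a' i j|
        ≤ c * K1 / (C.tm.sg m ^ 2 * C.tm.T m) := by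
    intro l m s i j a a' c hc hi h1 h2 h3
    have hT := C.tm.T_pos m
    have hs := C.tm.sg_pos m
    have hi' : (dg l.1.1 i : ℝ) ≤ P.S.D := by exact_mod_cast hi
    refine (C.Yd_le (LT_pos l) s (by positivity) (by linarith) h1 h2 h3 i j).trans ?_
    rw [← hA]
    calc _ ≤ c * Kb / (C.tm.sg m ^ 2 * C.tm.T m) * A * ((P.S.D : ℝ) + 1) := by gcongr
      _ = c * (Kb * A * (P.S.D + 1)) / (C.tm.sg m ^ 2 * C.tm.T m) := by ring
      _ ≤ _ := by gcongr; linarith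
  have z0 : ∀ l, |(0 : JJ P.S P.St → ℝ) l| ≤ Ka := fun l => by
    rw [Pi.zero_apply, abs_zero]; linarith
  refine ⟨fun η hη => ?_, fun η η' c hc hη hη' hc' => ?_⟩
  · refine hb_core h zero_le_one (by linarith) hK _ (C.HH_eq η) (fun l κ κ' i j => ?_)
      (fun l s κ κ' i j hz => ?_) (fun l s κ κ' i j hs => ?_) (fun l s κ κ' i j => ?_)
      (fun l m s κ κ' i j hs k1 k2 hi hj he => ?_) fun l m s κ κ' i j hs hi => ?_
    · refine Measurable.add ?_ (C.Ym_cont η (LT_pos l) i j).measurable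
      split_ifs
      · exact C.Dl_meas (LT_pos l) i j
      · exact measurable_const
    · by_cases h1 : C.Dl l.1.1 s i j = 0
      · left; by_contra h2
        apply hz
        rw [h1, C.Ym_eq, P.Qof_band _ h2]; simp
      · exact Or.inr (C.Dl_ne h1).1
    · have h1 : C.Dl l.1.1 s i j = 0 := by
        by_contra h1
        exact hs ⟨_, Or.inr (Or.inl ⟨(C.Dl_ne h1).2.1,
          (C.Dl_ne h1).2.2.le.trans (C.tm.b_le_b _ (by norm_num))⟩)⟩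
      have h2 : (fun l => C.amp η l s) = 0 := funext fun l => C.amp_supp η l hs
      rw [h1, C.Ym_eq, h2, P.Qof_zero]; simp
    · have hT := C.tm.T_pos (C.tm.st s)
      have h1 := C.Dl_le (fun τ => (hd τ).1) l.1.1 s i j
      have h2 := C.Yd_le (LT_pos l) s (a := fun l => C.amp η l s) (a' := 0)
        (α := Ka / C.tm.T (C.tm.st s)) (by positivity) (by linarith)
        (fun l => by rw [Pi.zero_apply, sub_zero]; exact am η hη s l) (am' η hη s) z0 i j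
      rw [P.Qof_zero, mul_zero, sub_zero, ← C.Ym_eq] at h2
      have h3 : |(if κ.2 = true ∧ κ'.2 = true then C.Dl l.1.1 s i j else 0)| ≤
          (|KY| + Kd) * ((dg l.1.1 i : ℝ) + 1) / C.tm.T (C.tm.st s) := by
        split_ifs
        · refine h1.trans ?_
          gcongr
          exact le_mul_of_one_le_right (by positivity)
            (by linarith [(Nat.cast_nonneg _ : (0 : ℝ) ≤ dg l.1.1 i)])
        · rw [abs_zero]; positivity
      refine (abs_add_le _ _).trans ((add_le_add h3 h2).trans ?_)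
      calc _ = (|KY| + Kd + Ka * A) * ((dg l.1.1 i : ℝ) + 1) / C.tm.T (C.tm.st s) := by
            rw [hA]; ring
        _ ≤ _ := by gcongr; linarith
    · have hT := C.tm.T_pos m
      have e1 := C.tm.b_le_b m (show (1 : ℝ) ≤ 2 by norm_num)
      have e2 := C.tm.b_le_b m (show (8 : ℝ) ≤ 9 by norm_num)
      have a0 := am η hη s
      rw [C.st_sw hs.1 (hs.2.le.trans e2)] at a0
      rw [if_pos ⟨k1, k2⟩]
      refine (C.mid_le (by linarith) (by linarith) (LT_pos l) hs hi hj he a0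
        ((hnear C _ (LT_pos l) i hi m s).1 ⟨e1.trans hs.1, hs.2.le.trans e2⟩)).trans ?_
      gcongr; linarith
    · have h1 := C.Dl_pul (n := l.1.1)
        (C.st_sw ((C.tm.b_le_b m (by norm_num)).trans hs.1) hs.2) (Or.inl hs.1) i j
      have := y6 l m s i j (a := fun l => C.amp η l s) (a' := 0) zero_le_one hi
        (fun l => by
          rw [Pi.zero_apply, sub_zero]
          exact C.amp_pul_le (fun τ => (hb τ).1) zero_le_one hη hs l) (am' η hη s) z0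
      rw [P.Qof_zero, mul_zero, sub_zero, ← C.Ym_eq] at this
      rw [h1, ite_self, zero_add]; exact this
  · refine hb_core h hc (by linarith) hK
      (fun l s _ _ i j => C.Ym η l.1.1 s i j - C.Ym η' l.1.1 s i j) (fun l s κ κ' => ?_)
      (fun l κ κ' i j => ?_)
      (fun l s κ κ' i j hz => ?_) (fun l s κ κ' i j hs => ?_) (fun l s κ κ' i j => ?_)
      (fun l m s κ κ' i j hs k1 k2 hi hj he => ?_) fun l m s κ κ' i j hs hi => ?_
    · simp only [Pi.sub_apply, C.HH_eq, Par.cj_sub]; congr 1; funext i j; ring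
    · exact ((C.Ym_cont η (LT_pos l) i j).sub (C.Ym_cont η' (LT_pos l) i j)).measurable
    · left; by_contra h2
      apply hz
      simp only [C.Ym_eq, P.Qof_band _ h2]; simp
    · have h2 : ∀ η, (fun l => C.amp η l s) = 0 := fun η => funext fun l => C.amp_supp η l hs
      simp only [C.Ym_eq, h2, sub_self]
    · have hT := C.tm.T_pos (C.tm.st s)
      simp only [C.Ym_eq]
      refine (C.Yd_le (LT_pos l) s (α := c * Ka / C.tm.T (C.tm.st s)) (by positivity)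
        (by linarith) (fun l => hj2 η η' c hc hc' l s)
        (am' η hη s) (am' η' hη' s) i j).trans ?_
      calc _ = c * (Ka * A) * ((dg l.1.1 i : ℝ) + 1) / C.tm.T (C.tm.st s) := by rw [hA]; ring
        _ ≤ _ := by gcongr; linarith
    · have hT := C.tm.T_pos m
      simp only [C.Ym_eq, C.amp_mid _ ⟨hs.1, hs.2.le⟩, sub_self, abs_zero]
      have : 0 ≤ K1 := by linarith
      positivity
    · simp only [C.Ym_eq]
      refine y6 l m s i j hc hi (fun l' => ?_) (am' η hη s) (am' η' hη' s)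
      rw [C.amp_pul_sub η η' hs]
      exact C.amp_pul_le (fun τ => (hb τ).1) hc hc' hs l'

end Vale.Agent.P225
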