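import Vale.Agent.P225.Ys

/-! The coupling matrix as a conjugation. -/

namespace Vale.Agent.P225

open Set

noncomputable def Kg : ℝ := Gm_bdd.choose
theorem one_le_Kg : 1 ≤ Kg := Gm_bdd.choose_spec.1
theorem Gm_le (τ : ℝ) (i j : Fin 2) : |Gm τ i j| ≤ Kg := (Gm_bdd.choose_spec.2 τ i j).1
theorem Gi_le (τ : ℝ) (i j : Fin 2) : |Gi τ i j| ≤ Kg := (Gm_bdd.choose_spec.2 τ i j).2

theorem emb_le {lo hi : ℕ × ℕ} {M : Matrix (Fin 2) (Fin 2) ℝ} {d B : ℝ} (hM : ∀ a b, |M a b| ≤ B)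
    (hd : |d| ≤ B) (i j : ℕ × ℕ) : |emb lo hi M d i j| ≤ B := by
  have : |(0 : ℝ)| ≤ B := by rw [abs_zero]; exact (abs_nonneg _).trans hd
  unfold emb; split_ifs <;> first | exact hM _ _ | exact this | exact hd

theorem emb_ne {lo hi : ℕ × ℕ} {M : Matrix (Fin 2) (Fin 2) ℝ} {d : ℝ} {i j : ℕ × ℕ}
    (h : emb lo hi M d i j ≠ 0) :
    (i = j ∧ d ≠ 0) ∨ ((i = lo ∨ i = hi) ∧ (j = lo ∨ j = hi)) := by
  unfold emb at h; split_ifs at h <;> simp_all

theorem emb_cont {lo hi : ℕ × ℕ} {M : ℝ → Matrix (Fin 2) (Fin 2) ℝ} {d : ℝ}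
    (hM : ∀ a b, Continuous fun s => M s a b) (i j : ℕ × ℕ) :
    Continuous fun s => emb lo hi (M s) d i j := by
  unfold emb; split_ifs <;> first | exact hM _ _ | exact continuous_const

namespace Par
variable (P : Par)

def Ls (n m : ℕ) : KK → Finset (ℕ × ℕ)
  | (κ, true) => {P.S.perm n m κ, P.S.lo (P.S.kd m) n, P.S.hi (P.S.kd m) n}
  | (i, false) => {i}

noncomputable def Gs (n m : ℕ) (M : Matrix (Fin 2) (Fin 2) ℝ) (i j : ℕ × ℕ) : ℝ :=
  if n ∈ P.S.band then emb (P.S.lo (P.S.kd m) n) (P.S.hi (P.S.kd m) n) M 1 i j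
  else if i = j then 1 else 0

noncomputable def Lw (n m : ℕ) (τ : ℝ) : KK → ℕ × ℕ → ℝ
  | (κ, true), i => P.S.sgn n m κ * P.Gs n m (Gi τ) (P.S.perm n m κ) i
  | (_, false), _ => -1

noncomputable def Rw (n m : ℕ) (τ : ℝ) : KK → ℕ × ℕ → ℝ
  | (κ, true), j => P.S.sgn n m κ * P.Gs n m (Gm τ) j (P.S.perm n m κ)
  | (_, false), _ => 1

noncomputable def cj (n m : ℕ) (τ : ℝ) (M : ℕ × ℕ → ℕ × ℕ → ℝ) (κ κ' : KK) : ℝ :=
  ∑ i ∈ P.Ls n m κ, ∑ j ∈ P.Ls n m κ', P.Lw n m τ κ i * M i j * P.Rw n m τ κ' j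

def Near (n m : ℕ) : KK → ℕ × ℕ → Prop
  | (κ, true), i => i = P.S.perm n m κ ∨ (n ∈ P.S.band ∧
      (i = P.S.lo (P.S.kd m) n ∨ i = P.S.hi (P.S.kd m) n) ∧
      (P.S.perm n m κ = P.S.lo (P.S.kd m) n ∨ P.S.perm n m κ = P.S.hi (P.S.kd m) n))
  | (κ, false), i => i = κ

variable {P}

theorem Gs_le {n m : ℕ} {M : Matrix (Fin 2) (Fin 2) ℝ} (hM : ∀ a b, |M a b| ≤ Kg) (i j : ℕ × ℕ) :
    |P.Gs n m M i j| ≤ Kg := by
  have := one_le_Kg
  unfold Gs; split_ifs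
  · exact emb_le hM (by simpa) i j
  · simpa
  · simp; linarith

theorem Gs_ne {n m : ℕ} {M : Matrix (Fin 2) (Fin 2) ℝ} {i j : ℕ × ℕ} (h : P.Gs n m M i j ≠ 0) :
    i = j ∨ (n ∈ P.S.band ∧ (i = P.S.lo (P.S.kd m) n ∨ i = P.S.hi (P.S.kd m) n) ∧
      (j = P.S.lo (P.S.kd m) n ∨ j = P.S.hi (P.S.kd m) n)) := by
  unfold Gs at h; split_ifs at h with h1 h2
  · rcases emb_ne h with h | h
    · exact Or.inl h.1
    · exact Or.inr ⟨h1, h⟩
  · exact Or.inl h2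
  · exact absurd rfl h

theorem Lw_le (n m : ℕ) (τ : ℝ) (κ : KK) (i : ℕ × ℕ) : |P.Lw n m τ κ i| ≤ Kg := by
  rcases κ with ⟨κ, _ | _⟩
  · simpa [Lw] using one_le_Kg
  · simp only [Lw, abs_mul, P.S.abs_sgn, one_mul]; exact Gs_le (Gi_le τ) _ _

theorem Rw_le (n m : ℕ) (τ : ℝ) (κ : KK) (i : ℕ × ℕ) : |P.Rw n m τ κ i| ≤ Kg := by
  rcases κ with ⟨κ, _ | _⟩
  · simpa [Rw] using one_le_Kg
  · simp only [Rw, abs_mul, P.S.abs_sgn, one_mul]; exact Gs_le (Gm_le τ) _ _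

theorem Lw_near {n m : ℕ} {τ : ℝ} {κ : KK} {i : ℕ × ℕ} (hi : i ∈ P.Ls n m κ)
    (h : P.Lw n m τ κ i ≠ 0) : P.Near n m κ i := by
  rcases κ with ⟨κ, _ | _⟩
  · simpa [Ls, Near] using hi
  · rcases Gs_ne (right_ne_zero_of_mul h) with h | h
    · exact Or.inl h.symm
    · exact Or.inr ⟨h.1, h.2.2, h.2.1⟩

theorem Rw_near {n m : ℕ} {τ : ℝ} {κ : KK} {i : ℕ × ℕ} (hi : i ∈ P.Ls n m κ)
    (h : P.Rw n m τ κ i ≠ 0) : P.Near n m κ i := by
  rcases κ with ⟨κ, _ | _⟩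
  · simpa [Ls, Near] using hi
  · exact Gs_ne (right_ne_zero_of_mul h)

theorem card_Ls (n m : ℕ) (κ : KK) : ((P.Ls n m κ).card : ℝ) ≤ 3 := by
  rcases κ with ⟨κ, _ | _⟩
  · simp [Ls]
  · exact_mod_cast Finset.card_le_three

theorem cj_le {n m : ℕ} {τ B : ℝ} {M : ℕ × ℕ → ℕ × ℕ → ℝ} {κ κ' : KK} (hB : 0 ≤ B)
    (h : ∀ i j, P.Near n m κ i → P.Near n m κ' j → |M i j| ≤ B) :
    |P.cj n m τ M κ κ'| ≤ 9 * Kg ^ 2 * B := by
  have hK : 0 < Kg := lt_of_lt_of_le one_pos one_le_Kg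
  unfold cj
  refine (Finset.abs_sum_le_sum_abs _ _).trans ?_
  refine (Finset.sum_le_card_nsmul _ _ (3 * (Kg ^ 2 * B)) fun i hi => ?_).trans ?_
  · refine (Finset.abs_sum_le_sum_abs _ _).trans ?_
    refine (Finset.sum_le_card_nsmul _ _ (Kg ^ 2 * B) fun j hj => ?_).trans ?_
    · by_cases h1 : P.Lw n m τ κ i = 0
      · rw [h1, zero_mul, zero_mul, abs_zero]; positivity
      by_cases h2 : P.Rw n m τ κ' j = 0
      · rw [h2, mul_zero, abs_zero]; positivity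
      rw [abs_mul, abs_mul]
      calc _ ≤ Kg * B * Kg := by
            gcongr
            · exact Lw_le ..
            · exact h i j (Lw_near hi h1) (Rw_near hj h2)
            · exact Rw_le ..
        _ = _ := by ring
    · rw [nsmul_eq_mul]; exact mul_le_mul_of_nonneg_right (card_Ls ..) (by positivity)
  · rw [nsmul_eq_mul]
    exact (mul_le_mul_of_nonneg_right (card_Ls ..) (by positivity)).trans_eq (by ring)

theorem cj_zero {n m : ℕ} {τ : ℝ} {M : ℕ × ℕ → ℕ × ℕ → ℝ} {κ κ' : KK}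
    (h : ∀ i j, P.Near n m κ i → P.Near n m κ' j → M i j = 0) : P.cj n m τ M κ κ' = 0 := by
  have := cj_le (τ := τ) le_rfl fun i j hi hj => (by rw [h i j hi hj, abs_zero] : |M i j| ≤ 0)
  simpa using this

theorem cj_sub (n m : ℕ) (τ : ℝ) (M M' : ℕ × ℕ → ℕ × ℕ → ℝ) (κ κ' : KK) :
    P.cj n m τ M κ κ' - P.cj n m τ M' κ κ' = P.cj n m τ (fun i j => M i j - M' i j) κ κ' := by
  simp only [cj, ← Finset.sum_sub_distrib]
  refine Finset.sum_congr rfl fun i _ => Finset.sum_congr rfl fun j _ => by ring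

theorem cj_meas {n m : ℕ} {τ : ℝ → ℝ} (hτ : Continuous τ) {M : ℝ → ℕ × ℕ → ℕ × ℕ → ℝ}
    (hM : ∀ i j, Measurable fun s => M s i j) (κ κ' : KK) :
    Measurable fun s => P.cj n m (τ s) (M s) κ κ' := by
  have hG : ∀ {G : ℝ → Matrix (Fin 2) (Fin 2) ℝ}, (∀ a b, Continuous fun s => G s a b) → ∀ i j,
      Continuous fun s => P.Gs n m (G (τ s)) i j := fun hG i j => by
    unfold Gs; split_ifs
    · exact emb_cont (fun a b => (hG a b).comp hτ) i j
    all_goals exact continuous_const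
  refine Finset.measurable_sum _ fun i _ => Finset.measurable_sum _ fun j _ =>
    (Measurable.mul ?_ (hM i j)).mul ?_
  · rcases κ with ⟨κ, _ | _⟩
    · exact measurable_const
    · exact (continuous_const.mul (hG continuous_Gi _ _)).measurable
  · rcases κ' with ⟨κ', _ | _⟩
    · exact measurable_const
    · exact (continuous_const.mul (hG continuous_Gm _ _)).measurable

theorem lohi_dg {n : ℕ} (hn : n ∈ P.S.band) {k : Fin P.S.nK} {i : ℕ × ℕ}
    (h : i = P.S.lo k n ∨ i = P.S.hi k n) : dg n i ≤ P.S.D := by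
  rcases h with h | h <;> rw [h]
  · exact P.S.cl_dg (P.S.lo_cl k n hn)
  · exact P.S.cl_dg (P.S.hi_cl k n hn)

theorem lohi_fm {n : ℕ} (hn : n ∈ P.S.band) {k : Fin P.S.nK} {i : ℕ × ℕ}
    (h : i = P.S.lo k n ∨ i = P.S.hi k n) :
    fm (P.S.t0 k) (dg n i) (ch n i) = fm (P.S.t0 k) (P.S.dl k) (P.S.el k) := by
  rcases h with h | h <;> rw [h]
  · rw [P.S.lo_dg k n hn, P.S.lo_ch k n hn]
  · rw [P.S.hi_dg k n hn, P.S.hi_ch k n hn, P.S.reson]

theorem Near.box {n m : ℕ} {κ : KK} {i : ℕ × ℕ} (h : P.Near n m κ i) :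
    i = κ.1 ∨ (dg n i ≤ P.S.D ∧ dg n κ.1 ≤ P.S.D) := by
  rcases κ with ⟨κ, _ | _⟩
  · exact Or.inl h
  · rcases h with h | h
    · by_cases hc : κ ∈ P.S.cl n
      · exact Or.inr ⟨h ▸ P.S.cl_dg (P.S.perm_mem hc m), P.S.cl_dg hc⟩
      · exact Or.inl (h.trans (P.S.perm_of_not_mem hc m))
    · exact Or.inr ⟨lohi_dg h.1 h.2.1, (P.S.perm_dg_le m).1 (lohi_dg h.1 h.2.2)⟩

theorem Near.res {l : P.LT} {m : ℕ} {κ : KK} {i : ℕ × ℕ} (hr : P.res l κ m)
    (h : P.Near l.1.1 m κ i) : dg l.1.1 i ≤ P.S.D ∧ fm (P.S.t0 (P.S.kd m)) (dg l.1.1 i)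
      (ch l.1.1 i) = P.fl (P.S.t0 (P.S.kd m)) l.1.1 m l.1.2 := by
  rcases κ with ⟨κ, _ | _⟩
  · exact absurd hr.1 (by simp)
  · obtain ⟨-, h1, h2⟩ := hr
    rw [← h2]
    rcases h with h | h
    · rw [h]; exact ⟨(P.S.perm_dg_le m).2 h1, rfl⟩
    · exact ⟨lohi_dg h.1 h.2.1, (lohi_fm h.1 h.2.1).trans (lohi_fm h.1 h.2.2).symm⟩

theorem cj_of_single {n m : ℕ} {τ : ℝ} (M : ℕ × ℕ → ℕ × ℕ → ℝ) {κ κ' : KK} {i j : ℕ × ℕ} {u v : ℝ}
    (hi : i ∈ P.Ls n m κ) (hj : j ∈ P.Ls n m κ')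
    (hL : ∀ x, P.Lw n m τ κ x = if x = i then u else 0)
    (hR : ∀ x, P.Rw n m τ κ' x = if x = j then v else 0) :
    P.cj n m τ M κ κ' = u * v * M i j := by
  unfold cj
  rw [Finset.sum_eq_single_of_mem i hi fun x _ hx => by simp [hL, hx],
    Finset.sum_eq_single_of_mem j hj fun x _ hx => by simp [hR, hx], hL, hR, if_pos rfl, if_pos rfl]
  ring

theorem Gs_one (n m : ℕ) (i j : ℕ × ℕ) : P.Gs n m 1 i j = if i = j then 1 else 0 := by
  unfold Gs
  split_ifs with h h1 h2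
  · subst h1; unfold emb; rw [if_pos rfl]; split_ifs <;> simp
  · have := P.S.lo_ne_hi (P.S.kd m) h
    unfold emb; split_ifs <;> simp_all
  · rfl
  · rfl

theorem cj_pre {n m : ℕ} {τ : ℝ} (hτ : τ ≤ 0) (M : ℕ × ℕ → ℕ × ℕ → ℝ) (κ κ' : ℕ × ℕ) :
    P.cj n m τ M (κ, true) (κ', true) =
      P.S.sgn n m κ * P.S.sgn n m κ' * M (P.S.perm n m κ) (P.S.perm n m κ') := by
  refine cj_of_single M (by simp [Ls]) (by simp [Ls]) (fun x => ?_) fun x => ?_
  · simp only [Lw, Gi_of_le hτ, Gs_one, eq_comm (a := x)]; split_ifs <;> simp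
  · simp only [Rw, Gm_of_le hτ, Gs_one]; split_ifs <;> simp

theorem perm_succ_mem (n m : ℕ) (κ : ℕ × ℕ) : P.S.perm n (m + 1) κ ∈ P.Ls n m (κ, true) := by
  rw [P.S.perm_succ]
  simp only [Ls, Finset.mem_insert, Finset.mem_singleton, Equiv.swap_apply_def]
  split_ifs <;> simp

theorem cj_post {n m : ℕ} {τ : ℝ} (hτ : 6 ≤ τ) (M : ℕ × ℕ → ℕ × ℕ → ℝ) (κ κ' : ℕ × ℕ) :
    P.cj n m τ M (κ, true) (κ', true) = P.S.sgn n (m + 1) κ * P.S.sgn n (m + 1) κ' *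
      M (P.S.perm n (m + 1) κ) (P.S.perm n (m + 1) κ') := by
  refine cj_of_single M (perm_succ_mem ..) (perm_succ_mem ..) (fun x => ?_) fun x => ?_
  · simp only [Lw, Gi_of_ge hτ, Gs, P.S.perm_succ, Sched.sgn]
    by_cases h : n ∈ P.S.band
    · have h1 := P.S.lo_ne_hi (P.S.kd m) h
      have h2 := h1.symm
      simp only [h, if_true, true_and, emb, Equiv.swap_apply_def]
      generalize P.S.perm n m κ = y at *
      generalize P.S.lo (P.S.kd m) n = lo at *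
      generalize P.S.hi (P.S.kd m) n = hi at *
      by_cases a1 : y = lo
      · subst a1
        by_cases b1 : x = y
        · simp [b1, h1]
        · by_cases b2 : x = hi <;> simp [b1, b2, h2]
      · by_cases a2 : y = hi
        · subst a2
          by_cases b1 : x = lo
          · simp [b1, h2]
          · by_cases b2 : x = y <;> simp [b1, b2, h2]
        · by_cases b1 : x = y
          · simp [a1, a2, b1]
          · simp [a1, a2, b1, Ne.symm b1]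
    · simp only [h, if_false, false_and, eq_comm (a := x)]; split_ifs <;> simp
  · simp only [Rw, Gm_of_ge hτ, Gs, P.S.perm_succ, Sched.sgn]
    by_cases h : n ∈ P.S.band
    · have h1 := P.S.lo_ne_hi (P.S.kd m) h
      have h2 := h1.symm
      simp only [h, if_true, true_and, emb, Equiv.swap_apply_def]
      generalize P.S.perm n m κ' = y at *
      generalize P.S.lo (P.S.kd m) n = lo at *
      generalize P.S.hi (P.S.kd m) n = hi at *
      by_cases a1 : y = lo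
      · subst a1
        by_cases b1 : x = y
        · simp [b1, h1]
        · by_cases b2 : x = hi <;> simp [b1, b2, h2]
      · by_cases a2 : y = hi
        · subst a2
          by_cases b1 : x = lo
          · simp [b1, h2]
          · by_cases b2 : x = y <;> simp [b1, b2, h2]
        · by_cases b1 : x = lo
          · simp [a1, a2, b1, Ne.symm a1]
          · by_cases b2 : x = hi
            · simp [a1, a2, b2, h2, Ne.symm a2]
            · simp [a1, a2, b1, b2]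
    · simp only [h, if_false, false_and]; split_ifs <;> simp

end Par

theorem Ctx.HH_eq {P : Par} {Kc KY : ℝ} (C : Ctx P Kc KY) (η : Eta P.LT KK) (l : P.LT) (s : ℝ)
    (κ κ' : KK) : C.HH η l s κ κ' = P.cj l.1.1 (C.tm.st s) (C.τ (C.tm.st s) s)
      (fun i j => (if κ.2 = true ∧ κ'.2 = true then C.Dl l.1.1 s i j else 0) + C.Ym η l.1.1 s i j)
      κ κ' := by
  have e1 : ∀ i j, C.Gf l.1.1 s i j = P.Gs l.1.1 (C.tm.st s) (Gm (C.τ (C.tm.st s) s)) i j :=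
    fun _ _ => rfl
  have e2 : ∀ i j, C.Gif l.1.1 s i j = P.Gs l.1.1 (C.tm.st s) (Gi (C.τ (C.tm.st s) s)) i j :=
    fun _ _ => rfl
  rcases κ with ⟨κ, _ | _⟩ <;> rcases κ' with ⟨κ', _ | _⟩ <;>
    simp only [Ctx.HH, Par.cj, Par.Ls, Par.Lw, Par.Rw, Finset.sum_singleton, Finset.mul_sum,
      ← Finset.sum_neg_distrib, Bool.false_eq_true, false_and, and_false, if_false, and_self,
      if_true, zero_add, e1, e2, Ctx.sn, Ctx.pm]
  · ring
  · exact Finset.sum_congr rfl fun j _ => by ring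
  · exact Finset.sum_congr rfl fun j _ => by ring
  · exact Finset.sum_congr rfl fun i _ => Finset.sum_congr rfl fun j _ => by ring

end Vale.Agent.P225
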