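import Vale.Agent.P225.HBdA

/-! Expansion of the perturbation in the amplitudes. -/

namespace Vale.Agent.P225

open Set

theorem XX_cube {t : ℝ} (ht : 0 < t) : XX t ^ 3 * t = 1 := by
  unfold XX
  rw [← Real.exp_nat_mul]
  have : ((3 : ℕ) : ℝ) * (-Real.log t / 3) = -Real.log t := by push_cast; ring
  rw [this, Real.exp_neg, Real.exp_log ht, inv_mul_cancel₀ ht.ne']

theorem XX_pos (t : ℝ) : 0 < XX t := Real.exp_pos _

theorem XX_rng {t : ℝ} (ht : |t - 1| ≤ 1 / 50) : 9 / 10 ≤ XX t ∧ XX t ≤ 2 := by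
  obtain ⟨h1, h2⟩ := abs_le.1 ht
  have h := XX_cube (show 0 < t by linarith)
  have h0 := XX_pos t
  constructor
  · by_contra hc
    have : XX t ^ 3 ≤ (9 / 10) ^ 3 := pow_le_pow_left₀ h0.le (not_le.1 hc).le 3
    nlinarith
  · by_contra hc
    have : 2 ^ 3 ≤ XX t ^ 3 := pow_le_pow_left₀ (by norm_num) (not_le.1 hc).le 3
    nlinarith

theorem XX_lip {t t' : ℝ} (ht : |t - 1| ≤ 1 / 50) (ht' : |t' - 1| ≤ 1 / 50) :
    |XX t - XX t'| ≤ |t - t'| := by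
  obtain ⟨h1, h2⟩ := abs_le.1 ht
  obtain ⟨h3, h4⟩ := abs_le.1 ht'
  have h := XX_cube (show 0 < t by linarith)
  have h' := XX_cube (show 0 < t' by linarith)
  have a1 := (XX_rng ht).1
  have a2 := (XX_rng ht').1
  set X := XX t
  set Y := XX t'
  have e : (X - Y) * ((X ^ 2 + X * Y + Y ^ 2) * (t * t')) = t' - t := by
    linear_combination t' * h - t * h'
  have p : 1 ≤ (X ^ 2 + X * Y + Y ^ 2) * (t * t') := by
    have : 2 ≤ X ^ 2 + X * Y + Y ^ 2 := by nlinarith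
    have : 1 / 2 ≤ t * t' := by nlinarith
    nlinarith
  rw [abs_sub_comm t, ← e, abs_mul, abs_of_pos (by linarith : 0 < (X ^ 2 + X * Y + Y ^ 2) * (t * t'))]
  exact le_mul_of_one_le_right (abs_nonneg _) p

theorem fm_rng {t : ℝ} (ht : |t - 1| ≤ 1 / 50) {d : ℕ} {e : ℤ} (hd : 1 ≤ d) (he : |e| ≤ d) :
    2 ≤ fm t d e ∧ fm t d e ≤ 2 * ((d : ℝ) + 1) ^ 2 ∧ (e : ℝ) ^ 2 ≤ ((d : ℝ) + 1) ^ 2 := by
  obtain ⟨h1, h2⟩ := abs_le.1 ht
  have h3 : |(e : ℝ)| ≤ d := by exact_mod_cast he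
  have h4 : (e : ℝ) ^ 2 ≤ (d : ℝ) ^ 2 := by rw [← sq_abs]; gcongr
  have h5 : (1 : ℝ) ≤ d := by exact_mod_cast hd
  have h6 := sq_nonneg (e : ℝ)
  unfold fm
  refine ⟨by nlinarith, by nlinarith, by nlinarith⟩

theorem muI_rng {v t : ℝ} (hv : 0 ≤ v) (hv1 : v ≤ 1) (ht : |t - 1| ≤ 1 / 50) {d : ℕ} {e : ℤ}
    (hd : 1 ≤ d) (he : |e| ≤ d) : 1 ≤ muI v t d e ∧ muI v t d e ≤ 3 * ((d : ℝ) + 1) ∧
      muI v t d e ^ 2 = XX t * fm t d e + v := by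
  obtain ⟨a1, a2⟩ := XX_rng ht
  obtain ⟨b1, b2, -⟩ := fm_rng ht hd he
  have h5 : (0 : ℝ) ≤ d := Nat.cast_nonneg _
  unfold muI
  refine ⟨Real.one_le_sqrt.2 (by nlinarith), Real.sqrt_le_iff.2 ⟨by positivity, by nlinarith⟩,
    Real.sq_sqrt (by nlinarith)⟩

theorem muI_lip {v t t' : ℝ} (hv : 0 ≤ v) (hv1 : v ≤ 1) (ht : |t - 1| ≤ 1 / 50)
    (ht' : |t' - 1| ≤ 1 / 50) {d : ℕ} {e : ℤ} (hd : 1 ≤ d) (he : |e| ≤ d) :
    |muI v t d e - muI v t' d e| ≤ 4 * ((d : ℝ) + 1) ^ 2 * |t - t'| := by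
  obtain ⟨a1, -, a3⟩ := muI_rng hv hv1 ht hd he
  obtain ⟨b1, -, b3⟩ := muI_rng hv hv1 ht' hd he
  obtain ⟨c1, c2, c3⟩ := fm_rng ht hd he
  obtain ⟨d1, d2⟩ := XX_rng ht'
  have e1 := XX_lip ht ht'
  have e2 : (muI v t d e - muI v t' d e) * (muI v t d e + muI v t' d e) =
      (XX t - XX t') * fm t d e + XX t' * ((t - t') * (e : ℝ) ^ 2) := by
    rw [fm_sub t' t] at b3
    linear_combination a3 - b3
  calc _ ≤ |muI v t d e - muI v t' d e| * (muI v t d e + muI v t' d e) :=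
        le_mul_of_one_le_right (abs_nonneg _) (by linarith)
    _ = |(XX t - XX t') * fm t d e + XX t' * ((t - t') * (e : ℝ) ^ 2)| := by
        rw [← e2, abs_mul, abs_of_pos (by linarith : 0 < muI v t d e + muI v t' d e)]
    _ ≤ |t - t'| * (2 * ((d : ℝ) + 1) ^ 2) + 2 * (|t - t'| * ((d : ℝ) + 1) ^ 2) := by
        refine (abs_add_le _ _).trans ?_
        rw [abs_mul, abs_mul, abs_mul, abs_of_pos (by linarith : 0 < fm t d e),
          abs_of_pos (XX_pos t'), abs_of_nonneg (sq_nonneg (e : ℝ))]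
        gcongr
    _ = _ := by ring

theorem exp_lip {A B M : ℝ} (hA : A ≤ M) (hB : B ≤ M) :
    |Real.exp A - Real.exp B| ≤ Real.exp M * |A - B| := by
  wlog h : B ≤ A generalizing A B
  · rw [abs_sub_comm, abs_sub_comm A]; exact this hB hA (not_le.1 h).le
  rw [abs_of_nonneg (sub_nonneg.2 (Real.exp_le_exp.2 h)), abs_of_nonneg (sub_nonneg.2 h)]
  have h1 : Real.exp B = Real.exp A * Real.exp (B - A) := by rw [← Real.exp_add]; congr 1; ring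
  have h2 := Real.add_one_le_exp (B - A)
  have h3 := Real.exp_le_exp.2 hA
  have h4 := Real.exp_pos A
  nlinarith [mul_le_mul_of_nonneg_left h2 h4.le]

namespace Par
variable (P : Par)

noncomputable def M1 (n : ℕ) (l : JJ P.S P.St) (i j : ℕ × ℕ) : ℝ :=
  mat P.S.D n (Q1 (shp P.S P.St l)) i j
noncomputable def M2 (n : ℕ) (l l' : JJ P.S P.St) (i j : ℕ × ℕ) : ℝ :=
  mat P.S.D n (Q2 (shp P.S P.St l) (shp P.S P.St l')) i j
noncomputable def Qof (n : ℕ) (a : JJ P.S P.St → ℝ) (i j : ℕ × ℕ) : ℝ :=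
  ∑ l, a l * P.M1 n l i j + ∑ l, ∑ l', a l * a l' * P.M2 n l l' i j
noncomputable def CM : ℝ := P.CB * (2 * P.B + 1) ^ 2
noncomputable def cJ : ℝ := Fintype.card (JJ P.S P.St)
noncomputable def gI (t : ℝ) (n : ℕ) (i : ℕ × ℕ) : ℝ :=
  XX t / (2 * muI (P.St.pinf ^ 2) t (dg n i) (ch n i))

theorem CM_pos : 0 < P.CM := by have := P.hCB; unfold CM; positivity
theorem cJ_nonneg : 0 ≤ P.cJ := Nat.cast_nonneg _

theorem band_le {Op : R → R} (h : Banded P.S.D Op P.B P.CB) (n : ℕ) (i j : ℕ × ℕ) :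
    |mat P.S.D n Op i j| ≤ P.CM * ((dg n i : ℝ) + 1) ^ 2 := by
  have := P.CM_pos
  have := P.hCB
  by_cases hb : i ∈ box P.B j
  · refine (h.bd n j i).trans ?_
    have h1 : dg n j ≤ dg n i + 2 * P.B := by rw [mem_box] at hb; unfold dg; omega
    have h2 : (dg n j : ℝ) ≤ dg n i + 2 * P.B := by exact_mod_cast h1
    have h3 : (dg n j : ℝ) + 1 ≤ (2 * P.B + 1) * ((dg n i : ℝ) + 1) := by
      have : (0 : ℝ) ≤ P.B * dg n i := by positivity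
      nlinarith
    unfold CM
    rw [mul_assoc, ← mul_pow]; gcongr
  · rw [h.zero n j i hb, abs_zero]; positivity

theorem Qof_band {n : ℕ} (a : JJ P.S P.St → ℝ) {i j : ℕ × ℕ} (h : i ∉ box P.B j) :
    P.Qof n a i j = 0 := by
  simp [Qof, M1, M2, (P.hB1 _).zero n j i h, (P.hB2 _ _).zero n j i h]

theorem Qof_zero (n : ℕ) (i j : ℕ × ℕ) : P.Qof n 0 i j = 0 := by simp [Qof]

theorem sum_le {f : JJ P.S P.St → ℝ} {B : ℝ} (h : ∀ l, |f l| ≤ B) : |∑ l, f l| ≤ P.cJ * B :=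
  (Finset.abs_sum_le_sum_abs _ _).trans ((Finset.sum_le_card_nsmul _ _ B fun l _ => h l).trans_eq
    (by rw [nsmul_eq_mul]; rfl))

theorem lin_le (n : ℕ) {a : JJ P.S P.St → ℝ} {α : ℝ} (h : ∀ l, |a l| ≤ α) (i j : ℕ × ℕ) :
    |∑ l, a l * P.M1 n l i j| ≤ P.cJ * (α * (P.CM * ((dg n i : ℝ) + 1) ^ 2)) :=
  P.sum_le fun l => by
    rw [abs_mul]
    exact mul_le_mul (h l) (P.band_le (P.hB1 l) n i j) (abs_nonneg _) ((abs_nonneg _).trans (h l))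

theorem quad_le (n : ℕ) {a a' : JJ P.S P.St → ℝ} {α β : ℝ} (h : ∀ l, |a l - a' l| ≤ α)
    (h1 : ∀ l, |a l| ≤ β) (h2 : ∀ l, |a' l| ≤ β) (i j : ℕ × ℕ) :
    |P.Qof n a i j - P.Qof n a' i j - ∑ l, (a l - a' l) * P.M1 n l i j| ≤
      P.cJ * (P.cJ * (2 * α * β * (P.CM * ((dg n i : ℝ) + 1) ^ 2))) := by
  have : P.Qof n a i j - P.Qof n a' i j - ∑ l, (a l - a' l) * P.M1 n l i j =
      ∑ l, ∑ l', ((a l - a' l) * a l' + a' l * (a l' - a' l')) * P.M2 n l l' i j := by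
    simp only [Qof, sub_mul, add_mul, mul_sub, Finset.sum_sub_distrib, Finset.sum_add_distrib]
    ring
  rw [this]
  refine P.sum_le fun l => P.sum_le fun l' => ?_
  have hα := (abs_nonneg _).trans (h l)
  have hβ := (abs_nonneg _).trans (h1 l)
  rw [abs_mul]
  refine mul_le_mul ((abs_add_le _ _).trans ?_) (P.band_le (P.hB2 l l') n i j) (abs_nonneg _)
    (by positivity)
  rw [abs_mul, abs_mul]
  have := mul_le_mul (h l) (h1 l') (abs_nonneg _) hα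
  have := mul_le_mul (h2 l) (h l') (abs_nonneg _) hβ
  linarith

theorem pinf_rng : 0 ≤ P.St.pinf ^ 2 ∧ P.St.pinf ^ 2 ≤ 1 := by
  have h1 := P.St.pinf_ge
  have h2 := P.St.pinf_le
  unfold del at h1 h2
  exact ⟨sq_nonneg _, by nlinarith⟩

theorem t0_rng (k : Fin P.S.nK) : |P.S.t0 k - 1| ≤ 1 / 50 := by
  rw [abs_sub_comm]; linarith [P.S.t0_near k, P.S.θ_le]

theorem t2_rng (k : Fin P.S.nK) : |P.St.t2 k - 1| ≤ 1 / 50 := by
  have := abs_le.1 (P.S.t0_near k)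
  rw [abs_le]
  constructor <;> linarith [P.S.θ_le, P.St.t2_ge k, P.St.t2_le k, P.St.ϑ_pos]

end Par

theorem one_le_dg {n : ℕ} (hn : 1 ≤ n) (i : ℕ × ℕ) : 1 ≤ dg n i := by unfold dg; omega

namespace Ctx
variable {P : Par} {Kc KY : ℝ} (C : Ctx P Kc KY)

noncomputable def hh (n : ℕ) (i : ℕ × ℕ) (s : ℝ) : ℝ := XX (C.tt s) / (C.y1 n i s + C.y2 n i s)

theorem tt_rng (s : ℝ) : |C.tt s - 1| ≤ 1 / 50 := by linarith [C.tt_near s, P.S.θ_le]

theorem Ym_eq (η : Eta P.LT KK) (n : ℕ) (s : ℝ) (i j : ℕ × ℕ) :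
    C.Ym η n s i j = C.hh n i s * P.Qof n (fun l => C.amp η l s) i j := by
  unfold Ym hh Geo.Qmat Geo.wh Par.Qof Par.M1 Par.M2
  rw [mat_expand, ← C.exp_uu s]
  simp only [Base.geo]
  ring

theorem hh_bd {n : ℕ} (hn : 1 ≤ n) (i : ℕ × ℕ) (s : ℝ) :
    0 ≤ C.hh n i s ∧ C.hh n i s * ((dg n i : ℝ) + 1) ≤ 4 := by
  have h1 := (C.y1_bd hn i s).1
  have h2 := (C.y2_bd hn i s).1
  have h3 := XX_rng (C.tt_rng s)
  have h4 : (0 : ℝ) < (dg n i : ℝ) + 1 := by positivity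
  unfold hh
  refine ⟨div_nonneg (by linarith) (by linarith), ?_⟩
  rw [div_mul_eq_mul_div, div_le_iff₀ (by linarith)]
  nlinarith

theorem hh_mul_le {n : ℕ} (hn : 1 ≤ n) (i : ℕ × ℕ) (s : ℝ) {v A : ℝ} (hA : 0 ≤ A)
    (h : |v| ≤ A * ((dg n i : ℝ) + 1) ^ 2) : |C.hh n i s * v| ≤ 4 * A * ((dg n i : ℝ) + 1) := by
  obtain ⟨h1, h2⟩ := C.hh_bd hn i s
  rw [abs_mul, abs_of_nonneg h1]
  calc _ ≤ C.hh n i s * (A * ((dg n i : ℝ) + 1) ^ 2) := by gcongr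
    _ = C.hh n i s * ((dg n i : ℝ) + 1) * (A * ((dg n i : ℝ) + 1)) := by ring
    _ ≤ 4 * (A * ((dg n i : ℝ) + 1)) := by gcongr
    _ = _ := by ring

theorem hh_cont {n : ℕ} (hn : 1 ≤ n) (i : ℕ × ℕ) : Continuous (C.hh n i) := by
  have h0 : (fun s => XX (C.tt s)) = fun s => Real.exp (2 * C.uu s) := by
    funext s; rw [C.exp_uu]
  refine Continuous.div ?_ ((C.continuous_y1 hn i).add (C.continuous_y2 hn i)) fun s => ?_
  · rw [h0]; have := C.uu_smooth.continuous; fun_prop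
  · have h1 := (C.y1_bd hn i s).1
    have h2 := (C.y2_bd hn i s).1
    have h4 : (0 : ℝ) < (dg n i : ℝ) + 1 := by positivity
    linarith

theorem Ym_cont (η : Eta P.LT KK) {n : ℕ} (hn : 1 ≤ n) (i j : ℕ × ℕ) :
    Continuous fun s => C.Ym η n s i j := by
  simp only [Ym_eq, Par.Qof]
  have := fun l => (C.amp_smooth η l).continuous
  have := C.hh_cont hn i
  fun_prop

theorem hh_near {n : ℕ} (hn : 1 ≤ n) {i : ℕ × ℕ} (hi : dg n i ≤ P.S.D) {s t ε : ℝ}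
    (ht : |t - 1| ≤ 1 / 50) (h1 : |C.tt s - t| ≤ ε)
    (h2 : |C.y1 n i s - muI (P.St.pinf ^ 2) (C.tt s) (dg n i) (ch n i)| ≤ ε)
    (h3 : |C.y2 n i s - muI (P.St.pinf ^ 2) (C.tt s) (dg n i) (ch n i)| ≤ ε) :
    |C.hh n i s - P.gI t n i| ≤ 11 * ((P.S.D : ℝ) + 1) ^ 2 * ε := by
  obtain ⟨v0, v1⟩ := P.pinf_rng
  have hd := one_le_dg hn i
  have a1 := (muI_rng v0 v1 ht hd (abs_ch_le n i)).1
  have a2 := muI_lip v0 v1 (C.tt_rng s) ht hd (abs_ch_le n i)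
  have a3 := XX_lip (C.tt_rng s) ht
  have a4 := XX_rng ht
  have b1 := (C.y1_bd hn i s).1
  have b2 := (C.y2_bd hn i s).1
  have hd' : (1 : ℝ) ≤ dg n i := by exact_mod_cast hd
  have hD : (dg n i : ℝ) ≤ P.S.D := by exact_mod_cast hi
  have hε := (abs_nonneg _).trans h1
  have a5 : |muI (P.St.pinf ^ 2) (C.tt s) (dg n i) (ch n i) -
      muI (P.St.pinf ^ 2) t (dg n i) (ch n i)| ≤ 4 * ((P.S.D : ℝ) + 1) ^ 2 * ε :=
    a2.trans (by gcongr)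
  unfold hh Par.gI
  set Y := C.y1 n i s + C.y2 n i s with hY
  set μ := muI (P.St.pinf ^ 2) t (dg n i) (ch n i)
  have hY1 : 1 ≤ Y := by linarith
  have a6 : |2 * μ - Y| ≤ 2 * ε + 8 * ((P.S.D : ℝ) + 1) ^ 2 * ε := by
    rw [abs_le] at h2 h3 a5 ⊢; constructor <;> linarith [h2.1, h2.2, h3.1, h3.2, a5.1, a5.2]
  have e : XX (C.tt s) / Y - XX t / (2 * μ) =
      (XX (C.tt s) - XX t) / Y + XX t / (2 * μ) * ((2 * μ - Y) / Y) := by field_simp; ring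
  rw [e]
  refine (abs_add_le _ _).trans ?_
  rw [abs_mul, abs_div, abs_div (2 * μ - Y), abs_of_pos (by linarith : 0 < Y)]
  have c1 : |XX (C.tt s) - XX t| / Y ≤ ε := (div_le_self (abs_nonneg _) hY1).trans (a3.trans h1)
  have c2 : |2 * μ - Y| / Y ≤ _ := (div_le_self (abs_nonneg _) hY1).trans a6
  have c3 : |XX t / (2 * μ)| ≤ 1 := by
    rw [abs_of_pos (div_pos (XX_pos t) (by linarith)), div_le_one (by linarith)]; linarith
  have c4 := mul_le_mul c3 c2 (by positivity) zero_le_one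
  have c5 : ε ≤ ((P.S.D : ℝ) + 1) ^ 2 * ε := le_mul_of_one_le_left hε (by nlinarith)
  linarith

end Ctx

end Vale.Agent.P225
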