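import Vale.Agent.P225.HBdB

/-! The amplitudes in the slots. -/

namespace Vale.Agent.P225

open Set

namespace Times
variable (tm : Times)
theorem b_lt_a_succ (m : ℕ) {j : ℝ} (h : j ≤ 10) : tm.b m j + tm.N < tm.a (m + 1) := by
  rw [a_succ_eq]; have := tm.b_lt_b m (show j < 11 by linarith); linarith
theorem st_of_b {m : ℕ} {s : ℝ} (h1 : tm.a m ≤ s) (h2 : s ≤ tm.b m 10 + tm.N) : tm.st s = m :=
  tm.st_eq h1 (h2.trans_lt (tm.b_lt_a_succ m le_rfl))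
theorem T0_le {m : ℕ} {s : ℝ} (h : tm.a m ≤ s) : tm.T 0 ≤ s :=
  (tm.T_mono (Nat.zero_le m)).trans ((tm.T_le_a m).trans h)
end Times

namespace Base
variable {P : Par} {Kc : ℝ} (C : Base P Kc)

theorem τ_leH {m : ℕ} {s : ℝ} (h : s ≤ C.tm.b m 2) : C.τ m s ≤ 0 :=
  div_nonpos_of_nonpos_of_nonneg (by linarith) (C.tm.T_pos m).le
theorem τ_geH {m : ℕ} {s : ℝ} (h : C.tm.b m 8 ≤ s) : 6 ≤ C.τ m s := by
  unfold τ; rw [le_div_iff₀ (C.tm.T_pos m)]; simp only [Times.b] at h ⊢; linarith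
theorem τ_contH (m : ℕ) : Continuous (C.τ m) := by unfold τ; fun_prop

theorem bmp_pre {m : ℕ} {s : ℝ} (h : C.tm.b m 0 ≤ s) (a : Fin P.St.N) :
    bmp (s - C.tm.a m - (a : ℕ)) = 0 := by
  have h1 : ((a : ℕ) : ℝ) + 1 ≤ C.tm.N := by rw [C.hN]; exact_mod_cast a.2
  simp only [Times.b] at h
  exact bmp_of_ge (by linarith)
theorem bmp_post {m : ℕ} {s : ℝ} (h : s ≤ C.tm.b m 10) (a : Fin P.St.N) :
    bmp (s - C.tm.b m 10 - (a : ℕ)) = 0 :=
  bmp_of_le (by linarith [(Nat.cast_nonneg a : (0 : ℝ) ≤ (a : ℕ))])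
theorem bmp_pul {m : ℕ} {s : ℝ} (h : s ≤ C.tm.b m 8 ∨ C.tm.b m 9 ≤ s) :
    bmp ((s - C.tm.b m 8) / C.tm.T m) = 0 := by
  rcases h with h | h
  · exact bmp_of_le (div_nonpos_of_nonpos_of_nonneg (by linarith) (C.tm.T_pos m).le)
  · refine bmp_of_ge ?_
    rw [le_div_iff₀ (C.tm.T_pos m)]; simp only [Times.b] at h ⊢; linarith

/-- amplitudes supported on the window shapes -/
noncomputable def winA (k : Fin P.S.nK) (f : ℕ × (ℕ × ℕ) × (ℕ × ℕ) → ℝ) (x : ℝ) :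
    JJ P.S P.St → ℝ
  | (κ, .inl (a, p)) => if k = κ then f p * bmp (x - (a : ℕ)) else 0
  | (_, .inr _) => 0
/-- amplitudes supported on the boost shapes -/
noncomputable def booA (k : Fin P.S.nK) (f : ℕ → ℝ) : JJ P.S P.St → ℝ
  | (_, .inl _) => 0
  | (κ, .inr n) => if k = κ then f n else 0

theorem amp_pre (η : Eta P.LT KK) {m : ℕ} {s : ℝ} (h : s ∈ Icc (C.tm.a m) (C.tm.b m 0))
    (l : JJ P.S P.St) : C.amp η l s = winA (P.S.kd m) (tgt η m .pre m) (s - C.tm.a m) l := by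
  have e1 := C.tm.b_le_b m (show (0 : ℝ) ≤ 2 by norm_num)
  have e2 := C.tm.b_le_b m (show (0 : ℝ) ≤ 8 by norm_num)
  have e3 := C.tm.b_le_b m (show (0 : ℝ) ≤ 10 by norm_num)
  have e4 := C.tm.b_lt_a_succ m (show (0 : ℝ) ≤ 10 by norm_num)
  rw [C.amp_stage η l (m := m) ⟨h.1, by linarith [h.2, C.tm.N_nonneg]⟩]
  rcases l with ⟨κ, ⟨a, p⟩ | n⟩ <;> simp only [ainc, winA]
  · rw [C.bmp_post (by linarith [h.2])]; simp
  · rw [C.bmp_pul (Or.inl (by linarith [h.2])), aB_of_le (C.τ_leH (by linarith [h.2]))]; simp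

theorem amp_post (η : Eta P.LT KK) {m : ℕ} {s : ℝ}
    (h : s ∈ Icc (C.tm.b m 10) (C.tm.b m 10 + C.tm.N)) (l : JJ P.S P.St) :
    C.amp η l s = winA (P.S.kd m) (tgt η m .post (m + 1)) (s - C.tm.b m 10) l := by
  have e1 := C.tm.b_le_b m (show (9 : ℝ) ≤ 10 by norm_num)
  have e2 := C.tm.b_le_b m (show (8 : ℝ) ≤ 10 by norm_num)
  have e3 := C.tm.b_le_b m (show (0 : ℝ) ≤ 10 by norm_num)
  have e4 := C.tm.b_lt_a_succ m (show (10 : ℝ) ≤ 10 by norm_num)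
  have e5 := C.tm.a_le_b m (show (0 : ℝ) ≤ 10 by norm_num)
  rw [C.amp_stage η l (m := m) ⟨by linarith [h.1], by linarith [h.2]⟩]
  rcases l with ⟨κ, ⟨a, p⟩ | n⟩ <;> simp only [ainc, winA]
  · rw [C.bmp_pre (by linarith [h.1])]; simp
  · rw [C.bmp_pul (Or.inr (by linarith [h.1])),
      aB_of_ge (by linarith [C.τ_geH (m := m) (s := s) (by linarith [h.1])])]; simp

theorem amp_sw (η : Eta P.LT KK) {m : ℕ} {s : ℝ} (h : s ∈ Icc (C.tm.b m 2) (C.tm.b m 9))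
    (l : JJ P.S P.St) : C.amp η l s = booA (P.S.kd m) (fun n => aB (C.τ m s) / C.tm.T m +
      tgt η m .pul (m + 1) (n, P.slow (P.S.kd m) n, P.fast (P.S.kd m) n) *
        bmp ((s - C.tm.b m 8) / C.tm.T m) / C.tm.T m) l := by
  have e1 := C.tm.b_le_b m (show (9 : ℝ) ≤ 10 by norm_num)
  have e3 := C.tm.b_le_b m (show (0 : ℝ) ≤ 2 by norm_num)
  have e4 := C.tm.b_lt_a_succ m (show (9 : ℝ) ≤ 10 by norm_num)
  have e5 := C.tm.a_le_b m (show (0 : ℝ) ≤ 2 by norm_num)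
  rw [C.amp_stage η l (m := m) ⟨by linarith [h.1], by linarith [h.2, C.tm.N_nonneg]⟩]
  rcases l with ⟨κ, ⟨a, p⟩ | n⟩ <;> simp only [ainc, booA]
  · rw [C.bmp_pre (by linarith [h.1]), C.bmp_post (by linarith [h.2])]; simp
  · split_ifs with hk
    · rw [hk]
    · rfl

theorem amp_mid (η : Eta P.LT KK) {m : ℕ} {s : ℝ} (h : s ∈ Icc (C.tm.b m 2) (C.tm.b m 8))
    (l : JJ P.S P.St) : C.amp η l s = booA (P.S.kd m) (fun _ => aB (C.τ m s) / C.tm.T m) l := by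
  rw [C.amp_sw η ⟨h.1, h.2.trans (C.tm.b_le_b m (by norm_num))⟩, C.bmp_pul (Or.inl h.2)]
  simp

theorem amp_pul (η : Eta P.LT KK) {m : ℕ} {s : ℝ} (h : s ∈ Icc (C.tm.b m 8) (C.tm.b m 9))
    (l : JJ P.S P.St) : C.amp η l s = booA (P.S.kd m) (fun n =>
      tgt η m .pul (m + 1) (n, P.slow (P.S.kd m) n, P.fast (P.S.kd m) n) *
        bmp ((s - C.tm.b m 8) / C.tm.T m) / C.tm.T m) l := by
  rw [C.amp_sw η ⟨(C.tm.b_le_b m (by norm_num)).trans h.1, h.2⟩,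
    aB_of_ge (by linarith [C.τ_geH h.1])]
  simp

theorem booA_le {k : Fin P.S.nK} {f : ℕ → ℝ} {α : ℝ} (hα : 0 ≤ α) (h : ∀ n, |f n| ≤ α)
    (l : JJ P.S P.St) : |booA k f l| ≤ α := by
  rcases l with ⟨κ, _ | n⟩ <;> simp only [booA]
  · simpa
  · split_ifs
    · exact h n
    · simpa

theorem booA_sub (k : Fin P.S.nK) (f g : ℕ → ℝ) (l : JJ P.S P.St) :
    booA k f l - booA k g l = booA k (fun n => f n - g n) l := by
  rcases l with ⟨κ, _ | n⟩ <;> simp only [booA]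
  · simp
  · split_ifs <;> simp

theorem winA_sub (k : Fin P.S.nK) (f g : ℕ × (ℕ × ℕ) × (ℕ × ℕ) → ℝ) (x : ℝ) (l : JJ P.S P.St) :
    winA k f x l - winA k g x l = winA k (fun n => f n - g n) x l := by
  rcases l with ⟨κ, ⟨a, p⟩ | n⟩ <;> simp only [winA]
  · split_ifs
    · ring
    · simp
  · simp

open Classical in
theorem booA_sum (k : Fin P.S.nK) (f : ℕ → ℝ) {n : ℕ} (hn : 1 ≤ n) {i j : ℕ × ℕ}
    (hi : dg n i ≤ P.S.D) (hj : dg n j ≤ P.S.D)
    (he : fm (P.S.t0 k) (dg n j) (ch n j) = fm (P.S.t0 k) (dg n i) (ch n i)) :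
    P.gI (P.S.t0 k) n i * ∑ l, booA k f l * P.M1 n l i j =
      if n ∈ P.S.band ∧ ((j = P.S.lo k n ∧ i = P.S.hi k n) ∨ (j = P.S.hi k n ∧ i = P.S.lo k n))
      then f n else 0 := by
  rw [Fintype.sum_prod_type, Finset.sum_eq_single k (fun κ _ hκ => by
    simp [Fintype.sum_sum_type, booA, hκ.symm]) (by simp), Fintype.sum_sum_type]
  simp only [booA, zero_mul, Finset.sum_const_zero, zero_add, if_true, Finset.mul_sum]
  have : ∀ n' : P.S.band, P.gI (P.S.t0 k) n i * (f n' * P.M1 n (k, .inr n') i j) =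
      f n' * if n = n' ∧ ((j = P.S.lo k n ∧ i = P.S.hi k n) ∨ (j = P.S.hi k n ∧ i = P.S.lo k n))
        then 1 else 0 := fun n' => by
    rw [← P.St.boost k n' n'.2 n j i hn hj hi he]
    simp only [Par.gI, Par.M1, shp]; ring
  simp only [this]
  by_cases hb : n ∈ P.S.band
  · rw [Finset.sum_eq_single ⟨n, hb⟩ (fun b _ hne => by
      rw [if_neg (fun h => hne (Subtype.ext h.1.symm)), mul_zero]) (by simp)]
    simp [hb]
  · rw [if_neg (by simp [hb])]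
    refine Finset.sum_eq_zero fun b _ => ?_
    rw [if_neg, mul_zero]
    rintro ⟨h, -⟩
    exact hb (h ▸ b.2)

end Base

theorem near_all (P : Par) (Kc KY : ℝ) : ∃ K1 : ℝ, 1 ≤ K1 ∧ ∀ C : Ctx P Kc KY, ∀ n, 1 ≤ n →
    ∀ i, dg n i ≤ P.S.D → ∀ m s,
    (s ∈ Icc (C.tm.b m 1) (C.tm.b m 9) →
      |C.hh n i s - P.gI (P.S.t0 (P.S.kd m)) n i| ≤ K1 / C.tm.T m) ∧
    (s ∈ Icc (C.tm.a m) (C.tm.b m 10 + C.tm.N) → C.tt s = P.St.t2 (P.S.kd m) →
      |C.hh n i s - P.gI (P.St.t2 (P.S.kd m)) n i| ≤ K1 / C.tm.T m ∧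
      |C.y1 n i s - muI (P.St.pinf ^ 2) (P.St.t2 (P.S.kd m)) (dg n i) (ch n i)| ≤
        K1 / C.tm.T m) := by
  obtain ⟨Km, hKm, hm⟩ := mu_lim P Kc KY
  obtain ⟨Ka, hKa, ha⟩ := aBD_bdd
  set cD := ∑ κ, |P.cD κ|
  have hc : 0 ≤ cD := Finset.sum_nonneg fun _ _ => abs_nonneg _
  have hD : (1 : ℝ) ≤ 11 * ((P.S.D : ℝ) + 1) ^ 2 := by
    nlinarith [(Nat.cast_nonneg _ : (0 : ℝ) ≤ P.S.D)]
  have hK : Km ≤ Km + cD * Ka := by nlinarith
  have hK' : Km + cD * Ka ≤ 11 * ((P.S.D : ℝ) + 1) ^ 2 * (Km + cD * Ka) :=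
    le_mul_of_one_le_left (by linarith) hD
  refine ⟨11 * ((P.S.D : ℝ) + 1) ^ 2 * (Km + cD * Ka), by linarith, fun C n hn i hi m s => ?_⟩
  have hT := C.tm.T_pos m
  have key : s ∈ Icc (C.tm.a m) (C.tm.b m 10 + C.tm.N) →
      |C.y1 n i s - muI (P.St.pinf ^ 2) (C.tt s) (dg n i) (ch n i)| ≤ (Km + cD * Ka) / C.tm.T m ∧
      |C.y2 n i s - muI (P.St.pinf ^ 2) (C.tt s) (dg n i) (ch n i)| ≤ (Km + cD * Ka) / C.tm.T m := by
    intro h
    have := hm C _ _ (one_le_dg hn i) (abs_ch_le n i) s (C.tm.T0_le h.1)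
    rw [C.tm.st_of_b h.1 h.2] at this
    exact ⟨this.1.trans (by gcongr), this.2.trans (by gcongr)⟩
  rw [mul_div_assoc]
  constructor
  · intro h
    have k := key ⟨(C.tm.a_le_b m (by norm_num)).trans h.1, by
      linarith [h.2, C.tm.b_le_b m (show (9 : ℝ) ≤ 10 by norm_num), C.tm.N_nonneg]⟩
    refine C.hh_near hn hi (P.t0_rng _) ?_ k.1 k.2
    rw [C.tt_sw h, add_sub_cancel_left, abs_div, abs_of_pos hT, abs_mul]
    have h1 : |P.cD (P.S.kd m)| ≤ cD :=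
      Finset.single_le_sum (f := fun κ => |P.cD κ|) (fun _ _ => abs_nonneg _) (Finset.mem_univ _)
    have h2 := mul_le_mul h1 (ha (C.τ m s)).2.2.2.1 (abs_nonneg _) hc
    gcongr; linarith
  · intro h ht
    have k := key h
    refine ⟨C.hh_near hn hi (P.t2_rng _) ?_ k.1 k.2, ?_⟩
    · rw [ht, sub_self, abs_zero]; positivity
    · rw [← ht]; exact k.1.trans (le_mul_of_one_le_left (by positivity) hD)

namespace Ctx
variable {P : Par} {Kc KY : ℝ} (C : Ctx P Kc KY)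

theorem Dl_ne {n : ℕ} {s : ℝ} {i j : ℕ × ℕ} (h : C.Dl n s i j ≠ 0) :
    (dg n i ≤ P.S.D ∧ dg n j ≤ P.S.D) ∧ C.tm.b (C.tm.st s) 2 ≤ s ∧ s < C.tm.b (C.tm.st s) 8 := by
  unfold Dl at h
  split_ifs at h with h1
  · rcases emb_ne h with h | h
    · exact absurd rfl h.2
    · exact ⟨⟨Par.lohi_dg h1.1 h.1, Par.lohi_dg h1.1 h.2⟩, h1.2⟩
  · exact absurd rfl h

open Classical in
theorem Dl_mid {n m : ℕ} {s : ℝ} (h : s ∈ Ico (C.tm.b m 2) (C.tm.b m 8)) (i j : ℕ × ℕ) :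
    |C.Dl n s i j + if n ∈ P.S.band ∧ ((j = P.S.lo (P.S.kd m) n ∧ i = P.S.hi (P.S.kd m) n) ∨
      (j = P.S.hi (P.S.kd m) n ∧ i = P.S.lo (P.S.kd m) n)) then aB (C.τ m s) / C.tm.T m else 0| ≤
      |KY| / C.tm.T m ^ 2 := by
  have hT := C.tm.T_pos m
  have e1 := C.tm.b_le_b m (show (8 : ℝ) ≤ 9 by norm_num)
  have hst : C.tm.st s = m := C.tm.st_of_b ((C.tm.a_le_b m (by norm_num)).trans h.1) (by
    linarith [h.2, C.tm.b_le_b m (show (8 : ℝ) ≤ 10 by norm_num), C.tm.N_nonneg])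
  have h0 : |(0 : ℝ)| ≤ |KY| / C.tm.T m ^ 2 := by rw [abs_zero]; positivity
  unfold Dl lo hi
  rw [hst]
  by_cases hb : n ∈ P.S.band
  swap
  · simpa [hb] using h0
  have h1 := (C.yp_swap m s ⟨h.1, by linarith [h.2]⟩).trans
    (div_le_div_of_nonneg_right (le_abs_self KY) (by positivity))
  have h2 := P.S.lo_ne_hi (P.S.kd m) hb
  have h3 := h2.symm
  rw [if_pos ⟨hb, h.1, h.2⟩]
  simp only [y1, P.S.lo_dg _ n hb, P.S.lo_ch _ n hb, P.S.hi_dg _ n hb, P.S.hi_ch _ n hb]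
  generalize (C.yp (P.S.dl (P.S.kd m)) (P.S.el (P.S.kd m)) s -
    C.yp (P.S.dl (P.S.kd m) + 1) (P.S.eh (P.S.kd m)) s) / 2 = x at *
  generalize P.S.lo (P.S.kd m) n = lo at *
  generalize P.S.hi (P.S.kd m) n = hi at *
  unfold emb Am
  by_cases a1 : i = lo
  · subst a1
    by_cases b1 : j = i
    · subst b1
      simp only [h2, hb, if_true, and_false, false_and, or_self, if_false]
      refine le_trans (le_of_eq ?_) h1
      congr 1; simp; ring
    · by_cases b2 : j = hi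
      · subst b2
        simp only [h2, h3, hb, if_true, false_or, if_false, and_self]
        convert h0 using 2; simp; ring
      · simpa [b1, b2] using h0
  · by_cases a2 : i = hi
    · subst a2
      by_cases b1 : j = lo
      · subst b1
        simp only [h2, h3, hb, if_true, or_false, if_false, and_self]
        convert h0 using 2; simp; ring
      · by_cases b2 : j = i
        · subst b2
          simp only [h3, hb, if_true, and_false, false_and, or_self, if_false]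
          rw [← abs_neg]
          refine le_trans (le_of_eq ?_) h1
          congr 1; simp; ring
        · simpa [a1, b1, b2] using h0
    · simpa [a1, a2] using h0

theorem Dl_meas {n : ℕ} (hn : 1 ≤ n) (i j : ℕ × ℕ) : Measurable fun s => C.Dl n s i j := by
  refine C.measurable_stage (f := fun m s => if n ∈ P.S.band ∧ C.tm.b m 2 ≤ s ∧ s < C.tm.b m 8 then
    emb (P.S.lo (P.S.kd m) n) (P.S.hi (P.S.kd m) n)
      (((C.y1 n (P.S.lo (P.S.kd m) n) s - C.y1 n (P.S.hi (P.S.kd m) n) s) / 2) • !![1, 0; 0, -1] -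
        (1 / C.tm.T m) • Am (C.τ m s)) 0 i j else 0) fun m => ?_
  refine Measurable.ite ?_ (emb_cont (fun a b => ?_) i j).measurable measurable_const
  · by_cases hb : n ∈ P.S.band
    · simp only [hb, true_and]; exact measurableSet_Ico
    · simp [hb]
  · have h1 := C.continuous_y1 hn (P.S.lo (P.S.kd m) n)
    have h2 := C.continuous_y1 hn (P.S.hi (P.S.kd m) n)
    have h3 := aB_smooth.continuous.comp (C.τ_contH m)
    have h4 := aD_smooth.continuous.comp (C.τ_contH m)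
    have h5 : Continuous fun s => Am (C.τ m s) a b := by
      fin_cases a <;> fin_cases b <;> simp only [Am] <;> first | exact h3 | exact h4 | exact h4.neg
    simp only [Matrix.sub_apply, Matrix.smul_apply, smul_eq_mul]
    fun_prop

end Ctx

end Vale.Agent.P225
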