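import Mathlib

/-! Riccati solutions close to `μ`. -/

namespace Vale.Agent.P225

open MeasureTheory Set Filter Topology in
theorem decay_one_Ricc {f S r : ℝ → ℝ} {s₀ s₁ ε : ℝ}
    (hf : ∀ s ∈ Set.Icc s₀ s₁, HasDerivAt f (-(S s * f s) + r s) s)
    (hS : ∀ s ∈ Set.Icc s₀ s₁, 1 ≤ S s) (hr : ∀ s ∈ Set.Icc s₀ s₁, |r s| ≤ ε) :
    ∀ s ∈ Set.Icc s₀ s₁, f s ≤ Real.exp (-(s - s₀)) * |f s₀| + ε := by
  intro s hs
  have hε : 0 ≤ ε := (abs_nonneg _).trans (hr s hs)
  refine le_of_forall_pos_le_add fun δ hδ => ?_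
  have hB : ∀ x, HasDerivAt (fun x => Real.exp (-(x - s₀)) * |f s₀| + ε + δ)
      (Real.exp (-(x - s₀)) * (-1) * |f s₀|) x := fun x =>
    (((((hasDerivAt_id' x).sub_const s₀).fun_neg.exp).mul_const _).add_const ε).add_const δ
  refine image_le_of_deriv_right_lt_deriv_boundary (f := f) (f' := fun s => -(S s * f s) + r s)
    (fun x hx => (hf x hx).continuousAt.continuousWithinAt)
    (fun x hx => (hf x (Ico_subset_Icc_self hx)).hasDerivWithinAt) ?_ hB ?_ hs
  · simp only [sub_self, neg_zero, Real.exp_zero, one_mul]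
    linarith [le_abs_self (f s₀)]
  · intro x hx hfx
    have hx' := Ico_subset_Icc_self hx
    have h0 : 0 ≤ Real.exp (-(x - s₀)) * |f s₀| := by positivity
    have h1 : 0 ≤ f x := by rw [hfx]; linarith
    have h2 : f x ≤ S x * f x := le_mul_of_one_le_left h1 (hS x hx')
    have h3 := (abs_le.mp (hr x hx')).2
    linarith

/-- comparison: `f' = -Σ f + r` with `Σ ≥ 1`, `|r| ≤ ε` -/
theorem decay_le {f S r : ℝ → ℝ} {s₀ s₁ ε : ℝ}
    (hf : ∀ s ∈ Set.Icc s₀ s₁, HasDerivAt f (-(S s * f s) + r s) s)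
    (hS : ∀ s ∈ Set.Icc s₀ s₁, 1 ≤ S s) (hr : ∀ s ∈ Set.Icc s₀ s₁, |r s| ≤ ε) :
    ∀ s ∈ Set.Icc s₀ s₁, |f s| ≤ Real.exp (-(s - s₀)) * |f s₀| + ε := by
  intro s hs
  have h1 := decay_one_Ricc hf hS hr s hs
  have h2 := decay_one_Ricc (f := fun s => -f s) (S := S) (r := fun s => -r s) (s₀ := s₀) (s₁ := s₁)
    (ε := ε) (fun s hs => (hf s hs).fun_neg.congr_deriv (by ring)) hS
    (fun s hs => by rw [abs_neg]; exact hr s hs) s hs
  simp only [abs_neg] at h2
  exact abs_le.mpr ⟨by linarith, h1⟩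

open MeasureTheory Set Filter Topology in
theorem key_Ricc {μ M h F : ℝ → ℝ} (hM : ∀ s, HasDerivAt M (μ s) s)
    (h1 : ∀ s, 1 ≤ μ s) (hh : ∀ s, 0 < h s) (hv : ∀ s r, h r ≤ h s * (1 + |s - r|))
    (hF : Continuous F) {c : ℝ} (hc : 0 ≤ c) (hb : ∀ r, |F r| ≤ c * (h r * μ r)) (s : ℝ) :
    IntegrableOn (fun r => Real.exp (-(2 * M r)) * F r) (Ioi s) ∧
      |Real.exp (2 * M s) * ∫ r in Ioi s, Real.exp (-(2 * M r)) * F r| ≤ c * h s := by
  have hMc : Continuous M := continuous_iff_continuousAt.mpr fun s => (hM s).continuousAt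
  have hmono : Monotone fun r => M r - r :=
    monotone_of_hasDerivAt_nonneg (f' := fun r => μ r - 1)
      (fun x => (hM x).fun_sub (hasDerivAt_id' x)) fun x => sub_nonneg.mpr (h1 x)
  have hT : Tendsto M atTop atTop := by
    refine tendsto_atTop_mono' atTop (f₁ := fun r => r + M 0) ?_
      (tendsto_atTop_add_const_right _ _ tendsto_id)
    filter_upwards [eventually_ge_atTop (0 : ℝ)] with r hr
    have := hmono hr
    simp only at this
    linarith
  have hg : ∀ x, HasDerivAt (fun r => -Real.exp (-M r)) (Real.exp (-M x) * μ x) x := fun x =>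
    (hM x).fun_neg.exp.fun_neg.congr_deriv (by ring)
  have hl : Tendsto (fun r => -Real.exp (-M r)) atTop (𝓝 0) := by
    have := (Real.tendsto_exp_neg_atTop_nhds_zero.comp hT).neg
    simpa using this
  have hpos : ∀ x ∈ Ioi s, 0 ≤ Real.exp (-M x) * μ x := fun x _ =>
    mul_nonneg (Real.exp_pos _).le (by linarith [h1 x])
  have hI := integrableOn_Ioi_deriv_of_nonneg' (fun x _ => hg x) hpos hl
  have hV := integral_Ioi_of_hasDerivAt_of_nonneg' (fun x _ => hg x) hpos hl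
  have hdom : ∀ r ∈ Ioi s, ‖Real.exp (-(2 * M r)) * F r‖ ≤
      c * h s * Real.exp (-M s) * (Real.exp (-M r) * μ r) := by
    intro r hr
    have hr' : s ≤ r := le_of_lt hr
    have e1 : r - s ≤ M r - M s := by have := hmono hr'; simp only at this; linarith
    have e2 : h r ≤ h s * Real.exp (M r - M s) := by
      refine (hv s r).trans (mul_le_mul_of_nonneg_left ?_ (hh s).le)
      rw [abs_sub_comm, abs_of_nonneg (by linarith)]
      linarith [Real.add_one_le_exp (M r - M s)]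
    have hμ : 0 ≤ μ r := by linarith [h1 r]
    rw [Real.norm_eq_abs, abs_mul, abs_of_pos (Real.exp_pos _)]
    calc Real.exp (-(2 * M r)) * |F r| ≤ Real.exp (-(2 * M r)) * (c * (h r * μ r)) :=
          mul_le_mul_of_nonneg_left (hb r) (Real.exp_pos _).le
      _ ≤ Real.exp (-(2 * M r)) * (c * (h s * Real.exp (M r - M s) * μ r)) := by gcongr
      _ = c * h s * (Real.exp (-(2 * M r)) * Real.exp (M r - M s)) * μ r := by ring
      _ = c * h s * (Real.exp (-M s) * Real.exp (-M r)) * μ r := by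
          rw [← Real.exp_add, ← Real.exp_add]; congr 3; ring
      _ = _ := by ring
  have hcont : Continuous fun r => Real.exp (-(2 * M r)) * F r := by fun_prop
  have hdom' : ∀ᵐ r ∂(volume.restrict (Ioi s)), ‖Real.exp (-(2 * M r)) * F r‖ ≤
      c * h s * Real.exp (-M s) * (Real.exp (-M r) * μ r) :=
    (ae_restrict_iff' measurableSet_Ioi).mpr (Eventually.of_forall hdom)
  have hI' : Integrable (fun r => c * h s * Real.exp (-M s) * (Real.exp (-M r) * μ r))
      (volume.restrict (Ioi s)) := hI.const_mul _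
  refine ⟨Integrable.mono' hI' hcont.aestronglyMeasurable hdom', ?_⟩
  have h3 := norm_integral_le_of_norm_le hI' hdom'
  rw [integral_const_mul, hV, Real.norm_eq_abs] at h3
  rw [abs_mul, abs_of_pos (Real.exp_pos _)]
  calc _ ≤ Real.exp (2 * M s) * (c * h s * Real.exp (-M s) * (0 - -Real.exp (-M s))) :=
        mul_le_mul_of_nonneg_left h3 (Real.exp_pos _).le
    _ = c * h s * (Real.exp (2 * M s) * Real.exp (-M s) * Real.exp (-M s)) := by ring
    _ = c * h s := by
        rw [← Real.exp_add, ← Real.exp_add, show 2 * M s + -M s + -M s = 0 by ring, Real.exp_zero,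
          mul_one]

open MeasureTheory Set Filter Topology in
theorem tail_deriv_Ricc {Φ : ℝ → ℝ} (hc : Continuous Φ) (hi : ∀ s, IntegrableOn Φ (Ioi s)) (s : ℝ) :
    HasDerivAt (fun s => ∫ r in Ioi s, Φ r) (-Φ s) s := by
  have e : (fun s => ∫ r in Ioi s, Φ r) = fun s => (∫ r in Ioi 0, Φ r) - ∫ r in (0 : ℝ)..s, Φ r := by
    funext s
    rw [← intervalIntegral.integral_Ioi_sub_Ioi' (hi 0) (hi s)]; ring
  rw [e]
  exact (hc.integral_hasStrictDerivAt 0 s).hasDerivAt.const_sub _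

noncomputable def cl_Ricc (x : ℝ) : ℝ := max (-2) (min x 2)

theorem cl_abs_Ricc (x : ℝ) : |cl_Ricc x| ≤ 2 :=
  abs_le.mpr ⟨le_max_left _ _, max_le (by norm_num) (min_le_right _ _)⟩

theorem cl_lip_Ricc (x y : ℝ) : |cl_Ricc x - cl_Ricc y| ≤ |x - y| := by
  unfold cl_Ricc
  refine (abs_max_sub_max_le_max _ _ _ _).trans (max_le (by simp) ?_)
  exact (abs_min_sub_min_le_max _ _ _ _).trans (max_le le_rfl (by simp))

theorem cl_eq_Ricc {x : ℝ} (h : |x| ≤ 2) : cl_Ricc x = x := by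
  unfold cl_Ricc
  rw [min_eq_left (abs_le.mp h).2, max_eq_right (abs_le.mp h).1]

theorem cl_cont_Ricc : Continuous cl_Ricc := by unfold cl_Ricc; fun_prop

open MeasureTheory Set Filter Topology BoundedContinuousFunction in
/-- `y' = y² - μ²` (decaying branch) -/
theorem ricc_minus {μ μ' h : ℝ → ℝ} (hμ : ∀ s, HasDerivAt μ (μ' s) s) (hc : Continuous μ')
    (h1 : ∀ s, 1 ≤ μ s) (hh : ∀ s, 0 < h s) (hhc : Continuous h) (hs : ∀ s, h s ≤ 1 / 8)
    (hv : ∀ s r, h r ≤ h s * (1 + |s - r|)) (hb : ∀ s, |μ' s| ≤ h s * μ s) :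
    ∃ y : ℝ → ℝ, (∀ s, HasDerivAt y (y s ^ 2 - μ s ^ 2) s) ∧ ∀ s, |y s - μ s| ≤ 2 * h s := by
  have hμc : Continuous μ := continuous_iff_continuousAt.mpr fun s => (hμ s).continuousAt
  obtain ⟨M, hM⟩ : ∃ M : ℝ → ℝ, ∀ s, HasDerivAt M (μ s) s :=
    ⟨fun s => ∫ r in (0 : ℝ)..s, μ r, fun s => (hμc.integral_hasStrictDerivAt 0 s).hasDerivAt⟩
  have hMc : Continuous M := continuous_iff_continuousAt.mpr fun s => (hM s).continuousAt
  have hcl := cl_cont_Ricc
  let F : (ℝ →ᵇ ℝ) → ℝ → ℝ := fun g r => (h r * cl_Ricc (g r)) ^ 2 - μ' r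
  have hFc : ∀ g, Continuous (F g) := fun g => by
    have := g.continuous
    simp only [F]; fun_prop
  have hFb : ∀ g r, |F g r| ≤ 3 / 2 * (h r * μ r) := fun g r => by
    have e1 := cl_abs_Ricc (g r)
    have e2 : cl_Ricc (g r) ^ 2 ≤ 4 := by
      have := abs_le.mp e1; nlinarith
    have e3 : (h r * cl_Ricc (g r)) ^ 2 ≤ 1 / 2 * (h r * μ r) := by
      have := hh r; have := hs r; have := h1 r
      calc (h r * cl_Ricc (g r)) ^ 2 = h r * h r * cl_Ricc (g r) ^ 2 := by ring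
        _ ≤ h r * (1 / 8) * 4 := by gcongr
        _ ≤ _ := by nlinarith
    have e4 := abs_le.mp (hb r)
    have e5 := sq_nonneg (h r * cl_Ricc (g r))
    have e6 : 0 ≤ h r * μ r := mul_nonneg (hh r).le (by linarith [h1 r])
    simp only [F]
    exact abs_le.mpr ⟨by linarith, by linarith⟩
  have hK := fun g s => key_Ricc hM h1 hh hv (hFc g) (by norm_num) (hFb g) s
  let Z : (ℝ →ᵇ ℝ) → ℝ → ℝ := fun g s =>
    -(Real.exp (2 * M s) * ∫ r in Ioi s, Real.exp (-(2 * M r)) * F g r)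
  have hZd : ∀ g s, HasDerivAt (Z g) (2 * μ s * Z g s + F g s) s := fun g s => by
    have e1 := tail_deriv_Ricc (Φ := fun r => Real.exp (-(2 * M r)) * F g r)
      (by have := hFc g; fun_prop) (fun s => (hK g s).1) s
    have e2 := (((hM s).const_mul 2).exp.fun_mul e1).fun_neg
    refine e2.congr_deriv ?_
    have e3 : Real.exp (2 * M s) * Real.exp (-(2 * M s)) = 1 := by
      rw [← Real.exp_add]; simp
    simp only [Z]
    linear_combination (F g s) * e3
  have hZc : ∀ g, Continuous (Z g) := fun g =>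
    continuous_iff_continuousAt.mpr fun s => (hZd g s).continuousAt
  have hZb : ∀ g s, |Z g s| ≤ 3 / 2 * h s := fun g s => by
    simp only [Z, abs_neg]; exact (hK g s).2
  have hZb' : ∀ g s, ‖Z g s / h s‖ ≤ 3 / 2 := fun g s => by
    rw [Real.norm_eq_abs, abs_div, abs_of_pos (hh s), div_le_iff₀ (hh s)]
    exact hZb g s
  let T : (ℝ →ᵇ ℝ) → (ℝ →ᵇ ℝ) := fun g => ofNormedAddCommGroup (fun s => Z g s / h s)
    ((hZc g).div hhc fun s => (hh s).ne') (3 / 2) (hZb' g)
  have hT : ∀ g s, T g s = Z g s / h s := fun g s => rfl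
  have hcon : ContractingWith (1 / 2) T := by
    refine ⟨by norm_num, LipschitzWith.of_dist_le_mul fun g g' => ?_⟩
    have hd : 0 ≤ dist g g' := dist_nonneg
    refine (dist_le (by positivity)).mpr fun s => ?_
    have e1 : ∀ r, |F g r - F g' r| ≤ 1 / 2 * dist g g' * (h r * μ r) := fun r => by
      have a1 := cl_lip_Ricc (g r) (g' r)
      have a2 : |g r - g' r| ≤ dist g g' := by
        rw [← Real.dist_eq]; exact dist_coe_le_dist r
      have a3 : |cl_Ricc (g r) + cl_Ricc (g' r)| ≤ 4 :=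
        (abs_add_le _ _).trans (by linarith [cl_abs_Ricc (g r), cl_abs_Ricc (g' r)])
      have a4 : F g r - F g' r = h r * h r * ((cl_Ricc (g r) - cl_Ricc (g' r)) *
          (cl_Ricc (g r) + cl_Ricc (g' r))) := by simp only [F]; ring
      have := hh r; have := hs r; have := h1 r
      rw [a4, abs_mul, abs_mul, abs_mul, abs_of_pos (hh r)]
      calc _ ≤ h r * (1 / 8) * (dist g g' * 4) := by gcongr; exact a1.trans a2
        _ = 1 / 2 * dist g g' * (h r * 1) := by ring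
        _ ≤ _ := by gcongr
    have e2 := (key_Ricc hM h1 hh hv ((hFc g).sub (hFc g')) (by positivity) e1 s).2
    have e3 : Z g s - Z g' s = -(Real.exp (2 * M s) *
        ∫ r in Ioi s, Real.exp (-(2 * M r)) * (F g - F g') r) := by
      simp only [Z, Pi.sub_apply, mul_sub]
      rw [integral_sub (hK g s).1 (hK g' s).1]; ring
    rw [hT, hT, Real.dist_eq, ← sub_div, abs_div, abs_of_pos (hh s), div_le_iff₀ (hh s), e3, abs_neg]
    refine e2.trans (le_of_eq ?_)
    simp
  obtain ⟨g, hg⟩ : ∃ g, T g = g := ⟨_, hcon.fixedPoint_isFixedPt⟩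
  have hg1 : ∀ s, h s * cl_Ricc (g s) = Z g s := fun s => by
    have e1 : g s = Z g s / h s := by rw [← hT, hg]
    have e2 : |g s| ≤ 2 := by
      rw [e1]; exact (hZb' g s).trans (by norm_num)
    rw [cl_eq_Ricc e2, e1]
    field_simp [(hh s).ne']
  refine ⟨fun s => μ s + Z g s, fun s => ((hμ s).fun_add (hZd g s)).congr_deriv ?_, fun s => ?_⟩
  · simp only [F, hg1]; ring
  · simp only [add_sub_cancel_left]
    exact (hZb g s).trans (by linarith [hh s])

open Filter Topology in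
/-- `y' = μ² - y²` (growing branch) -/
theorem ricc_plus {μ μ' h : ℝ → ℝ} (hμ : ∀ s, HasDerivAt μ (μ' s) s) (hc : Continuous μ')
    (h1 : ∀ s, 1 ≤ μ s) (hh : ∀ s, 0 < h s) (hhc : Continuous h) (hs : ∀ s, h s ≤ 1 / 8)
    (hv : ∀ s r, h r ≤ h s * (1 + |s - r|)) (hb : ∀ s, |μ' s| ≤ h s * μ s) :
    ∃ y : ℝ → ℝ, (∀ s, HasDerivAt y (μ s ^ 2 - y s ^ 2) s) ∧ (∀ s, |y s - μ s| ≤ 2 * h s) ∧
      ∀ s₀, (∀ s ≤ s₀, μ' s = 0) → ∀ s ≤ s₀, y s = μ s := by
  obtain ⟨w, hw, hw'⟩ := ricc_minus (μ := fun s => μ (-s)) (μ' := fun s => -μ' (-s))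
    (h := fun s => h (-s))
    (fun s => ((hμ (-s)).comp s (hasDerivAt_neg s)).congr_deriv (by ring)) (by fun_prop)
    (fun s => h1 _) (fun s => hh _) (by fun_prop) (fun s => hs _)
    (fun s r => by
      have := hv (-s) (-r)
      rwa [show -s - -r = -(s - r) by ring, abs_neg] at this)
    (fun s => by rw [abs_neg]; exact hb _)
  have hy : ∀ s, HasDerivAt (fun s => w (-s)) (μ s ^ 2 - w (-s) ^ 2) s := fun s =>
    ((hw (-s)).comp s (hasDerivAt_neg s)).congr_deriv (by simp)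
  have hy' : ∀ s, |w (-s) - μ s| ≤ 2 * h s := fun s => by simpa using hw' (-s)
  refine ⟨fun s => w (-s), hy, hy', fun s₀ h0 s hs0 => ?_⟩
  have key : ∀ s' ≤ s, |w (-s) - μ s| ≤ Real.exp (-(s - s')) * 1 := by
    intro s' hs'
    have := decay_le (f := fun s => w (-s) - μ s) (S := fun s => w (-s) + μ s) (r := fun _ => 0)
      (s₀ := s') (s₁ := s) (ε := 0)
      (fun x hx => ((hy x).fun_sub (hμ x)).congr_deriv (by rw [h0 x (hx.2.trans hs0)]; ring))
      (fun x _ => by
        have := abs_le.mp (hy' x)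
        linarith [h1 x, hs x]) (fun x _ => by simp) s ⟨hs', le_rfl⟩
    rw [add_zero] at this
    refine this.trans (mul_le_mul_of_nonneg_left ?_ (Real.exp_pos _).le)
    linarith [hy' s', hs s']
  have hlim : Tendsto (fun t : ℝ => Real.exp (-t)) atTop (𝓝 0) :=
    Real.tendsto_exp_neg_atTop_nhds_zero
  have : |w (-s) - μ s| ≤ 0 := by
    refine ge_of_tendsto hlim ?_
    filter_upwards [eventually_ge_atTop (0 : ℝ)] with t ht
    have := key (s - t) (by linarith)
    simpa using this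
  exact sub_eq_zero.mp (abs_nonpos_iff.mp this)

end Vale.Agent.P225
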