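import Vale.Agent.P225.Base
import Vale.Agent.P225.Ricc

/-! Riccati data, rates and coupling matrices. -/

namespace Vale.Agent.P225

open Filter Topology Set

structure Ctx (P : Par) (Kc KY : ℝ) extends Base P Kc where
  yp : ℕ → ℤ → ℝ → ℝ
  ym : ℕ → ℤ → ℝ → ℝ
  Vf_ge : ∀ s, 1 / 2 ≤ toBase.Vf s
  Vf_le : ∀ s, toBase.Vf s ≤ 1
  KY_le : KY / tm.T 0 ≤ 1 / 100
  yp_even : ∀ d e, yp d (-e) = yp d e
  yp_der : ∀ (d : ℕ) (e : ℤ), 1 ≤ d → |e| ≤ d → ∀ s,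
    HasDerivAt (yp d e) (lam (toBase.uu s) d e + toBase.Vf s - yp d e s ^ 2) s
  ym_der : ∀ (d : ℕ) (e : ℤ), 1 ≤ d → |e| ≤ d → ∀ s,
    HasDerivAt (ym d e) (ym d e s ^ 2 - (lam (toBase.uu s) d e + toBase.Vf s)) s
  yp_near : ∀ (d : ℕ) (e : ℤ), 1 ≤ d → |e| ≤ d → ∀ s,
    |yp d e s - toBase.mu d e s| ≤ KY / tm.T (tm.st s)
  ym_near : ∀ (d : ℕ) (e : ℤ), 1 ≤ d → |e| ≤ d → ∀ s,
    |ym d e s - toBase.mu d e s| ≤ KY / tm.T (tm.st s)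
  yp_neg : ∀ (d : ℕ) (e : ℤ), 1 ≤ d → |e| ≤ d → ∀ s ≤ 0, yp d e s = d + 1
  yp_swap : ∀ m, ∀ s ∈ Icc (tm.b m 2) (tm.b m 9),
    |(yp (P.S.dl (P.S.kd m)) (P.S.el (P.S.kd m)) s -
        yp (P.S.dl (P.S.kd m) + 1) (P.S.eh (P.S.kd m)) s) / 2 - aD (toBase.τ m s) / tm.T m| ≤
      KY / tm.T m ^ 2

/-- holds for all large `K` and then all large `σ₀` -/
def Evt (P : Par) (Kc KY : ℝ) (Q : ℝ → Ctx P Kc KY → Prop) : Prop :=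
  ∃ K₀ : ℝ, ∀ K, K₀ ≤ K → ∃ σ : ℝ, ∀ C : Ctx P Kc KY, σ ≤ C.tm.σ0 → Q K C

theorem Evt.and {P : Par} {Kc KY : ℝ} {Q Q' : ℝ → Ctx P Kc KY → Prop} (h : Evt P Kc KY Q)
    (h' : Evt P Kc KY Q') : Evt P Kc KY fun K C => Q K C ∧ Q' K C := by
  obtain ⟨K1, h1⟩ := h
  obtain ⟨K2, h2⟩ := h'
  refine ⟨max K1 K2, fun K hK => ?_⟩
  obtain ⟨σ1, h1⟩ := h1 K (le_of_max_le_left hK)
  obtain ⟨σ2, h2⟩ := h2 K (le_of_max_le_right hK)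
  exact ⟨max σ1 σ2, fun C hC => ⟨h1 C (le_of_max_le_left hC), h2 C (le_of_max_le_right hC)⟩⟩

theorem Evt.mono {P : Par} {Kc KY : ℝ} {Q Q' : ℝ → Ctx P Kc KY → Prop} (h : Evt P Kc KY Q)
    (h' : ∀ K C, Q K C → Q' K C) : Evt P Kc KY Q' := by
  obtain ⟨K1, h1⟩ := h
  refine ⟨K1, fun K hK => ?_⟩
  obtain ⟨σ1, h1⟩ := h1 K hK
  exact ⟨σ1, fun C hC => h' K C (h1 C hC)⟩

/-- a `2 × 2` block placed at the modes `lo, hi`, `dflt` times the identity elsewhere -/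
def emb (lo hi : ℕ × ℕ) (M : Matrix (Fin 2) (Fin 2) ℝ) (dflt : ℝ) (i j : ℕ × ℕ) : ℝ :=
  if i = lo then (if j = lo then M 0 0 else if j = hi then M 0 1 else 0)
  else if i = hi then (if j = lo then M 1 0 else if j = hi then M 1 1 else 0)
  else if i = j then dflt else 0

namespace Ctx

variable {P : Par} {Kc KY : ℝ} (C : Ctx P Kc KY)

noncomputable def y1 (n : ℕ) (i : ℕ × ℕ) (s : ℝ) : ℝ := C.yp (dg n i) (ch n i) s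
noncomputable def y2 (n : ℕ) (i : ℕ × ℕ) (s : ℝ) : ℝ := C.ym (dg n i) (ch n i) s
noncomputable def lo (n : ℕ) (s : ℝ) : ℕ × ℕ := P.S.lo (P.S.kd (C.tm.st s)) n
noncomputable def hi (n : ℕ) (s : ℝ) : ℕ × ℕ := P.S.hi (P.S.kd (C.tm.st s)) n
noncomputable def pm (n : ℕ) (s : ℝ) (κ : ℕ × ℕ) : ℕ × ℕ := P.S.perm n (C.tm.st s) κ
noncomputable def sn (n : ℕ) (s : ℝ) (κ : ℕ × ℕ) : ℝ := P.S.sgn n (C.tm.st s) κ

noncomputable def Gf (n : ℕ) (s : ℝ) (i j : ℕ × ℕ) : ℝ :=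
  if n ∈ P.S.band then emb (C.lo n s) (C.hi n s) (Gm (C.τ (C.tm.st s) s)) 1 i j
  else if i = j then 1 else 0
noncomputable def Gif (n : ℕ) (s : ℝ) (i j : ℕ × ℕ) : ℝ :=
  if n ∈ P.S.band then emb (C.lo n s) (C.hi n s) (Gi (C.τ (C.tm.st s) s)) 1 i j
  else if i = j then 1 else 0

/-- discrepancy between the true diagonal rates and the nominal swap generator -/
noncomputable def Dl (n : ℕ) (s : ℝ) (i j : ℕ × ℕ) : ℝ :=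
  if n ∈ P.S.band ∧ C.tm.b (C.tm.st s) 2 ≤ s ∧ s < C.tm.b (C.tm.st s) 8 then
    emb (C.lo n s) (C.hi n s)
      (((C.y1 n (C.lo n s) s - C.y1 n (C.hi n s) s) / 2) • !![1, 0; 0, -1] -
        (1 / C.tm.T (C.tm.st s)) • Am (C.τ (C.tm.st s) s)) 0 i j
  else 0

noncomputable def Ym (η : Eta P.LT KK) (n : ℕ) (s : ℝ) (i j : ℕ × ℕ) : ℝ :=
  -((C.geo η).Qmat P.S.D n s i j) / (C.y1 n i s + C.y2 n i s)

noncomputable def blk (n : ℕ) (s : ℝ) (i : ℕ × ℕ) : Finset (ℕ × ℕ) := {i, C.lo n s, C.hi n s}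

/-- rate of a growing label -/
noncomputable def rp (n : ℕ) (κ : ℕ × ℕ) (s : ℝ) : ℝ :=
  if s < C.tm.b (C.tm.st s) 2 then C.y1 n (C.pm n s κ) s
  else if s < C.tm.b (C.tm.st s) 8 then
    (if n ∈ P.S.band ∧ (C.pm n s κ = C.lo n s ∨ C.pm n s κ = C.hi n s) then
      (C.y1 n (C.lo n s) s + C.y1 n (C.hi n s) s) / 2 else C.y1 n (C.pm n s κ) s)
  else C.y1 n (P.S.perm n (C.tm.st s + 1) κ) s

noncomputable def rate (n : ℕ) : KK → ℝ → ℝ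
  | (κ, true), s => C.rp n κ s
  | (i, false), s => -C.y2 n i s

noncomputable def DR (l : P.LT) (κ : KK) (s : ℝ) : ℝ := C.rate l.1.1 κ s - C.rp l.1.1 l.1.2 s

noncomputable def HH (η : Eta P.LT KK) (l : P.LT) (s : ℝ) : KK → KK → ℝ
  | (κ, true), (κ', true) => C.sn l.1.1 s κ * C.sn l.1.1 s κ' *
      ∑ i ∈ C.blk l.1.1 s (C.pm l.1.1 s κ), ∑ j ∈ C.blk l.1.1 s (C.pm l.1.1 s κ'),
        C.Gif l.1.1 s (C.pm l.1.1 s κ) i * (C.Dl l.1.1 s i j + C.Ym η l.1.1 s i j) *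
          C.Gf l.1.1 s j (C.pm l.1.1 s κ')
  | (κ, true), (j, false) => C.sn l.1.1 s κ *
      ∑ i ∈ C.blk l.1.1 s (C.pm l.1.1 s κ), C.Gif l.1.1 s (C.pm l.1.1 s κ) i * C.Ym η l.1.1 s i j
  | (i, false), (κ', true) => -(C.sn l.1.1 s κ' *
      ∑ j ∈ C.blk l.1.1 s (C.pm l.1.1 s κ'), C.Ym η l.1.1 s i j * C.Gf l.1.1 s j (C.pm l.1.1 s κ'))
  | (i, false), (j, false) => -C.Ym η l.1.1 s i j

end Ctx

namespace Par
variable (P : Par)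

/-- pairs with equal squared charge that are never controlled -/
def Tail (n : ℕ) (i j : ℕ × ℕ) : Prop :=
  ch n j = -ch n i ∨ (ch n j = ch n i ∧ ¬ MF P.S.D n (ch n i))

open Classical in
noncomputable def cls (l : P.LT) (κ : KK) : Cls :=
  if κ = (l.1.2, true) then .Z
  else if κ.2 = false then .Dn
  else if P.S.D < dg l.1.1 κ.1 then .U
  else if P.Tail l.1.1 l.1.2 κ.1 then
    (if dg l.1.1 l.1.2 < dg l.1.1 κ.1 then .U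
      else if dg l.1.1 κ.1 < dg l.1.1 l.1.2 then .Dn else .Z)
  else .C

/-- reduced eigenvalue at anisotropy `t` of the mode occupied by label `κ` at stage `m` -/
noncomputable def fl (t : ℝ) (n m : ℕ) (κ : ℕ × ℕ) : ℝ :=
  fm t (dg n (P.S.perm n m κ)) (ch n (P.S.perm n m κ))

noncomputable def des (l : P.LT) (κ : KK) (m : ℕ) : Des :=
  if P.fl (P.St.t2 (P.S.kd m)) l.1.1 m l.1.2 < P.fl (P.St.t2 (P.S.kd m)) l.1.1 m κ.1 then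
    (if P.fl (P.St.t2 (P.S.kd m)) l.1.1 (m + 1) l.1.2 <
        P.fl (P.St.t2 (P.S.kd m)) l.1.1 (m + 1) κ.1 then .pre else .split)
  else
    (if P.fl (P.St.t2 (P.S.kd m)) l.1.1 (m + 1) l.1.2 <
        P.fl (P.St.t2 (P.S.kd m)) l.1.1 (m + 1) κ.1 then .pulse else .post)

def res (l : P.LT) (κ : KK) (m : ℕ) : Prop :=
  κ.2 = true ∧ dg l.1.1 κ.1 ≤ P.S.D ∧
    P.fl (P.S.t0 (P.S.kd m)) l.1.1 m κ.1 = P.fl (P.S.t0 (P.S.kd m)) l.1.1 m l.1.2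

/-- type-independent degree used for the weights -/
def dk (κ : KK) : ℕ := κ.1.1 + κ.1.2

def nbK (κ : KK) : Finset KK := box (P.B + 2 * P.S.D) κ.1 ×ˢ Finset.univ

end Par

/-- the kernel hypotheses for the concrete system -/
structure KOK {P : Par} {Kc KY : ℝ} (C : Ctx P Kc KY) (K : ℝ) : Prop where
  hK : 1 ≤ K
  hN : (C.tm.N : ℝ) ≤ K
  hΓ : 1 / (1 - (C.tm.Γ ^ 2)⁻¹) ≤ K
  nb_card : ∀ κ, ((P.nbK κ).card : ℝ) ≤ K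
  nb_deg : ∀ κ, ∀ κ' ∈ P.nbK κ, (100 : ℝ) ^ Par.dk κ ≤ K * 100 ^ Par.dk κ'
  main_deg : ∀ l : P.LT, (100 : ℝ) ^ Par.dk (l.1.2, true) ≤ K
  D_int : ∀ l κ x y, IntervalIntegrable (C.DR l κ) MeasureTheory.volume x y
  kU : ∀ l κ, P.cls l κ = .U → (∀ s, ((Par.dk κ : ℝ) + 1) / K ≤ C.DR l κ s) ∧ ∀ m, ¬ P.res l κ m
  kD : ∀ l κ, P.cls l κ = .Dn →
    (∀ s, C.DR l κ s ≤ -(((Par.dk κ : ℝ) + 1) / K)) ∧ ∀ m, ¬ P.res l κ m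
  kZ : ∀ l κ, P.cls l κ = .Z →
    (∀ s, C.DR l κ s = 0) ∧ (∀ m, P.res l κ m) ∧ (Par.dk κ : ℝ) + 1 ≤ K
  kC_deg : ∀ l κ, P.cls l κ = .C → (Par.dk κ : ℝ) + 1 ≤ K
  kC_bd : ∀ l κ m, P.cls l κ = .C → ∀ s ∈ Ico (C.tm.a m) (C.tm.a (m + 1)), |C.DR l κ s| ≤ K
  kC_1 : ∀ l κ m, P.cls l κ = .C → ∀ s ∈ Icc (C.tm.a m) (C.tm.b m 1),
    -(K / C.tm.T m) ≤ (P.des l κ m).s1 * C.DR l κ s
  kC_1' : ∀ l κ m, P.cls l κ = .C →
    C.tm.T m / K ≤ (P.des l κ m).s1 * ∫ s in C.tm.b m 0..C.tm.b m 1, C.DR l κ s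
  kC_2 : ∀ l κ m, P.cls l κ = .C → ∀ s ∈ Icc (C.tm.b m 9) (C.tm.b m 10 + C.tm.N),
    -(K / C.tm.T m) ≤ (P.des l κ m).s2 * C.DR l κ s
  kC_2' : ∀ l κ m, P.cls l κ = .C →
    C.tm.T m / K ≤ (P.des l κ m).s2 * ∫ s in C.tm.b m 9..C.tm.b m 10, C.DR l κ s
  kC_res : ∀ l κ m, P.cls l κ = .C → P.res l κ m → ∀ s ∈ Icc (C.tm.b m 1) (C.tm.b m 9),
    |C.DR l κ s| ≤ K / C.tm.T m
  kC_gap : ∀ l κ m, P.cls l κ = .C → ¬ P.res l κ m →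
    (P.des l κ m = .pre ∨ P.des l κ m = .post) ∧
    ∀ s ∈ Icc (C.tm.a m) (C.tm.b m 10 + C.tm.N), 1 / K ≤ (P.des l κ m).s1 * C.DR l κ s

noncomputable def KOK.kd {P : Par} {Kc KY : ℝ} {C : Ctx P Kc KY} {K : ℝ} (h : KOK C K) :
    KData P.LT KK C.tm K 100 where
  deg := Par.dk
  nb := P.nbK
  main := fun l => (l.1.2, true)
  D := C.DR
  cls := P.cls
  des := P.des
  res := P.res
  hK := h.hK
  hΛ := by norm_num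
  hN := h.hN
  hΓ := h.hΓ
  nb_card := h.nb_card
  nb_deg := h.nb_deg
  main_deg := h.main_deg
  D_int := h.D_int
  main_Z := fun l => by simp [Par.cls]
  kU := h.kU
  kD := h.kD
  kZ := h.kZ
  kC_deg := h.kC_deg
  kC_bd := h.kC_bd
  kC_1 := h.kC_1
  kC_1' := h.kC_1'
  kC_2 := h.kC_2
  kC_2' := h.kC_2'
  kC_res := h.kC_res
  kC_gap := h.kC_gap

end Vale.Agent.P225
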