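import Vale.Agent.P225.StaticDefs

/-! Steps, bumps and the right-angled hexagon. -/

namespace Vale.Agent.P225

theorem stp_smooth : ContDiff ℝ (⊤ : ℕ∞) stp := Real.smoothTransition.contDiff
theorem bmp_smooth : ContDiff ℝ (⊤ : ℕ∞) bmp :=
  (contDiff_infty_iff_deriv.mp stp_smooth).2
theorem hasDerivAt_stp (τ : ℝ) : HasDerivAt stp (bmp τ) τ :=
  ((contDiff_infty_iff_deriv.mp stp_smooth).1 τ).hasDerivAt
theorem stp_of_le {τ : ℝ} (h : τ ≤ 0) : stp τ = 0 := Real.smoothTransition.zero_of_nonpos h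
theorem stp_of_ge {τ : ℝ} (h : 1 ≤ τ) : stp τ = 1 := Real.smoothTransition.one_of_one_le h
theorem stp_nonneg (τ : ℝ) : 0 ≤ stp τ := Real.smoothTransition.nonneg τ
theorem stp_le_one (τ : ℝ) : stp τ ≤ 1 := Real.smoothTransition.le_one τ
theorem bmp_of_le {τ : ℝ} (h : τ ≤ 0) : bmp τ = 0 := by
  have : IsLocalMin stp τ := Filter.Eventually.of_forall fun x => by
    rw [stp_of_le h]; exact stp_nonneg x
  exact this.deriv_eq_zero
theorem bmp_of_ge {τ : ℝ} (h : 1 ≤ τ) : bmp τ = 0 := by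
  have : IsLocalMax stp τ := Filter.Eventually.of_forall fun x => by
    rw [stp_of_ge h]; exact stp_le_one x
  exact this.deriv_eq_zero
theorem bmp_nonneg (τ : ℝ) : 0 ≤ bmp τ := Real.smoothTransition.monotone.deriv_nonneg
theorem integral_bmp : ∫ τ in (0 : ℝ)..1, bmp τ = 1 := by
  rw [intervalIntegral.integral_eq_sub_of_hasDerivAt (fun x _ => hasDerivAt_stp x)
    (bmp_smooth.continuous.intervalIntegrable _ _), stp_of_ge le_rfl, stp_of_le le_rfl]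
  norm_num
theorem integral_stp_pos : 0 < ∫ τ in (0 : ℝ)..1, stp τ :=
  intervalIntegral.intervalIntegral_pos_of_pos_on (stp_smooth.continuous.intervalIntegrable _ _)
    (fun _ hx => Real.smoothTransition.pos_of_pos hx.1) one_pos
theorem integral_one_sub_stp_pos : 0 < ∫ τ in (0 : ℝ)..1, (1 - stp τ) :=
  intervalIntegral.intervalIntegral_pos_of_pos_on
    ((continuous_const.sub stp_smooth.continuous).intervalIntegrable _ _)
    (fun _ hx => sub_pos.mpr (Real.smoothTransition.lt_one_of_lt_one hx.2)) one_pos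
theorem lapb_pos (γ : ℝ) (a : ℕ) : 0 < lapb γ a := by
  have h1 : ∫ τ in (0 : ℝ)..1, bmp τ * Real.exp (-(|γ| * (a + 1))) ≤ lapb γ a := by
    refine intervalIntegral.integral_mono_on zero_le_one
      ((bmp_smooth.continuous.mul continuous_const).intervalIntegrable _ _)
      ((bmp_smooth.continuous.mul (by fun_prop)).intervalIntegrable _ _) fun x hx => ?_
    refine mul_le_mul_of_nonneg_left (Real.exp_le_exp.mpr ?_) (bmp_nonneg x)
    have ha : (0 : ℝ) ≤ a := Nat.cast_nonneg a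
    have h2 : -|γ| ≤ γ := neg_abs_le γ
    have h3 : 0 ≤ |γ| := abs_nonneg γ
    nlinarith [hx.1, hx.2, mul_nonneg (show 0 ≤ γ + |γ| by linarith) (show (0 : ℝ) ≤ a + x by linarith [hx.1]),
      mul_nonneg h3 (show (0 : ℝ) ≤ 1 - x by linarith [hx.2])]
  rw [intervalIntegral.integral_mul_const, integral_bmp, one_mul] at h1
  exact (Real.exp_pos _).trans_le h1

theorem bdd3_Hex {f : ℝ → ℝ} (hf : ContDiff ℝ (⊤ : ℕ∞) f) (h0 : ∀ τ ≤ 0, f τ = 0)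
    (h6 : ∀ τ, 6 ≤ τ → f τ = 0) : ∃ Kb : ℝ, 1 ≤ Kb ∧ ∀ τ, |f τ| ≤ Kb ∧ |deriv f τ| ≤ Kb ∧
      |deriv (deriv f) τ| ≤ Kb := by
  have hc : HasCompactSupport f := HasCompactSupport.intro (isCompact_Icc (a := (0 : ℝ)) (b := 6))
    fun x hx => by
      by_cases h : x ≤ 0
      · exact h0 x h
      · exact h6 x (by by_contra h'; exact hx ⟨(not_le.mp h).le, (not_le.mp h').le⟩)
  have hf1 := (contDiff_infty_iff_deriv.mp hf).2
  have hf2 := (contDiff_infty_iff_deriv.mp hf1).2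
  obtain ⟨K0, hK0⟩ := hc.exists_bound_of_continuous hf.continuous
  obtain ⟨K1, hK1⟩ := hc.deriv.exists_bound_of_continuous hf1.continuous
  obtain ⟨K2, hK2⟩ := hc.deriv.deriv.exists_bound_of_continuous hf2.continuous
  refine ⟨max 1 (max K0 (max K1 K2)), le_max_left _ _, fun τ => ⟨?_, ?_, ?_⟩⟩
  · exact (hK0 τ).trans ((le_max_left _ _).trans (le_max_right _ _))
  · exact (hK1 τ).trans ((le_max_left _ _).trans ((le_max_right _ _).trans (le_max_right _ _)))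
  · exact (hK2 τ).trans ((le_max_right _ _).trans ((le_max_right _ _).trans (le_max_right _ _)))

theorem bmp_bdd : ∃ Kb : ℝ, 1 ≤ Kb ∧ ∀ τ, |bmp τ| ≤ Kb ∧ |deriv bmp τ| ≤ Kb ∧
    |deriv (deriv bmp) τ| ≤ Kb :=
  bdd3_Hex bmp_smooth (fun _ h => bmp_of_le h) fun _ h => bmp_of_ge (by linarith)

noncomputable def x0 : ℝ := Real.arsinh (√2 / 2)
noncomputable def xs : Fin 6 → ℝ := ![x0, x0, -x0, -x0, x0, x0]
def sgm (j : Fin 6) : Matrix (Fin 2) (Fin 2) ℝ :=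
  if j.1 % 2 = 0 then !![0, 1; 1, 0] else !![1, 0; 0, -1]
noncomputable def Ej (j : Fin 6) (y : ℝ) : Matrix (Fin 2) (Fin 2) ℝ :=
  Real.cosh y • 1 + Real.sinh y • sgm j
noncomputable def Gm (τ : ℝ) : Matrix (Fin 2) (Fin 2) ℝ :=
  Ej 5 (xs 5 * stp (τ - 5)) * Ej 4 (xs 4 * stp (τ - 4)) * Ej 3 (xs 3 * stp (τ - 3)) *
    Ej 2 (xs 2 * stp (τ - 2)) * Ej 1 (xs 1 * stp (τ - 1)) * Ej 0 (xs 0 * stp τ)
noncomputable def Gi (τ : ℝ) : Matrix (Fin 2) (Fin 2) ℝ :=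
  Ej 0 (-(xs 0 * stp τ)) * Ej 1 (-(xs 1 * stp (τ - 1))) * Ej 2 (-(xs 2 * stp (τ - 2))) *
    Ej 3 (-(xs 3 * stp (τ - 3))) * Ej 4 (-(xs 4 * stp (τ - 4))) * Ej 5 (-(xs 5 * stp (τ - 5)))
/-- total boost amplitude -/
noncomputable def aB (τ : ℝ) : ℝ := xs 0 * bmp τ + xs 2 * bmp (τ - 2) + xs 4 * bmp (τ - 4)
/-- total detuning amplitude -/
noncomputable def aD (τ : ℝ) : ℝ := xs 1 * bmp (τ - 1) + xs 3 * bmp (τ - 3) + xs 5 * bmp (τ - 5)
noncomputable def Am (τ : ℝ) : Matrix (Fin 2) (Fin 2) ℝ := !![aD τ, aB τ; aB τ, -aD τ]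

theorem sgm_sq_Hex (j : Fin 6) : sgm j * sgm j = 1 := by
  unfold sgm
  split_ifs <;> ext i k <;> fin_cases i <;> fin_cases k <;> simp [Matrix.mul_apply, Fin.sum_univ_two]

theorem Ej_mul_Hex (j : Fin 6) (y : ℝ) : Ej j y * Ej j (-y) = 1 := by
  simp only [Ej, Real.cosh_neg, Real.sinh_neg, add_mul, mul_add, smul_mul_smul_comm, one_mul,
    mul_one, sgm_sq_Hex]
  have h := Real.cosh_sq y
  have e1 : Real.cosh y * Real.cosh y = 1 + Real.sinh y * Real.sinh y := by nlinarith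
  rw [e1]
  module

theorem Ej_mul'_Hex (j : Fin 6) (y : ℝ) : Ej j (-y) * Ej j y = 1 := by
  have := Ej_mul_Hex j (-y); rwa [neg_neg] at this

theorem Ej_zero_Hex (j : Fin 6) : Ej j 0 = 1 := by simp [Ej]

theorem cancel_Hex (j : Fin 6) (y : ℝ) (B : Matrix (Fin 2) (Fin 2) ℝ) :
    Ej j y * (Ej j (-y) * B) = B := by rw [← mul_assoc, Ej_mul_Hex, one_mul]

theorem Gm_mul_Gi (τ : ℝ) : Gm τ * Gi τ = 1 := by
  simp only [Gm, Gi, mul_assoc, cancel_Hex, Ej_mul_Hex]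
theorem Gi_mul_Gm (τ : ℝ) : Gi τ * Gm τ = 1 := mul_eq_one_comm.mp (Gm_mul_Gi τ)
theorem Gm_of_le {τ : ℝ} (h : τ ≤ 0) : Gm τ = 1 := by
  simp only [Gm]
  rw [stp_of_le h, stp_of_le (show τ - 1 ≤ 0 by linarith), stp_of_le (show τ - 2 ≤ 0 by linarith),
    stp_of_le (show τ - 3 ≤ 0 by linarith), stp_of_le (show τ - 4 ≤ 0 by linarith),
    stp_of_le (show τ - 5 ≤ 0 by linarith)]
  simp only [mul_zero, Ej_zero_Hex, mul_one]
theorem Gi_of_le {τ : ℝ} (h : τ ≤ 0) : Gi τ = 1 := by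
  have := Gm_mul_Gi τ; rwa [Gm_of_le h, one_mul] at this
theorem hexagon_Hex : Ej 5 x0 * Ej 4 x0 * Ej 3 (-x0) * Ej 2 (-x0) * Ej 1 x0 * Ej 0 x0 =
    !![0, 1; -1, 0] := by
  have hs : Real.sinh x0 * Real.sinh x0 = 1 / 2 := by
    rw [x0, Real.sinh_arsinh]
    have := Real.mul_self_sqrt (show (0 : ℝ) ≤ 2 by norm_num)
    nlinarith
  have hc : Real.cosh x0 * Real.cosh x0 = 3 / 2 := by
    have := Real.cosh_sq x0
    nlinarith
  obtain ⟨p, hp⟩ : ∃ p, p = Real.cosh x0 * Real.sinh x0 := ⟨_, rfl⟩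
  have hp2 : p * p = 3 / 4 := by
    rw [hp, mul_mul_mul_comm, hs, hc]; norm_num
  have hp3 : p * p * p = 3 / 4 * p := by rw [hp2]
  have h54 : Ej 5 x0 * Ej 4 x0 = !![3 / 2 + p, p + 1 / 2; p - 1 / 2, 3 / 2 - p] := by
    ext i k; fin_cases i <;> fin_cases k <;>
      simp [Ej, sgm, Matrix.mul_apply, Fin.sum_univ_two, -Real.cosh_add_sinh] <;> linarith
  have h10 : Ej 1 x0 * Ej 0 x0 = !![3 / 2 + p, p + 1 / 2; p - 1 / 2, 3 / 2 - p] := by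
    ext i k; fin_cases i <;> fin_cases k <;>
      simp [Ej, sgm, Matrix.mul_apply, Fin.sum_univ_two, -Real.cosh_add_sinh] <;> linarith
  have h32 : Ej 3 (-x0) * Ej 2 (-x0) = !![3 / 2 - p, 1 / 2 - p; -p - 1 / 2, 3 / 2 + p] := by
    ext i k; fin_cases i <;> fin_cases k <;>
      simp [Ej, sgm, Matrix.mul_apply, Fin.sum_univ_two, -Real.cosh_add_sinh] <;> linarith
  have e : Ej 5 x0 * Ej 4 x0 * Ej 3 (-x0) * Ej 2 (-x0) * Ej 1 x0 * Ej 0 x0 =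
      (Ej 5 x0 * Ej 4 x0) * (Ej 3 (-x0) * Ej 2 (-x0)) * (Ej 1 x0 * Ej 0 x0) := by
    simp only [mul_assoc]
  rw [e, h54, h32, h10]
  ext i k; fin_cases i <;> fin_cases k <;>
    simp [Matrix.mul_apply, Fin.sum_univ_two] <;> linarith

theorem Gm_of_ge {τ : ℝ} (h : 6 ≤ τ) : Gm τ = !![0, 1; -1, 0] := by
  simp only [Gm]
  rw [stp_of_ge (show 1 ≤ τ by linarith), stp_of_ge (show 1 ≤ τ - 1 by linarith),
    stp_of_ge (show 1 ≤ τ - 2 by linarith), stp_of_ge (show 1 ≤ τ - 3 by linarith),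
    stp_of_ge (show 1 ≤ τ - 4 by linarith), stp_of_ge (show 1 ≤ τ - 5 by linarith)]
  simp only [mul_one]
  exact hexagon_Hex
theorem Gi_of_ge {τ : ℝ} (h : 6 ≤ τ) : Gi τ = !![0, -1; 1, 0] := by
  have h1 : Gm τ * !![0, -1; 1, 0] = 1 := by
    rw [Gm_of_ge h]
    ext i k; fin_cases i <;> fin_cases k <;> simp [Matrix.mul_apply, Fin.sum_univ_two]
  calc Gi τ = Gi τ * (Gm τ * !![0, -1; 1, 0]) := by rw [h1, mul_one]
    _ = _ := by rw [← mul_assoc, Gi_mul_Gm, one_mul]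

def MD_Hex (f : ℝ → Matrix (Fin 2) (Fin 2) ℝ) (f' : Matrix (Fin 2) (Fin 2) ℝ) (τ : ℝ) : Prop :=
  ∀ i j, HasDerivAt (fun τ => f τ i j) (f' i j) τ

theorem MD_mul_Hex {f g : ℝ → Matrix (Fin 2) (Fin 2) ℝ} {f' g' : Matrix (Fin 2) (Fin 2) ℝ} {τ : ℝ}
    (hf : MD_Hex f f' τ) (hg : MD_Hex g g' τ) :
    MD_Hex (fun τ => f τ * g τ) (f' * g τ + f τ * g') τ := by
  intro i j
  simp only [Matrix.mul_apply, Fin.sum_univ_two, Matrix.add_apply]
  have := ((hf i 0).fun_mul (hg 0 j)).fun_add ((hf i 1).fun_mul (hg 1 j))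
  refine this.congr_deriv ?_
  ring

theorem MD_Ej_Hex (j : Fin 6) (x c τ : ℝ) :
    MD_Hex (fun τ => Ej j (x * stp (τ - c)))
      (((x * bmp (τ - c)) • sgm j) * Ej j (x * stp (τ - c))) τ := by
  have h1 : HasDerivAt (fun τ => x * stp (τ - c)) (x * bmp (τ - c)) τ := by
    have := ((hasDerivAt_stp (τ - c)).comp_sub_const τ c).const_mul x
    exact this
  have e : ((x * bmp (τ - c)) • sgm j) * Ej j (x * stp (τ - c)) =
      (Real.sinh (x * stp (τ - c)) * (x * bmp (τ - c))) • (1 : Matrix (Fin 2) (Fin 2) ℝ) +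
        (Real.cosh (x * stp (τ - c)) * (x * bmp (τ - c))) • sgm j := by
    simp only [Ej, mul_add, smul_mul_smul_comm, mul_one, sgm_sq_Hex]
    module
  rw [e]
  intro i k
  simp only [Ej, Matrix.add_apply, Matrix.smul_apply, smul_eq_mul]
  exact (h1.cosh.mul_const _).add (h1.sinh.mul_const _)

theorem MD_step_Hex (j : Fin 6) (x c : ℝ) {τ : ℝ} {F : ℝ → Matrix (Fin 2) (Fin 2) ℝ}
    {A : Matrix (Fin 2) (Fin 2) ℝ} (hF : MD_Hex F (A * F τ) τ) (hA : c ≤ τ → A = 0) :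
    MD_Hex (fun τ => Ej j (x * stp (τ - c)) * F τ)
      (((x * bmp (τ - c)) • sgm j + A) * (Ej j (x * stp (τ - c)) * F τ)) τ := by
  have h := MD_mul_Hex (MD_Ej_Hex j x c τ) hF
  have e : Ej j (x * stp (τ - c)) * (A * F τ) = A * (Ej j (x * stp (τ - c)) * F τ) := by
    by_cases hc : c ≤ τ
    · rw [hA hc]; simp
    · rw [stp_of_le (show τ - c ≤ 0 by linarith), mul_zero, Ej_zero_Hex, one_mul, one_mul]
  rw [add_mul, ← e, ← mul_assoc]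
  exact h

theorem hasDerivAt_Gm (τ : ℝ) (i j : Fin 2) :
    HasDerivAt (fun τ => Gm τ i j) ((Am τ * Gm τ) i j) τ := by
  have h0 := MD_Ej_Hex 0 (xs 0) 0 τ
  have h1 := MD_step_Hex 1 (xs 1) 1 h0 fun h => by
    rw [bmp_of_ge (show 1 ≤ τ - 0 by linarith)]; simp
  have h2 := MD_step_Hex 2 (xs 2) 2 h1 fun h => by
    rw [bmp_of_ge (show 1 ≤ τ - 0 by linarith), bmp_of_ge (show 1 ≤ τ - 1 by linarith)]; simp
  have h3 := MD_step_Hex 3 (xs 3) 3 h2 fun h => by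
    rw [bmp_of_ge (show 1 ≤ τ - 0 by linarith), bmp_of_ge (show 1 ≤ τ - 1 by linarith),
      bmp_of_ge (show 1 ≤ τ - 2 by linarith)]; simp
  have h4 := MD_step_Hex 4 (xs 4) 4 h3 fun h => by
    rw [bmp_of_ge (show 1 ≤ τ - 0 by linarith), bmp_of_ge (show 1 ≤ τ - 1 by linarith),
      bmp_of_ge (show 1 ≤ τ - 2 by linarith), bmp_of_ge (show 1 ≤ τ - 3 by linarith)]; simp
  have h5 := MD_step_Hex 5 (xs 5) 5 h4 fun h => by
    rw [bmp_of_ge (show 1 ≤ τ - 0 by linarith), bmp_of_ge (show 1 ≤ τ - 1 by linarith),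
      bmp_of_ge (show 1 ≤ τ - 2 by linarith), bmp_of_ge (show 1 ≤ τ - 3 by linarith),
      bmp_of_ge (show 1 ≤ τ - 4 by linarith)]; simp
  have eG : ∀ τ, Gm τ = Ej 5 (xs 5 * stp (τ - 5)) * (Ej 4 (xs 4 * stp (τ - 4)) *
      (Ej 3 (xs 3 * stp (τ - 3)) * (Ej 2 (xs 2 * stp (τ - 2)) * (Ej 1 (xs 1 * stp (τ - 1)) *
        Ej 0 (xs 0 * stp (τ - 0)))))) := fun τ => by
    simp only [Gm, mul_assoc, sub_zero]
  have eA : Am τ = (xs 5 * bmp (τ - 5)) • sgm 5 + ((xs 4 * bmp (τ - 4)) • sgm 4 +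
      ((xs 3 * bmp (τ - 3)) • sgm 3 + ((xs 2 * bmp (τ - 2)) • sgm 2 +
      ((xs 1 * bmp (τ - 1)) • sgm 1 + (xs 0 * bmp (τ - 0)) • sgm 0)))) := by
    ext i k; fin_cases i <;> fin_cases k <;> simp [Am, aB, aD, sgm] <;> ring
  simp only [eG]
  rw [eA]
  exact h5 i j
theorem continuous_Gm (i j : Fin 2) : Continuous fun τ => Gm τ i j :=
  continuous_iff_continuousAt.mpr fun τ => (hasDerivAt_Gm τ i j).continuousAt
theorem continuous_Gi (i j : Fin 2) : Continuous fun τ => Gi τ i j := by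
  have hs := stp_smooth.continuous
  have h : Continuous Gi := by
    unfold Gi Ej
    fun_prop
  exact h.matrix_elem i j

theorem bdd_Hex {f : ℝ → ℝ} (hf : Continuous f) (h0 : ∀ τ ≤ 0, f τ = f 0)
    (h6 : ∀ τ, 6 ≤ τ → f τ = f 6) : ∃ K : ℝ, ∀ τ, |f τ| ≤ K := by
  obtain ⟨K, hK⟩ := (isCompact_Icc (a := (0 : ℝ)) (b := 6)).exists_bound_of_continuousOn
    hf.continuousOn
  refine ⟨K, fun τ => ?_⟩
  by_cases h : τ ≤ 0
  · rw [h0 τ h]; exact hK 0 ⟨le_rfl, by norm_num⟩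
  · by_cases h' : 6 ≤ τ
    · rw [h6 τ h']; exact hK 6 ⟨by norm_num, le_rfl⟩
    · exact hK τ ⟨(not_le.mp h).le, (not_le.mp h').le⟩

theorem Gm_bdd : ∃ Kg : ℝ, 1 ≤ Kg ∧ ∀ τ i j, |Gm τ i j| ≤ Kg ∧ |Gi τ i j| ≤ Kg := by
  have h1 : ∀ p : Fin 2 × Fin 2, ∃ K : ℝ, ∀ τ, |Gm τ p.1 p.2| ≤ K := fun p =>
    bdd_Hex (continuous_Gm p.1 p.2) (fun τ h => by rw [Gm_of_le h, Gm_of_le le_rfl])
      fun τ h => by rw [Gm_of_ge h, Gm_of_ge le_rfl]
  have h2 : ∀ p : Fin 2 × Fin 2, ∃ K : ℝ, ∀ τ, |Gi τ p.1 p.2| ≤ K := fun p =>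
    bdd_Hex (continuous_Gi p.1 p.2) (fun τ h => by rw [Gi_of_le h, Gi_of_le le_rfl])
      fun τ h => by rw [Gi_of_ge h, Gi_of_ge le_rfl]
  choose K1 hK1 using h1
  choose K2 hK2 using h2
  obtain ⟨B1, hB1⟩ := (Set.finite_range K1).bddAbove
  obtain ⟨B2, hB2⟩ := (Set.finite_range K2).bddAbove
  refine ⟨max 1 (max B1 B2), le_max_left _ _, fun τ i j => ⟨?_, ?_⟩⟩
  · exact (hK1 (i, j) τ).trans ((hB1 ⟨_, rfl⟩).trans ((le_max_left _ _).trans (le_max_right _ _)))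
  · exact (hK2 (i, j) τ).trans ((hB2 ⟨_, rfl⟩).trans ((le_max_right _ _).trans (le_max_right _ _)))

theorem bmp_sh_Hex (x c : ℝ) : ContDiff ℝ (⊤ : ℕ∞) fun τ => x * bmp (τ - c) :=
  contDiff_const.mul (bmp_smooth.comp (contDiff_id.sub contDiff_const))

theorem aB_smooth : ContDiff ℝ (⊤ : ℕ∞) aB :=
  ((contDiff_const.mul bmp_smooth).add (bmp_sh_Hex _ _)).add (bmp_sh_Hex _ _)
theorem aD_smooth : ContDiff ℝ (⊤ : ℕ∞) aD :=
  ((bmp_sh_Hex _ _).add (bmp_sh_Hex _ _)).add (bmp_sh_Hex _ _)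
theorem aB_mul_aD (τ : ℝ) : aB τ = 0 ∨ aD τ = 0 := by
  unfold aB aD
  by_cases h1 : τ ≤ 1
  · right
    rw [bmp_of_le (show τ - 1 ≤ 0 by linarith), bmp_of_le (show τ - 3 ≤ 0 by linarith),
      bmp_of_le (show τ - 5 ≤ 0 by linarith)]; simp
  by_cases h2 : τ ≤ 2
  · left
    rw [bmp_of_ge (show 1 ≤ τ by linarith), bmp_of_le (show τ - 2 ≤ 0 by linarith),
      bmp_of_le (show τ - 4 ≤ 0 by linarith)]; simp
  by_cases h3 : τ ≤ 3
  · right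
    rw [bmp_of_ge (show 1 ≤ τ - 1 by linarith), bmp_of_le (show τ - 3 ≤ 0 by linarith),
      bmp_of_le (show τ - 5 ≤ 0 by linarith)]; simp
  by_cases h4 : τ ≤ 4
  · left
    rw [bmp_of_ge (show 1 ≤ τ by linarith), bmp_of_ge (show 1 ≤ τ - 2 by linarith),
      bmp_of_le (show τ - 4 ≤ 0 by linarith)]; simp
  by_cases h5 : τ ≤ 5
  · right
    rw [bmp_of_ge (show 1 ≤ τ - 1 by linarith), bmp_of_ge (show 1 ≤ τ - 3 by linarith),
      bmp_of_le (show τ - 5 ≤ 0 by linarith)]; simp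
  · left
    rw [bmp_of_ge (show 1 ≤ τ by linarith), bmp_of_ge (show 1 ≤ τ - 2 by linarith),
      bmp_of_ge (show 1 ≤ τ - 4 by linarith)]; simp
theorem aB_of_le {τ : ℝ} (h : τ ≤ 0) : aB τ = 0 := by
  unfold aB
  rw [bmp_of_le h, bmp_of_le (show τ - 2 ≤ 0 by linarith),
    bmp_of_le (show τ - 4 ≤ 0 by linarith)]; simp
theorem aB_of_ge {τ : ℝ} (h : 5 ≤ τ) : aB τ = 0 := by
  unfold aB
  rw [bmp_of_ge (show 1 ≤ τ by linarith), bmp_of_ge (show 1 ≤ τ - 2 by linarith),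
    bmp_of_ge (show 1 ≤ τ - 4 by linarith)]; simp
theorem aD_of_le {τ : ℝ} (h : τ ≤ 1) : aD τ = 0 := by
  unfold aD
  rw [bmp_of_le (show τ - 1 ≤ 0 by linarith), bmp_of_le (show τ - 3 ≤ 0 by linarith),
    bmp_of_le (show τ - 5 ≤ 0 by linarith)]; simp
theorem aD_of_ge {τ : ℝ} (h : 6 ≤ τ) : aD τ = 0 := by
  unfold aD
  rw [bmp_of_ge (show 1 ≤ τ - 1 by linarith), bmp_of_ge (show 1 ≤ τ - 3 by linarith),
    bmp_of_ge (show 1 ≤ τ - 5 by linarith)]; simp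
theorem aBD_bdd : ∃ Ka : ℝ, 1 ≤ Ka ∧ ∀ τ, |aB τ| ≤ Ka ∧ |deriv aB τ| ≤ Ka ∧
    |deriv (deriv aB) τ| ≤ Ka ∧ |aD τ| ≤ Ka ∧ |deriv aD τ| ≤ Ka ∧ |deriv (deriv aD) τ| ≤ Ka := by
  obtain ⟨K1, h1, hK1⟩ := bdd3_Hex aB_smooth (fun _ h => aB_of_le h)
    fun _ h => aB_of_ge (by linarith)
  obtain ⟨K2, -, hK2⟩ := bdd3_Hex aD_smooth (fun _ h => aD_of_le (by linarith))
    fun _ h => aD_of_ge h
  refine ⟨max K1 K2, h1.trans (le_max_left _ _), fun τ => ⟨?_, ?_, ?_, ?_, ?_, ?_⟩⟩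
  · exact (hK1 τ).1.trans (le_max_left _ _)
  · exact (hK1 τ).2.1.trans (le_max_left _ _)
  · exact (hK1 τ).2.2.trans (le_max_left _ _)
  · exact (hK2 τ).1.trans (le_max_right _ _)
  · exact (hK2 τ).2.1.trans (le_max_right _ _)
  · exact (hK2 τ).2.2.trans (le_max_right _ _)

/-- gluing: a sum of smooth functions, the `m`-th vanishing left of `a m`, `a → ∞` -/
theorem glue_smooth {a : ℕ → ℝ} (ha : Filter.Tendsto a Filter.atTop Filter.atTop)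
    {f : ℕ → ℝ → ℝ} (hf : ∀ m, ContDiff ℝ (⊤ : ℕ∞) (f m)) (h0 : ∀ m, ∀ s ≤ a m, f m s = 0) :
    ContDiff ℝ (⊤ : ℕ∞) fun s => ∑' m, f m s := by
  refine contDiff_iff_contDiffAt.mpr fun s => ?_
  obtain ⟨M, hM⟩ := Filter.eventually_atTop.mp (ha.eventually_ge_atTop (s + 1))
  have h1 : ContDiff ℝ (⊤ : ℕ∞) fun s => ∑ m ∈ Finset.range M, f m s :=
    ContDiff.sum fun m _ => hf m
  refine h1.contDiffAt.congr_of_eventuallyEq ?_
  filter_upwards [Iio_mem_nhds (show s < s + 1 by linarith)] with r hr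
  exact tsum_eq_sum fun m hm => h0 m r
    ((le_of_lt hr).trans (hM m (by simpa using hm)))

theorem glue_eq {a : ℕ → ℝ} (ha : Monotone a) {f : ℕ → ℝ → ℝ} (h0 : ∀ m, ∀ s ≤ a m, f m s = 0)
    (M : ℕ) {s : ℝ} (hs : s ≤ a M) : ∑' m, f m s = ∑ m ∈ Finset.range M, f m s :=
  tsum_eq_sum fun m hm => h0 m s (hs.trans (ha (by simpa using hm)))

end Vale.Agent.P225
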