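import Vale.Agent.P225.Alg

/-! The invariant integral. -/

namespace Vale.Agent.P225

open MvPolynomial MeasureTheory

open AlgH

namespace IntH

/-- the uniform measure on the unit interval -/
noncomputable abbrev mu1 : Measure ℝ := volume.restrict (Set.Icc (0 : ℝ) 1)

instance : IsProbabilityMeasure mu1 := ⟨by simp⟩

theorem cont_spt : Continuous spt := by
  unfold spt; fun_prop

theorem nu_eq : nu = (mu1.prod (mu1.prod mu1)).map spt := rfl

theorem closed_Sph : IsClosed Sph :=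
  isClosed_eq ((Complex.continuous_normSq.comp continuous_fst).add
    (Complex.continuous_normSq.comp continuous_snd)) continuous_const

theorem normSq_polar (r t : ℝ) :
    Complex.normSq ((r : ℂ) * Complex.exp (2 * Real.pi * t * Complex.I)) = r ^ 2 := by
  have : (2 * Real.pi * t * Complex.I : ℂ) = ((2 * Real.pi * t : ℝ) : ℂ) * Complex.I := by
    push_cast; ring
  rw [Complex.normSq_eq_norm_sq, norm_mul, this, Complex.norm_exp_ofReal_mul_I, mul_one,
    Complex.norm_real, Real.norm_eq_abs, sq_abs]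

theorem spt_mem {p : ℝ × ℝ × ℝ} (h : p.1 ∈ Set.Icc (0 : ℝ) 1) : spt p ∈ Sph := by
  show Complex.normSq _ + Complex.normSq _ = 1
  simp only [spt]
  rw [normSq_polar, normSq_polar, Real.sq_sqrt (by linarith [h.2]), Real.sq_sqrt h.1]
  ring

theorem ae_fst : ∀ᵐ p ∂(mu1.prod (mu1.prod mu1)), p.1 ∈ Set.Icc (0 : ℝ) 1 :=
  Measure.quasiMeasurePreserving_fst.ae (ae_restrict_mem measurableSet_Icc)

theorem exists_angle (w : ℂ) : ∃ s ∈ Set.Icc (0 : ℝ) 1,
    w = (‖w‖ : ℝ) * Complex.exp (2 * Real.pi * s * Complex.I) := by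
  refine ⟨Int.fract (w.arg / (2 * Real.pi)), ⟨Int.fract_nonneg _, (Int.fract_lt_one _).le⟩, ?_⟩
  have h : (Real.pi : ℂ) ≠ 0 := by exact_mod_cast Real.pi_ne_zero
  have e : (2 * Real.pi * (Int.fract (w.arg / (2 * Real.pi)) : ℝ) * Complex.I : ℂ) =
      w.arg * Complex.I + (-⌊w.arg / (2 * Real.pi)⌋ : ℤ) * (2 * Real.pi * Complex.I) := by
    unfold Int.fract
    push_cast
    field_simp
    ring
  rw [e, Complex.exp_add, Complex.exp_int_mul_two_pi_mul_I, mul_one,
    Complex.norm_mul_exp_arg_mul_I]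

theorem spt_surj {z : ℂ × ℂ} (hz : z ∈ Sph) :
    ∃ p ∈ Set.Icc (0 : ℝ) 1 ×ˢ (Set.Icc (0 : ℝ) 1 ×ˢ Set.Icc (0 : ℝ) 1), spt p = z := by
  obtain ⟨s, hs, h1⟩ := exists_angle z.1
  obtain ⟨t, ht, h2⟩ := exists_angle z.2
  have h : Complex.normSq z.1 + Complex.normSq z.2 = 1 := hz
  have n1 := Complex.normSq_nonneg z.1
  have n2 := Complex.normSq_nonneg z.2
  refine ⟨(Complex.normSq z.2, s, t), ⟨⟨n2, by linarith⟩, hs, ht⟩, ?_⟩
  simp only [spt]
  rw [show 1 - Complex.normSq z.2 = Complex.normSq z.1 by linarith, Complex.normSq_eq_norm_sq,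
    Complex.normSq_eq_norm_sq, Real.sqrt_sq (norm_nonneg _), Real.sqrt_sq (norm_nonneg _), ← h1, ← h2]

/-- monomials -/
noncomputable def M (a a' b b' : ℕ) : R := xx ^ a * xb ^ a' * yy ^ b * yb ^ b'

theorem mono_ind {p : R → Prop} (h : ∀ a a' b b', p (M a a' b b'))
    (hs : ∀ (c : ℝ) P, p P → p (c • P)) (ha : ∀ P Q, p P → p Q → p (P + Q)) (P : R) : p P := by
  induction P using MvPolynomial.induction_on' with
  | monomial u c =>
    have : (monomial u c : R) = c • M (u 0) (u 1) (u 2) (u 3) := by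
      rw [monomial_eq, Finsupp.prod_fintype _ _ (by simp), Fin.prod_univ_four, smul_eq_C_mul]; rfl
    rw [this]; exact hs _ _ (h _ _ _ _)
  | add P Q hP hQ => exact ha P Q hP hQ

theorem int_exp (a a' : ℕ) : ∫ s, Complex.exp (2 * Real.pi * (s : ℝ) * Complex.I) ^ a *
    (starRingEnd ℂ) (Complex.exp (2 * Real.pi * (s : ℝ) * Complex.I)) ^ a' ∂mu1 =
    if a = a' then 1 else 0 := by
  have e : ∀ s : ℝ, Complex.exp (2 * Real.pi * (s : ℝ) * Complex.I) ^ a *
      (starRingEnd ℂ) (Complex.exp (2 * Real.pi * (s : ℝ) * Complex.I)) ^ a' =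
      Complex.exp ((((a : ℤ) - a' : ℤ) * (2 * Real.pi * Complex.I)) * s) := fun s => by
    rw [← Complex.exp_conj, ← Complex.exp_nat_mul, ← Complex.exp_nat_mul, ← Complex.exp_add]
    congr 1
    simp only [map_mul, Complex.conj_ofReal, Complex.conj_I, map_ofNat]
    push_cast; ring
  simp only [e]
  split_ifs with h
  · simp [h]
  · have h1 : (((a : ℤ) - a' : ℤ) * (2 * Real.pi * Complex.I) : ℂ) ≠ 0 :=
      mul_ne_zero (by exact_mod_cast (show (a : ℤ) - a' ≠ 0 by omega)) Complex.two_pi_I_ne_zero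
    rw [integral_Icc_eq_integral_Ioc, ← intervalIntegral.integral_of_le zero_le_one,
      integral_exp_mul_complex h1, Complex.ofReal_one, mul_one, Complex.exp_int_mul_two_pi_mul_I]
    simp

/-- the beta integral -/
noncomputable def Bt (a b : ℕ) : ℝ := ∫ r in (0 : ℝ)..1, (1 - r) ^ a * r ^ b

theorem int_M (a a' b b' : ℕ) : ∫ z, ev z (M a a' b b') ∂nu =
    ((if a = a' ∧ b = b' then Bt a b else 0 : ℝ) : ℂ) := by
  rw [nu_eq, integral_map cont_spt.aemeasurable (continuous_ev _).aestronglyMeasurable]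
  have e3 : ∀ f g h : ℝ → ℂ, ∫ p : ℝ × ℝ × ℝ, f p.1 * (g p.2.1 * h p.2.2) ∂(mu1.prod (mu1.prod mu1)) =
      (∫ r, f r ∂mu1) * ((∫ r, g r ∂mu1) * ∫ r, h r ∂mu1) := fun f g h => by
    rw [← integral_prod_mul g h]
    exact integral_prod_mul f fun q : ℝ × ℝ => g q.1 * h q.2
  have e4 := e3 (fun r : ℝ => ((√(1 - r) ^ (a + a') * √r ^ (b + b') : ℝ) : ℂ))
    (fun s : ℝ => Complex.exp (2 * Real.pi * (s : ℝ) * Complex.I) ^ a *
        (starRingEnd ℂ) (Complex.exp (2 * Real.pi * (s : ℝ) * Complex.I)) ^ a')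
    (fun s : ℝ => Complex.exp (2 * Real.pi * (s : ℝ) * Complex.I) ^ b *
        (starRingEnd ℂ) (Complex.exp (2 * Real.pi * (s : ℝ) * Complex.I)) ^ b')
  rw [int_exp, int_exp, integral_complex_ofReal] at e4
  refine Eq.trans (integral_congr_ae (Filter.Eventually.of_forall fun p => ?_)) (e4.trans ?_)
  · simp only [M, map_mul, map_pow, ev_xx, ev_xb, ev_yy, ev_yb, spt, Complex.conj_ofReal]
    push_cast; ring
  by_cases h1 : a = a'
  · by_cases h2 : b = b'
    · subst h1 h2
      simp only [if_true, and_self, mul_one]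
      congr 1
      rw [Bt, intervalIntegral.integral_of_le zero_le_one, ← integral_Icc_eq_integral_Ioc]
      refine setIntegral_congr_fun measurableSet_Icc fun r hr => ?_
      rw [← two_mul, ← two_mul, pow_mul, pow_mul, Real.sq_sqrt (by linarith [hr.2]), Real.sq_sqrt hr.1]
    · simp [h2]
  · simp [h1]

theorem II_M (a a' b b' : ℕ) : II (M a a' b b') = if a = a' ∧ b = b' then Bt a b else 0 := by
  rw [II, int_M, Complex.ofReal_re]

theorem Bt_rec (a b : ℕ) : ((a + 1 : ℕ) : ℝ) * Bt a (b + 1) = ((b + 1 : ℕ) : ℝ) * Bt (a + 1) b := by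
  have h : ∀ r ∈ Set.uIcc (0 : ℝ) 1, HasDerivAt (fun r : ℝ => (1 - r) ^ (a + 1) * r ^ (b + 1))
      (((b + 1 : ℕ) : ℝ) * ((1 - r) ^ (a + 1) * r ^ b) -
        ((a + 1 : ℕ) : ℝ) * ((1 - r) ^ a * r ^ (b + 1))) r := by
    intro r _
    refine ((((hasDerivAt_id r).const_sub 1).pow (a + 1)).mul
      ((hasDerivAt_id r).pow (b + 1))).congr_deriv ?_
    simp only [id, Nat.add_sub_cancel, Pi.pow_apply]
    ring
  have h2 := intervalIntegral.integral_eq_sub_of_hasDerivAt h
    (Continuous.intervalIntegrable (by fun_prop) _ _)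
  rw [intervalIntegral.integral_sub (Continuous.intervalIntegrable (by fun_prop) _ _)
    (Continuous.intervalIntegrable (by fun_prop) _ _), intervalIntegral.integral_const_mul,
    intervalIntegral.integral_const_mul] at h2
  unfold Bt
  simp only [sub_self, sub_zero, ne_eq, Nat.add_eq_zero_iff, one_ne_zero, and_false,
    not_false_eq_true, zero_pow, zero_mul, mul_zero] at h2
  linarith

theorem der_pow (D : Derivation ℝ R R) (P : R) (a : ℕ) :
    D (P ^ a) = (a : ℝ) • (P ^ (a - 1) * D P) := by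
  rw [D.leibniz_pow, Nat.cast_smul_eq_nsmul, smul_eq_mul]

theorem Lm_M (a a' b b' : ℕ) : Lm (M a a' b b') =
    (b : ℝ) • M a (a' + 1) (b - 1) b' - (a : ℝ) • M (a - 1) a' b (b' + 1) := by
  simp only [M, der_mul, der_pow, Lm_xx, Lm_xb, Lm_yy, Lm_yb, smul_eq_C_mul]
  ring

theorem pow_pred (a : ℕ) (P : R) : C (a : ℝ) * (P ^ (a - 1) * P) = C (a : ℝ) * P ^ a := by
  rcases a with _ | a
  · simp
  · rw [Nat.add_sub_cancel, pow_succ]

theorem Tx_M (a a' b b' : ℕ) : Tx (M a a' b b') = ((a : ℝ) - a') • M a a' b b' := by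
  simp only [M, der_mul, der_pow, Tx_xx, Tx_xb, Tx_yy, Tx_yb, smul_eq_C_mul, map_sub]
  linear_combination (xb ^ a' * yy ^ b * yb ^ b') * pow_pred a xx -
    (xx ^ a * yy ^ b * yb ^ b') * pow_pred a' xb

theorem Ty_M (a a' b b' : ℕ) : Ty (M a a' b b') = ((b : ℝ) - b') • M a a' b b' := by
  simp only [M, der_mul, der_pow, Ty_xx, Ty_xb, Ty_yy, Ty_yb, smul_eq_C_mul, map_sub]
  linear_combination (xx ^ a * xb ^ a' * yb ^ b') * pow_pred b yy -
    (xx ^ a * xb ^ a' * yy ^ b) * pow_pred b' yb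

theorem ev_one (W : R) : ev (1, 0) W = (eval ![1, 1, 0, 0] W : ℝ) := by
  induction W using MvPolynomial.induction_on with
  | C c => rw [show ev (1, 0) (C c) = (c : ℂ) from (ev _).commutes c, eval_C]
  | add P Q hP hQ => simp only [map_add, hP, hQ, Complex.ofReal_add]
  | mul_X P i hP =>
    simp only [map_mul, hP, Complex.ofReal_mul]
    rw [forall_X (p := fun x => ev (1, 0) x = (eval ![1, 1, 0, 0] x : ℝ)) (by simp [xx, ev])
      (by simp [xb, ev]) (by simp [yy, ev]) (by simp [yb, ev]) i]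

/-- division by a power of `y` at the point `(1, 0)` -/
theorem eval_eq_zero {W : R} (h : ∀ z ∈ Sph, z.2 ≠ 0 → ev z W = 0) : eval ![1, 1, 0, 0] W = 0 := by
  have hc : Continuous fun r : ℝ => ev (((√(1 - r ^ 2) : ℝ) : ℂ), (r : ℂ)) W :=
    (continuous_ev W).comp (by fun_prop)
  have h1 : Set.EqOn (fun r : ℝ => ev (((√(1 - r ^ 2) : ℝ) : ℂ), (r : ℂ)) W) (fun _ => 0)
      (Set.Ioo 0 1) := by
    intro r hr
    refine h _ ?_ (by simpa using hr.1.ne')
    show Complex.normSq _ + Complex.normSq _ = 1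
    simp only [Complex.normSq_ofReal]
    rw [Real.mul_self_sqrt (by nlinarith [hr.1, hr.2])]; ring
  have h2 := h1.closure hc continuous_const (x := 0) (by
    rw [closure_Ioo zero_ne_one]; exact ⟨le_rfl, zero_le_one⟩)
  simp only [ne_eq, OfNat.ofNat_ne_zero, not_false_eq_true, zero_pow, sub_zero, Real.sqrt_one,
    Complex.ofReal_one, Complex.ofReal_zero] at h2
  rw [ev_one] at h2
  exact_mod_cast h2

end IntH

open IntH

instance nu_prob : IsProbabilityMeasure nu := by
  rw [nu_eq]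
  exact Measure.isProbabilityMeasure_map cont_spt.aemeasurable
theorem nu_ae : ∀ᵐ z ∂nu, z ∈ Sph := by
  rw [nu_eq]
  exact (ae_map_iff cont_spt.aemeasurable closed_Sph.measurableSet).2
    (ae_fst.mono fun p hp => spt_mem hp)
theorem isCompact_Sph : IsCompact Sph := by
  refine Metric.isCompact_of_isClosed_isBounded closed_Sph
    ((Metric.isBounded_closedBall (x := (0 : ℂ × ℂ)) (r := 1)).subset fun z hz => ?_)
  have h : Complex.normSq z.1 + Complex.normSq z.2 = 1 := hz
  rw [Complex.normSq_eq_norm_sq, Complex.normSq_eq_norm_sq] at h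
  rw [mem_closedBall_zero_iff, Prod.norm_def, max_le_iff]
  constructor <;> nlinarith [norm_nonneg z.1, norm_nonneg z.2]
theorem integrable_ev (P : R) : Integrable (fun z => ev z P) nu := by
  obtain ⟨C, hC⟩ := isCompact_Sph.exists_bound_of_continuousOn (continuous_ev P).continuousOn
  exact Integrable.of_bound (continuous_ev P).aestronglyMeasurable C (nu_ae.mono hC)
theorem integral_ev (P : R) : ∫ z, ev z P ∂nu = (II P : ℂ) := by
  have : (∫ z, ev z P ∂nu).im = 0 := by
    induction P using mono_ind with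
    | h a a' b b' => rw [int_M, Complex.ofReal_im]
    | hs c P hP => simp only [map_smul]; rw [integral_smul, Complex.smul_im, hP, smul_zero]
    | ha P Q hP hQ =>
      simp only [map_add]
      rw [integral_add (integrable_ev P) (integrable_ev Q), Complex.add_im, hP, hQ, add_zero]
  exact Complex.ext (by simp [II]) (by simp [this])
theorem II_add (P Q : R) : II (P + Q) = II P + II Q := by
  simp only [II, map_add]
  rw [integral_add (integrable_ev P) (integrable_ev Q), Complex.add_re]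
theorem II_smul (c : ℝ) (P : R) : II (c • P) = c * II P := by
  simp only [II, map_smul]
  rw [integral_smul, Complex.smul_re, smul_eq_mul]
theorem II_zero : II 0 = 0 := by
  simp [II]
theorem II_neg (P : R) : II (-P) = -II P := by
  rw [← neg_one_smul ℝ P, II_smul]; ring
theorem II_sub (P Q : R) : II (P - Q) = II P - II Q := by
  rw [sub_eq_add_neg, II_add, II_neg]; ring
theorem II_sum {ι : Type} (s : Finset ι) (f : ι → R) : II (∑ i ∈ s, f i) = ∑ i ∈ s, II (f i) := by
  classical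
  induction s using Finset.induction_on with
  | empty => simp [II_zero]
  | insert i s hi ih => rw [Finset.sum_insert hi, Finset.sum_insert hi, II_add, ih]
theorem II_sg (P : R) : II (sg P) = II P := by
  simp only [II, ev_sg]
  rw [integral_conj, Complex.conj_re]
theorem II_congr {P Q : R} (h : ∀ z ∈ Sph, ev z P = ev z Q) : II P = II Q := by
  unfold II
  rw [integral_congr_ae (nu_ae.mono h)]
theorem II_Lm (P : R) : II (Lm P) = 0 := by
  induction P using mono_ind with
  | h a a' b b' =>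
    rw [Lm_M, II_sub, II_smul, II_smul, II_M, II_M]
    by_cases h : a = a' + 1 ∧ b = b' + 1
    · obtain ⟨rfl, rfl⟩ := h
      simp only [Nat.add_sub_cancel, and_self, if_true]
      rw [Bt_rec, sub_self]
    · rcases a with _ | a <;> rcases b with _ | b
      · simp
      · simp
      · simp
      · rw [if_neg (by omega), if_neg (by omega)]; simp
  | hs c P hP => rw [Derivation.map_smul, II_smul, hP, mul_zero]
  | ha P Q hP hQ => rw [map_add, II_add, hP, hQ, add_zero]
theorem II_Lp (P : R) : II (Lp P) = 0 := by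
  rw [← II_sg, sg_Lp, II_neg, II_Lm, neg_zero]
theorem II_Tx (P : R) : II (Tx P) = 0 := by
  induction P using mono_ind with
  | h a a' b b' =>
    rw [Tx_M, II_smul, II_M]
    split_ifs with h
    · simp [h.1]
    · simp
  | hs c P hP => rw [Derivation.map_smul, II_smul, hP, mul_zero]
  | ha P Q hP hQ => rw [map_add, II_add, hP, hQ, add_zero]
theorem II_Ty (P : R) : II (Ty P) = 0 := by
  induction P using mono_ind with
  | h a a' b b' =>
    rw [Ty_M, II_smul, II_M]
    split_ifs with h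
    · simp [h.2]
    · simp
  | hs c P hP => rw [Derivation.map_smul, II_smul, hP, mul_zero]
  | ha P Q hP hQ => rw [map_add, II_add, hP, hQ, add_zero]
theorem II_Hd (P : R) : II (Hd P) = 0 := by
  rw [Hd_eq, II_add, II_Tx, II_Ty, add_zero]
theorem II_of_Tx {P : R} {c : ℝ} (h : Tx P = c • P) (hc : c ≠ 0) : II P = 0 := by
  have := II_Tx P
  rw [h, II_smul] at this
  exact (mul_eq_zero.1 this).resolve_left hc
theorem II_of_Ty {P : R} {c : ℝ} (h : Ty P = c • P) (hc : c ≠ 0) : II P = 0 := by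
  have := II_Ty P
  rw [h, II_smul] at this
  exact (mul_eq_zero.1 this).resolve_left hc
theorem IntH.II_sq (P : R) : II (P * sg P) = ∫ z, Complex.normSq (ev z P) ∂nu := by
  simp only [II, map_mul, ev_sg, Complex.mul_conj]
  rw [integral_complex_ofReal, Complex.ofReal_re]

theorem II_sq_nonneg (P : R) : 0 ≤ II (P * sg P) := by
  rw [II_sq]
  exact integral_nonneg fun z => Complex.normSq_nonneg _
theorem II_sq_eq_zero {P : R} (h : II (P * sg P) = 0) : ∀ z ∈ Sph, ev z P = 0 := by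
  have hc : Continuous fun z => Complex.normSq (ev z P) :=
    Complex.continuous_normSq.comp (continuous_ev P)
  have hi : Integrable (fun z => Complex.normSq (ev z P)) nu := by
    have := (integrable_ev (P * sg P)).re
    simpa [map_mul, ev_sg, Complex.mul_conj] using this
  rw [II_sq, integral_eq_zero_iff_of_nonneg (fun z => Complex.normSq_nonneg _) hi, nu_eq] at h
  have h2 := ae_of_ae_map cont_spt.aemeasurable h
  rw [Measure.prod_restrict, Measure.prod_restrict] at h2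
  have h3 := Measure.eqOn_of_ae_eq (f := fun p => Complex.normSq (ev (spt p) P)) (g := fun _ => 0)
    h2 (hc.comp cont_spt).continuousOn continuousOn_const (by
      simp only [interior_prod_eq, closure_prod_eq, interior_Icc, closure_Ioo zero_ne_one]
      exact subset_rfl)
  intro z hz
  obtain ⟨p, hp, rfl⟩ := spt_surj hz
  exact Complex.normSq_eq_zero.1 (h3 hp)
theorem II_VV_pos (n : ℕ) (i : ℕ × ℕ) : 0 < II (VV n i * sg (VV n i)) := by
  refine lt_of_le_of_ne (II_sq_nonneg _) fun h => ?_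
  obtain ⟨W, h1, h2⟩ := VV_div n i
  refine h2.ne' (eval_eq_zero fun z hz h0 => ?_)
  have := II_sq_eq_zero h.symm z hz
  rw [h1, map_mul, map_pow, ev_yy] at this
  exact (mul_eq_zero.1 this).resolve_left (pow_ne_zero _ h0)
theorem scl_pos (D n : ℕ) (i : ℕ × ℕ) : 0 < scl D n i := by
  unfold scl
  split_ifs
  · exact inv_pos.2 (Real.sqrt_pos.2 (II_VV_pos n i))
  · exact one_pos
theorem IntH.II_Vh (D n n' : ℕ) (i j : ℕ × ℕ) : II (Vh D n i * sg (Vh D n' j)) =
    scl D n i * scl D n' j * II (VV n i * sg (VV n' j)) := by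
  simp only [Vh, map_smul, smul_mul_assoc, mul_smul_comm, II_smul]; ring

theorem II_Vh_pos (D n : ℕ) (i : ℕ × ℕ) : 0 < II (Vh D n i * sg (Vh D n i)) := by
  rw [II_Vh]
  exact mul_pos (mul_pos (scl_pos D n i) (scl_pos D n i)) (II_VV_pos n i)
theorem II_Vh_one {D n : ℕ} {i : ℕ × ℕ} (h : dg n i ≤ D) : II (Vh D n i * sg (Vh D n i)) = 1 := by
  rw [II_Vh, scl, if_pos h, ← mul_inv, Real.mul_self_sqrt (II_VV_pos n i).le,
    inv_mul_cancel₀ (II_VV_pos n i).ne']
namespace IntH

theorem parts {D : Derivation ℝ R R} (h : ∀ P, II (D P) = 0) (P Q : R) :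
    II (D P * Q) = -II (P * D Q) := by
  have := h (P * Q)
  rw [der_mul, II_add] at this
  linarith

/-- eigenvectors of a charge -/
def Ch (D : Derivation ℝ R R) (c : ℝ) (P : R) : Prop := D P = c • P

theorem Ch.mul {D : Derivation ℝ R R} {c c' : ℝ} {P Q : R} (h : Ch D c P) (h' : Ch D c' Q) :
    Ch D (c + c') (P * Q) := by
  unfold Ch at *
  rw [der_mul, h, h', add_smul, smul_mul_assoc, mul_smul_comm]

theorem Ch.add {D : Derivation ℝ R R} {c : ℝ} {P Q : R} (h : Ch D c P) (h' : Ch D c Q) :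
    Ch D c (P + Q) := by
  unfold Ch at *
  rw [map_add, h, h', smul_add]

theorem Ch.smul {D : Derivation ℝ R R} {c : ℝ} {P : R} (h : Ch D c P) (t : ℝ) :
    Ch D c (t • P) := by
  unfold Ch at *
  rw [Derivation.map_smul, h, smul_comm]

theorem Ch.sub {D : Derivation ℝ R R} {c : ℝ} {P Q : R} (h : Ch D c P) (h' : Ch D c Q) :
    Ch D c (P - Q) := by
  unfold Ch at *
  rw [map_sub, h, h', smul_sub]

theorem Ch.cast {D : Derivation ℝ R R} {c c' : ℝ} {P : R} (h : Ch D c P) (e : c = c') :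
    Ch D c' P := e ▸ h

theorem Ch.sg {D : Derivation ℝ R R} (hD : ∀ P, sg (D P) = -D (sg P)) {c : ℝ} {P : R}
    (h : Ch D c P) : Ch D (-c) (sg P) := by
  unfold Ch at *
  have := hD P
  rw [h, map_smul] at this
  rw [neg_smul, this, neg_neg]

theorem Ch.lm {D : Derivation ℝ R R} (hD : ∀ P, D (Lm P) = Lm (D P) - Lm P) {c : ℝ} {P : R}
    (h : Ch D c P) : Ch D (c - 1) (Lm P) := by
  unfold Ch at *
  rw [hD, h, Derivation.map_smul, sub_smul, one_smul]

theorem Ch.lp {D : Derivation ℝ R R} (hD : ∀ P, D (Lp P) = Lp (D P) + Lp P) {c : ℝ} {P : R}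
    (h : Ch D c P) : Ch D (c + 1) (Lp P) := by
  unfold Ch at *
  rw [hD, h, Derivation.map_smul, add_smul, one_smul]

theorem Ch.hd {D : Derivation ℝ R R} (hD : ∀ P, D (Hd P) = Hd (D P)) {c : ℝ} {P : R}
    (h : Ch D c P) : Ch D c (Hd P) := by
  unfold Ch at *
  rw [hD, h, Derivation.map_smul]

theorem Ch.II_eq {D : Derivation ℝ R R} (hD : ∀ P, II (D P) = 0) {c : ℝ} {P : R} (h : Ch D c P)
    (hc : c ≠ 0) : II P = 0 := by
  have := hD P
  rw [show D P = c • P from h, II_smul] at this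
  exact (mul_eq_zero.1 this).resolve_left hc

theorem ch_Tx_Vh (D n : ℕ) (i : ℕ × ℕ) : Ch Tx ((ch n i : ℝ) - n) (Vh D n i) :=
  Ch.smul (Tx_VV n i) _

theorem ch_Ty_Vh (D n : ℕ) (i : ℕ × ℕ) : Ch Ty n (Vh D n i) := Ch.smul (Ty_VV n i) _

theorem ch_Hd_Vh (D n : ℕ) (i : ℕ × ℕ) : Ch Hd (ch n i) (Vh D n i) := Ch.smul (Hd_VV n i) _

end IntH

/-- orthogonality of the general basis -/
theorem II_vv_orth {a c b a' c' b' : ℕ} (h : (a, c, b) ≠ (a', c', b')) :
    II (vv a c b * sg (vv a' c' b')) = 0 := by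
  by_cases h1 : (a : ℝ) - c + -((a' : ℝ) - c') = 0
  swap
  · exact Ch.II_eq II_Hd (Ch.mul (Hd_vv a c b) (Ch.sg sg_Hd (Hd_vv a' c' b'))) h1
  by_cases h2 : (a : ℝ) - b + -((a' : ℝ) - b') = 0
  swap
  · exact Ch.II_eq II_Ty (Ch.mul (Ty_vv a c b) (Ch.sg sg_Ty (Ty_vv a' c' b'))) h2
  have e1 : II (Lm (Lp (vv a c b)) * sg (vv a' c' b')) =
      II (vv a c b * sg (Lm (Lp (vv a' c' b')))) := by
    rw [parts II_Lm, parts II_Lp, sg_Lm, sg_Lp]; simp
  rw [Lm_Lp_vv, Lm_Lp_vv, map_smul, smul_mul_assoc, mul_smul_comm, II_smul, II_smul,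
    ← sub_eq_zero, ← sub_mul] at e1
  refine (mul_eq_zero.1 e1).resolve_left fun h3 => h ?_
  have k1 : (a : ℤ) - c + -((a' : ℤ) - c') = 0 := by exact_mod_cast h1
  have k2 : (a : ℤ) - b + -((a' : ℤ) - b') = 0 := by exact_mod_cast h2
  have k3 : (c : ℤ) * (a + 1) - c' * (a' + 1) = 0 := by exact_mod_cast h3
  have k4 : ((c : ℤ) - c') * (a + c' + 1) = 0 := by
    have : (a' : ℤ) = a - c + c' := by omega
    rw [this] at k3
    linear_combination k3
  have k5 : (c : ℤ) - c' = 0 := (mul_eq_zero.1 k4).resolve_right (by omega)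
  simp only [Prod.mk.injEq]
  omega
theorem II_Vh_orth (D : ℕ) {n n' : ℕ} {i j : ℕ × ℕ} (h : (n, i) ≠ (n', j)) :
    II (Vh D n i * sg (Vh D n' j)) = 0 := by
  rw [II_Vh, VV, VV, II_vv_orth, mul_zero]
  intro h1
  simp only [Prod.mk.injEq] at h1
  refine h (Prod.ext ?_ (Prod.ext ?_ ?_)) <;> simp only <;> omega
theorem II_Vh_mul (D : ℕ) {n n' : ℕ} (hn : 1 ≤ n) (i j : ℕ × ℕ) :
    II (Vh D n i * Vh D n' j) = 0 := by
  refine Ch.II_eq II_Ty ((ch_Ty_Vh D n i).mul (ch_Ty_Vh D n' j)) ?_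
  have : (1 : ℝ) ≤ n := by exact_mod_cast hn
  positivity
/-- the scale factors are bounded above and below -/
theorem scl_bdd (D : ℕ) : ∃ C : ℝ, 1 ≤ C ∧ ∀ n i, scl D n i ≤ C ∧ (scl D n i)⁻¹ ≤ C := by
  have h0 : ∀ p : ℕ × ℕ × ℕ, 0 ≤ scl D p.1 p.2 + (scl D p.1 p.2)⁻¹ := fun p =>
    (add_pos (scl_pos _ _ _) (inv_pos.2 (scl_pos _ _ _))).le
  have h1 := Finset.sum_nonneg (s := Finset.range (D + 1) ×ˢ box D (0, 0)) fun p _ => h0 p
  refine ⟨1 + ∑ p ∈ Finset.range (D + 1) ×ˢ box D (0, 0), (scl D p.1 p.2 + (scl D p.1 p.2)⁻¹),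
    by linarith, fun n i => ?_⟩
  by_cases h : dg n i ≤ D
  · have h2 := Finset.single_le_sum (s := Finset.range (D + 1) ×ˢ box D (0, 0)) (fun p _ => h0 p)
      (a := (n, i)) (by
        simp only [dg] at h
        simp only [Finset.mem_product, Finset.mem_range, mem_box]
        omega)
    have h3 := scl_pos D n i
    have h4 := inv_pos.2 h3
    constructor <;> linarith
  · rw [scl, if_neg h, inv_one]
    constructor <;> linarith

/-- weak form of `Q1` -/
theorem II_Q1 (w P P' : R) : II (Q1 w P * P') =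
    -II (w * (Hd P * Lm P' + Lm P * Hd P')) - II (sg w * (Hd P * Lp P' + Lp P * Hd P')) := by
  simp only [Q1, add_mul, mul_add, II_add]
  rw [parts II_Lm, parts II_Lp, parts II_Hd]
  simp only [add_mul, II_add, mul_assoc]
  ring
theorem mat_Q1_symm {D n : ℕ} (w : R) {i j : ℕ × ℕ} (hi : dg n i ≤ D) (hj : dg n j ≤ D) :
    mat D n (Q1 w) j i = mat D n (Q1 w) i j := by
  have key : ∀ A B : R, II (w * (Hd A * Lm (sg B) + Lm A * Hd (sg B))) =
      II (sg w * (Hd B * Lp (sg A) + Lp B * Hd (sg A))) := by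
    intro A B
    rw [← II_sg]
    simp only [map_mul, map_add, sg_Hd, sg_Lm, sg_sg]
    congr 1; ring
  rw [mat, mat, II_Vh_one hi, II_Vh_one hj, II_Q1, II_Q1, key, key]
  ring
theorem mat_Q1_add (D n : ℕ) (w w' : R) (j i : ℕ × ℕ) :
    mat D n (Q1 (w + w')) j i = mat D n (Q1 w) j i + mat D n (Q1 w') j i := by
  have : ∀ P, Q1 (w + w') P = Q1 w P + Q1 w' P := fun P => by
    simp only [Q1, map_add, add_mul]; ring
  simp only [mat, this, add_mul, II_add, add_div]
theorem mat_Q1_smul (D n : ℕ) (c : ℝ) (w : R) (j i : ℕ × ℕ) :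
    mat D n (Q1 (c • w)) j i = c * mat D n (Q1 w) j i := by
  have : ∀ P, Q1 (c • w) P = c • Q1 w P := fun P => by
    simp only [Q1, map_add, map_smul, smul_mul_assoc, Derivation.map_smul, smul_add]
  simp only [mat, this, smul_mul_assoc, II_smul, mul_div_assoc]
/-- expansion of the full perturbation matrix in the amplitudes -/
theorem mat_expand (D n : ℕ) {J : Type} [Fintype J] (a : J → ℝ) (sh : J → R) (j i : ℕ × ℕ) :
    mat D n (fun P => Q1 (∑ l, a l • sh l) P + Q2 (∑ l, a l • sh l) (∑ l, a l • sh l) P) j i =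
      ∑ l, a l * mat D n (Q1 (sh l)) j i +
        ∑ l, ∑ l', a l * a l' * mat D n (Q2 (sh l) (sh l')) j i := by
  have h1 : ∀ P, Q1 (∑ l, a l • sh l) P = ∑ l, a l • Q1 (sh l) P := fun P => by
    simp only [Q1, map_add, map_sum, map_smul, Finset.sum_mul, smul_mul_assoc, Derivation.map_smul,
      smul_add, Finset.sum_add_distrib]
  have h2 : ∀ P, Q2 (∑ l, a l • sh l) (∑ l, a l • sh l) P =
      ∑ l, ∑ l', (a l * a l') • Q2 (sh l) (sh l') P := fun P => by
    simp only [Q2, map_sum, map_smul]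
    rw [Finset.sum_mul_sum]
    simp only [map_sum, Finset.sum_mul, mul_smul_comm, smul_mul_assoc, Derivation.map_smul,
      smul_smul]
    exact Finset.sum_congr rfl fun l _ => Finset.sum_congr rfl fun l' _ => by rw [mul_comm]
  simp only [mat, h1, h2, add_mul, Finset.sum_mul, smul_mul_assoc, II_add, II_sum, II_smul, add_div,
    Finset.sum_div, mul_div_assoc]
/-- charge selection rule -/
theorem mat_Q1_sel {D n : ℕ} {g : R} {w : ℤ} (hx : Tx g = (w : ℝ) • g) {i j : ℕ × ℕ}
    (h1 : ch n j - ch n i ≠ w) (h2 : ch n j - ch n i ≠ -w) : mat D n (Q1 (mm * g)) j i = 0 := by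
  have hm : Ch Tx (1 + w) (mm * g) := Ch.mul (c := 1) (by rw [Ch, Tx_mm, one_smul]) hx
  have hA := ch_Tx_Vh D n i
  have hC := Ch.sg sg_Tx (ch_Tx_Vh D n j)
  have e1 := hm.mul (((hA.hd Tx_Hd).mul (hC.lm Tx_Lm)).add
    (((hA.lm Tx_Lm).mul (hC.hd Tx_Hd)).cast (by ring)))
  have e2 := (hm.sg sg_Tx).mul (((hA.hd Tx_Hd).mul (hC.lp Tx_Lp)).add
    (((hA.lp Tx_Lp).mul (hC.hd Tx_Hd)).cast (by ring)))
  rw [mat, II_Q1, e1.II_eq II_Tx, e2.II_eq II_Tx]
  · simp
  · intro h
    refine h2 ?_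
    have : ((ch n j - ch n i : ℤ) : ℝ) = ((-w : ℤ) : ℝ) := by push_cast; linarith
    exact_mod_cast this
  · intro h
    refine h1 ?_
    have : ((ch n j - ch n i : ℤ) : ℝ) = ((w : ℤ) : ℝ) := by push_cast; linarith
    exact_mod_cast this

end Vale.Agent.P225
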