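import Vale.Agent.P225.KernA

/-! Kernel hypotheses for the concrete system. -/

namespace Vale.Agent.P225

open Set

/-- controlled labels occupy allowed pairs of modes at every stage -/
theorem Par.alw_of_C (P : Par) {l : P.LT} {κ : KK} (h : P.cls l κ = .C) (m : ℕ) :
    κ.2 = true ∧ Alw P.S.D l.1.1 (P.S.perm l.1.1 m l.1.2) (P.S.perm l.1.1 m κ.1) := by
  obtain ⟨h1, h2, h3, h4⟩ := Par.cls_CK h
  have a := (Nat.le_add_right _ _).trans (P.lt_dgK l m)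
  have b := (P.S.perm_dg_le m).mpr h3
  refine ⟨h1, P.lt_posK l, a, b, fun e => h2 ((P.S.perm _ m).injective e).symm, ?_⟩
  by_cases c1 : l.1.2 ∈ P.S.cl l.1.1
  · have := P.S.cl_MF _ _ (P.S.perm_mem c1 m)
    exact ⟨this _ b, fun _ => this⟩
  by_cases c2 : κ.1 ∈ P.S.cl l.1.1
  · have := P.S.cl_MF _ _ (P.S.perm_mem c2 m)
    exact ⟨fun e => this _ a (by omega), fun e => e ▸ this⟩
  rw [P.S.perm_of_not_mem c1, P.S.perm_of_not_mem c2]
  exact ⟨fun e => h4 (Or.inl e), fun e => by_contra fun hn => h4 (Or.inr ⟨e, hn⟩)⟩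

/-- a pulse condition concerns the swapped pair -/
theorem Par.pulse_spec (P : Par) {l : P.LT} {κ : KK} {m : ℕ} (h : P.cls l κ = .C)
    (hd : P.des l κ m = .pulse) : l.1.1 ∈ P.S.band ∧
      P.S.perm l.1.1 (m + 1) l.1.2 = P.slow (P.S.kd m) l.1.1 ∧
      P.S.perm l.1.1 (m + 1) κ.1 = P.fast (P.S.kd m) l.1.1 := by
  obtain ⟨-, -, h3, -⟩ := Par.cls_CK h
  obtain ⟨-, -, a, b, hne, -⟩ := P.alw_of_C h (m + 1)
  obtain ⟨g1, g2⟩ := Par.des_gapK (m := m) h3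
  have e : P.fl (P.S.t0 (P.S.kd m)) l.1.1 m l.1.2 = P.fl (P.S.t0 (P.S.kd m)) l.1.1 m κ.1 :=
    le_antisymm (not_lt.mp fun c => by simp [g2 c] at hd) (not_lt.mp fun c => by simp [g1 c] at hd)
  rw [← Par.fl_succK, ← Par.fl_succK l.1.1 m] at e
  unfold Par.des at hd
  split_ifs at hd with c1 c2 c3
  have hn : l.1.1 ∈ P.S.band := by
    by_contra hn
    simp only [Par.fl, P.S.perm_succ, if_neg hn] at c1 c3
    exact c1 c3
  have l1 := P.S.lo_dg (P.S.kd m) _ hn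
  have l2 := P.S.lo_ch (P.S.kd m) _ hn
  have l3 := P.S.hi_dg (P.S.kd m) _ hn
  have l4 := P.S.hi_ch (P.S.kd m) _ hn
  have r : ∀ i, P.S.perm l.1.1 (m + 1) i ≠ P.S.perm l.1.1 m i →
      P.fl (P.S.t0 (P.S.kd m)) l.1.1 (m + 1) i =
        fm (P.S.t0 (P.S.kd m)) (P.S.dl (P.S.kd m)) (P.S.el (P.S.kd m)) := fun i hi => by
    rw [Par.fl_succK, Par.fl]
    rw [P.S.perm_succ, if_pos hn, Equiv.swap_apply_def] at hi
    split_ifs at hi with d1 d2
    · rw [d1, l1, l2]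
    · rw [d2, l3, l4, P.S.reson]
    · exact (hi rfl).elim
  have r2 : P.fl (P.S.t0 (P.S.kd m)) l.1.1 (m + 1) l.1.2 =
      fm (P.S.t0 (P.S.kd m)) (P.S.dl (P.S.kd m)) (P.S.el (P.S.kd m)) := by
    by_contra hc
    have d1 := not_not.mp fun d => hc (r _ d)
    have d2 := not_not.mp fun d => hc (e.trans (r _ d))
    simp only [Par.fl, d1, d2] at c1 c3
    exact c1 c3
  refine ⟨hn, ?_⟩
  unfold Par.fl at c3
  rcases P.S.R2 _ _ hn _ a r2 with d1 | d1 <;>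
    rcases P.S.R2 _ _ hn _ b (e.symm.trans r2) with d2 | d2
  · exact (hne (d1.trans d2.symm)).elim
  · rw [d1, d2, l1, l2, l3, l4] at c3
    rw [Par.slow, Par.fast, if_pos c3, if_pos c3]; exact ⟨d1, d2⟩
  · rw [d1, d2, l1, l2, l3, l4] at c3
    rw [Par.slow, Par.fast, if_neg c3.not_gt, if_neg c3.not_gt]; exact ⟨d1, d2⟩
  · exact (hne (d1.trans d2.symm)).elim

theorem dk_leK {n : ℕ} (hn : 1 ≤ n) (κ : KK) : (Par.dk κ : ℝ) + 1 ≤ dg n κ.1 := by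
  have : Par.dk κ + 1 ≤ dg n κ.1 := by unfold Par.dk dg; omega
  exact_mod_cast this

theorem fm_tailK (t : ℝ) {d d' : ℕ} {e e' : ℤ} (h : d < d') (he : e' = e ∨ e' = -e) :
    1 ≤ fm t d' e' - fm t d e := by
  have : (d : ℝ) + 1 ≤ d' := by exact_mod_cast h
  have h0 : (0 : ℝ) ≤ d := Nat.cast_nonneg d
  rcases he with rfl | rfl <;> simp only [fm, Int.cast_neg, neg_sq] <;> nlinarith

namespace Ctx
variable {P : Par} {Kc KY K : ℝ} (C : Ctx P Kc KY)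

theorem D_intK (l : P.LT) (κ : KK) (x y : ℝ) :
    IntervalIntegrable (C.DR l κ) MeasureTheory.volume x y := by
  refine IntervalIntegrable.sub ?_ (C.rp_int (P.lt_posK l) _ x y)
  obtain ⟨i, _ | _⟩ := κ
  · exact (C.continuous_y2 (P.lt_posK l) i).neg.intervalIntegrable x y
  · exact C.rp_int (P.lt_posK l) _ x y

theorem DR_fixK {l : P.LT} {κ : KK} (h : κ.2 = true) (h1 : ∀ m, P.S.perm l.1.1 m l.1.2 = l.1.2)
    (h2 : ∀ m, P.S.perm l.1.1 m κ.1 = κ.1) (s : ℝ) :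
    C.DR l κ s = C.y1 l.1.1 κ.1 s - C.y1 l.1.1 l.1.2 s := by
  rw [C.DR_eqK l h]; simp only [dyK, h1, h2]; ring

theorem tailK (hK : 16 * ((P.S.D : ℝ) + 1) ^ 2 ≤ K) (hY : ∀ m, 2 * |KY| / C.tm.T m ≤ 1 / K)
    {n : ℕ} (hn : 1 ≤ n) {i j : ℕ × ℕ} (hj : dg n j ≤ P.S.D) (h : dg n i < dg n j)
    (he : ch n j = ch n i ∨ ch n j = -ch n i) (s : ℝ) :
    (P.S.D : ℝ) / K ≤ C.y1 n j s - C.y1 n i s := by
  have h0 : (0 : ℝ) ≤ P.S.D := Nat.cast_nonneg _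
  have K0 : 0 < K := lt_of_lt_of_le (by positivity) hK
  have a1 := C.y_gapK hn (h.le.trans hj) hj zero_le_one (fm_tailK (C.tt s) h he)
  have a2 : ((P.S.D : ℝ) + 1) / K ≤ 1 / (8 * ((P.S.D : ℝ) + 1)) := by
    rw [div_le_div_iff₀ K0 (by positivity)]; nlinarith
  rw [add_div] at a2
  linarith [hY (C.tm.st s)]

theorem kUK (hK : 16 * ((P.S.D : ℝ) + 1) ^ 2 ≤ K) (hY : ∀ m, 2 * |KY| / C.tm.T m ≤ 1 / K)
    (l : P.LT) (κ : KK) (h : P.cls l κ = .U) :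
    (∀ s, ((Par.dk κ : ℝ) + 1) / K ≤ C.DR l κ s) ∧ ∀ m, ¬ P.res l κ m := by
  have h0 : (0 : ℝ) ≤ P.S.D := Nat.cast_nonneg _
  have K0 : 0 < K := lt_of_lt_of_le (by positivity) hK
  have hn := P.lt_posK l
  have hd := div_le_div_of_nonneg_right (dk_leK hn κ) K0.le
  obtain ⟨h1, h2 | ⟨h2, h3, h4⟩⟩ := Par.cls_UK h
  · refine ⟨fun s => hd.trans ?_, fun m hr => absurd hr.2.1 (not_le.mpr h2)⟩
    obtain ⟨i, b⟩ := κ
    obtain rfl : b = true := h1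
    have f := P.S.perm_of_not_mem (n := l.1.1) (i := i) fun hc =>
      absurd (P.S.cl_dg hc) (not_le.mpr h2)
    have a1 : C.rp l.1.1 l.1.2 s ≤ P.S.D - 80 := C.rp_leK fun m => by
      have b1 := P.lt_dgK l m
      have b2 : (dg l.1.1 (P.S.perm l.1.1 m l.1.2) : ℝ) + 100 ≤ P.S.D := by exact_mod_cast b1
      linarith [C.y1_le hn ((Nat.le_add_right _ _).trans b1) s]
    have a2 : C.y1 l.1.1 i s ≤ C.rp l.1.1 i s := C.rp_geK fun m => by rw [f]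
    have a3 := (abs_le.mp (C.yp_near _ _ (dg_posK hn i) (abs_ch_le _ i) s)).1
    have a4 := (C.mu_ge (dg_posK hn i) (abs_ch_le _ i) s).1
    have a5 := C.KY_div_le (C.tm.st s)
    have a6 : (P.S.D : ℝ) + 1 ≤ dg l.1.1 i := by exact_mod_cast h2
    have a7 := mul_le_mul_of_nonneg_right P.S.θ_le (sub_nonneg.mpr a6)
    have a8 := P.S.θ_D
    have a9 := P.S.θ_le
    have b1 : ((P.S.D : ℝ) + 1) / K ≤ 1 := by rw [div_le_one K0]; nlinarith
    have b2 : ((dg l.1.1 i : ℝ) - (P.S.D + 1)) / K ≤ (dg l.1.1 i - (P.S.D + 1)) / 2 :=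
      div_le_div_of_nonneg_left (by linarith) two_pos (by nlinarith)
    rw [sub_div] at b2
    change (dg l.1.1 i : ℝ) / K ≤ C.rp l.1.1 i s - C.rp l.1.1 l.1.2 s
    unfold y1 at a2
    linarith
  · obtain ⟨f1, f2, f3⟩ := Par.tail_fixK h3 (h4.le.trans h2) h2
    refine ⟨fun s => hd.trans ?_, fun m hr => ?_⟩
    · rw [C.DR_fixK h1 f1 f2]
      exact (div_le_div_of_nonneg_right (by exact_mod_cast h2) K0.le).trans
        (C.tailK hK hY hn h2 h4 f3 s)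
    · have := hr.2.2
      simp only [Par.fl, f1, f2] at this
      linarith [fm_tailK (P.S.t0 (P.S.kd m)) h4 f3]

theorem kDK (hK : 16 * ((P.S.D : ℝ) + 1) ^ 2 ≤ K) (hY : ∀ m, 2 * |KY| / C.tm.T m ≤ 1 / K)
    (l : P.LT) (κ : KK) (h : P.cls l κ = .Dn) :
    (∀ s, C.DR l κ s ≤ -(((Par.dk κ : ℝ) + 1) / K)) ∧ ∀ m, ¬ P.res l κ m := by
  have h0 : (0 : ℝ) ≤ P.S.D := Nat.cast_nonneg _
  have K0 : 0 < K := lt_of_lt_of_le (by positivity) hK
  have hn := P.lt_posK l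
  have hd := div_le_div_of_nonneg_right (dk_leK hn κ) K0.le
  rcases Par.cls_DK h with h1 | ⟨h1, h2, h3, h4⟩
  · refine ⟨fun s => ?_, fun m hr => by simpa [h1] using hr.1⟩
    obtain ⟨i, b⟩ := κ
    obtain rfl : b = false := h1
    have a1 : 0 ≤ C.rp l.1.1 l.1.2 s := C.rp_geK fun m =>
      le_trans (by positivity) (C.y1_bd hn _ s).1
    have a2 := (C.y2_bd hn i s).1
    have a3 : (dg l.1.1 i : ℝ) / K ≤ dg l.1.1 i / 4 :=
      div_le_div_of_nonneg_left (Nat.cast_nonneg _) four_pos (by nlinarith)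
    change -C.y2 l.1.1 i s - C.rp l.1.1 l.1.2 s ≤ _
    linarith
  · have hA := (Nat.le_add_right _ _).trans (P.lt_dg0K l)
    obtain ⟨f1, f2, f3⟩ := Par.tail_fixK h3 hA h2
    have f4 : ch l.1.1 l.1.2 = ch l.1.1 κ.1 ∨ ch l.1.1 l.1.2 = -ch l.1.1 κ.1 := by omega
    refine ⟨fun s => ?_, fun m hr => ?_⟩
    · rw [C.DR_fixK h1 f1 f2]
      have := (div_le_div_of_nonneg_right (Nat.cast_le.mpr h2) K0.le).trans
        (C.tailK hK hY hn hA h4 f4 s)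
      linarith
    · have := hr.2.2
      simp only [Par.fl, f1, f2] at this
      linarith [fm_tailK (P.S.t0 (P.S.kd m)) h4 f4]

theorem kZK (l : P.LT) (κ : KK) (h : P.cls l κ = .Z) :
    (∀ s, C.DR l κ s = 0) ∧ (∀ m, P.res l κ m) ∧ dg l.1.1 κ.1 ≤ P.S.D := by
  have hA := (Nat.le_add_right _ _).trans (P.lt_dg0K l)
  rcases Par.cls_ZK h with rfl | ⟨h1, h2, h3⟩
  · exact ⟨fun s => sub_self _, fun m => ⟨rfl, hA, rfl⟩, hA⟩
  · obtain ⟨f1, f2, f3⟩ := Par.tail_fixK h2 hA (h3 ▸ hA)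
    refine ⟨fun s => ?_, fun m => ⟨h1, h3 ▸ hA, ?_⟩, h3 ▸ hA⟩
    · rw [C.DR_fixK h1 f1 f2, y1, y1, h3]
      rcases f3 with e | e <;> rw [e]
      · exact sub_self _
      · rw [C.yp_even]; exact sub_self _
    · simp only [Par.fl, f1, f2, h3]
      rcases f3 with e | e <;> simp [e, fm]

theorem abs_DRK {l : P.LT} {κ : KK} (h : κ.2 = true) {s x : ℝ}
    (h1 : |C.dyK l κ (C.tm.st s) s| ≤ x) (h2 : |C.dyK l κ (C.tm.st s + 1) s| ≤ x) :
    |C.DR l κ s| ≤ x := by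
  rw [C.DR_eqK l h]
  rw [abs_le] at *
  constructor <;> nlinarith [C.WK_mem s, h1.1, h1.2, h2.1, h2.2]

theorem bdK {l : P.LT} {κ : KK} (h : P.cls l κ = .C) (s : ℝ) :
    |C.DR l κ s| ≤ 2 * ((P.S.D : ℝ) + 1) := by
  have k : ∀ m, |C.dyK l κ m s| ≤ 2 * ((P.S.D : ℝ) + 1) := fun m => by
    obtain ⟨-, hn, a, b, -⟩ := P.alw_of_C h m
    have a1 := C.y1_bd hn (P.S.perm l.1.1 m l.1.2) s
    have a2 := C.y1_bd hn (P.S.perm l.1.1 m κ.1) s
    have a3 : (dg l.1.1 (P.S.perm l.1.1 m l.1.2) : ℝ) ≤ P.S.D := by exact_mod_cast a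
    have a4 : (dg l.1.1 (P.S.perm l.1.1 m κ.1) : ℝ) ≤ P.S.D := by exact_mod_cast b
    have a5 : (0 : ℝ) ≤ dg l.1.1 (P.S.perm l.1.1 m l.1.2) := Nat.cast_nonneg _
    have a6 : (0 : ℝ) ≤ dg l.1.1 (P.S.perm l.1.1 m κ.1) := Nat.cast_nonneg _
    rw [dyK, abs_le]; constructor <;> linarith [a1.1, a1.2, a2.1, a2.2]
  exact C.abs_DRK (Par.cls_CK h).1 (k _) (k _)

theorem lin_gapK {l : P.LT} {κ : KK} (h : P.cls l κ = .C) {m : ℕ} (m' : ℕ) {s w : ℝ}
    (hs : C.tm.st s = m) (h0 : 0 ≤ w) (h1 : w ≤ 1)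
    (ht : C.tt s = P.S.t0 (P.S.kd m) + (P.St.t2 (P.S.kd m) - P.S.t0 (P.S.kd m)) * w) :
    min 1 P.St.g1 * P.St.ϑ / (8 * ((P.S.D : ℝ) + 1)) * w - 2 * |KY| / C.tm.T m ≤
      Par.sgK (P.S.kd m) l.1.1 (P.S.perm l.1.1 m' l.1.2) (P.S.perm l.1.1 m' κ.1) *
        C.dyK l κ m' s := by
  have a1 := P.St.t2_ge (P.S.kd m)
  have a2 := P.St.ϑ_pos
  have a3 := C.sgapK (P.S.kd m) (P.alw_of_C h m').2 (s := s) (by rw [ht]; nlinarith)
    (by rw [ht]; nlinarith)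
  rw [hs, ht, add_sub_cancel_left] at a3
  refine le_trans (sub_le_sub_right ?_ _) a3
  rw [div_mul_eq_mul_div, mul_assoc]
  have := le_min zero_le_one P.St.g1_pos.le
  gcongr
  linarith

theorem gap1K {l : P.LT} {κ : KK} (h : P.cls l κ = .C) (m : ℕ) {s : ℝ}
    (hs : s ∈ Icc (C.tm.a m) (C.tm.b m 1)) :
    min 1 P.St.g1 * P.St.ϑ / (8 * ((P.S.D : ℝ) + 1)) * (1 - stp ((s - C.tm.b m 0) / C.tm.T m)) -
      2 * |KY| / C.tm.T m ≤ (P.des l κ m).s1 * C.DR l κ s := by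
  have N0 : (0 : ℝ) ≤ C.tm.N := Nat.cast_nonneg _
  have e := C.st_eqK hs.1 (by linarith [hs.2, C.tm.b_le_b m (show (1 : ℝ) ≤ 10 by norm_num)])
  rw [C.DR_eqK l (Par.cls_CK h).1, WK, e,
    if_pos (hs.2.trans_lt (C.tm.b_lt_b m (by norm_num))), Par.s1_eqK, sub_zero, one_mul, zero_mul,
    add_zero]
  exact C.lin_gapK h m e (sub_nonneg.mpr (stp_le_one _)) (sub_le_self _ (stp_nonneg _))
    (C.tt_M1 hs)

theorem gap2K {l : P.LT} {κ : KK} (h : P.cls l κ = .C) (m : ℕ) {s : ℝ}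
    (hs : s ∈ Icc (C.tm.b m 9) (C.tm.b m 10 + C.tm.N)) :
    min 1 P.St.g1 * P.St.ϑ / (8 * ((P.S.D : ℝ) + 1)) * stp ((s - C.tm.b m 9) / C.tm.T m) -
      2 * |KY| / C.tm.T m ≤ (P.des l κ m).s2 * C.DR l κ s := by
  have e := C.st_eqK ((C.tm.a_le_b m (by norm_num)).trans hs.1) hs.2
  rw [C.DR_eqK l (Par.cls_CK h).1, WK, e,
    if_neg (not_lt.mpr ((C.tm.b_le_b m (by norm_num)).trans hs.1)),
    if_neg (not_lt.mpr ((C.tm.b_le_b m (by norm_num)).trans hs.1)), Par.s2_eqK, sub_self, one_mul,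
    zero_mul, zero_add]
  exact C.lin_gapK h (m + 1) e (stp_nonneg _) (stp_le_one _) (C.tt_M2 hs)

theorem int_geK {f g : ℝ → ℝ} {x T c k σ : ℝ} (hT : 0 < T) (hg : Continuous g)
    (hf : IntervalIntegrable f MeasureTheory.volume x (x + T))
    (h : ∀ s ∈ Icc x (x + T), c * g ((s - x) / T) - k / T ≤ σ * f s) :
    c * (∫ τ in (0 : ℝ)..1, g τ) * T - k ≤ σ * ∫ s in x..x + T, f s := by
  have c1 : Continuous fun s => g ((s - x) / T) := by fun_prop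
  have := intervalIntegral.integral_mono_on (by linarith)
    (((c1.const_mul c).fun_sub continuous_const).intervalIntegrable _ _) (hf.const_mul σ) h
  rw [intervalIntegral.integral_const_mul, intervalIntegral.integral_sub
    ((c1.const_mul c).intervalIntegrable _ _) (continuous_const.intervalIntegrable _ _),
    intervalIntegral.integral_const_mul, intervalIntegral.integral_comp_sub_right
      (fun s => g (s / T)), intervalIntegral.integral_comp_div _ hT.ne'] at this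
  simp only [sub_self, add_sub_cancel_left, zero_div, div_self hT.ne', smul_eq_mul,
    intervalIntegral.integral_const, mul_div_cancel₀ _ hT.ne'] at this
  linarith

theorem resK {Ka : ℝ} (hKa : ∀ τ, |aD τ| ≤ Ka) {l : P.LT} {κ : KK} {m : ℕ} (h : P.cls l κ = .C)
    (hr : P.res l κ m) {s : ℝ} (hs : s ∈ Icc (C.tm.b m 1) (C.tm.b m 9)) :
    |C.DR l κ s| ≤ ((∑ j, |P.cD j|) * Ka * (P.S.D : ℝ) ^ 2 + 2 * |KY|) / C.tm.T m := by
  have N0 : (0 : ℝ) ≤ C.tm.N := Nat.cast_nonneg _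
  have e := C.st_eqK ((C.tm.a_le_b m (by norm_num)).trans hs.1)
    (by linarith [hs.2, C.tm.b_le_b m (show (9 : ℝ) ≤ 10 by norm_num)])
  have sq : ∀ n i, dg n i ≤ P.S.D → (ch n i : ℝ) ^ 2 ≤ (P.S.D : ℝ) ^ 2 := fun n i hi => by
    have : |(ch n i : ℝ)| ≤ P.S.D := by
      exact_mod_cast (abs_ch_le n i).trans (by exact_mod_cast hi)
    exact sq_le_sq' (abs_le.mp this).1 (abs_le.mp this).2
  have k : ∀ m', P.fl (P.S.t0 (P.S.kd m)) l.1.1 m' κ.1 = P.fl (P.S.t0 (P.S.kd m)) l.1.1 m' l.1.2 →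
      |C.dyK l κ m' s| ≤ ((∑ j, |P.cD j|) * Ka * (P.S.D : ℝ) ^ 2 + 2 * |KY|) / C.tm.T m :=
    fun m' hm => by
      obtain ⟨-, hn, a, b, -⟩ := P.alw_of_C h m'
      rw [add_div, ← e]
      refine C.y_closeK hn _ _ ?_
      unfold Par.fl at hm
      rw [fm_sub _ (P.S.t0 (P.S.kd m)), fm_sub (C.tt s) (P.S.t0 (P.S.kd m)), hm,
        add_sub_add_left_eq_sub, ← mul_sub, C.tt_sw hs, add_sub_cancel_left, e, abs_mul, abs_div,
        abs_mul, abs_of_pos (C.tm.T_pos m), div_mul_eq_mul_div]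
      have a1 := Finset.single_le_sum (f := fun j => |P.cD j|) (fun _ _ => abs_nonneg _)
        (Finset.mem_univ (P.S.kd m))
      have a2 := (abs_nonneg _).trans (hKa 0)
      have a3 := C.tm.T_pos m
      gcongr
      · exact hKa _
      · rw [abs_le]
        constructor <;> linarith [sq _ _ a, sq _ _ b,
          sq_nonneg (ch l.1.1 (P.S.perm l.1.1 m' κ.1) : ℝ),
          sq_nonneg (ch l.1.1 (P.S.perm l.1.1 m' l.1.2) : ℝ)]
  refine C.abs_DRK hr.1 ?_ ?_ <;> rw [e]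
  · exact k m hr.2.2
  · exact k (m + 1) (by rw [Par.fl_succK, Par.fl_succK, hr.2.2])

theorem gapK {l : P.LT} {κ : KK} {m : ℕ} (h : P.cls l κ = .C) (hr : ¬ P.res l κ m) :
    (P.des l κ m = .pre ∨ P.des l κ m = .post) ∧
    ∀ s ∈ Icc (C.tm.a m) (C.tm.b m 10 + C.tm.N),
      P.St.g1 / (8 * ((P.S.D : ℝ) + 1)) - 2 * |KY| / C.tm.T m ≤ (P.des l κ m).s1 * C.DR l κ s := by
  obtain ⟨h1, -, h3, -⟩ := Par.cls_CK h
  obtain ⟨g1, g2⟩ := Par.des_gapK (m := m) h3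
  have hn := P.lt_posK l
  have a := fun m => (Nat.le_add_right _ _).trans (P.lt_dgK l m)
  have b := fun m => (P.S.perm_dg_le m).mpr h3
  rcases lt_or_gt_of_ne (fun e => hr ⟨h1, h3, e⟩) with c | c <;> have c' := c <;>
    rw [← Par.fl_succK, ← Par.fl_succK l.1.1 m] at c'
  · refine ⟨Or.inr (g2 c), fun s hs => ?_⟩
    have e := C.st_eqK hs.1 hs.2
    have a1 := C.y_gapK hn (b m) (a m) P.St.g1_pos.le
      (le_sub_iff_add_le'.mpr (Par.nonresK _ (b m) (a m) c (C.tt_core hs)))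
    have a2 := C.y_gapK hn (b (m + 1)) (a (m + 1)) P.St.g1_pos.le
      (le_sub_iff_add_le'.mpr (Par.nonresK _ (b (m + 1)) (a (m + 1)) c' (C.tt_core hs)))
    rw [g2 c, C.DR_eqK l h1, Des.s1, dyK, dyK, e]
    rw [e] at a1 a2
    nlinarith [C.WK_mem s]
  · refine ⟨Or.inl (g1 c), fun s hs => ?_⟩
    have e := C.st_eqK hs.1 hs.2
    have a1 := C.y_gapK hn (a m) (b m) P.St.g1_pos.le
      (le_sub_iff_add_le'.mpr (Par.nonresK _ (a m) (b m) c (C.tt_core hs)))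
    have a2 := C.y_gapK hn (a (m + 1)) (b (m + 1)) P.St.g1_pos.le
      (le_sub_iff_add_le'.mpr (Par.nonresK _ (a (m + 1)) (b (m + 1)) c' (C.tt_core hs)))
    rw [g1 c, C.DR_eqK l h1, Des.s1, dyK, dyK, e]
    rw [e] at a1 a2
    nlinarith [C.WK_mem s]

end Ctx

theorem kok (P : Par) (Kc KY : ℝ) : Evt P Kc KY fun K C => KOK C K := by
  obtain ⟨Ka, hKa1, hKa⟩ := aBD_bdd
  set c := min 1 P.St.g1 * P.St.ϑ / (8 * ((P.S.D : ℝ) + 1)) with hc
  have c0 : 0 < c := by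
    have := lt_min one_pos P.St.g1_pos
    have := P.St.ϑ_pos
    positivity
  have g0 := P.St.g1_pos
  have i1 := integral_one_sub_stp_pos
  have i2 := integral_stp_pos
  have D0 : (0 : ℝ) ≤ P.S.D := Nat.cast_nonneg _
  obtain ⟨K₀, hK₀⟩ := Filter.eventually_atTop.mp (show ∀ᶠ K : ℝ in Filter.atTop,
      (P.St.N : ℝ) ≤ K ∧ 1 / (1 - (P.Γ ^ 2)⁻¹) ≤ K ∧
      (((2 * (P.B + 2 * P.S.D) + 1) ^ 2 * 2 : ℕ) : ℝ) ≤ K ∧
      (100 : ℝ) ^ (2 * (P.B + 2 * P.S.D)) ≤ K ∧ (100 : ℝ) ^ P.S.D ≤ K ∧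
      16 * ((P.S.D : ℝ) + 1) ^ 2 ≤ K ∧ (∑ j, |P.cD j|) * Ka * (P.S.D : ℝ) ^ 2 + 2 * |KY| ≤ K ∧
      2 / (c * ∫ τ in (0 : ℝ)..1, (1 - stp τ)) ≤ K ∧ 2 / (c * ∫ τ in (0 : ℝ)..1, stp τ) ≤ K ∧
      2 / (P.St.g1 / (8 * ((P.S.D : ℝ) + 1))) ≤ K by
    simp only [Filter.eventually_and, Filter.eventually_ge_atTop, and_self])
  refine ⟨K₀, fun K hK => ⟨2 * |KY| * K, fun C hC => ?_⟩⟩
  obtain ⟨k1, k2, k3, k4, k5, k6, k7, k8, k9, k10⟩ := hK₀ K hK
  have K1 : 2 * ((P.S.D : ℝ) + 1) ≤ K := by nlinarith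
  have K0 : 0 < K := by linarith
  have hY : ∀ m, 2 * |KY| / C.tm.T m ≤ 1 / K := fun m => by
    rw [div_le_div_iff₀ (C.tm.T_pos m) K0, one_mul]
    exact hC.trans (C.tm.σ0_le_T m)
  have hY' : ∀ m, 2 * |KY| ≤ C.tm.T m / K := fun m => by
    rw [le_div_iff₀ K0]; exact hC.trans (C.tm.σ0_le_T m)
  have hY2 : ∀ m, 2 * |KY| / C.tm.T m ≤ K / C.tm.T m := fun m =>
    div_le_div_of_nonneg_right (le_trans (le_add_of_nonneg_left (by positivity)) k7)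
      (C.tm.T_pos m).le
  have dk : ∀ (l : P.LT) (κ : KK), dg l.1.1 κ.1 ≤ P.S.D → (Par.dk κ : ℝ) + 1 ≤ K :=
    fun l κ h => by
      have : (dg l.1.1 κ.1 : ℝ) ≤ P.S.D := by exact_mod_cast h
      linarith [dk_leK (P.lt_posK l) κ]
  have two : ∀ {x : ℝ}, 0 < x → 2 / x ≤ K → 2 / K ≤ x := fun hx h => by
    rw [div_le_iff₀ hx] at h
    rw [div_le_iff₀ K0]; linarith
  have fin : ∀ {x : ℝ} m, 0 < x → 2 / x ≤ K → C.tm.T m / K ≤ x * C.tm.T m - 2 * |KY| :=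
    fun m hx h => by
      have := mul_le_mul_of_nonneg_right (two hx h) (C.tm.T_pos m).le
      rw [div_mul_eq_mul_div, mul_div_assoc] at this
      linarith [hY' m]
  have cs : Continuous stp := stp_smooth.continuous
  exact {
    hK := by linarith
    hN := C.hN ▸ k1
    hΓ := C.hΓ ▸ k2
    nb_card := fun κ => le_trans (by
      rw [Par.nbK, Finset.card_product]
      exact_mod_cast Nat.mul_le_mul (card_box_le _ _) (by simp)) k3
    nb_deg := fun κ κ' h => by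
      have := mem_box.mp (Finset.mem_product.mp h).1
      refine le_trans ?_ (mul_le_mul_of_nonneg_right k4 (by positivity))
      rw [← pow_add]
      exact pow_le_pow_right₀ (by norm_num) (by unfold Par.dk; omega)
    main_deg := fun l => le_trans (pow_le_pow_right₀ (by norm_num) (by
      have := P.lt_dg0K l
      unfold dg at this
      unfold Par.dk; dsimp only; omega)) k5
    D_int := C.D_intK
    kU := C.kUK k6 hY
    kD := C.kDK k6 hY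
    kZ := fun l κ h => ⟨(C.kZK l κ h).1, (C.kZK l κ h).2.1, dk l κ (C.kZK l κ h).2.2⟩
    kC_deg := fun l κ h => dk l κ (Par.cls_CK h).2.2.1
    kC_bd := fun l κ m h s _ => (C.bdK h s).trans K1
    kC_1 := fun l κ m h s hs => by
      have := mul_nonneg c0.le (sub_nonneg.mpr (stp_le_one ((s - C.tm.b m 0) / C.tm.T m)))
      linarith [C.gap1K h m hs, hY2 m]
    kC_1' := fun l κ m h => by
      have e : C.tm.b m 1 = C.tm.b m 0 + C.tm.T m := by unfold Times.b; ring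
      rw [e]
      exact (fin m (mul_pos c0 i1) k8).trans (Ctx.int_geK (g := fun τ => 1 - stp τ) (C.tm.T_pos m)
        (by fun_prop) (C.D_intK l κ _ _) fun s hs =>
          C.gap1K h m ⟨(C.tm.a_le_b m le_rfl).trans hs.1, e ▸ hs.2⟩)
    kC_2 := fun l κ m h s hs => by
      have := mul_nonneg c0.le (stp_nonneg ((s - C.tm.b m 9) / C.tm.T m))
      linarith [C.gap2K h m hs, hY2 m]
    kC_2' := fun l κ m h => by
      have e : C.tm.b m 10 = C.tm.b m 9 + C.tm.T m := by unfold Times.b; ring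
      rw [e]
      exact (fin m (mul_pos c0 i2) k9).trans (Ctx.int_geK (C.tm.T_pos m) cs (C.D_intK l κ _ _)
        fun s hs => C.gap2K h m ⟨hs.1, (e ▸ hs.2).trans (le_add_of_nonneg_right
          (Nat.cast_nonneg _))⟩)
    kC_res := fun l κ m h hr s hs => (C.resK (fun τ => (hKa τ).2.2.2.1) h hr hs).trans
      (div_le_div_of_nonneg_right k7 (C.tm.T_pos m).le)
    kC_gap := fun l κ m h hr => ⟨(C.gapK h hr).1, fun s hs => by
      have := two (by positivity) k10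
      have e : 2 / K = 1 / K + 1 / K := by ring
      linarith [(C.gapK h hr).2 s hs, hY m]⟩ }

end Vale.Agent.P225
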