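import Vale.Agent.P225.Ys

/-! Kernel hypotheses: combinatorics of the labels and gaps of the exponents. -/

namespace Vale.Agent.P225

open Set

namespace Par
variable (P : Par)

theorem lt_posK (l : P.LT) : 1 ≤ l.1.1 := P.S.LL_pos _ l.2

theorem lt_dgK (l : P.LT) (m : ℕ) : dg l.1.1 (P.S.perm l.1.1 m l.1.2) + 100 ≤ P.S.D :=
  le_trans (Nat.add_le_add_right (P.S.LL_dg _ (P.S.perm_LL (n := l.1.1) (i := l.1.2) l.2 m)) _)
    P.S.dp_D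

theorem lt_dg0K (l : P.LT) : dg l.1.1 l.1.2 + 100 ≤ P.S.D :=
  le_trans (Nat.add_le_add_right (P.S.LL_dg _ l.2) _) P.S.dp_D

variable {P}

theorem cls_CK {l : P.LT} {κ : KK} (h : P.cls l κ = .C) : κ.2 = true ∧ κ.1 ≠ l.1.2 ∧
    dg l.1.1 κ.1 ≤ P.S.D ∧ ¬ P.Tail l.1.1 l.1.2 κ.1 := by
  obtain ⟨i, b⟩ := κ
  unfold cls at h
  split_ifs at h with h1 h2 h3 h4
  refine ⟨by simpa using h2, fun e => h1 ?_, not_lt.mp h3, h4⟩
  exact Prod.ext e (by simpa using h2)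

theorem cls_UK {l : P.LT} {κ : KK} (h : P.cls l κ = .U) : κ.2 = true ∧ (P.S.D < dg l.1.1 κ.1 ∨
    (dg l.1.1 κ.1 ≤ P.S.D ∧ P.Tail l.1.1 l.1.2 κ.1 ∧ dg l.1.1 l.1.2 < dg l.1.1 κ.1)) := by
  unfold cls at h
  split_ifs at h with h1 h2 h3 h4 h5
  · exact ⟨by simpa using h2, Or.inl h3⟩
  · exact ⟨by simpa using h2, Or.inr ⟨not_lt.mp h3, h4, h5⟩⟩

theorem cls_DK {l : P.LT} {κ : KK} (h : P.cls l κ = .Dn) : κ.2 = false ∨ (κ.2 = true ∧
    dg l.1.1 κ.1 ≤ P.S.D ∧ P.Tail l.1.1 l.1.2 κ.1 ∧ dg l.1.1 κ.1 < dg l.1.1 l.1.2) := by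
  unfold cls at h
  split_ifs at h with h1 h2 h3 h4 h5 h6
  · exact Or.inl h2
  · exact Or.inr ⟨by simpa using h2, not_lt.mp h3, h4, h6⟩

theorem cls_ZK {l : P.LT} {κ : KK} (h : P.cls l κ = .Z) : κ = (l.1.2, true) ∨ (κ.2 = true ∧
    P.Tail l.1.1 l.1.2 κ.1 ∧ dg l.1.1 κ.1 = dg l.1.1 l.1.2) := by
  unfold cls at h
  split_ifs at h with h1 h2 h3 h4 h5 h6
  · exact Or.inl h1
  · exact Or.inr ⟨by simpa using h2, h4, by omega⟩

theorem tail_fixK {n : ℕ} {i j : ℕ × ℕ} (h : P.Tail n i j) (hi : dg n i ≤ P.S.D)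
    (hj : dg n j ≤ P.S.D) : (∀ m, P.S.perm n m i = i) ∧ (∀ m, P.S.perm n m j = j) ∧
      (ch n j = ch n i ∨ ch n j = -ch n i) := by
  refine ⟨P.S.perm_of_not_mem fun hc => ?_, P.S.perm_of_not_mem fun hc => ?_,
    h.elim Or.inr fun h => Or.inl h.1⟩
  · have := P.S.cl_MF n i hc
    exact h.elim (this j hj) fun h => h.2 this
  · have := P.S.cl_MF n j hc
    rcases h with h | h
    · exact this i hi (by omega)
    · exact h.2 (h.1 ▸ this)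

theorem fl_succK (n m : ℕ) (i : ℕ × ℕ) :
    P.fl (P.S.t0 (P.S.kd m)) n (m + 1) i = P.fl (P.S.t0 (P.S.kd m)) n m i := by
  rw [fl, fl, P.S.perm_succ]
  split_ifs with hn
  · rw [Equiv.swap_apply_def]
    split_ifs with h1 h2
    · rw [h1, P.S.lo_dg _ n hn, P.S.lo_ch _ n hn, P.S.hi_dg _ n hn, P.S.hi_ch _ n hn, P.S.reson]
    · rw [h2, P.S.lo_dg _ n hn, P.S.lo_ch _ n hn, P.S.hi_dg _ n hn, P.S.hi_ch _ n hn, P.S.reson]
    · rfl
  · rfl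

theorem nonresK (κ : Fin P.S.nK) {n : ℕ} {i j : ℕ × ℕ} (hi : dg n i ≤ P.S.D)
    (hj : dg n j ≤ P.S.D) (h : fm (P.S.t0 κ) (dg n i) (ch n i) < fm (P.S.t0 κ) (dg n j) (ch n j))
    {t : ℝ} (ht : t ∈ Icc (P.S.t0 κ - P.St.ϑ) (P.St.t2 κ)) :
    fm t (dg n i) (ch n i) + P.St.g1 ≤ fm t (dg n j) (ch n j) :=
  P.St.nonres κ _ _ _ _ hi hj (abs_ch_le n i) (abs_ch_le n j) h t ht

theorem t2_memK (κ : Fin P.S.nK) : P.St.t2 κ ∈ Icc (P.S.t0 κ - P.St.ϑ) (P.St.t2 κ) :=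
  ⟨by linarith [P.St.t2_ge κ, P.St.ϑ_pos], le_rfl⟩

open Classical in
/-- the sign of a pair of modes at the window anisotropy -/
noncomputable def sgK (κ : Fin P.S.nK) (n : ℕ) (i j : ℕ × ℕ) : ℝ :=
  if fm (P.St.t2 κ) (dg n i) (ch n i) < fm (P.St.t2 κ) (dg n j) (ch n j) then 1 else -1

theorem s1_eqK (l : P.LT) (κ : KK) (m : ℕ) : (P.des l κ m).s1 =
    sgK (P.S.kd m) l.1.1 (P.S.perm l.1.1 m l.1.2) (P.S.perm l.1.1 m κ.1) := by
  unfold des sgK fl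
  split_ifs <;> rfl

theorem s2_eqK (l : P.LT) (κ : KK) (m : ℕ) : (P.des l κ m).s2 =
    sgK (P.S.kd m) l.1.1 (P.S.perm l.1.1 (m + 1) l.1.2) (P.S.perm l.1.1 (m + 1) κ.1) := by
  unfold des sgK fl
  split_ifs <;> rfl

theorem sepK (κ : Fin P.S.nK) {n : ℕ} {i j : ℕ × ℕ} (h : Alw P.S.D n i j) {t : ℝ}
    (h0 : P.S.t0 κ ≤ t) (h1 : t ≤ P.St.t2 κ) :
    (sgK κ n i j = 1 ∧ min 1 P.St.g1 * (t - P.S.t0 κ) ≤
      fm t (dg n j) (ch n j) - fm t (dg n i) (ch n i)) ∨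
    (sgK κ n i j = -1 ∧ min 1 P.St.g1 * (t - P.S.t0 κ) ≤
      fm t (dg n i) (ch n i) - fm t (dg n j) (ch n j)) := by
  obtain ⟨-, hi, hj, a3, a4, -⟩ := h
  have g0 := P.St.g1_pos
  have ϑ0 := P.St.ϑ_pos
  have ht : t ∈ Icc (P.S.t0 κ - P.St.ϑ) (P.St.t2 κ) := ⟨by linarith, h1⟩
  have b1 : min 1 P.St.g1 * (t - P.S.t0 κ) ≤ P.St.g1 := by
    have := mul_le_mul (min_le_right 1 P.St.g1)
      (show t - P.S.t0 κ ≤ 1 by linarith [P.St.t2_le κ, P.S.θ_le]) (by linarith) g0.le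
    linarith
  have b2 : min 1 P.St.g1 * (t - P.S.t0 κ) ≤ t - P.S.t0 κ :=
    mul_le_of_le_one_left (by linarith) (min_le_left _ _)
  rcases lt_trichotomy (fm (P.S.t0 κ) (dg n i) (ch n i)) (fm (P.S.t0 κ) (dg n j) (ch n j))
    with a | a | a
  · refine Or.inl ⟨if_pos ?_, ?_⟩
    · linarith [nonresK κ hi hj a (t2_memK κ)]
    · linarith [nonresK κ hi hj a ht]
  · have hne : ch n j ^ 2 ≠ ch n i ^ 2 := fun e => by
      have e1 : (ch n j : ℝ) ^ 2 = (ch n i : ℝ) ^ 2 := by exact_mod_cast e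
      simp only [fm, e1] at a
      have e2 : ((dg n i : ℝ) + 1) ^ 2 = ((dg n j : ℝ) + 1) ^ 2 := by linarith
      have e3 : dg n i = dg n j := by
        exact_mod_cast add_right_cancel ((sq_eq_sq₀ (by positivity) (by positivity)).mp e2)
      rcases sq_eq_sq_iff_eq_or_eq_neg.mp e with c | c
      · exact a3 (mode_ext e3 c.symm)
      · exact a4 c
    have c1 := fm_sub t (P.S.t0 κ) (dg n i) (ch n i)
    have c2 := fm_sub t (P.S.t0 κ) (dg n j) (ch n j)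
    have c3 := fm_sub (P.St.t2 κ) (P.S.t0 κ) (dg n i) (ch n i)
    have c4 := fm_sub (P.St.t2 κ) (P.S.t0 κ) (dg n j) (ch n j)
    have c5 : 0 < P.St.t2 κ - P.S.t0 κ := by linarith [P.St.t2_ge κ]
    rcases lt_or_gt_of_ne hne with c | c
    · have c' : (ch n j : ℝ) ^ 2 + 1 ≤ (ch n i : ℝ) ^ 2 := by exact_mod_cast c
      refine Or.inr ⟨if_neg (not_lt.mpr ?_), ?_⟩ <;> nlinarith
    · have c' : (ch n i : ℝ) ^ 2 + 1 ≤ (ch n j : ℝ) ^ 2 := by exact_mod_cast c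
      refine Or.inl ⟨if_pos ?_, ?_⟩ <;> nlinarith
  · refine Or.inr ⟨if_neg (not_lt.mpr ?_), ?_⟩
    · linarith [nonresK κ hj hi a (t2_memK κ)]
    · linarith [nonresK κ hj hi a ht]

theorem des_gapK {l : P.LT} {κ : KK} {m : ℕ} (hd : dg l.1.1 κ.1 ≤ P.S.D) :
    (P.fl (P.S.t0 (P.S.kd m)) l.1.1 m l.1.2 < P.fl (P.S.t0 (P.S.kd m)) l.1.1 m κ.1 →
      P.des l κ m = .pre) ∧
    (P.fl (P.S.t0 (P.S.kd m)) l.1.1 m κ.1 < P.fl (P.S.t0 (P.S.kd m)) l.1.1 m l.1.2 →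
      P.des l κ m = .post) := by
  have a := fun m => (Nat.le_add_right _ _).trans (P.lt_dgK l m)
  have b := fun m => (P.S.perm_dg_le m).mpr hd
  have g0 := P.St.g1_pos
  constructor <;> intro h <;> have h' := h <;> rw [← fl_succK, ← fl_succK l.1.1 m] at h'
  · have h1 := nonresK _ (a m) (b m) h (t2_memK _)
    have h2 := nonresK _ (a (m + 1)) (b (m + 1)) h' (t2_memK _)
    rw [des, if_pos (by unfold fl; linarith), if_pos (by unfold fl; linarith)]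
  · have h1 := nonresK _ (b m) (a m) h (t2_memK _)
    have h2 := nonresK _ (b (m + 1)) (a (m + 1)) h' (t2_memK _)
    rw [des, if_neg (by unfold fl; linarith), if_neg (by unfold fl; linarith)]

end Par

namespace Ctx
variable {P : Par} {Kc KY : ℝ} (C : Ctx P Kc KY)

/-- the weight of the new labels -/
noncomputable def WK (s : ℝ) : ℝ :=
  if s < C.tm.b (C.tm.st s) 2 then 0 else if s < C.tm.b (C.tm.st s) 8 then 1 / 2 else 1

theorem WK_mem (s : ℝ) : 0 ≤ C.WK s ∧ C.WK s ≤ 1 := by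
  unfold WK; split_ifs <;> norm_num

theorem rp_eqK (n : ℕ) (κ : ℕ × ℕ) (s : ℝ) : C.rp n κ s =
    (1 - C.WK s) * C.y1 n (P.S.perm n (C.tm.st s) κ) s +
      C.WK s * C.y1 n (P.S.perm n (C.tm.st s + 1) κ) s := by
  unfold rp WK pm lo hi
  split_ifs with h1 h2 h3
  · ring
  · rw [P.S.perm_succ, if_pos h3.1]
    rcases h3.2 with h | h <;> rw [h]
    · rw [Equiv.swap_apply_left]; ring
    · rw [Equiv.swap_apply_right]; ring
  · rw [P.S.perm_succ]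
    split_ifs with h4
    · rw [Equiv.swap_apply_of_ne_of_ne (fun h => h3 ⟨h4, Or.inl h⟩) fun h => h3 ⟨h4, Or.inr h⟩]
      ring
    · ring
  · ring

theorem rp_geK {n : ℕ} {κ : ℕ × ℕ} {s x : ℝ} (h : ∀ m, x ≤ C.y1 n (P.S.perm n m κ) s) :
    x ≤ C.rp n κ s := by
  rw [rp_eqK]
  nlinarith [C.WK_mem s, h (C.tm.st s), h (C.tm.st s + 1)]

theorem rp_leK {n : ℕ} {κ : ℕ × ℕ} {s x : ℝ} (h : ∀ m, C.y1 n (P.S.perm n m κ) s ≤ x) :
    C.rp n κ s ≤ x := by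
  rw [rp_eqK]
  nlinarith [C.WK_mem s, h (C.tm.st s), h (C.tm.st s + 1)]

/-- difference of the exponents of the modes occupied at stage `m` -/
noncomputable def dyK (l : P.LT) (κ : KK) (m : ℕ) (s : ℝ) : ℝ :=
  C.y1 l.1.1 (P.S.perm l.1.1 m κ.1) s - C.y1 l.1.1 (P.S.perm l.1.1 m l.1.2) s

theorem DR_eqK (l : P.LT) {κ : KK} (h : κ.2 = true) (s : ℝ) : C.DR l κ s =
    (1 - C.WK s) * C.dyK l κ (C.tm.st s) s + C.WK s * C.dyK l κ (C.tm.st s + 1) s := by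
  obtain ⟨i, b⟩ := κ
  obtain rfl : b = true := h
  simp only [DR, rate, rp_eqK, dyK]; ring

theorem st_eqK {m : ℕ} {s : ℝ} (h1 : C.tm.a m ≤ s) (h2 : s ≤ C.tm.b m 10 + C.tm.N) :
    C.tm.st s = m := C.tm.st_eq h1 (by
  rw [C.tm.a_succ_eq]; linarith [C.tm.b_lt_b m (show (10 : ℝ) < 11 by norm_num)])

theorem dg_posK {n : ℕ} (hn : 1 ≤ n) (i : ℕ × ℕ) : 1 ≤ dg n i := by unfold dg; omega

theorem y1_nearK {n : ℕ} (hn : 1 ≤ n) (i : ℕ × ℕ) (s : ℝ) :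
    |C.y1 n i s - C.mu (dg n i) (ch n i) s| ≤ |KY| / C.tm.T (C.tm.st s) :=
  (C.yp_near _ _ (dg_posK hn i) (abs_ch_le n i) s).trans
    (div_le_div_of_nonneg_right (le_abs_self _) (C.tm.T_pos _).le)

theorem y_gapK {n : ℕ} (hn : 1 ≤ n) {i j : ℕ × ℕ} (hi : dg n i ≤ P.S.D) (hj : dg n j ≤ P.S.D)
    {s x : ℝ} (hx : 0 ≤ x)
    (h : x ≤ fm (C.tt s) (dg n j) (ch n j) - fm (C.tt s) (dg n i) (ch n i)) :
    x / (8 * ((P.S.D : ℝ) + 1)) - 2 * |KY| / C.tm.T (C.tm.st s) ≤ C.y1 n j s - C.y1 n i s := by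
  have a1 := C.mu_sq (dg_posK hn i) (abs_ch_le n i) s
  have a2 := C.mu_sq (dg_posK hn j) (abs_ch_le n j) s
  have a3 := (C.mu_ge (dg_posK hn i) (abs_ch_le n i) s).2
  have a4 := (C.mu_ge (dg_posK hn j) (abs_ch_le n j) s).2
  have a5 := C.mu_le (dg_posK hn i) (abs_ch_le n i) s
  have a6 := C.mu_le (dg_posK hn j) (abs_ch_le n j) s
  have a7 := abs_le.mp (C.y1_nearK hn i s)
  have a8 := abs_le.mp (C.y1_nearK hn j s)
  have a9 := (abs_le.mp (C.XX_near s)).1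
  have hθ := P.S.θ_le
  have hi' : (dg n i : ℝ) ≤ P.S.D := by exact_mod_cast hi
  have hj' : (dg n j : ℝ) ≤ P.S.D := by exact_mod_cast hj
  have h0 : (0 : ℝ) ≤ dg n i := Nat.cast_nonneg _
  have h0' : (0 : ℝ) ≤ dg n j := Nat.cast_nonneg _
  generalize C.mu (dg n i) (ch n i) s = u at *
  generalize C.mu (dg n j) (ch n j) s = v at *
  have b1 : 98 / 100 * x ≤ (v - u) * (v + u) := by
    have := mul_le_mul (show 98 / 100 ≤ XX (C.tt s) by linarith) h hx (by linarith)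
    linarith
  have b2 : 0 ≤ v - u := nonneg_of_mul_nonneg_left (b := v + u) (by linarith) (by linarith)
  have b3 : v + u ≤ 5 * ((P.S.D : ℝ) + 1) := by nlinarith
  have b4 : x / (8 * ((P.S.D : ℝ) + 1)) ≤ v - u := by
    rw [div_le_iff₀ (by positivity)]
    nlinarith [mul_le_mul_of_nonneg_left b3 b2]
  rw [mul_div_assoc]
  linarith

theorem y_closeK {n : ℕ} (hn : 1 ≤ n) (i j : ℕ × ℕ) {s x : ℝ}
    (h : |fm (C.tt s) (dg n j) (ch n j) - fm (C.tt s) (dg n i) (ch n i)| ≤ x) :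
    |C.y1 n j s - C.y1 n i s| ≤ x + 2 * |KY| / C.tm.T (C.tm.st s) := by
  have a1 := C.mu_sq (dg_posK hn i) (abs_ch_le n i) s
  have a2 := C.mu_sq (dg_posK hn j) (abs_ch_le n j) s
  have a3 := (C.mu_ge (dg_posK hn i) (abs_ch_le n i) s).2
  have a4 := (C.mu_ge (dg_posK hn j) (abs_ch_le n j) s).2
  have a7 := abs_le.mp (C.y1_nearK hn i s)
  have a8 := abs_le.mp (C.y1_nearK hn j s)
  have a9 := abs_le.mp (C.XX_near s)
  have hθ := P.S.θ_le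
  generalize C.mu (dg n i) (ch n i) s = u at *
  generalize C.mu (dg n j) (ch n j) s = v at *
  have b1 : |v - u| * (v + u) ≤ 2 * x := by
    rw [← abs_of_nonneg (show 0 ≤ v + u by linarith), ← abs_mul,
      show (v - u) * (v + u) = XX (C.tt s) * (fm (C.tt s) (dg n j) (ch n j) -
        fm (C.tt s) (dg n i) (ch n i)) by linarith, abs_mul]
    exact mul_le_mul (abs_le.mpr ⟨by linarith, by linarith⟩) h (abs_nonneg _) zero_le_two
  have b2 : |v - u| ≤ x := by nlinarith [abs_nonneg (v - u)]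
  rw [mul_div_assoc, abs_le] at *
  constructor <;> linarith [b2.1, b2.2]

theorem sgapK (κ : Fin P.S.nK) {n : ℕ} {i j : ℕ × ℕ} (h : Alw P.S.D n i j) {s : ℝ}
    (h0 : P.S.t0 κ ≤ C.tt s) (h1 : C.tt s ≤ P.St.t2 κ) :
    min 1 P.St.g1 * (C.tt s - P.S.t0 κ) / (8 * ((P.S.D : ℝ) + 1)) -
      2 * |KY| / C.tm.T (C.tm.st s) ≤ Par.sgK κ n i j * (C.y1 n j s - C.y1 n i s) := by
  have hx : 0 ≤ min 1 P.St.g1 * (C.tt s - P.S.t0 κ) :=
    mul_nonneg (le_min zero_le_one P.St.g1_pos.le) (sub_nonneg.mpr h0)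
  rcases Par.sepK κ h h0 h1 with ⟨e, a⟩ | ⟨e, a⟩ <;> rw [e]
  · linarith [C.y_gapK h.1 h.2.1 h.2.2.1 hx a]
  · linarith [C.y_gapK h.1 h.2.2.1 h.2.1 hx a]

end Ctx

end Vale.Agent.P225
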