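import Vale.Agent.P225.Geo

/-! The Laplacian of a separated term. -/

namespace Vale.Agent.P225

/-- the separated term `e^{-φ} w(log |x|) P(x/|x|)` -/
noncomputable def Geo.term {J : Type} [Fintype J] (Γ : Geo J) (w : ℝ → ℝ) (P : R) (x : E 4) : ℂ :=
  ((Real.exp (-Γ.φ (lg x)) * w (lg x) : ℝ) : ℂ) * evn P x

/-- its Laplacian -/
noncomputable def Geo.lterm {J : Type} [Fintype J] (Γ : Geo J) (w w2 : ℝ → ℝ) (P : R) (x : E 4) :
    ℂ :=
  ((Real.exp (-3 * Γ.φ (lg x)) : ℝ) : ℂ) *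
    (((w2 (lg x) - Γ.V (lg x) * w (lg x) : ℝ) : ℂ) * evn P x +
      ((w (lg x) : ℝ) : ℂ) * evn (Lap (Γ.u (lg x)) (Γ.wh (lg x)) P) x)

namespace LaplH

open Filter Topology

/-- a separated function -/
noncomputable def sep (f : ℝ → ℝ) (Q : R) (y : E 4) : ℂ := ((f (lg y) : ℝ) : ℂ) * evn Q y

theorem hasF_sep {f : ℝ → ℝ} {f' : ℝ} {x : E 4} (hx : x ≠ 0) (hf : HasDerivAt f f' (lg x)) (Q : R) :
    HasFDerivAt (sep f Q) (((f (lg x) : ℝ) : ℂ) • fderiv ℝ (evn Q) x +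
      evn Q x • Complex.ofRealCLM.comp (f' • fderiv ℝ lg x)) x :=
  (Complex.ofRealCLM.hasFDerivAt.comp x (hf.comp_hasFDerivAt x
    ((contDiffAt_lg hx).differentiableAt (by simp)).hasFDerivAt)).mul
    ((contDiffAt_evn Q hx).differentiableAt (by simp)).hasFDerivAt

theorem DD_sep {f : ℝ → ℝ} {f' : ℝ} {x : E 4} (hx : x ≠ 0) (hf : HasDerivAt f f' (lg x)) (Q : R)
    (a : Fin 4) : DD (ef a) (sep f Q) x = ((if a = 0 then f' else 0 : ℝ) : ℂ) * evn Q x +
      ((f (lg x) : ℝ) : ℂ) * DD (ef a) (evn Q) x := by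
  have h4 : fderiv ℝ lg x (ef a x) = if a = 0 then 1 else 0 := DD_lg hx a
  rw [DD, (hasF_sep hx hf Q).fderiv]
  simp only [add_apply, smul_apply, ContinuousLinearMap.comp_apply, h4, smul_eq_mul, DD,
    Complex.ofRealCLM_apply]
  split_ifs <;> simp [mul_comm, add_comm]

theorem DD_I {f : E 4 → ℂ} {x : E 4} (hf : DifferentiableAt ℝ f x) (F : E 4 → E 4) :
    DD F (fun y => Complex.I * f y) x = Complex.I * DD F f x := by
  rw [DD, fderiv_const_mul hf]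
  rfl

theorem DD_L {f : E 4 → ℂ} {x : E 4} (hf : DifferentiableAt ℝ f x) (L : ℂ →L[ℝ] ℝ)
    (F : E 4 → E 4) : DD F (fun y => L (f y)) x = L (DD F f x) := by
  rw [DD, HasFDerivAt.fderiv (f := fun y => L (f y)) (L.hasFDerivAt.comp x hf.hasFDerivAt)]
  rfl

variable {J : Type} [Fintype J] (Γ : Geo J)

theorem hasF_comb {f h : E 4 → ℂ} {x : E 4} (hx : x ≠ 0) (hf : DifferentiableAt ℝ f x)
    (hh : DifferentiableAt ℝ h x) (k : Fin 4) :
    DifferentiableAt ℝ (fun y => Real.exp (Γ.ψ k (lg y)) • (f y + Γ.Wf k y • h y)) x ∧ ∀ a,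
      DD (ef a) (fun y => Real.exp (Γ.ψ k (lg y)) • (f y + Γ.Wf k y • h y)) x =
        Real.exp (Γ.ψ k (lg x)) • ((if a = 0 then Γ.ψ' k (lg x) else 0) • (f x + Γ.Wf k x • h x) +
          (DD (ef a) f x + (DD (ef a) (Γ.Wf k) x • h x + Γ.Wf k x • DD (ef a) h x))) := by
  have h1 := ((contDiffAt_lg hx).differentiableAt (by simp)).hasFDerivAt
  have h2 := ((Γ.contDiffAt_Wf k hx).differentiableAt (by simp)).hasFDerivAt
  have h3 := (((Γ.hasDerivAt_ψ k (lg x)).comp_hasFDerivAt x h1).exp).smul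
    (hf.hasFDerivAt.add (h2.smul hh.hasFDerivAt))
  refine ⟨h3.differentiableAt, fun a => ?_⟩
  have h4 : fderiv ℝ lg x (ef a x) = if a = 0 then 1 else 0 := DD_lg hx a
  rw [DD, HasFDerivAt.fderiv (f := fun y => Real.exp (Γ.ψ k (lg y)) • (f y + Γ.Wf k y • h y)) h3]
  simp only [add_apply, smul_apply, ContinuousLinearMap.smulRight_apply, h4, DD,
    Function.comp, Pi.add_apply, Pi.smul_apply', smul_eq_mul]
  split_ifs <;> module

theorem DD_wh {x : E 4} (hx : x ≠ 0) {a : Fin 4} (ha : a ≠ 0) :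
    DD (ef a) (fun y => evn (Γ.wh (lg y)) y) x = DD (ef a) (evn (Γ.wh (lg x))) x := by
  have hd : ∀ l, HasDerivAt (Γ.amp l) (deriv (Γ.amp l) (lg x)) (lg x) := fun l =>
    ((Γ.amp_smooth l).differentiable (by simp) _).hasDerivAt
  have e1 : (fun y => evn (Γ.wh (lg y)) y) = fun y => ∑ l, sep (Γ.amp l) (Γ.sh l) y := by
    funext y
    simp only [Γ.evn_wh, sep, Complex.real_smul]
  have e2 : evn (Γ.wh (lg x)) = fun y => ∑ l, sep (fun _ => Γ.amp l (lg x)) (Γ.sh l) y := by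
    funext y
    simp only [Γ.evn_wh, sep, Complex.real_smul]
  rw [e1, e2, DD, DD, fderiv_fun_sum fun l _ => (hasF_sep hx (hd l) _).differentiableAt,
    fderiv_fun_sum fun l _ => (hasF_sep hx (hasDerivAt_const _ _) _).differentiableAt]
  simp only [sum_apply]
  refine Finset.sum_congr rfl fun l _ => ?_
  have h1 := DD_sep hx (hd l) (Γ.sh l) a
  have h2 := DD_sep hx (hasDerivAt_const (lg x) (Γ.amp l (lg x))) (Γ.sh l) a
  rw [if_neg ha] at h1 h2
  exact h1.trans h2.symm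

theorem DD_W1 {x : E 4} (hx : x ≠ 0) {a : Fin 4} (ha : a ≠ 0) :
    DD (ef a) Γ.W1 x = -(DD (ef a) (evn (Γ.wh (lg x))) x).im := by
  rw [← DD_wh Γ hx ha]
  exact DD_L ((Γ.contDiffAt_wh hx).differentiableAt (by simp)) (-Complex.imCLM) _

theorem DD_W2 {x : E 4} (hx : x ≠ 0) {a : Fin 4} (ha : a ≠ 0) :
    DD (ef a) Γ.W2 x = (DD (ef a) (evn (Γ.wh (lg x))) x).re := by
  rw [← DD_wh Γ hx ha]
  exact DD_L ((Γ.contDiffAt_wh hx).differentiableAt (by simp)) Complex.reCLM _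

theorem conj_evn (Q : R) (x : E 4) : (starRingEnd ℂ) (evn Q x) = evn (sg Q) x := (ev_sg _ Q).symm

theorem om_sum (x : E 4) (f : Fin 4 → ℝ) : ∑ i, ∑ k, om Γ.cs i i k x * f k =
    -(Real.exp (-Γ.φ (lg x)) * (3 * Γ.p (lg x) * f 0 +
      Real.exp (Γ.u (lg x)) * (DD (ef 3) Γ.W1 x * f 1 + DD (ef 3) Γ.W2 x * f 2))) := by
  simp [Fin.sum_univ_four, om, Geo.cs, Geo.cup]
  ring

/-- the first derivatives of a separated function -/
noncomputable def T1 (g g1 : ℝ → ℝ) (P : R) (a : Fin 4) : E 4 → ℂ :=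
  ![sep g1 P, sep g (Lm P - Lp P), fun y => Complex.I * sep g (Lm P + Lp P) y,
    fun y => Complex.I * sep g (Hd P) y] a

theorem DD_T {g g1 : ℝ → ℝ} (hg : ∀ s, HasDerivAt g (g1 s) s) (P : R) {y : E 4} (hy : y ≠ 0)
    (a : Fin 4) : DD (ef a) (sep g P) y = T1 g g1 P a y := by
  rw [DD_sep hy (hg _)]
  fin_cases a
  · simp [T1, DD_evn0 P hy, sep]
  · simp [T1, DD_evn1 P hy, sep]
  · simp [T1, DD_evn2 P hy, sep, mul_left_comm]
  · simp [T1, DD_evn3 P hy, sep, mul_left_comm]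

theorem diff_T1 {g g1 g2 : ℝ → ℝ} (hg : ∀ s, HasDerivAt g (g1 s) s)
    (hg1 : ∀ s, HasDerivAt g1 (g2 s) s) (P : R) {y : E 4} (hy : y ≠ 0) (a : Fin 4) :
    DifferentiableAt ℝ (T1 g g1 P a) y := by
  fin_cases a
  · exact (hasF_sep hy (hg1 _) _).differentiableAt
  · exact (hasF_sep hy (hg _) _).differentiableAt
  · exact (hasF_sep hy (hg _) _).differentiableAt.const_mul _
  · exact (hasF_sep hy (hg _) _).differentiableAt.const_mul _

theorem lap_sep {g g1 g2 : ℝ → ℝ} (hg : ∀ s, HasDerivAt g (g1 s) s)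
    (hg1 : ∀ s, HasDerivAt g1 (g2 s) s) (h3 : Continuous g2) (P : R) (L : ℂ →L[ℝ] ℝ) {x : E 4}
    (hx : x ≠ 0) : Γ.metric.laplacian (fun y => L (sep g P y)) x =
      L (Real.exp (-Γ.φ (lg x)) ^ 2 • ((g2 (lg x) + 2 * Γ.p (lg x) * g1 (lg x)) • evn P x +
        g (lg x) • evn (Lap (Γ.u (lg x)) (Γ.wh (lg x)) P) x)) := by
  have c2 : ContDiff ℝ 2 g := by
    have e1 : deriv g = g1 := funext fun s => (hg s).deriv
    have e2 : deriv g1 = g2 := funext fun s => (hg1 s).deriv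
    rw [show (2 : WithTop ℕ∞) = 1 + 1 from rfl, contDiff_succ_iff_deriv, e1, contDiff_one_iff_deriv,
      e2]
    exact ⟨fun s => (hg s).differentiableAt, by simp, fun s => (hg1 s).differentiableAt, h3⟩
  have hu : ContDiffAt ℝ 2 (fun y => L (sep g P y)) x :=
    L.contDiff.contDiffAt.comp x ((Complex.ofRealCLM.contDiff.contDiffAt.comp x
      (c2.contDiffAt.comp x ((contDiffAt_lg hx).of_le (by norm_cast)))).mul
      ((contDiffAt_evn P hx).of_le (by norm_cast)))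
  have d1 : ∀ k y, y ≠ 0 → DD (Γ.fr k) (fun y => L (sep g P y)) y =
      L (Real.exp (Γ.ψ k (lg y)) • (T1 g g1 P k y + Γ.Wf k y • T1 g g1 P 3 y)) := by
    intro k y hy
    rw [DD_L (hasF_sep hy (hg _) P).differentiableAt, Γ.DD_fr, DD_T hg P hy, DD_T hg P hy]
  have d2 : ∀ k, DD (Γ.fr k) (DD (Γ.fr k) fun y => L (sep g P y)) x = L (DD (Γ.fr k)
      (fun y => Real.exp (Γ.ψ k (lg y)) • (T1 g g1 P k y + Γ.Wf k y • T1 g g1 P 3 y)) x) := by
    intro k
    rw [← DD_L (hasF_comb Γ hx (diff_T1 hg hg1 P hx k) (diff_T1 hg hg1 P hx 3) k).1, DD, DD]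
    congr 1
    refine Filter.EventuallyEq.fderiv_eq ?_
    filter_upwards [isOpen_ne.mem_nhds hx] with y hy
    exact d1 k y hy
  rw [Γ.oframe.laplacian hx hu, Finset.sum_sub_distrib, om_sum]
  simp only [d2, d1 _ x hx]
  simp only [Γ.DD_fr, (hasF_comb Γ hx (diff_T1 hg hg1 P hx _) (diff_T1 hg hg1 P hx 3) _).2]
  rw [← map_sum, sub_neg_eq_add]
  simp only [← smul_eq_mul, ← map_smul, ← map_add]
  congr 1
  have z : ∀ a, DD (ef a) (fun _ : E 4 => (0 : ℝ)) x = 0 := fun a => by simp [DD]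
  have dI : ∀ Q F, DD F (fun y => Complex.I * sep g Q y) x = Complex.I * DD F (sep g Q) x :=
    fun Q F => DD_I (hasF_sep hx (hg _) _).differentiableAt F
  have e2 : (Real.exp (Γ.u (lg x)) : ℂ) ≠ 0 := by exact_mod_cast Real.exp_ne_zero _
  have x2 : Real.exp (2 * Γ.u (lg x)) = Real.exp (Γ.u (lg x)) ^ 2 := by
    rw [← Real.exp_nat_mul]; norm_num
  have x4 : Real.exp (-4 * Γ.u (lg x)) = (Real.exp (Γ.u (lg x)) ^ 4)⁻¹ := by
    rw [← Real.exp_nat_mul, ← Real.exp_neg]; norm_num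
  have y1 : Real.exp (-Γ.φ (lg x) - 2 * Γ.u (lg x)) =
      Real.exp (-Γ.φ (lg x)) * (Real.exp (Γ.u (lg x)) ^ 2)⁻¹ := by
    rw [Real.exp_sub, x2, div_eq_mul_inv]
  rw [Fin.sum_univ_four]
  simp only [T1, Geo.ψ, Geo.ψ', Geo.Wf, Matrix.cons_val, z, dI, DD_sep hx (hg _), DD_sep hx (hg1 _),
    DD_evn0 _ hx, DD_evn1 _ hx, DD_evn2 _ hx, DD_evn3 _ hx, DD_W1 Γ hx (a := 1) (by decide),
    DD_W1 Γ hx (a := 3) (by decide), DD_W2 Γ hx (a := 2) (by decide),
    DD_W2 Γ hx (a := 3) (by decide), Geo.W1, Geo.W2, Real.exp_add, y1, Lap, x2, x4,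
    Fin.reduceEq, if_true, if_false, Fin.isValue]
  simp only [sep]
  generalize Real.exp (-Γ.φ (lg x)) = A
  generalize Real.exp (Γ.u (lg x)) = e at e2
  generalize Γ.wh (lg x) = ω
  simp only [Complex.real_smul, smul_eq_mul, Complex.ofReal_neg, Complex.ofReal_mul,
    Complex.ofReal_add, Complex.re_eq_add_conj, Complex.im_eq_sub_conj, map_mul, conj_evn,
    Complex.conj_I, map_add, map_sub, sg_Lm, sg_Lp, sg_Hd]
  simp only [evn, Q1, Q2, map_add, map_sub, map_mul, map_smul, map_neg, Derivation.leibniz,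
    smul_eq_mul, Complex.real_smul]
  push_cast
  field_simp
  ring_nf
  simp only [Complex.I_pow_three]
  ring

end LaplH

theorem Geo.lap_term {J : Type} [Fintype J] (Γ : Geo J) {w w1 w2 : ℝ → ℝ}
    (h1 : ∀ s, HasDerivAt w (w1 s) s) (h2 : ∀ s, HasDerivAt w1 (w2 s) s) (h3 : Continuous w2)
    (P : R) (L : ℂ →L[ℝ] ℝ) {x : E 4} (hx : x ≠ 0) :
    Γ.metric.laplacian (fun y => L (Γ.term w P y)) x = L (Γ.lterm w w2 P x) := by
  have hp : ContDiff ℝ (⊤ : ℕ∞) Γ.p := (contDiff_infty_iff_deriv.1 Γ.φ_smooth).2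
  have hp' : ∀ s, HasDerivAt Γ.p (deriv Γ.p s) s := fun s =>
    (hp.differentiable (by simp) s).hasDerivAt
  have hA : ∀ s, HasDerivAt (fun s => Real.exp (-Γ.φ s)) (Real.exp (-Γ.φ s) * -Γ.p s) s :=
    fun s => (Γ.hasDerivAt_φ s).neg.exp
  have cw : Continuous w := continuous_iff_continuousAt.2 fun s => (h1 s).continuousAt
  have cw1 : Continuous w1 := continuous_iff_continuousAt.2 fun s => (h2 s).continuousAt
  have cp := hp.continuous
  have cp' : Continuous (deriv Γ.p) := (contDiff_infty_iff_deriv.1 hp).2.continuous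
  have cφ := Γ.φ_smooth.continuous
  have := LaplH.lap_sep Γ (g := fun s => Real.exp (-Γ.φ s) * w s)
    (g1 := fun s => Real.exp (-Γ.φ s) * (w1 s - Γ.p s * w s))
    (g2 := fun s => Real.exp (-Γ.φ s) *
      (w2 s - 2 * Γ.p s * w1 s - deriv Γ.p s * w s + Γ.p s ^ 2 * w s))
    (fun s => ((hA s).mul (h1 s)).congr_deriv (by ring))
    (fun s => ((hA s).mul ((h2 s).sub ((hp' s).mul (h1 s)))).congr_deriv (by
      simp only [Pi.sub_apply, Pi.mul_apply]; ring))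
    (by fun_prop) P L hx
  refine this.trans (congrArg L ?_)
  have x3 : Real.exp (-3 * Γ.φ (lg x)) = Real.exp (-Γ.φ (lg x)) ^ 3 := by
    rw [← Real.exp_nat_mul]; norm_num
  simp only [Geo.lterm, Geo.V, x3, Complex.real_smul]
  push_cast
  ring

end Vale.Agent.P225
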