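import Vale.Agent.P225.ODED

/-! From the fixed point to solutions of the mode system. -/

namespace Vale.Agent.P225

open Set Filter Topology

namespace Ctx

variable {P : Par} {Kc KY : ℝ} (C : Ctx P Kc KY)

/-- the growth factor of a lineage -/
noncomputable def EE (l : P.LT) (s : ℝ) : ℝ :=
  Real.exp (∫ r in (0 : ℝ)..s, C.rp l.1.1 l.1.2 r)

theorem continuous_EE (l : P.LT) : Continuous (C.EE l) :=
  Real.continuous_exp.comp (continuous_prim (C.rp_int (P.S.LL_pos _ l.2) _))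

theorem EE_deriv (l : P.LT) (s : ℝ) :
    HasDerivWithinAt (C.EE l) (C.EE l s * C.rp l.1.1 l.1.2 s) (Ici s) s :=
  (hasDerivWithinAt_prim (C.rp_int (P.S.LL_pos _ l.2) _) (C.rc_rp (P.S.LL_pos _ l.2) _ s)).exp

theorem not_src {s : ℝ} (h : s ≤ 0) : ¬ C.tm.Src s := by
  rintro ⟨m, h1 | h1 | h1⟩
  · linarith [h1.1, C.tm.a_pos m]
  · linarith [h1.1, C.tm.a_pos m, C.tm.a_le_b m (show (0 : ℝ) ≤ 2 by norm_num)]
  · linarith [h1.1, C.tm.a_pos m, C.tm.a_le_b m (show (0 : ℝ) ≤ 10 by norm_num)]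

theorem st_neg {s : ℝ} (h : s ≤ 0) : C.tm.st s = 0 := C.tm.st_of_lt (h.trans_lt (C.tm.a_pos 1))

theorem rp_neg {n : ℕ} (hn : 1 ≤ n) (i : ℕ × ℕ) {s : ℝ} (h : s ≤ 0) :
    C.rp n i s = dg n i + 1 := by
  have h1 : s < C.tm.b 0 2 :=
    (h.trans_lt (C.tm.a_pos 0)).trans_le (C.tm.a_le_b 0 (by norm_num))
  unfold rp pm
  rw [C.st_neg h, if_pos h1]
  exact C.yp_neg _ _ (by unfold dg; omega) (abs_ch_le n i) s h

theorem pv_neg (n : ℕ) {s : ℝ} (h : s ≤ 0) (σ : ℕ × ℕ → ℝ) (i : ℕ × ℕ) : C.pv n s σ i = σ i := by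
  have h1 : s ≤ C.tm.b 0 2 :=
    (h.trans (C.tm.a_pos 0).le).trans (C.tm.a_le_b 0 (by norm_num))
  rw [pv_eq, C.st_neg h, pF, Gm_of_le (C.τ_le h1), ap_one, ite_self]
  exact one_mul _

theorem pow_dk (n : ℕ) (i : ℕ × ℕ) (c : Bool) :
    (100 : ℝ) ^ dg n i = 100 ^ Par.dk (i, c) * 100 ^ n := by
  rw [← pow_add]
  rfl

theorem pv_bd {Kg : ℝ} (hKg : 1 ≤ Kg) (hG : ∀ τ a b, |Gm τ a b| ≤ Kg) (n : ℕ) (s : ℝ)
    {σ : ℕ × ℕ → ℝ} {M : ℝ} (hM : 0 ≤ M) (hσ : ∀ κ, |σ κ| ≤ M / 100 ^ Par.dk (κ, true))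
    (i : ℕ × ℕ) : |C.pv n s σ i| ≤ 2 * Kg * M * 100 ^ (P.S.D + n) / 100 ^ dg n i := by
  have h0 : ∀ κ, |σ κ| ≤ M := fun κ =>
    (hσ κ).trans (div_le_self hM (one_le_pow₀ (by norm_num)))
  have h1 : ∀ m j, |uv P n m σ j| = |σ ((P.S.perm n m).symm j)| := fun m j => by
    rw [uv, abs_mul, P.S.abs_sgn, one_mul]
  have h2 : ∀ m j, |uv P n m σ j| ≤ M := fun m j => (h1 m j).trans_le (h0 _)
  have hM2 : M ≤ 2 * Kg * M := by nlinarith
  by_cases hi : i ∈ P.S.cl n
  · have h3 : |C.pv n s σ i| ≤ 2 * Kg * M := by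
      have h4 : ∀ τ a b c d m j k, |Gm τ a b * uv P n m σ j + Gm τ c d * uv P n m σ k| ≤
          2 * Kg * M := by
        intro τ a b c d m j k
        refine (abs_add_le _ _).trans ?_
        rw [abs_mul, abs_mul]
        have h5 := mul_le_mul (hG τ a b) (h2 m j) (abs_nonneg _) (by linarith)
        have h6 := mul_le_mul (hG τ c d) (h2 m k) (abs_nonneg _) (by linarith)
        linarith
      rw [pv_eq, pF, ap]
      split_ifs
      · exact h4 _ _ _ _ _ _ _ _
      · exact h4 _ _ _ _ _ _ _ _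
      · rw [one_mul]; exact (h2 _ _).trans hM2
      · exact (h2 _ _).trans hM2
    refine h3.trans ?_
    rw [mul_div_assoc]
    refine le_mul_of_one_le_right (by positivity) ?_
    rw [one_le_div (by positivity)]
    exact pow_le_pow_right₀ (by norm_num) ((P.S.cl_dg hi).trans (Nat.le_add_right _ _))
  · have h3 : C.pv n s σ i = uv P n (C.tm.st s) σ i := by
      rw [pv_eq, pF]
      split_ifs with h
      · rw [ap, if_neg, if_neg, one_mul]
        · rintro rfl
          exact hi (P.S.hi_cl _ _ h)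
        · rintro rfl
          exact hi (P.S.lo_cl _ _ h)
      · rfl
    have h4 : (P.S.perm n (C.tm.st s)).symm i = i := by
      rw [Equiv.symm_apply_eq, P.S.perm_of_not_mem hi]
    rw [h3, h1, h4]
    refine (hσ i).trans ?_
    rw [pow_dk n i true, pow_add, ← mul_assoc, mul_div_mul_right _ _ (by positivity)]
    refine div_le_div_of_nonneg_right ?_ (by positivity)
    exact hM2.trans (le_mul_of_one_le_right (by positivity) (one_le_pow₀ (by norm_num)))

end Ctx

section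
variable {P : Par} {Kc KY K : ℝ} {C : Ctx P Kc KY} {h : KOK C K} (F : h.kd.FSol C.HH) (l : P.LT)

theorem fsol_cont (κ : KK) : Continuous (F.ρ l κ) := by
  have e : F.ρ l κ = _ := funext (F.eq l κ)
  rw [e]
  exact (Real.continuous_exp.comp (continuous_prim (h.D_int l κ))).mul
    (continuous_const.add (continuous_prim (F.sint.loc l κ)))

theorem fsol_deriv (κ : KK) (s : ℝ) : HasDerivWithinAt (F.ρ l κ)
    (C.DR l κ s * F.ρ l κ s + h.kd.src (C.HH F.η) F.ρ l κ s) (Ici s) s := by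
  have hn := P.S.LL_pos _ l.2
  have h1 : HasDerivWithinAt (h.kd.Pi l κ) (C.DR l κ s) (Ici s) s :=
    hasDerivWithinAt_prim (h.D_int l κ) ((C.rc_rate hn κ s).sub (C.rc_rp hn _ s))
  have h2 : ContinuousWithinAt (h.kd.src (C.HH F.η) F.ρ l κ) (Ici s) s :=
    tendsto_finsetSum _ fun κ' _ =>
      (C.rc_HH F.η l κ κ' s).mul (fsol_cont F l κ').continuousWithinAt
  have h3 : HasDerivWithinAt (h.kd.prim (h.kd.src (C.HH F.η) F.ρ) l κ)
      (Real.exp (-h.kd.Pi l κ s) * h.kd.src (C.HH F.η) F.ρ l κ s) (Ici s) s :=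
    hasDerivWithinAt_prim (F.sint.loc l κ)
      ((Real.continuous_exp.continuousAt.comp_continuousWithinAt
        h1.continuousWithinAt.neg).mul h2)
  have h4 := h1.exp.mul (h3.const_add (F.c l κ))
  refine (h4.congr (fun r _ => F.eq l κ r) (F.eq l κ s)).congr_deriv ?_
  rw [F.eq l κ s, ← mul_assoc (Real.exp _) (Real.exp _), ← Real.exp_add, add_neg_cancel,
    Real.exp_zero]
  ring

/-- the components with the growth factor restored -/
noncomputable def sigF (κ : KK) (s : ℝ) : ℝ := C.EE l s * F.ρ l κ s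

theorem sigF_cont (κ : KK) : Continuous (sigF F l κ) := (C.continuous_EE l).mul (fsol_cont F l κ)

theorem sigF_deriv (κ : KK) (s : ℝ) : HasDerivWithinAt (sigF F l κ)
    (C.rate l.1.1 κ s * sigF F l κ s + C.TT F.η l s (fun κ => sigF F l κ s) κ) (Ici s) s := by
  refine ((C.EE_deriv l s).mul (fsol_deriv F l κ s)).congr_deriv ?_
  have e : C.TT F.η l s (fun κ => sigF F l κ s) κ = C.EE l s * h.kd.src (C.HH F.η) F.ρ l κ s := by
    simp only [Ctx.TT, KData.src, sigF, Finset.mul_sum]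
    exact Finset.sum_congr rfl fun κ' _ => by ring
  rw [e, Ctx.DR, sigF]
  ring

theorem sigF_neg (κ : KK) {s : ℝ} (hs : s ≤ 0) :
    sigF F l κ s = F.c l κ * (C.EE l s * Real.exp (h.kd.Pi l κ s)) := by
  have e : h.kd.prim (h.kd.src (C.HH F.η) F.ρ) l κ s = 0 := by
    unfold KData.prim
    rw [intervalIntegral.integral_congr (g := fun _ => 0), intervalIntegral.integral_zero]
    intro r hr
    rw [uIcc_of_ge hs] at hr
    simp only [F.sint.supp l κ r (C.not_src hr.2), mul_zero]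
  rw [sigF, F.eq, e]
  ring

theorem sigF_neg_true (i : ℕ × ℕ) {s : ℝ} (hs : s ≤ 0) :
    sigF F l (i, true) s = F.c l (i, true) * Real.exp (((dg l.1.1 i : ℝ) + 1) * s) := by
  have hn := P.S.LL_pos _ l.2
  rw [sigF_neg F l _ hs, Ctx.EE, ← Real.exp_add, KData.Pi,
    ← intervalIntegral.integral_add (C.rp_int hn _ _ _) (h.kd.D_int _ _ _ _),
    intervalIntegral.integral_congr (g := fun _ => (dg l.1.1 i : ℝ) + 1)]
  · rw [intervalIntegral.integral_const, smul_eq_mul, sub_zero, mul_comm s]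
  · intro r hr
    rw [uIcc_of_ge hs] at hr
    have := C.rp_neg hn i hr.2
    simp only [KOK.kd, Ctx.DR, Ctx.rate]
    linarith

theorem sigF_neg_false (i : ℕ × ℕ) {s : ℝ} (hs : s ≤ 0) : sigF F l (i, false) s = 0 := by
  rw [sigF_neg F l _ hs, F.c_zero l (i, false) (by simp [KOK.kd]) (by simp [KOK.kd, Par.cls]),
    zero_mul]

theorem sigF_bd (κ : KK) (s : ℝ) : |sigF F l κ s| ≤ C.EE l s * (2 * K) / 100 ^ Par.dk κ := by
  have h1 : 0 < C.EE l s := Real.exp_pos _
  rw [sigF, abs_mul, abs_of_pos h1, mul_div_assoc]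
  exact mul_le_mul_of_nonneg_left (F.bd l κ s) h1.le

theorem pq_bd : ∃ A : ℝ, 0 ≤ A ∧ ∀ i s,
    |C.pv l.1.1 s (fun κ => sigF F l (κ, true) s) i| ≤ A * C.EE l s / 100 ^ dg l.1.1 i ∧
    |sigF F l (i, false) s| ≤ A * C.EE l s / 100 ^ dg l.1.1 i := by
  obtain ⟨Kg, hKg, hG⟩ := Gm_bdd
  have hK := h.hK
  refine ⟨2 * Kg * (2 * K) * 100 ^ (P.S.D + l.1.1), by positivity, fun i s => ⟨?_, ?_⟩⟩
  · have h1 : 0 < C.EE l s := Real.exp_pos _
    refine (C.pv_bd hKg (fun τ a b => (hG τ a b).1) l.1.1 s (M := C.EE l s * (2 * K))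
      (by positivity) (fun κ => sigF_bd F l (κ, true) s) i).trans_eq ?_
    ring
  · have h1 : 0 < C.EE l s := Real.exp_pos _
    refine (sigF_bd F l (i, false) s).trans ?_
    rw [Ctx.pow_dk l.1.1 i false, pow_add, ← mul_assoc (2 * Kg * (2 * K)),
      mul_right_comm _ _ (C.EE l s), mul_div_mul_right _ _ (by positivity)]
    refine div_le_div_of_nonneg_right ?_ (by positivity)
    have h2 : (1 : ℝ) ≤ 2 * Kg * 100 ^ P.S.D :=
      one_le_mul_of_one_le_of_one_le (by linarith) (one_le_pow₀ (by norm_num))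
    have h3 := mul_le_mul_of_nonneg_left h2 (show 0 ≤ C.EE l s * (2 * K) by positivity)
    linarith

end

theorem sol_of_fsol {P : Par} {Kc KY K : ℝ} {C : Ctx P Kc KY} (h : KOK C K)
    (F : h.kd.FSol C.HH) (hb : h.kd.HB (C.HH F.η) 1) (l : P.LT)
    (hg : ∃ A : ℝ, ∀ s, 0 ≤ s →
      ∫ r in (0 : ℝ)..s, C.rp l.1.1 l.1.2 r ≤ A + ((P.S.k : ℝ) + 1) * C.ph s) :
    ∃ w : Sol (C.geo F.η) P.S.D l.1.1 P.S.k P.B, ∀ i, w.c i = F.c l (i, true) := by
  have hn := P.S.LL_pos _ l.2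
  have hbd : ∀ s κ κ', κ' ∉ P.nbK κ → C.HH F.η l s κ κ' = 0 := hb.band l
  obtain ⟨A, hA, hpq⟩ := pq_bd F l
  set p : ℕ × ℕ → ℝ → ℝ := fun i s => C.pv l.1.1 s (fun κ => sigF F l (κ, true) s) i with hp
  set q : ℕ × ℕ → ℝ → ℝ := fun i => sigF F l (i, false) with hq
  have pc : ∀ i, Continuous (p i) := C.continuous_pv l.1.1 fun κ => sigF_cont F l (κ, true)
  have qc : ∀ i, Continuous (q i) := fun i => sigF_cont F l (i, false)
  have pd : ∀ i s, HasDerivWithinAt (p i) (C.y1 l.1.1 i s * p i s +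
      ∑ j ∈ box P.B i, C.Ym F.η l.1.1 s i j * (p j s + q j s)) (Ici s) s := fun i s =>
    C.pv_deriv (hbd s) (fun κ => sigF_deriv F l κ s) i
  have qd : ∀ i s, HasDerivWithinAt (q i) (-C.y2 l.1.1 i s * q i s +
      -∑ j ∈ box P.B i, C.Ym F.η l.1.1 s i j * (p j s + q j s)) (Ici s) s := fun i s => by
    have h1 := sigF_deriv F l (i, false) s
    rw [C.TT_false (hbd s)] at h1
    exact h1
  have hd : ∀ i, 1 ≤ dg l.1.1 i := fun i => by unfold dg; omega
  have w1c : ∀ i, Continuous fun s => C.y1 l.1.1 i s * p i s - C.y2 l.1.1 i s * q i s := fun i =>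
    ((C.continuous_y1 hn i).mul (pc i)).sub ((C.continuous_y2 hn i).mul (qc i))
  have wb : ∀ i s, |p i s + q i s| ≤ 2 * A * C.EE l s / 100 ^ dg l.1.1 i := fun i s => by
    refine (abs_add_le _ _).trans ((add_le_add (hpq i s).1 (hpq i s).2).trans_eq ?_)
    ring
  refine ⟨⟨fun i s => p i s + q i s, fun i s => C.y1 l.1.1 i s * p i s - C.y2 l.1.1 i s * q i s,
    fun i => F.c l (i, true), fun i => ?_, fun i => ?_, fun i s hs => ?_, fun r => ?_, ?_⟩,
    fun _ => rfl⟩
  · exact hasDerivAt_of_right ((pc i).add (qc i)) (w1c i) fun s =>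
      ((pd i s).add (qd i s)).congr_deriv (by ring)
  · refine hasDerivAt_of_right (w1c i) ?_ fun s => ?_
    · have h1 := (C.geo F.η).u_smooth.continuous
      refine (Continuous.mul (Continuous.add ?_ ?_) ((pc i).add (qc i))).sub
        (continuous_finsetSum _ fun j _ =>
          ((C.geo F.η).continuous_Qmat _ _ i j).mul ((pc j).add (qc j)))
      · unfold lam
        exact ((Real.continuous_exp.comp (continuous_const.mul h1)).mul continuous_const).add
          ((Real.continuous_exp.comp (continuous_const.mul h1)).mul continuous_const)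
      · rw [Base.geo_V]
        exact C.Vf_smooth.continuous
    · have h1 := (C.yp_der _ _ (hd i) (abs_ch_le l.1.1 i) s).hasDerivWithinAt (s := Ici s)
      have h2 := (C.ym_der _ _ (hd i) (abs_ch_le l.1.1 i) s).hasDerivWithinAt (s := Ici s)
      refine ((h1.mul (pd i s)).sub (h2.mul (qd i s))).congr_deriv ?_
      have e : ∑ j ∈ box P.B i, (C.geo F.η).Qmat P.S.D l.1.1 s i j * (p j s + q j s) =
          -((C.y1 l.1.1 i s + C.y2 l.1.1 i s) *
            ∑ j ∈ box P.B i, C.Ym F.η l.1.1 s i j * (p j s + q j s)) := by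
        rw [Finset.mul_sum, ← Finset.sum_neg_distrib]
        refine Finset.sum_congr rfl fun j _ => ?_
        have := (C.y_pos hn i s).ne'
        rw [Ctx.Ym]
        field_simp
      rw [e, Base.geo_V]
      simp only [Ctx.y1, Ctx.y2, Base.geo]
      ring
  · simp only [hp, hq]
    rw [C.pv_neg _ hs, sigF_neg_true F l i hs, sigF_neg_false F l i hs, add_zero]
  · obtain ⟨M, hM⟩ := (isCompact_Icc (a := -r) (b := r)).bddAbove_image
      (C.continuous_EE l).continuousOn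
    refine ⟨4 * A * M, fun i s hs => ?_⟩
    have h1 : C.EE l s ≤ M := hM ⟨s, abs_le.mp hs, rfl⟩
    have h2 : 0 < C.EE l s := Real.exp_pos _
    have h3 : A * C.EE l s ≤ A * M := mul_le_mul_of_nonneg_left h1 hA
    have h4 : 0 ≤ A * C.EE l s := by positivity
    constructor
    · exact (wb i s).trans (div_le_div_of_nonneg_right (by linarith) (by positivity))
    · have h5 := C.y1_bd hn i s
      have h6 := C.y2_bd hn i s
      have h7 : (0 : ℝ) ≤ dg l.1.1 i := Nat.cast_nonneg _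
      have h8 : A * C.EE l s / 100 ^ dg l.1.1 i ≤ A * M / 100 ^ dg l.1.1 i :=
        div_le_div_of_nonneg_right h3 (by positivity)
      have h9 := mul_le_mul h5.2 ((hpq i s).1.trans h8) (abs_nonneg _) (by positivity)
      have h10 := mul_le_mul h6.2 ((hpq i s).2.trans h8) (abs_nonneg _) (by positivity)
      refine (abs_sub _ _).trans ?_
      rw [abs_mul, abs_mul, abs_of_nonneg (a := C.y1 l.1.1 i s) (by linarith [h5.1]),
        abs_of_nonneg (a := C.y2 l.1.1 i s) (by linarith [h6.1])]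
      refine (add_le_add h9 h10).trans_eq ?_
      ring
  · obtain ⟨A0, hA0⟩ := hg
    refine ⟨2 * A * Real.exp A0, fun i s hs => (wb i s).trans ?_⟩
    refine div_le_div_of_nonneg_right ?_ (by positivity)
    rw [mul_assoc (2 * A), ← Real.exp_add]
    exact mul_le_mul_of_nonneg_left (Real.exp_le_exp.2 (hA0 s hs)) (by positivity)

end Vale.Agent.P225
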