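import Vale.Agent.P225.SeriesA

/-! Linear independence of the harmonic functions. -/

namespace Vale.Agent.P225

open MeasureTheory

/-- the inverse of `toC` -/
noncomputable def serOf (z : ℂ × ℂ) : E 4 := !₂[z.1.re, z.1.im, z.2.re, z.2.im]

lemma toC_serOf (z : ℂ × ℂ) : toC (serOf z) = z := rfl

lemma norm_serOf {z : ℂ × ℂ} (hz : z ∈ Sph) : ‖serOf z‖ = 1 := by
  have h : Complex.normSq z.1 + Complex.normSq z.2 = 1 := hz
  rw [EuclideanSpace.norm_eq, Real.sqrt_eq_one]
  simp only [Complex.normSq_apply] at h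
  simp [serOf, Fin.sum_univ_four]
  linarith

variable {J : Type} [Fintype J] {Γ : Geo J} {D n k B : ℕ} {C : ℝ}

lemma Sol.pairing (w : Sol Γ D n k B) (hB1 : ∀ l, Banded D (Q1 (Γ.sh l)) B C)
    (hB2 : ∀ l l', Banded D (Q2 (Γ.sh l) (Γ.sh l')) B C) (P : R) :
    Integrable (fun z => w.fn (serOf z) * ev z P) nu ∧
      HasSum (fun i => (w.c i * II (Vh D n i * P) : ℂ)) (∫ z, w.fn (serOf z) * ev z P ∂nu) := by
  obtain ⟨K, hK⟩ := w.term_bd hB1 hB2 1
  obtain ⟨M, hM⟩ := isCompact_Sph.exists_bound_of_continuousOn (continuous_ev P).continuousOn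
  have e : ∀ i, ∀ z ∈ Sph, Γ.term (w.w i) (Vh D n i) (serOf z) * ev z P =
      w.c i * ev z (Vh D n i * P) := fun i z hz => by
    rw [w.term_ball i (norm_serOf hz).le, toC_serOf, map_mul, mul_assoc]
  have hm : ∀ i, AEStronglyMeasurable (fun z => (w.c i : ℂ) * ev z (Vh D n i * P)) nu := fun i =>
    ((integrable_ev _).const_mul _).1
  have hb : ∀ i, ∀ z ∈ Sph, ‖(w.c i : ℂ) * ev z (Vh D n i * P)‖ ≤ K * maj n i * M :=
    fun i z hz => by
      have := hK i _ (norm_serOf hz).le
      rw [← e i z hz, norm_mul]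
      exact mul_le_mul this.norm_le (hM z hz) (norm_nonneg _) this.nonneg
  have hs := ((summable_maj n).mul_left K).mul_right M
  have hl : ∀ z ∈ Sph, HasSum (fun i => (w.c i : ℂ) * ev z (Vh D n i * P))
      (w.fn (serOf z) * ev z P) := fun z hz => by
    simpa only [e _ z hz] using (w.hasSum_fn hB1 hB2 (serOf z)).mul_right (ev z P)
  constructor
  · refine Integrable.of_bound ((AEStronglyMeasurable.tsum hm).congr
      (nu_ae.mono fun z hz => (hl z hz).tsum_eq)) (∑' i, K * maj n i * M) (nu_ae.mono fun z hz => ?_)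
    exact (hl z hz).norm_le_of_bounded hs.hasSum fun i => hb i z hz
  · have := hasSum_integral_of_dominated_convergence (fun i _ => K * maj n i * M) hm
      (fun i => nu_ae.mono (hb i)) (ae_of_all _ fun _ => hs) (integrable_const _) (nu_ae.mono hl)
    simpa only [integral_const_mul, integral_ev] using this

theorem series {J : Type} [Fintype J] (Γ : Geo J) (D k B : ℕ) (C : ℝ)
    (hB1 : ∀ l, Banded D (Q1 (Γ.sh l)) B C) (hB2 : ∀ l l', Banded D (Q2 (Γ.sh l) (Γ.sh l')) B C)
    (hp : ∀ s, 1 / 2 ≤ Γ.p s ∧ Γ.p s ≤ 1)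
    (LL : Finset (ℕ × (ℕ × ℕ))) (hL : ∀ l ∈ LL, 1 ≤ l.1)
    (sol : ∀ l : LL, Sol Γ D l.1.1 k B)
    (h1 : ∀ l : LL, (sol l).c l.1.2 = 1)
    (h0 : ∀ l : LL, ∀ i, (l.1.1, i) ∈ LL → i ≠ l.1.2 → dg l.1.1 i ≤ dg l.1.1 l.1.2 →
      (sol l).c i = 0) :
    ∃ u : Fin (2 * LL.card) → E 4 → ℝ, LinearIndependent ℝ u ∧ ∀ i, Γ.metric.PolyHarm k (u i) := by
  classical
  let Lb : Bool → ℂ →L[ℝ] ℝ := fun b => if b then Complex.reCLM else Complex.imCLM
  let e : Fin (2 * LL.card) ≃ Bool × LL := (Fintype.equivFinOfCardEq (by simp)).symm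
  refine ⟨(fun p : Bool × LL => fun x => Lb p.1 ((sol p.2).fn x)) ∘ e,
    LinearIndependent.comp ?_ _ e.injective,
    fun i => (sol _).polyHarm (hL _ (e i).2.2) hB1 hB2 hp _⟩
  rw [Fintype.linearIndependent_iff]
  intro g hg
  let a : LL → ℂ := fun l => ⟨g (true, l), -g (false, l)⟩
  have hre : ∀ x, ∑ l, a l * (sol l).fn x = -(starRingEnd ℂ) (∑ l, a l * (sol l).fn x) := by
    intro x
    have := congrFun hg x
    simp only [Finset.sum_apply, Pi.smul_apply, Fintype.sum_prod_type, Fintype.sum_bool, Lb,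
      ← Finset.sum_add_distrib] at this
    have h : (∑ l, a l * (sol l).fn x).re = 0 := by simpa [a] using this
    apply Complex.ext <;> simp only [Complex.neg_re, Complex.neg_im, Complex.conj_re,
      Complex.conj_im, h, neg_zero, neg_neg]
  have key : ∀ l0 : LL, ∑ l, a l * (if l.1.1 = l0.1.1 then ((sol l).c l0.1.2 : ℂ) else 0) = 0 := by
    intro l0
    set P := Vh D l0.1.1 l0.1.2
    have i0 : ∀ Q, ∫ z, (∑ l, a l * (sol l).fn (serOf z)) * ev z Q ∂nu =
        ∑ l, a l * ∫ z, (sol l).fn (serOf z) * ev z Q ∂nu := fun Q => by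
      simp only [Finset.sum_mul, mul_assoc]
      rw [integral_finsetSum _ fun l _ => (((sol l).pairing hB1 hB2 Q).1.const_mul _)]
      simp only [integral_const_mul]
    have i1 : ∫ z, (∑ l, a l * (sol l).fn (serOf z)) * ev z P ∂nu = 0 := by
      rw [i0]
      refine Finset.sum_eq_zero fun l _ => mul_eq_zero_of_right _ ?_
      have := ((sol l).pairing hB1 hB2 P).2
      simp only [P, II_Vh_mul D (hL _ l.2), Complex.ofReal_zero, mul_zero] at this
      exact this.unique hasSum_zero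
    have i2 : ∫ z, (∑ l, a l * (sol l).fn (serOf z)) * ev z (sg P) ∂nu = 0 := by
      rw [← neg_eq_zero, ← integral_neg, ← map_zero (starRingEnd ℂ), ← i1, ← integral_conj]
      refine integral_congr_ae (ae_of_all _ fun z => ?_)
      simp only
      rw [hre, ev_sg, map_mul, neg_mul, neg_neg, ← hre]
    rw [i0] at i2
    have hP : (II (P * sg P) : ℂ) ≠ 0 := by exact_mod_cast (II_Vh_pos D _ _).ne'
    refine mul_right_cancel₀ hP ?_
    rw [zero_mul, Finset.sum_mul]
    refine (Finset.sum_congr rfl fun l _ => ?_).trans i2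
    rw [mul_assoc]
    congr 1
    refine HasSum.unique ?_ ((sol l).pairing hB1 hB2 (sg P)).2
    split_ifs with h
    · have := hasSum_single (f := fun i => ((sol l).c i * II (Vh D l.1.1 i * sg P) : ℂ)) l0.1.2
        fun i hi => by rw [II_Vh_orth D fun h => hi (congrArg Prod.snd h)]; simp
      rwa [show Vh D l.1.1 l0.1.2 = P by rw [h]] at this
    · have : ∀ i, II (Vh D l.1.1 i * sg P) = 0 := fun i =>
        II_Vh_orth D fun h' => h (Prod.mk.inj h').1
      simp only [this, Complex.ofReal_zero, mul_zero, zero_mul, hasSum_zero]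
  have ha : ∀ l, a l = 0 := by
    by_contra hne
    push Not at hne
    obtain ⟨l0, hl0, hmin⟩ := (Finset.univ.filter fun l => a l ≠ 0).exists_min_image
      (fun l => dg l.1.1 l.1.2) (by obtain ⟨l, hl⟩ := hne; exact ⟨l, by simpa using hl⟩)
    have := key l0
    rw [Finset.sum_eq_single l0 (fun l _ hl => ?_) (by simp), if_pos rfl, h1] at this
    · simp_all
    · split_ifs with h
      · by_cases hal : a l = 0
        · simp [hal]
        · rw [h0 l l0.1.2 (by rw [h]; exact l0.2)
            (fun h' => hl (Subtype.ext (Prod.ext h h'.symm)))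
            (by have := hmin l (by simpa using hal); rwa [← h] at this)]
          simp
      · simp
  rintro ⟨_ | _, l⟩
  · simpa [a] using congrArg Complex.im (ha l)
  · simpa [a] using congrArg Complex.re (ha l)

end Vale.Agent.P225
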