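import Vale.Agent.P225.StaticDefs
import Vale.Agent.P225.Ctrl
import Vale.Agent.P225.Hex

namespace Vale.Agent.P225

open Finset

theorem dual_surjS {M ι : Type} [AddCommGroup M] [Module ℝ M] (W : Submodule ℝ M) (s : Finset ι)
    (f : ι → M →ₗ[ℝ] ℝ)
    (h : ∀ c : ι → ℝ, (∀ v ∈ W, ∑ i ∈ s, c i * f i v = 0) → ∀ i ∈ s, c i = 0) (y : ι → ℝ) :
    ∃ v ∈ W, ∀ i ∈ s, f i v = y i := by
  classical
  set Φ : M →ₗ[ℝ] (s → ℝ) := LinearMap.pi fun i : s => f i with hΦ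
  have top : W.map Φ = ⊤ := by
    by_contra hne
    obtain ⟨φ, φ0, hφ⟩ := Submodule.exists_le_ker_of_lt_top _ (lt_top_iff_ne_top.mpr hne)
    set c : ι → ℝ := fun i => if hi : i ∈ s then φ (fun j => if ⟨i, hi⟩ = j then 1 else 0) else 0
      with hc
    have := h c fun v hv => by
      have h1 : φ (Φ v) = 0 := hφ (Submodule.mem_map_of_mem hv)
      rw [LinearMap.pi_apply_eq_sum_univ] at h1
      rw [← sum_coe_sort s, ← h1]
      refine sum_congr rfl fun i _ => ?_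
      simp [hc, hΦ, mul_comm]
    refine φ0 (LinearMap.ext fun x => ?_)
    rw [LinearMap.pi_apply_eq_sum_univ]
    refine sum_eq_zero fun i _ => ?_
    have h2 := this i i.2
    simp only [hc, i.2, dif_pos, Subtype.coe_eta] at h2
    rw [h2, smul_zero]
  obtain ⟨v, hv, e⟩ := (top ▸ Submodule.mem_top : (fun i : s => y i) ∈ W.map Φ)
  exact ⟨v, hv, fun i hi => congrFun e ⟨i, hi⟩⟩

open Classical in
theorem vanderS {ι : Type} (s : Finset ι) (x b : ι → ℝ)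
    (h : ∀ a < s.card, ∑ p ∈ s, b p * x p ^ a = 0) {p0 : ι} (h0 : p0 ∈ s) :
    ∑ p ∈ s with x p = x p0, b p = 0 := by
  set Z := (s.image x).erase (x p0) with hZ
  set q : Polynomial ℝ := ∏ z ∈ Z, (Polynomial.X - Polynomial.C z) with hq
  have hd : q.natDegree < s.card := by
    rw [hq, Polynomial.natDegree_finsetProd_X_sub_C_eq_card,
      card_erase_of_mem (mem_image_of_mem x h0)]
    have := card_image_le (s := s) (f := x)
    have := card_pos.mpr ⟨p0, h0⟩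
    omega
  have e : ∑ p ∈ s, b p * q.eval (x p) = 0 := by
    simp only [Polynomial.eval_eq_sum_range' hd, mul_sum]
    rw [sum_comm]
    refine sum_eq_zero fun a ha => ?_
    rw [← mul_zero (q.coeff a), ← h a (mem_range.mp ha), mul_sum]
    exact sum_congr rfl fun _ _ => by ring
  have e0 : q.eval (x p0) ≠ 0 := by
    rw [hq, Polynomial.eval_prod]
    exact prod_ne_zero_iff.mpr fun z hz => by simpa using sub_ne_zero.mpr (ne_of_mem_erase hz).symm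
  refine (mul_eq_zero.mp ?_).resolve_right e0
  rw [← e, sum_mul, sum_filter]
  refine sum_congr rfl fun p hp => ?_
  split_ifs with h1
  · rw [h1]
  · rw [hq, Polynomial.eval_prod, prod_eq_zero (i := x p)
      (mem_erase.mpr ⟨h1, mem_image_of_mem x hp⟩) (by simp), mul_zero]

theorem sqrt_relS {l1 l2 l3 l4 v : ℝ} (h1 : 0 ≤ l1) (h2 : 0 ≤ l2) (h3 : 0 ≤ l3) (h4 : 0 ≤ l4)
    (hv : 0 ≤ v) (h : √(l1 + v) - √(l2 + v) = √(l3 + v) - √(l4 + v)) :
    (l2 + l3 - l1 - l4 = 0 → l1 * l4 = l2 * l3) ∧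
    (l2 + l3 - l1 - l4) ^ 2 * ((l1 + v) * (l4 + v)) =
      ((l1 + v) * (l4 + v) - (l2 + v) * (l3 + v) + ((l2 + l3 - l1 - l4) / 2) ^ 2) ^ 2 := by
  have a1 := Real.sq_sqrt (add_nonneg h1 hv)
  have a2 := Real.sq_sqrt (add_nonneg h2 hv)
  have a3 := Real.sq_sqrt (add_nonneg h3 hv)
  have a4 := Real.sq_sqrt (add_nonneg h4 hv)
  generalize √(l1 + v) = a at *
  generalize √(l2 + v) = b at *
  generalize √(l3 + v) = c at *
  generalize √(l4 + v) = d at *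
  obtain rfl : l1 = a ^ 2 - v := by linarith
  obtain rfl : l2 = b ^ 2 - v := by linarith
  obtain rfl : l3 = c ^ 2 - v := by linarith
  obtain rfl : l4 = d ^ 2 - v := by linarith
  obtain rfl : a = b + c - d := by linarith
  refine ⟨fun h0 => ?_, by ring⟩
  have : (b - d) * (c - d) = 0 := by linarith
  rcases mul_eq_zero.mp this with h5 | h5
  · obtain rfl : b = d := by linarith
    ring
  · obtain rfl : c = d := by linarith
    ring

/-- the exceptional slopes for a quadruple -/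
def badS (l : ℝ × ℝ × ℝ × ℝ) : Set ℝ :=
  {p | 0 ≤ p ∧ 0 ≤ l.1 ∧ 0 ≤ l.2.1 ∧ 0 ≤ l.2.2.1 ∧ 0 ≤ l.2.2.2 ∧
    √(l.1 + p ^ 2) - √(l.2.1 + p ^ 2) = √(l.2.2.1 + p ^ 2) - √(l.2.2.2 + p ^ 2) ∧
    ¬(l.1 = l.2.1 ∨ (l.1 = l.2.2.1 ∧ l.2.1 = l.2.2.2))}

theorem badS_finite (l : ℝ × ℝ × ℝ × ℝ) : (badS l).Finite := by
  obtain ⟨l1, l2, l3, l4⟩ := l
  refine Set.Subsingleton.finite fun p hp q hq => ?_
  obtain ⟨p0, h1, h2, h3, h4, e1, hn⟩ := hp
  obtain ⟨q0, -, -, -, -, e2, -⟩ := hq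
  dsimp only at *
  obtain ⟨a1, a2⟩ := sqrt_relS h1 h2 h3 h4 (sq_nonneg p) e1
  obtain ⟨-, a3⟩ := sqrt_relS h1 h2 h3 h4 (sq_nonneg q) e2
  by_contra hne
  have hne' : p ^ 2 - q ^ 2 ≠ 0 := fun h => hne ((sq_eq_sq₀ p0 q0).mp (sub_eq_zero.mp h))
  apply hn
  by_cases hs : l2 + l3 - l1 - l4 = 0
  · have := a1 hs
    obtain rfl : l4 = l2 + l3 - l1 := by linarith
    have : (l1 - l2) * (l1 - l3) = 0 := by linarith
    rcases mul_eq_zero.mp this with h5 | h5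
    · left; linarith
    · right; constructor <;> linarith
  exfalso
  obtain ⟨s, hs'⟩ : ∃ s, s = (l2 + l3 - l1 - l4) / 2 := ⟨_, rfl⟩
  have s0 : s ≠ 0 := fun h => hs (by linarith)
  obtain rfl : l3 = 2 * s + l1 + l4 - l2 := by linarith
  generalize hu : p ^ 2 = u at *
  generalize q ^ 2 = w at *
  have b1 : s * (u - w) * (s * (l1 + l4) +
      (l1 * l4 - l2 * (2 * s + l1 + l4 - l2) + s ^ 2)) = 0 := by linarith
  have b2 := (mul_eq_zero.mp b1).resolve_left (mul_ne_zero s0 hne')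
  have b3 : s ^ 2 * (l1 - l4) ^ 2 = 0 := by
    have : l1 * l4 - l2 * (2 * s + l1 + l4 - l2) + s ^ 2 = -(s * (l1 + l4)) := by linarith
    have e : (l1 + u) * (l4 + u) - (l2 + u) * (2 * s + l1 + l4 - l2 + u) +
        ((l2 + (2 * s + l1 + l4 - l2) - l1 - l4) / 2) ^ 2 = -(s * (l1 + l4)) - 2 * s * u := by
      rw [← this]; ring
    rw [e] at a2
    linarith
  obtain rfl : l1 = l4 :=
    sub_eq_zero.mp (pow_eq_zero_iff two_ne_zero |>.mp
      ((mul_eq_zero.mp b3).resolve_left (pow_ne_zero 2 s0)))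
  have b4 : (l1 + s - l2) ^ 2 = 0 := by linarith
  obtain rfl : l2 = l1 + s := by linarith [pow_eq_zero_iff two_ne_zero |>.mp b4]
  rw [show 2 * s + l1 + l1 - (l1 + s) = l1 + s by ring] at e1
  have b5 : √(l1 + u) = √(l1 + s + u) := by linarith
  have hu0 : 0 ≤ u := hu ▸ sq_nonneg p
  have := (Real.sqrt_inj (by linarith) (by linarith)).mp b5
  exact s0 (by linarith)

theorem exists_gapS (S : Sched) : ∃ g : ℝ, 0 < g ∧ ∀ κ (d d' : ℕ) (e e' : ℤ), d ≤ S.D → d' ≤ S.D →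
    |e| ≤ d → |e'| ≤ d' → fm (S.t0 κ) d e < fm (S.t0 κ) d' e' →
    fm (S.t0 κ) d e + g ≤ fm (S.t0 κ) d' e' := by
  classical
  set A := range (S.D + 1) ×ˢ Icc (-(S.D : ℤ)) S.D with hA
  set F : Fin S.nK × (ℕ × ℤ) × (ℕ × ℤ) → ℝ := fun z =>
    fm (S.t0 z.1) z.2.2.1 z.2.2.2 - fm (S.t0 z.1) z.2.1.1 z.2.1.2 with hF
  set B := insert 1 (((univ ×ˢ A ×ˢ A).filter fun z => 0 < F z).image F) with hB
  have hne : B.Nonempty := insert_nonempty _ _
  refine ⟨B.min' hne, ?_, fun κ d d' e e' h1 h2 h3 h4 h5 => ?_⟩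
  · rcases mem_insert.mp (B.min'_mem hne) with h | h
    · rw [h]; exact one_pos
    · obtain ⟨z, hz, e⟩ := mem_image.mp h
      rw [← e]; exact (mem_filter.mp hz).2
  · have := B.min'_le (F (κ, (d, e), (d', e'))) (mem_insert_of_mem (mem_image_of_mem _
      (mem_filter.mpr ⟨by
        rw [abs_le] at h3 h4
        simp only [hA, mem_product, mem_univ, mem_range, mem_Icc, true_and]
        omega, sub_pos.mpr h5⟩)))
    simp only [hF] at this
    linarith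

theorem sq_le_of_absS {d D : ℕ} {e : ℤ} (h : |e| ≤ d) (hd : d ≤ D) : (e : ℝ) ^ 2 ≤ (D : ℝ) ^ 2 := by
  have : |(e : ℝ)| ≤ D := by exact_mod_cast h.trans (by exact_mod_cast hd)
  exact sq_le_sq' (abs_le.mp this).1 (abs_le.mp this).2

theorem fm_nonnegS {t : ℝ} (ht : 0 ≤ t) {d : ℕ} {e : ℤ} (h : |e| ≤ d) : 0 ≤ fm t d e := by
  have := sq_le_of_absS h le_rfl
  have h2 : (0 : ℝ) ≤ d := Nat.cast_nonneg d
  have := mul_nonneg ht (sq_nonneg (e : ℝ))
  rw [fm]; nlinarith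

theorem XX_posS (t : ℝ) : 0 < XX t := Real.exp_pos _

theorem muI_posS {p t : ℝ} (hp : 0 < p) (ht : 0 ≤ t) {d : ℕ} {e : ℤ} (h : |e| ≤ d) :
    0 < muI (p ^ 2) t d e := by
  have := fm_nonnegS ht h
  have := XX_posS t
  exact Real.sqrt_pos.mpr (by positivity)

theorem lapb_eqS (γ : ℝ) (a : ℕ) : lapb γ a = lapb γ 0 * Real.exp γ ^ a := by
  rw [lapb, lapb, ← intervalIntegral.integral_mul_const]
  congr 1; funext τ
  rw [← Real.exp_nat_mul, mul_assoc, ← Real.exp_add]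
  congr 2; push_cast; ring

/-- the first-order matrix element as a linear form of the control -/
noncomputable def phiS (D : ℕ) (p : ℕ × (ℕ × ℕ) × (ℕ × ℕ)) : R →ₗ[ℝ] ℝ where
  toFun g := mat D p.1 (Q1 (mm * g)) p.2.2 p.2.1
  map_add' g g' := by rw [mul_add, mat_Q1_add]
  map_smul' c g := by rw [mul_smul_comm, mat_Q1_smul]; rfl

theorem winS (D : ℕ) (k γ : ℕ × (ℕ × ℕ) × (ℕ × ℕ) → ℝ) (hk : ∀ p ∈ alw D, k p ≠ 0)
    (hγ : ∀ p ∈ alw D, ∀ p' ∈ alw D, γ p = γ p' → dg p.1 p.2.1 = dg p'.1 p'.2.1 ∧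
      dg p.1 p.2.2 = dg p'.1 p'.2.2 ∧ ch p.1 p.2.1 ^ 2 = ch p'.1 p'.2.1 ^ 2 ∧
      ch p.1 p.2.2 ^ 2 = ch p'.1 p'.2.2 ^ 2) (p' : ℕ × (ℕ × ℕ) × (ℕ × ℕ)) :
    ∃ g : Fin (alw D).card → R, (∀ a, Ty (g a) = 0) ∧ ∀ p ∈ alw D,
      ∑ a, k p * mat D p.1 (Q1 (mm * g a)) p.2.2 p.2.1 * lapb (γ p) a =
        if p = p' then 1 else 0 := by
  classical
  obtain ⟨g, hg, h⟩ := dual_surjS
    (Submodule.pi Set.univ fun _ : Fin (alw D).card => LinearMap.ker (Ty : R →ₗ[ℝ] R)) (alw D)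
    (fun p => ∑ a : Fin (alw D).card, (k p * lapb (γ p) a) • (phiS D p).comp (LinearMap.proj a))
    (fun c hc p0 h0 => by
      have key : ∀ g : R, Ty g = 0 → ∑ p ∈ alw D with Real.exp (γ p) = Real.exp (γ p0),
          c p * k p * lapb (γ p) 0 * mat D p.1 (Q1 (mm * g)) p.2.2 p.2.1 = 0 := fun g hg => by
        refine vanderS (alw D) (fun p => Real.exp (γ p)) _ (fun a ha => ?_) h0
        rw [← hc (Pi.single ⟨a, ha⟩ g) fun b _ => by
          by_cases hb : b = ⟨a, ha⟩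
          · subst hb; simpa using hg
          · simp [hb]]
        refine sum_congr rfl fun p _ => ?_
        rw [LinearMap.sum_apply, sum_eq_single ⟨a, ha⟩ (fun b _ hb => by simp [hb]) (by simp)]
        simp only [LinearMap.smul_apply, LinearMap.comp_apply, LinearMap.proj_apply,
          Pi.single_eq_same, smul_eq_mul, lapb_eqS (γ p) a, phiS, LinearMap.coe_mk,
          AddHom.coe_mk]
        ring
      have := spatial_indep D _ _ _ _ (ch p0.1 p0.2.2 - ch p0.1 p0.2.1)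
        ((alw D).filter fun p => Real.exp (γ p) = Real.exp (γ p0))
        (fun p hp => ⟨mem_alw.mp (mem_filter.mp hp).1,
          hγ p (mem_filter.mp hp).1 p0 h0 (Real.exp_injective (mem_filter.mp hp).2)⟩)
        (fun p => c p * k p * lapb (γ p) 0) (fun g hg _ => key g hg) p0
        (mem_filter.mpr ⟨h0, rfl⟩) (Or.inl rfl)
      exact (mul_eq_zero.mp ((mul_eq_zero.mp this).resolve_right
        (lapb_pos _ _).ne')).resolve_right (hk p0 h0))
    fun p => if p = p' then 1 else 0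
  refine ⟨g, fun a => hg a trivial, fun p hp => ?_⟩
  rw [← h p hp, LinearMap.sum_apply]
  refine sum_congr rfl fun a _ => ?_
  simp only [LinearMap.smul_apply, LinearMap.comp_apply, LinearMap.proj_apply, smul_eq_mul, phiS,
    LinearMap.coe_mk, AddHom.coe_mk]
  ring

theorem boostS (S : Sched) (κ : Fin S.nK) {v : ℝ} (hv : 0 < v) {n' : ℕ} (hn' : n' ∈ S.band) :
    ∃ g : R, Ty g = 0 ∧ ∀ n i j, 1 ≤ n → dg n i ≤ S.D → dg n j ≤ S.D →
    fm (S.t0 κ) (dg n i) (ch n i) = fm (S.t0 κ) (dg n j) (ch n j) →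
    XX (S.t0 κ) / (2 * muI (v ^ 2) (S.t0 κ) (dg n j) (ch n j)) *
      mat S.D n (Q1 (mm * g)) j i =
      if n = n' ∧ ((i = S.lo κ n ∧ j = S.hi κ n) ∨ (i = S.hi κ n ∧ j = S.lo κ n)) then 1
      else 0 := by
  classical
  have ht : 0 ≤ S.t0 κ := by linarith [(abs_le.mp (S.t0_near κ)).2, S.θ_le]
  set w := S.eh κ - S.el κ with hw
  set k := XX (S.t0 κ) / (2 * muI (v ^ 2) (S.t0 κ) (S.dl κ) (S.el κ)) with hk
  have k0 : k ≠ 0 := by
    have := muI_posS hv ht (S.el_le κ)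
    have := XX_posS (S.t0 κ)
    positivity
  set E : ℤ → Submodule ℝ R := fun u => LinearMap.ker (Ty : R →ₗ[ℝ] R) ⊓
    LinearMap.ker ((Tx : R →ₗ[ℝ] R) - (u : ℝ) • LinearMap.id) with hE
  have mE : ∀ u g, g ∈ E u ↔ Ty g = 0 ∧ Tx g = (u : ℝ) • g := fun u g => by
    simp [hE, sub_eq_zero]
  set Up : ℕ → ℕ × ℕ → ℕ × ℕ → Prop := fun n i j => dg n i = S.dl κ ∧ dg n j = S.dl κ + 1 ∧
    ((ch n i = S.el κ ∧ ch n j = S.eh κ) ∨ (ch n i = -S.el κ ∧ ch n j = -S.eh κ)) with hU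
  obtain ⟨g, hg, h⟩ := dual_surjS (E w ⊔ E (-w)) ((alw S.D).filter fun p => Up p.1 p.2.1 p.2.2)
    (phiS S.D) (fun c hc p hp => by
      refine spatial_indep S.D (S.dl κ) (S.dl κ + 1) (S.el κ ^ 2) (S.eh κ ^ 2) w _
        (fun p hp => ?_) c (fun g h1 h2 => hc g ?_) p hp ?_
      · obtain ⟨h1, h2, h3, h4⟩ := mem_filter.mp hp
        refine ⟨mem_alw.mp h1, h2, h3, ?_⟩
        rcases h4 with ⟨h4, h5⟩ | ⟨h4, h5⟩ <;> simp [h4, h5]
      · rcases h2 with h2 | h2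
        · exact Submodule.mem_sup_left ((mE _ _).mpr ⟨h1, h2⟩)
        · exact Submodule.mem_sup_right ((mE _ _).mpr ⟨h1, by simpa using h2⟩)
      · obtain ⟨-, -, -, h4⟩ := mem_filter.mp hp
        omega)
    fun p => if p = (n', S.lo κ n', S.hi κ n') then k⁻¹ else 0
  obtain ⟨g1, h1, g2, h2, rfl⟩ := Submodule.mem_sup.mp hg
  rw [mE] at h1 h2
  have l1 := S.lo_dg κ n' hn'
  have l2 := S.lo_ch κ n' hn'
  have l3 := S.hi_dg κ n' hn'
  have l4 := S.hi_ch κ n' hn'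
  have up : ∀ n i j, 1 ≤ n → Up n i j → k * mat S.D n (Q1 (mm * (g1 + g2))) j i =
      if n = n' ∧ i = S.lo κ n ∧ j = S.hi κ n then 1 else 0 := fun n i j hn hu => by
    have := h (n, i, j) (mem_filter.mpr ⟨mem_alw.mpr (by
      obtain ⟨a1, a2, -⟩ := hu
      have := S.dl_le κ
      refine ⟨hn, by dsimp only; omega, by dsimp only; omega, fun e => ?_, fun e => ?_,
        fun e => ?_⟩
      · dsimp only at e; rw [e] at a1; omega
      · simp only [dg, ch] at a1 a2 e; omega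
      · simp only [dg, ch] at a1 a2 e; omega), hu⟩)
    change mat S.D n (Q1 (mm * (g1 + g2))) j i = _ at this
    rw [this]
    by_cases e : n = n' ∧ i = S.lo κ n ∧ j = S.hi κ n
    · rw [if_pos e, if_pos (by obtain ⟨rfl, rfl, rfl⟩ := e; rfl), mul_inv_cancel₀ k0]
    · rw [if_neg e, if_neg, mul_zero]
      intro e'
      obtain ⟨rfl, rfl, rfl⟩ := e'
      exact e ⟨rfl, rfl, rfl⟩
  have mu : ∀ n i j, Up n i j → fm (S.t0 κ) (dg n i) (ch n i) = fm (S.t0 κ) (S.dl κ) (S.el κ) :=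
    fun n i j hu => by
      obtain ⟨a1, -, ⟨a2, -⟩ | ⟨a2, -⟩⟩ := hu <;> simp [fm, a1, a2]
  refine ⟨g1 + g2, by rw [map_add, h1.1, h2.1, add_zero], fun n i j hn hi hj e => ?_⟩
  by_cases hc : ch n j - ch n i = w ∨ ch n j - ch n i = -w
  · rcases S.R1 κ _ _ _ _ hi hj (abs_ch_le n i) (abs_ch_le n j) e hc with hu | hu
    · rw [muI, ← e, mu n i j hu, ← muI, ← hk, up n i j hn hu]
      refine if_congr (and_congr_right fun e1 => ⟨Or.inl, fun e2 => e2.elim id fun e3 => ?_⟩)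
        rfl rfl
      subst e1
      have := hu.1
      rw [e3.1] at this
      omega
    · rw [muI, mu n j i hu, ← muI, ← hk, mat_Q1_symm _ hi hj, up n j i hn hu]
      refine if_congr (and_congr_right fun e1 => ⟨fun e2 => Or.inr e2.symm,
        fun e2 => e2.elim (fun e3 => ?_) And.symm⟩) rfl rfl
      subst e1
      have := hu.1
      rw [e3.2] at this
      omega
  · rw [mul_add, mat_Q1_add, mat_Q1_sel h1.2 (by omega) (by omega),
      mat_Q1_sel h2.2 (by omega) (by omega), add_zero, mul_zero, if_neg]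
    rintro ⟨rfl, ⟨rfl, rfl⟩ | ⟨rfl, rfl⟩⟩ <;> omega

theorem exists_static (S : Sched) : Nonempty (Static S) := by
  classical
  obtain ⟨g, hg, hgap⟩ := exists_gapS S
  set ϑ := min S.θ (g / (2 * ((S.D : ℝ) ^ 2 + 1))) with hϑ
  have ϑ0 : 0 < ϑ := lt_min S.θ_pos (by positivity)
  have ϑ1 : ϑ * (S.D : ℝ) ^ 2 ≤ g / 2 := by
    have := (le_div_iff₀ (by positivity)).mp (min_le_right S.θ (g / (2 * ((S.D : ℝ) ^ 2 + 1))))
    nlinarith
  have nr : ∀ κ (d d' : ℕ) (e e' : ℤ), d ≤ S.D → d' ≤ S.D → |e| ≤ d → |e'| ≤ d' →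
      fm (S.t0 κ) d e < fm (S.t0 κ) d' e' →
      ∀ t ∈ Set.Icc (S.t0 κ - ϑ) (S.t0 κ + ϑ), fm t d e + g / 2 ≤ fm t d' e' :=
    fun κ d d' e e' h1 h2 h3 h4 h5 t ht => by
      have a1 := hgap κ d d' e e' h1 h2 h3 h4 h5
      have a2 := sq_le_of_absS h3 h1
      have a3 := sq_le_of_absS h4 h2
      have a4 : |(t - S.t0 κ) * ((e' : ℝ) ^ 2 - (e : ℝ) ^ 2)| ≤ ϑ * (S.D : ℝ) ^ 2 := by
        rw [abs_mul]
        refine mul_le_mul (abs_le.mpr ⟨by linarith [ht.1], by linarith [ht.2]⟩)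
          (abs_le.mpr ⟨?_, ?_⟩) (abs_nonneg _) ϑ0.le <;>
          linarith [sq_nonneg (e : ℝ), sq_nonneg (e' : ℝ)]
      simp only [fm] at a1 ⊢
      linarith [(abs_le.mp a4).1]
  have t0 : ∀ κ, 0 ≤ S.t0 κ + ϑ := fun κ => by
    linarith [(abs_le.mp (S.t0_near κ)).2, S.θ_le]
  have sep : ∀ κ n n' i i', dg n i ≤ S.D → dg n' i' ≤ S.D →
      XX (S.t0 κ + ϑ) * fm (S.t0 κ + ϑ) (dg n i) (ch n i) =
        XX (S.t0 κ + ϑ) * fm (S.t0 κ + ϑ) (dg n' i') (ch n' i') →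
      dg n i = dg n' i' ∧ ch n i ^ 2 = ch n' i' ^ 2 := fun κ n n' i i' h1 h2 h => by
    have e := mul_left_cancel₀ (XX_posS _).ne' h
    have m : S.t0 κ + ϑ ∈ Set.Icc (S.t0 κ - ϑ) (S.t0 κ + ϑ) := ⟨by linarith, le_rfl⟩
    have e0 : fm (S.t0 κ) (dg n i) (ch n i) = fm (S.t0 κ) (dg n' i') (ch n' i') := by
      rcases lt_trichotomy (fm (S.t0 κ) (dg n i) (ch n i)) (fm (S.t0 κ) (dg n' i') (ch n' i'))
        with a | a | a
      · linarith [nr κ _ _ _ _ h1 h2 (abs_ch_le n i) (abs_ch_le n' i') a _ m]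
      · exact a
      · linarith [nr κ _ _ _ _ h2 h1 (abs_ch_le n' i') (abs_ch_le n i) a _ m]
    simp only [fm] at e e0
    have e1 : (ch n i : ℝ) ^ 2 = (ch n' i' : ℝ) ^ 2 := mul_left_cancel₀ ϑ0.ne' (by linarith)
    refine ⟨?_, by exact_mod_cast e1⟩
    rw [e1] at e0
    have e2 : ((dg n i : ℝ) + 1) ^ 2 = ((dg n' i' : ℝ) + 1) ^ 2 := by linarith
    have := (sq_eq_sq₀ (by positivity) (by positivity)).mp e2
    exact_mod_cast add_right_cancel this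
  set L : Fin S.nK → ℕ → ℕ × ℕ → ℝ := fun κ n i =>
    XX (S.t0 κ + ϑ) * fm (S.t0 κ + ϑ) (dg n i) (ch n i) with hL
  have L0 : ∀ κ n i, 0 ≤ L κ n i := fun κ n i =>
    mul_nonneg (XX_posS _).le (fm_nonnegS (t0 κ) (abs_ch_le n i))
  have fin : (⋃ κ, ⋃ p ∈ alw S.D, ⋃ p' ∈ alw S.D,
      badS (L κ p.1 p.2.1, L κ p.1 p.2.2, L κ p'.1 p'.2.1, L κ p'.1 p'.2.2)).Finite :=
    Set.finite_iUnion fun κ => (alw S.D).finite_toSet.biUnion fun p _ =>
      (alw S.D).finite_toSet.biUnion fun p' _ => badS_finite _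
  obtain ⟨v, hv, hb⟩ := (Set.Icc_infinite (a := 1 - 2 * del) (b := 1 - 3 / 2 * del)
    (by rw [del]; norm_num)).exists_notMem_finite fin
  have v0 : 0 < v := lt_of_lt_of_le (by rw [del]; norm_num) hv.1
  have hw := fun κ => winS S.D
    (fun p => XX (S.t0 κ + ϑ) / (2 * muI (v ^ 2) (S.t0 κ + ϑ) (dg p.1 p.2.2) (ch p.1 p.2.2)))
    (fun p => muI (v ^ 2) (S.t0 κ + ϑ) (dg p.1 p.2.1) (ch p.1 p.2.1) -
      muI (v ^ 2) (S.t0 κ + ϑ) (dg p.1 p.2.2) (ch p.1 p.2.2))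
    (fun p _ => by
      have := muI_posS v0 (t0 κ) (abs_ch_le p.1 p.2.2)
      have := XX_posS (S.t0 κ + ϑ)
      positivity)
    fun p hp p' hp' e => by
      have : L κ p.1 p.2.1 = L κ p.1 p.2.2 ∨
          (L κ p.1 p.2.1 = L κ p'.1 p'.2.1 ∧ L κ p.1 p.2.2 = L κ p'.1 p'.2.2) := by
        by_contra hn
        exact hb (Set.mem_iUnion.mpr ⟨κ, Set.mem_iUnion₂.mpr ⟨p, hp, Set.mem_iUnion₂.mpr
          ⟨p', hp', v0.le, L0 _ _ _, L0 _ _ _, L0 _ _ _, L0 _ _ _, e, hn⟩⟩⟩)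
      obtain ⟨-, a1, a2, a3, a4, -⟩ := mem_alw.mp hp
      obtain ⟨-, b1, b2, -⟩ := mem_alw.mp hp'
      rcases this with h | ⟨h, h'⟩
      · obtain ⟨c1, c2⟩ := sep κ _ _ _ _ a1 a2 h
        rcases sq_eq_sq_iff_eq_or_eq_neg.mp c2.symm with c | c
        · exact (a3 (mode_ext c1 c.symm)).elim
        · exact (a4 c).elim
      · obtain ⟨c1, c2⟩ := sep κ _ _ _ _ a1 b1 h
        obtain ⟨c3, c4⟩ := sep κ _ _ _ _ a2 b2 h'
        exact ⟨c1, c3, c2, c4⟩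
  choose gw hw1 hw2 using hw
  have hbo := fun κ n' (hn' : n' ∈ S.band) => boostS S κ v0 hn'
  choose gb hb1 hb2 using hbo
  exact ⟨{
    t2 := fun κ => S.t0 κ + ϑ
    g1 := g / 2
    ϑ := ϑ
    pinf := v
    N := (alw S.D).card
    gw := gw
    gb := fun κ n => if h : n ∈ S.band then gb κ n h else 0
    g1_pos := by positivity
    ϑ_pos := ϑ0
    t2_ge := fun _ => le_rfl
    t2_le := fun _ => add_le_add le_rfl (min_le_left _ _)
    nonres := nr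
    pinf_ge := hv.1
    pinf_le := hv.2
    gw_Ty := hw1
    gb_Ty := fun κ n => by
      split_ifs with h
      · exact hb1 κ n h
      · exact map_zero _
    win := fun κ p hp p' _ => hw2 κ p' p hp
    boost := fun κ n' hn' => by
      rw [dif_pos hn']; exact hb2 κ n' hn' }⟩

end Vale.Agent.P225
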