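import Vale.Agent.P225.Sched
import Vale.Agent.P225.Static
import Vale.Agent.P225.FPEst
import Vale.Agent.P225.FP
import Vale.Agent.P225.HBd
import Vale.Agent.P225.Acc
import Vale.Agent.P225.Growth
import Vale.Agent.P225.ODE
import Vale.Agent.P225.Series

namespace Vale.Agent.P225

theorem del_pos : 0 < del := by norm_num [del]

theorem exists_Gamma {Γ₀ : ℝ} (h : 1 < Γ₀) : ∃ Γ : ℝ, 1 < Γ ∧ Γ ≤ Γ₀ ∧ Γ ^ 4 ≤ 2 := by
  refine ⟨min Γ₀ (11 / 10), lt_min h (by norm_num), min_le_left _ _, ?_⟩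
  have h1 : min Γ₀ (11 / 10) ≤ 11 / 10 := min_le_right _ _
  have h0 : 0 ≤ min Γ₀ (11 / 10) := le_min (by linarith) (by norm_num)
  calc _ ≤ (11 / 10 : ℝ) ^ 4 := pow_le_pow_left₀ h0 h1 4
    _ ≤ 2 := by norm_num

theorem cls_ne_U (P : Par) (l : P.LT) (i : ℕ × ℕ) (hi : (l.1.1, i) ∈ P.S.LL)
    (hdg : dg l.1.1 i ≤ dg l.1.1 l.1.2) : P.cls l (i, true) ≠ .U := by
  have h1 : dg l.1.1 i ≤ P.S.D := (P.S.LL_dg _ hi).trans (by have := P.S.dp_D; omega)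
  have h2 : ¬ P.S.D < dg l.1.1 i := not_lt.mpr h1
  have h3 : ¬ dg l.1.1 l.1.2 < dg l.1.1 i := not_lt.mpr hdg
  unfold Par.cls
  simp only [h2, h3, if_false]
  split_ifs <;> simp

theorem Base.geo_p_bd {P : Par} {Kc : ℝ} (C : Base P Kc) (η : Eta P.LT KK) (s : ℝ) :
    1 / 2 ≤ (C.geo η).p s ∧ (C.geo η).p s ≤ 1 := by
  have hpinf : (1 : ℝ) / 2 ≤ P.St.pinf := le_trans (by norm_num [del]) P.St.pinf_ge
  rw [Base.geo_p]; exact ⟨hpinf.trans (C.pp_ge s), C.pp_le s⟩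

theorem ric_hyp {P : Par} {CR Ka M η₀ : ℝ} (hCR : 1 ≤ CR) (hKa : 1 ≤ Ka)
    (C : Base P (CR * (Ka * M) ^ 2)) (η : Eta P.LT KK) (hS : P.S.θ ≤ η₀)
    (hM : ∀ s, max s 0 + C.tm.T 0 ≤ M * C.tm.T (C.tm.st s))
    (hj : ∀ s, (C.geo η).Small s (Ka / C.tm.T (C.tm.st s))) (hs5 : CR * Ka ≤ C.tm.σ0) (s : ℝ) :
    (C.geo η).Round s ∨ ∃ ε, 0 ≤ ε ∧ CR * ε ≤ 1 ∧ (C.geo η).p s ≤ 1 - del ∧
      |(C.geo η).u s| ≤ η₀ ∧ (C.geo η).Small s ε ∧ CR * ε ^ 2 ≤ -deriv (C.geo η).p s := by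
  by_cases hs : s < C.tm.T 0
  · exact Or.inl (C.geo_round _ hs)
  · have hs' := not_lt.mp hs
    have hT := C.tm.T_pos (C.tm.st s)
    have hT0 := C.tm.T_pos 0
    refine Or.inr ⟨Ka / C.tm.T (C.tm.st s), by positivity, ?_, ?_, (C.uu_le s).trans hS,
      hj s, ?_⟩
    · rw [← mul_div_assoc, div_le_one hT]
      exact hs5.trans (C.tm.σ0_le_T _)
    · rw [Base.geo_p]; exact C.pp_le' hs'
    · rw [Base.geo_p, C.deriv_pp hs', neg_neg]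
      have h1 := hM s
      rw [max_eq_left (by linarith)] at h1
      have h2 : 0 < s + C.tm.T 0 := by linarith
      have h3 : Ka / C.tm.T (C.tm.st s) ≤ Ka * M / (s + C.tm.T 0) := by
        rw [div_le_div_iff₀ hT h2]
        nlinarith
      calc CR * (Ka / C.tm.T (C.tm.st s)) ^ 2 ≤ CR * (Ka * M / (s + C.tm.T 0)) ^ 2 := by
            gcongr
        _ = _ := by field_simp

theorem exists_harm (P : Par) (Kc σ₀ : ℝ) (hKc : 0 ≤ Kc)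
    (hgr : ∀ (KY : ℝ) (C : Ctx P Kc KY) (l : P.LT), ∃ A : ℝ, ∀ s, 0 ≤ s →
      ∫ r in (0 : ℝ)..s, C.rp l.1.1 l.1.2 r ≤ A + ((P.S.k : ℝ) + 1) * C.ph s) :
    ∃ (C : Base P Kc) (η : Eta P.LT KK), σ₀ ≤ C.tm.σ0 ∧ EtaLe C.tm η 1 ∧
      ∃ u : Fin (2 * P.S.LL.card) → E 4 → ℝ, LinearIndependent ℝ u ∧
        ∀ i, (C.geo η).metric.PolyHarm P.S.k (u i) := by
  obtain ⟨KY, -, σ1, hctx⟩ := exists_ctx P Kc hKc
  obtain ⟨K₀, hK⟩ := ((kok P Kc KY).and (hbd P Kc KY)).and (acc P Kc KY)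
  obtain ⟨σ2, hK⟩ := hK K₀ le_rfl
  obtain ⟨σ3, hest⟩ := fp_est K₀
  obtain ⟨C, hC⟩ := hctx (max (max σ1 σ2) (max (max σ3 (8 * K₀)) σ₀))
    ((le_max_left _ _).trans (le_max_left _ _))
  have hs2 : σ2 ≤ C.tm.σ0 := by rw [hC]; exact (le_max_right _ _).trans (le_max_left _ _)
  have hs3 : σ3 ≤ C.tm.σ0 := by
    rw [hC]; exact ((le_max_left _ _).trans (le_max_left _ _)).trans (le_max_right _ _)
  have hs4 : 8 * K₀ ≤ C.tm.σ0 := by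
    rw [hC]; exact ((le_max_right _ _).trans (le_max_left _ _)).trans (le_max_right _ _)
  have hs5 : σ₀ ≤ C.tm.σ0 := by rw [hC]; exact (le_max_right _ _).trans (le_max_right _ _)
  obtain ⟨⟨hk, hb⟩, ha⟩ := hK C hs2
  have hctl : hk.kd.Ctl C.HH := ⟨(hb hk).1, (hb hk).2, (ha hk).1, (ha hk).2⟩
  obtain ⟨F⟩ := fp_exists hk.kd (hest _ _ _ _ hk.kd hs3) hs4 hctl
  choose sol hsol using fun l : P.LT => sol_of_fsol hk F (hctl.hb _ F.hη) l (hgr KY C l)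
  refine ⟨C.toBase, F.η, hs5, F.hη, ?_⟩
  exact series (C.geo F.η) P.S.D P.S.k P.B P.CB P.hB1 P.hB2 (C.geo_p_bd F.η) P.S.LL P.S.LL_pos sol
    (fun l => by rw [hsol]; exact F.c_main l)
    (fun l i hi hne hdg => by
      rw [hsol]
      exact F.c_zero l _ (fun h => hne (congrArg Prod.fst h)) (cls_ne_U P l i hi hdg))

theorem main : ∃ (G : RMetric 4) (k N : ℕ) (u : Fin N → E 4 → ℝ), 1 ≤ k ∧ G.Complete ∧
    G.RicNonneg ∧ (4 + k - 1).choose k + (4 + k - 2).choose (k - 1) < N ∧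
    LinearIndependent ℝ u ∧ ∀ i, G.PolyHarm k (u i) := by
  obtain ⟨η₀, hη₀, hric⟩ := ric_nonneg del_pos
  obtain ⟨S, hS⟩ := exists_sched hη₀
  obtain ⟨St⟩ := exists_static S
  obtain ⟨Γ₀, hΓ₀, hgr⟩ := growth S
  obtain ⟨Γ, hΓ1, hΓ2, hΓ3⟩ := exists_Gamma hΓ₀
  obtain ⟨B, CB, hCB, hB1, hB2⟩ := banded_family S.D (shp S St) (shp_Ty S St)
  obtain ⟨CR, hCR, hric⟩ := hric (JJ S St) (shp S St)
  obtain ⟨M, hM, hMs⟩ := scale_cmp ⟨S, St, Γ, B, CB, hΓ1, hΓ3, hCB, hB1, hB2⟩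
  obtain ⟨Ka, hKa, hjet⟩ := jets ⟨S, St, Γ, B, CB, hΓ1, hΓ3, hCB, hB1, hB2⟩
  obtain ⟨C, η, hs, hη, u, hu1, hu2⟩ := exists_harm ⟨S, St, Γ, B, CB, hΓ1, hΓ3, hCB, hB1, hB2⟩
    (CR * (Ka * M) ^ 2) (CR * Ka) (by positivity) (hgr _ rfl hΓ2 _)
  refine ⟨(C.geo η).metric, S.k, _, u, S.hk, (C.geo η).complete (C.geo_p_bd η), ?_, S.count,
    hu1, hu2⟩
  refine hric _ rfl (fun s => ?_)
    (ric_hyp hCR hKa C η hS (fun s => (hMs _ C s).1) ((hjet _ C).2.1 η hη) hs)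
  refine ⟨by linarith [(C.geo_p_bd η s).1], (C.geo_p_bd η s).2, ?_⟩
  rw [Base.geo_p]; exact C.deriv_pp_nonpos s

end Vale.Agent.P225
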