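import Vale.Agent.P225.Ys

/-! Generic lemmas for the passage from the fixed point to the mode system. -/

namespace Vale.Agent.P225

open Set Filter Topology

theorem hasDerivAt_of_right {f f' : ℝ → ℝ} (hf : Continuous f) (hf' : Continuous f')
    (h : ∀ s, HasDerivWithinAt f (f' s) (Ici s) s) (s : ℝ) : HasDerivAt f (f' s) s := by
  have e : f = fun x => f 0 + ∫ y in (0 : ℝ)..x, f' y := by
    funext x
    rw [intervalIntegral.integral_eq_sub_of_hasDeriv_right hf.continuousOn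
      (fun y _ => (h y).mono Ioi_subset_Ici_self) (hf'.intervalIntegrable _ _)]
    ring
  have h1 := ((hf'.integral_hasStrictDerivAt 0 s).hasDerivAt).const_add (f 0)
  rw [← e] at h1
  exact h1

theorem hasDerivWithinAt_prim {f : ℝ → ℝ}
    (hi : ∀ x y, IntervalIntegrable f MeasureTheory.volume x y) {s : ℝ}
    (hc : ContinuousWithinAt f (Ici s) s) :
    HasDerivWithinAt (fun x => ∫ r in (0 : ℝ)..x, f r) (f s) (Ici s) s := by
  refine intervalIntegral.integral_hasDerivWithinAt_right (t := Ioi s) (hi 0 s) ?_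
    (hc.mono Ioi_subset_Ici_self)
  exact ⟨Ioc s (s + 1), Ioc_mem_nhdsGT (by linarith), (hi s (s + 1)).1.aestronglyMeasurable⟩

theorem continuous_prim {f : ℝ → ℝ}
    (hi : ∀ x y, IntervalIntegrable f MeasureTheory.volume x y) :
    Continuous fun x => ∫ r in (0 : ℝ)..x, f r :=
  intervalIntegral.continuous_primitive hi 0

theorem ev_lt (s c : ℝ) : ∀ᶠ r in 𝓝[≥] s, (r < c ↔ s < c) := by
  by_cases h : s < c
  · filter_upwards [Ico_mem_nhdsGE h] with r hr
    exact ⟨fun _ => h, fun _ => hr.2⟩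
  · filter_upwards [self_mem_nhdsWithin] with r hr
    exact ⟨fun h' => lt_of_le_of_lt hr h', fun h' => absurd h' h⟩

theorem Times.ev_st (tm : Times) (s : ℝ) : ∀ᶠ r in 𝓝[≥] s, tm.st r = tm.st s := by
  filter_upwards [Ico_mem_nhdsGE (tm.lt_a_st_succ s)] with r hr
  refine le_antisymm ?_ (tm.st_mono hr.1)
  by_cases h0 : tm.a 0 ≤ r
  · have := tm.a_strictMono.lt_iff_lt.mp ((tm.a_st_le h0).trans_lt hr.2)
    omega
  · rw [tm.st_of_lt ((not_le.mp h0).trans (tm.a_strictMono (by norm_num)))]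
    exact Nat.zero_le _

theorem Times.cont_stage (tm : Times) {f : ℕ → ℝ → ℝ} (hf : ∀ m, Continuous (f m))
    (hj : ∀ m, f m (tm.a (m + 1)) = f (m + 1) (tm.a (m + 1))) :
    Continuous fun s => f (tm.st s) s := by
  refine continuous_iff_continuousAt.2 fun s => ?_
  refine continuousAt_iff_continuous_left'_right'.2 ⟨?_, ?_⟩
  · by_cases h : s < tm.a 1
    · refine ((hf 0).continuousWithinAt.congr_of_eventuallyEq ?_ ?_)
      · filter_upwards [self_mem_nhdsWithin] with r hr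
        rw [tm.st_of_lt (lt_trans hr h)]
      · rw [tm.st_of_lt h]
    · have h0 : tm.a 0 ≤ s := (tm.a_strictMono.monotone (Nat.zero_le 1)).trans (not_lt.mp h)
      have h1 := tm.a_st_le h0
      have h2 := tm.lt_a_st_succ s
      rcases h1.lt_or_eq with h1 | h1
      · refine ((hf (tm.st s)).continuousWithinAt.congr_of_eventuallyEq ?_ rfl)
        filter_upwards [Ioo_mem_nhdsLT h1] with r hr
        rw [tm.st_eq hr.1.le (hr.2.trans h2)]
      · obtain ⟨m, hm⟩ : ∃ m, tm.st s = m + 1 := by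
          refine Nat.exists_eq_succ_of_ne_zero fun h3 => ?_
          rw [h3] at h2
          exact h h2
        rw [hm] at h1
        refine ((hf m).continuousWithinAt.congr_of_eventuallyEq ?_ ?_)
        · have h3 : tm.a m < s := by rw [← h1]; exact tm.a_strictMono (Nat.lt_succ_self m)
          filter_upwards [Ioo_mem_nhdsLT h3] with r hr
          rw [tm.st_eq hr.1.le (by rw [h1]; exact hr.2)]
        · rw [hm, ← h1, hj]
  · refine ContinuousWithinAt.mono ?_ Ioi_subset_Ici_self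
    refine ((hf (tm.st s)).continuousWithinAt.congr_of_eventuallyEq ?_ rfl)
    filter_upwards [tm.ev_st s] with r hr
    rw [hr]

theorem sum_supp {ι : Type} {A B : Finset ι} {f : ι → ℝ} (h : ∀ x, f x ≠ 0 → x ∈ A ∧ x ∈ B) :
    ∑ x ∈ A, f x = ∑ x ∈ B, f x := by
  have h1 : HasSum f (∑ x ∈ A, f x) :=
    hasSum_sum_of_ne_finset_zero fun x hx => by_contra fun h' => hx (h x h').1
  have h2 : HasSum f (∑ x ∈ B, f x) :=
    hasSum_sum_of_ne_finset_zero fun x hx => by_contra fun h' => hx (h x h').2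
  exact h1.unique h2

/-- action of a block matrix on a vector -/
def ap (lo hi : ℕ × ℕ) (M : Matrix (Fin 2) (Fin 2) ℝ) (d : ℝ) (v : ℕ × ℕ → ℝ) (i : ℕ × ℕ) : ℝ :=
  if i = lo then M 0 0 * v lo + M 0 1 * v hi
  else if i = hi then M 1 0 * v lo + M 1 1 * v hi else d * v i

theorem emb_ne_zero {lo hi : ℕ × ℕ} {M : Matrix (Fin 2) (Fin 2) ℝ} {d : ℝ} {i j : ℕ × ℕ}
    (h : emb lo hi M d i j ≠ 0) :
    j ∈ ({i, lo, hi} : Finset (ℕ × ℕ)) ∧ i ∈ ({j, lo, hi} : Finset (ℕ × ℕ)) := by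
  unfold emb at h
  simp only [Finset.mem_insert, Finset.mem_singleton]
  split_ifs at h <;> simp_all

theorem sum_emb {lo hi : ℕ × ℕ} (h : lo ≠ hi) (M : Matrix (Fin 2) (Fin 2) ℝ) (d : ℝ)
    (v : ℕ × ℕ → ℝ) (i : ℕ × ℕ) :
    ∑ j ∈ ({i, lo, hi} : Finset (ℕ × ℕ)), emb lo hi M d i j * v j = ap lo hi M d v i := by
  unfold ap
  by_cases h1 : i = lo
  · subst h1
    rw [Finset.insert_eq_of_mem (by simp), Finset.sum_pair h]
    simp [emb, h.symm]
  · by_cases h2 : i = hi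
    · subst h2
      rw [Finset.insert_eq_of_mem (by simp), Finset.sum_pair h]
      simp [emb, h1]
    · rw [Finset.sum_insert (by simp [h1, h2]), Finset.sum_pair h]
      simp [emb, h1, h2]

theorem sum_ite_blk (lo hi : ℕ × ℕ) (v : ℕ × ℕ → ℝ) (i : ℕ × ℕ) :
    ∑ j ∈ ({i, lo, hi} : Finset (ℕ × ℕ)), (if i = j then (1 : ℝ) else 0) * v j = v i := by
  simp only [ite_mul, one_mul, zero_mul]
  rw [Finset.sum_ite_eq]
  simp

theorem ap_add (lo hi : ℕ × ℕ) (M : Matrix (Fin 2) (Fin 2) ℝ) (d : ℝ) (v v' : ℕ × ℕ → ℝ)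
    (i : ℕ × ℕ) : ap lo hi M d (fun j => v j + v' j) i = ap lo hi M d v i + ap lo hi M d v' i := by
  unfold ap
  split_ifs <;> ring

theorem ap_ap {lo hi : ℕ × ℕ} (h : lo ≠ hi) (M M' : Matrix (Fin 2) (Fin 2) ℝ) (d d' : ℝ)
    (v : ℕ × ℕ → ℝ) (i : ℕ × ℕ) :
    ap lo hi M d (ap lo hi M' d' v) i = ap lo hi (M * M') (d * d') v i := by
  unfold ap
  simp only [Matrix.mul_apply, Fin.sum_univ_two, if_true, if_neg h.symm]
  split_ifs <;> ring

theorem ap_one (lo hi : ℕ × ℕ) (v : ℕ × ℕ → ℝ) (i : ℕ × ℕ) : ap lo hi 1 1 v i = v i := by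
  unfold ap
  split_ifs with h1 h2
  · simp [h1]
  · simp [h2]
  · simp

theorem ap_zero (lo hi : ℕ × ℕ) (v : ℕ × ℕ → ℝ) (i : ℕ × ℕ) : ap lo hi 0 0 v i = 0 := by
  unfold ap
  split_ifs <;> simp

theorem continuous_ap (lo hi : ℕ × ℕ) {M : ℝ → Matrix (Fin 2) (Fin 2) ℝ} (d : ℝ)
    {v : ℕ × ℕ → ℝ → ℝ} (hM : ∀ a b, Continuous fun r => M r a b) (hv : ∀ j, Continuous (v j))
    (i : ℕ × ℕ) : Continuous fun r => ap lo hi (M r) d (fun j => v j r) i := by
  unfold ap
  split_ifs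
  · exact ((hM 0 0).mul (hv lo)).add ((hM 0 1).mul (hv hi))
  · exact ((hM 1 0).mul (hv lo)).add ((hM 1 1).mul (hv hi))
  · exact continuous_const.mul (hv i)

theorem continuous_emb (lo hi : ℕ × ℕ) {M : ℝ → Matrix (Fin 2) (Fin 2) ℝ} (d : ℝ)
    (hM : ∀ a b, Continuous fun r => M r a b) (i j : ℕ × ℕ) :
    Continuous fun r => emb lo hi (M r) d i j := by
  unfold emb
  split_ifs <;> first | exact hM _ _ | exact continuous_const

theorem hasDerivWithinAt_ap (lo hi : ℕ × ℕ) {M : ℝ → Matrix (Fin 2) (Fin 2) ℝ}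
    {M' : Matrix (Fin 2) (Fin 2) ℝ} (d : ℝ) {v : ℕ × ℕ → ℝ → ℝ} {v' : ℕ × ℕ → ℝ} {U : Set ℝ}
    {s : ℝ} (hM : ∀ a b, HasDerivWithinAt (fun r => M r a b) (M' a b) U s)
    (hv : ∀ j, HasDerivWithinAt (v j) (v' j) U s) (i : ℕ × ℕ) :
    HasDerivWithinAt (fun r => ap lo hi (M r) d (fun j => v j r) i)
      (ap lo hi M' 0 (fun j => v j s) i + ap lo hi (M s) d v' i) U s := by
  unfold ap
  split_ifs
  · exact (((hM 0 0).mul (hv lo)).add ((hM 0 1).mul (hv hi))).congr_deriv (by ring)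
  · exact (((hM 1 0).mul (hv lo)).add ((hM 1 1).mul (hv hi))).congr_deriv (by ring)
  · exact ((hv i).const_mul d).congr_deriv (by ring)

/-- the swap phase -/
theorem ap_swap {lo hi : ℕ × ℕ} (h : lo ≠ hi) (A G : Matrix (Fin 2) (Fin 2) ℝ) (c : ℝ)
    (y u : ℕ × ℕ → ℝ) (i : ℕ × ℕ) :
    ap lo hi (c • (A * G)) 0 u i +
      ap lo hi G 1 (fun j => (if j = lo ∨ j = hi then (y lo + y hi) / 2 else y j) * u j) i +
      ap lo hi (((y lo - y hi) / 2) • !![1, 0; 0, -1] - c • A) 0 (ap lo hi G 1 u) i =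
      y i * ap lo hi G 1 u i := by
  unfold ap
  by_cases h1 : i = lo
  · subst h1
    simp [Matrix.mul_apply, Fin.sum_univ_two, h.symm]
    ring
  · by_cases h2 : i = hi
    · subst h2
      simp [Matrix.mul_apply, Fin.sum_univ_two, h1]
      ring
    · simp [h1, h2]

/-- after the swap -/
theorem ap_after {lo hi : ℕ × ℕ} (y u : ℕ × ℕ → ℝ) (i : ℕ × ℕ) :
    ap lo hi !![0, 1; -1, 0] 1 (fun j => y (Equiv.swap lo hi j) * u j) i =
      y i * ap lo hi !![0, 1; -1, 0] 1 u i := by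
  unfold ap
  by_cases h1 : i = lo
  · subst h1
    simp
  · by_cases h2 : i = hi
    · subst h2
      simp [h1]
    · simp [h1, h2, Equiv.swap_apply_of_ne_of_ne h1 h2]

end Vale.Agent.P225
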