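import Vale.Agent.P225.ODEA

/-! The algebra of the coupling matrix at a fixed time. -/

namespace Vale.Agent.P225

open Set Filter Topology

theorem Geo.Qmat_eq {J : Type} [Fintype J] (Γ : Geo J) (D n : ℕ) (s : ℝ) (i j : ℕ × ℕ) :
    Γ.Qmat D n s i j = -(Real.exp (2 * Γ.u s) * (∑ l, Γ.amp l s * mat D n (Q1 (Γ.sh l)) i j +
      ∑ l, ∑ l', Γ.amp l s * Γ.amp l' s * mat D n (Q2 (Γ.sh l) (Γ.sh l')) i j)) := by
  unfold Geo.Qmat Geo.wh
  rw [mat_expand]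

theorem Geo.continuous_Qmat {J : Type} [Fintype J] (Γ : Geo J) (D n : ℕ) (i j : ℕ × ℕ) :
    Continuous fun s => Γ.Qmat D n s i j := by
  simp only [Geo.Qmat_eq]
  have h1 := Γ.u_smooth.continuous
  have h2 := fun l => (Γ.amp_smooth l).continuous
  refine (Continuous.mul (Real.continuous_exp.comp (continuous_const.mul h1)) (Continuous.add
    (continuous_finsetSum _ fun l _ => (h2 l).mul continuous_const)
    (continuous_finsetSum _ fun l _ => continuous_finsetSum _ fun l' _ =>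
      ((h2 l).mul (h2 l')).mul continuous_const))).neg

namespace Ctx

variable {P : Par} {Kc KY : ℝ} (C : Ctx P Kc KY)

theorem Qmat_zero (η : Eta P.LT KK) (n : ℕ) (s : ℝ) {i j : ℕ × ℕ} (h : j ∉ box P.B i) :
    (C.geo η).Qmat P.S.D n s i j = 0 := by
  rw [mem_box_comm] at h
  rw [Geo.Qmat_eq]
  have h1 : ∀ l, mat P.S.D n (Q1 ((C.geo η).sh l)) i j = 0 := fun l => (P.hB1 l).zero n j i h
  have h2 : ∀ l l', mat P.S.D n (Q2 ((C.geo η).sh l) ((C.geo η).sh l')) i j = 0 :=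
    fun l l' => (P.hB2 l l').zero n j i h
  simp only [h1, h2, mul_zero, Finset.sum_const_zero, add_zero, neg_zero]

theorem Ym_zero (η : Eta P.LT KK) (n : ℕ) (s : ℝ) {i j : ℕ × ℕ} (h : j ∉ box P.B i) :
    C.Ym η n s i j = 0 := by
  unfold Ym
  rw [C.Qmat_zero η n s h, neg_zero, zero_div]

theorem y_pos {n : ℕ} (hn : 1 ≤ n) (i : ℕ × ℕ) (s : ℝ) : 0 < C.y1 n i s + C.y2 n i s := by
  have h1 := (C.y1_bd hn i s).1
  have h2 := (C.y2_bd hn i s).1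
  have h3 : (0 : ℝ) ≤ dg n i := Nat.cast_nonneg _
  linarith

theorem continuous_Ym (η : Eta P.LT KK) {n : ℕ} (hn : 1 ≤ n) (i j : ℕ × ℕ) :
    Continuous fun s => C.Ym η n s i j :=
  ((C.geo η).continuous_Qmat P.S.D n i j).neg.div
    ((C.continuous_y1 hn i).add (C.continuous_y2 hn i)) fun s => (C.y_pos hn i s).ne'

theorem Gf_ne_zero {n : ℕ} {s : ℝ} {i j : ℕ × ℕ} (h : C.Gf n s i j ≠ 0) :
    j ∈ C.blk n s i ∧ i ∈ C.blk n s j := by
  unfold Gf at h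
  split_ifs at h with h1 h2
  · exact emb_ne_zero h
  · subst h2
    simp [blk]
  · exact absurd rfl h

theorem Dl_ne_zero {n : ℕ} {s : ℝ} {i j : ℕ × ℕ} (h : C.Dl n s i j ≠ 0) : j ∈ C.blk n s i := by
  unfold Dl at h
  split_ifs at h with h1
  · exact (emb_ne_zero h).1
  · exact absurd rfl h

/-- signed components read in the modes of stage `m` -/
noncomputable def uv (P : Par) (n m : ℕ) (σ : ℕ × ℕ → ℝ) (j : ℕ × ℕ) : ℝ :=
  P.S.sgn n m ((P.S.perm n m).symm j) * σ ((P.S.perm n m).symm j)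

/-- the growing part -/
noncomputable def pv (n : ℕ) (s : ℝ) (σ : ℕ × ℕ → ℝ) (i : ℕ × ℕ) : ℝ :=
  ∑ j ∈ C.blk n s i, C.Gf n s i j * uv P n (C.tm.st s) σ j

theorem hasSum_pv (n : ℕ) (s : ℝ) (σ : ℕ × ℕ → ℝ) (j : ℕ × ℕ) :
    HasSum (fun κ => C.Gf n s j (C.pm n s κ) * (C.sn n s κ * σ κ)) (C.pv n s σ j) := by
  have h1 : HasSum (fun k => C.Gf n s j k * uv P n (C.tm.st s) σ k) (C.pv n s σ j) :=
    hasSum_sum_of_ne_finset_zero fun k hk => by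
      by_contra h'
      exact hk (C.Gf_ne_zero (left_ne_zero_of_mul h')).1
  have h2 := (P.S.perm n (C.tm.st s)).hasSum_iff.2 h1
  simp only [Function.comp_def, uv, Equiv.symm_apply_apply] at h2
  exact h2

theorem hasSum_row (n : ℕ) (s : ℝ) (σ : ℕ × ℕ → ℝ) (M : ℕ × ℕ → ℝ) (A : Finset (ℕ × ℕ))
    (hA : ∀ j, M j ≠ 0 → j ∈ A) :
    HasSum (fun κ => (C.sn n s κ * ∑ j ∈ C.blk n s (C.pm n s κ), M j * C.Gf n s j (C.pm n s κ)) *
      σ κ) (∑ j ∈ A, M j * C.pv n s σ j) := by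
  have h1 := hasSum_sum (s := A) fun j _ => (C.hasSum_pv n s σ j).mul_left (M j)
  have e : ∀ κ, (C.sn n s κ * ∑ j ∈ C.blk n s (C.pm n s κ), M j * C.Gf n s j (C.pm n s κ)) * σ κ =
      ∑ j ∈ A, M j * (C.Gf n s j (C.pm n s κ) * (C.sn n s κ * σ κ)) := by
    intro κ
    rw [sum_supp (B := A) fun j hj => ⟨(C.Gf_ne_zero (right_ne_zero_of_mul hj)).2,
      hA j (left_ne_zero_of_mul hj)⟩, Finset.mul_sum, Finset.sum_mul]
    exact Finset.sum_congr rfl fun j _ => by ring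
  simp only [e]
  exact h1

/-- the coupling term -/
noncomputable def TT (η : Eta P.LT KK) (l : P.LT) (s : ℝ) (σ : KK → ℝ) (κ : KK) : ℝ :=
  ∑ κ' ∈ P.nbK κ, C.HH η l s κ κ' * σ κ'

/-- the full amplitude -/
noncomputable def wv (n : ℕ) (s : ℝ) (σ : KK → ℝ) (i : ℕ × ℕ) : ℝ :=
  C.pv n s (fun κ => σ (κ, true)) i + σ (i, false)

noncomputable def Yw (η : Eta P.LT KK) (n : ℕ) (s : ℝ) (σ : KK → ℝ) (i : ℕ × ℕ) : ℝ :=
  ∑ j ∈ box P.B i, C.Ym η n s i j * C.wv n s σ j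

noncomputable def Zv (η : Eta P.LT KK) (n : ℕ) (s : ℝ) (σ : KK → ℝ) (i : ℕ × ℕ) : ℝ :=
  ∑ j ∈ C.blk n s i, C.Dl n s i j * C.pv n s (fun κ => σ (κ, true)) j + C.Yw η n s σ i

theorem TT_eq {η : Eta P.LT KK} {l : P.LT} {s : ℝ}
    (hb : ∀ κ κ', κ' ∉ P.nbK κ → C.HH η l s κ κ' = 0) (σ : KK → ℝ) (κ : KK) {a b : ℝ}
    (ha : HasSum (fun j => C.HH η l s κ (j, true) * σ (j, true)) a)
    (hb' : HasSum (fun j => C.HH η l s κ (j, false) * σ (j, false)) b) :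
    C.TT η l s σ κ = a + b := by
  have h1 : ∀ c : Bool, HasSum (fun j => C.HH η l s κ (j, c) * σ (j, c))
      (∑ j ∈ box (P.B + 2 * P.S.D) κ.1, C.HH η l s κ (j, c) * σ (j, c)) := fun c =>
    hasSum_sum_of_ne_finset_zero fun j hj => by
      rw [hb κ (j, c) (by simpa [Par.nbK] using hj), zero_mul]
  rw [ha.unique (h1 true), hb'.unique (h1 false), TT, Par.nbK, Finset.sum_product,
    ← Finset.sum_add_distrib]
  exact Finset.sum_congr rfl fun j _ => by simp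

theorem hasSum_Ym (η : Eta P.LT KK) (n : ℕ) (s : ℝ) (v : ℕ × ℕ → ℝ) (i : ℕ × ℕ) :
    HasSum (fun j => C.Ym η n s i j * v j) (∑ j ∈ box P.B i, C.Ym η n s i j * v j) :=
  hasSum_sum_of_ne_finset_zero fun j hj => by rw [C.Ym_zero η n s hj, zero_mul]

theorem TT_false {η : Eta P.LT KK} {l : P.LT} {s : ℝ}
    (hb : ∀ κ κ', κ' ∉ P.nbK κ → C.HH η l s κ κ' = 0) (σ : KK → ℝ) (i : ℕ × ℕ) :
    C.TT η l s σ (i, false) = -C.Yw η l.1.1 s σ i := by
  have h1 := (C.hasSum_row l.1.1 s (fun κ => σ (κ, true)) (C.Ym η l.1.1 s i) (box P.B i)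
    fun j hj => by_contra fun h => hj (C.Ym_zero η _ s h)).neg
  have h2 := (C.hasSum_Ym η l.1.1 s (fun j => σ (j, false)) i).neg
  rw [C.TT_eq hb σ (i, false) (by simpa only [HH, neg_mul] using h1)
    (by simpa only [HH, neg_mul] using h2)]
  simp only [Yw, wv, mul_add, Finset.sum_add_distrib]
  ring

theorem TT_true {η : Eta P.LT KK} {l : P.LT} {s : ℝ}
    (hb : ∀ κ κ', κ' ∉ P.nbK κ → C.HH η l s κ κ' = 0) (σ : KK → ℝ) (κ : ℕ × ℕ) :
    C.TT η l s σ (κ, true) = C.sn l.1.1 s κ * ∑ i ∈ C.blk l.1.1 s (C.pm l.1.1 s κ),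
      C.Gif l.1.1 s (C.pm l.1.1 s κ) i * C.Zv η l.1.1 s σ i := by
  have h1 := (hasSum_sum (s := C.blk l.1.1 s (C.pm l.1.1 s κ)) fun i _ =>
    ((C.hasSum_row l.1.1 s (fun κ => σ (κ, true)) (C.Dl l.1.1 s i) (C.blk l.1.1 s i)
      fun j hj => C.Dl_ne_zero hj).add
    (C.hasSum_row l.1.1 s (fun κ => σ (κ, true)) (C.Ym η l.1.1 s i) (box P.B i)
      fun j hj => by_contra fun h => hj (C.Ym_zero η _ s h))).mul_left
        (C.Gif l.1.1 s (C.pm l.1.1 s κ) i)).mul_left (C.sn l.1.1 s κ)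
  have h2 := (hasSum_sum (s := C.blk l.1.1 s (C.pm l.1.1 s κ)) fun i _ =>
    (C.hasSum_Ym η l.1.1 s (fun j => σ (j, false)) i).mul_left
      (C.Gif l.1.1 s (C.pm l.1.1 s κ) i)).mul_left (C.sn l.1.1 s κ)
  have e1 : ∀ j, C.HH η l s (κ, true) (j, true) * σ (j, true) = C.sn l.1.1 s κ *
      ∑ i ∈ C.blk l.1.1 s (C.pm l.1.1 s κ), C.Gif l.1.1 s (C.pm l.1.1 s κ) i *
        ((C.sn l.1.1 s j * ∑ k ∈ C.blk l.1.1 s (C.pm l.1.1 s j),
          C.Dl l.1.1 s i k * C.Gf l.1.1 s k (C.pm l.1.1 s j)) * σ (j, true) +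
        (C.sn l.1.1 s j * ∑ k ∈ C.blk l.1.1 s (C.pm l.1.1 s j),
          C.Ym η l.1.1 s i k * C.Gf l.1.1 s k (C.pm l.1.1 s j)) * σ (j, true)) := by
    intro j
    simp only [HH, Finset.mul_sum, Finset.sum_mul, ← Finset.sum_add_distrib]
    exact Finset.sum_congr rfl fun i _ => Finset.sum_congr rfl fun k _ => by ring
  have e2 : ∀ j, C.HH η l s (κ, true) (j, false) * σ (j, false) = C.sn l.1.1 s κ *
      ∑ i ∈ C.blk l.1.1 s (C.pm l.1.1 s κ), C.Gif l.1.1 s (C.pm l.1.1 s κ) i *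
        (C.Ym η l.1.1 s i j * σ (j, false)) := by
    intro j
    simp only [HH, Finset.mul_sum, Finset.sum_mul]
    exact Finset.sum_congr rfl fun i _ => by ring
  rw [C.TT_eq hb σ (κ, true) (by simpa only [e1] using h1) (by simpa only [e2] using h2),
    ← mul_add, ← Finset.sum_add_distrib]
  congr 1
  refine Finset.sum_congr rfl fun i _ => ?_
  simp only [Zv, Yw, wv, mul_add, Finset.sum_add_distrib]
  ring

theorem sum_Gf (n : ℕ) (s : ℝ) (v : ℕ × ℕ → ℝ) (i : ℕ × ℕ) :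
    ∑ j ∈ C.blk n s i, C.Gf n s i j * v j =
      if n ∈ P.S.band then ap (C.lo n s) (C.hi n s) (Gm (C.τ (C.tm.st s) s)) 1 v i else v i := by
  unfold Gf blk
  split_ifs with h
  · exact sum_emb (P.S.lo_ne_hi _ h) _ _ _ _
  · exact sum_ite_blk _ _ _ _

theorem sum_Gif (n : ℕ) (s : ℝ) (v : ℕ × ℕ → ℝ) (i : ℕ × ℕ) :
    ∑ j ∈ C.blk n s i, C.Gif n s i j * v j =
      if n ∈ P.S.band then ap (C.lo n s) (C.hi n s) (Gi (C.τ (C.tm.st s) s)) 1 v i else v i := by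
  unfold Gif blk
  split_ifs with h
  · exact sum_emb (P.S.lo_ne_hi _ h) _ _ _ _
  · exact sum_ite_blk _ _ _ _

theorem sum_Dl (n : ℕ) (s : ℝ) (v : ℕ × ℕ → ℝ) (i : ℕ × ℕ) :
    ∑ j ∈ C.blk n s i, C.Dl n s i j * v j =
      if n ∈ P.S.band ∧ C.tm.b (C.tm.st s) 2 ≤ s ∧ s < C.tm.b (C.tm.st s) 8 then
        ap (C.lo n s) (C.hi n s)
          (((C.y1 n (C.lo n s) s - C.y1 n (C.hi n s) s) / 2) • !![1, 0; 0, -1] -
            (1 / C.tm.T (C.tm.st s)) • Am (C.τ (C.tm.st s) s)) 0 v i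
      else 0 := by
  unfold Dl blk
  split_ifs with h
  · exact sum_emb (P.S.lo_ne_hi _ h.1) _ _ _ _
  · simp

end Ctx

end Vale.Agent.P225
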