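import Vale.Agent.P225.ODEB

/-! One-sided continuity of the rates and couplings; the growing part. -/

namespace Vale.Agent.P225

open Set Filter Topology

namespace Ctx

variable {P : Par} {Kc KY : ℝ} (C : Ctx P Kc KY)

theorem continuous_τ (m : ℕ) : Continuous (C.τ m) :=
  (continuous_id.sub continuous_const).div_const _

theorem rc_rp {n : ℕ} (hn : 1 ≤ n) (κ : ℕ × ℕ) (s : ℝ) :
    ContinuousWithinAt (C.rp n κ) (Ici s) s := by
  have h : Continuous fun r => if s < C.tm.b (C.tm.st s) 2 then C.y1 n (C.pm n s κ) r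
      else if s < C.tm.b (C.tm.st s) 8 then
        (if n ∈ P.S.band ∧ (C.pm n s κ = C.lo n s ∨ C.pm n s κ = C.hi n s) then
          (C.y1 n (C.lo n s) r + C.y1 n (C.hi n s) r) / 2 else C.y1 n (C.pm n s κ) r)
      else C.y1 n (P.S.perm n (C.tm.st s + 1) κ) r := by
    split_ifs
    · exact C.continuous_y1 hn _
    · exact ((C.continuous_y1 hn _).add (C.continuous_y1 hn _)).div_const _
    · exact C.continuous_y1 hn _
    · exact C.continuous_y1 hn _
  refine h.continuousWithinAt.congr_of_eventuallyEq ?_ rfl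
  filter_upwards [C.tm.ev_st s, ev_lt s (C.tm.b (C.tm.st s) 2), ev_lt s (C.tm.b (C.tm.st s) 8)]
    with r h1 h2 h3
  simp only [rp, pm, lo, hi, h1, h2, h3]
  rfl

theorem rc_rate {n : ℕ} (hn : 1 ≤ n) (κ : KK) (s : ℝ) :
    ContinuousWithinAt (C.rate n κ) (Ici s) s := by
  obtain ⟨κ, _ | _⟩ := κ
  · exact (C.continuous_y2 hn κ).neg.continuousWithinAt
  · exact C.rc_rp hn κ s

theorem rc_Gf (n : ℕ) (i j : ℕ × ℕ) (s : ℝ) :
    ContinuousWithinAt (fun r => C.Gf n r i j) (Ici s) s := by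
  have h : Continuous fun r => if n ∈ P.S.band then
      emb (C.lo n s) (C.hi n s) (Gm (C.τ (C.tm.st s) r)) 1 i j else if i = j then 1 else 0 := by
    split_ifs
    · exact continuous_emb _ _ _ (fun a b => (continuous_Gm a b).comp (C.continuous_τ _)) _ _
    · exact continuous_const
    · exact continuous_const
  refine h.continuousWithinAt.congr_of_eventuallyEq ?_ rfl
  filter_upwards [C.tm.ev_st s] with r h1
  simp only [Gf, lo, hi, h1]

theorem rc_Gif (n : ℕ) (i j : ℕ × ℕ) (s : ℝ) :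
    ContinuousWithinAt (fun r => C.Gif n r i j) (Ici s) s := by
  have h : Continuous fun r => if n ∈ P.S.band then
      emb (C.lo n s) (C.hi n s) (Gi (C.τ (C.tm.st s) r)) 1 i j else if i = j then 1 else 0 := by
    split_ifs
    · exact continuous_emb _ _ _ (fun a b => (continuous_Gi a b).comp (C.continuous_τ _)) _ _
    · exact continuous_const
    · exact continuous_const
  refine h.continuousWithinAt.congr_of_eventuallyEq ?_ rfl
  filter_upwards [C.tm.ev_st s] with r h1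
  simp only [Gif, lo, hi, h1]

theorem continuous_Am (a b : Fin 2) : Continuous fun τ => Am τ a b := by
  have h1 := aB_smooth.continuous
  have h2 := aD_smooth.continuous
  fin_cases a <;> fin_cases b
  · exact h2
  · exact h1
  · exact h1
  · exact h2.neg

theorem rc_Dl {n : ℕ} (hn : 1 ≤ n) (i j : ℕ × ℕ) (s : ℝ) :
    ContinuousWithinAt (fun r => C.Dl n r i j) (Ici s) s := by
  have h : Continuous fun r =>
      if n ∈ P.S.band ∧ C.tm.b (C.tm.st s) 2 ≤ s ∧ s < C.tm.b (C.tm.st s) 8 then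
        emb (C.lo n s) (C.hi n s)
          (((C.y1 n (C.lo n s) r - C.y1 n (C.hi n s) r) / 2) • !![1, 0; 0, -1] -
            (1 / C.tm.T (C.tm.st s)) • Am (C.τ (C.tm.st s) r)) 0 i j
      else 0 := by
    split_ifs
    · refine continuous_emb _ _ _ (fun a b => ?_) _ _
      simp only [Matrix.sub_apply, Matrix.smul_apply, smul_eq_mul]
      exact ((((C.continuous_y1 hn _).sub (C.continuous_y1 hn _)).div_const _).mul
        continuous_const).sub (continuous_const.mul ((continuous_Am a b).comp (C.continuous_τ _)))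
    · exact continuous_const
  refine h.continuousWithinAt.congr_of_eventuallyEq ?_ rfl
  filter_upwards [C.tm.ev_st s, ev_lt s (C.tm.b (C.tm.st s) 2), ev_lt s (C.tm.b (C.tm.st s) 8)]
    with r h1 h2 h3
  simp only [Dl, lo, hi, h1, ← not_lt, h2, h3]

theorem rc_HH (η : Eta P.LT KK) (l : P.LT) (κ κ' : KK) (s : ℝ) :
    ContinuousWithinAt (fun r => C.HH η l r κ κ') (Ici s) s := by
  have hn := P.S.LL_pos _ l.2
  have hY := fun i j => (C.continuous_Ym η hn i j).continuousWithinAt (s := Ici s) (x := s)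
  obtain ⟨κ, _ | _⟩ := κ <;> obtain ⟨κ', _ | _⟩ := κ'
  · exact (hY _ _).neg
  · refine ContinuousWithinAt.congr_of_eventuallyEq
      (f := fun r => -(C.sn l.1.1 s κ' * ∑ j ∈ C.blk l.1.1 s (C.pm l.1.1 s κ'),
        C.Ym η l.1.1 r κ j * C.Gf l.1.1 r j (C.pm l.1.1 s κ'))) ?_ ?_ rfl
    · exact (continuousWithinAt_const.mul (tendsto_finsetSum _ fun j _ =>
        (hY _ _).mul (C.rc_Gf _ _ _ s))).neg
    · filter_upwards [C.tm.ev_st s] with r h1
      simp only [HH, sn, pm, blk, lo, hi, h1]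
  · refine ContinuousWithinAt.congr_of_eventuallyEq
      (f := fun r => C.sn l.1.1 s κ * ∑ i ∈ C.blk l.1.1 s (C.pm l.1.1 s κ),
        C.Gif l.1.1 r (C.pm l.1.1 s κ) i * C.Ym η l.1.1 r i κ') ?_ ?_ rfl
    · exact continuousWithinAt_const.mul (tendsto_finsetSum _ fun j _ =>
        (C.rc_Gif _ _ _ s).mul (hY _ _))
    · filter_upwards [C.tm.ev_st s] with r h1
      simp only [HH, sn, pm, blk, lo, hi, h1]
  · refine ContinuousWithinAt.congr_of_eventuallyEq
      (f := fun r => C.sn l.1.1 s κ * C.sn l.1.1 s κ' *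
        ∑ i ∈ C.blk l.1.1 s (C.pm l.1.1 s κ), ∑ j ∈ C.blk l.1.1 s (C.pm l.1.1 s κ'),
          C.Gif l.1.1 r (C.pm l.1.1 s κ) i * (C.Dl l.1.1 r i j + C.Ym η l.1.1 r i j) *
            C.Gf l.1.1 r j (C.pm l.1.1 s κ')) ?_ ?_ rfl
    · exact continuousWithinAt_const.mul (tendsto_finsetSum _ fun i _ =>
        tendsto_finsetSum _ fun j _ =>
          ((C.rc_Gif _ _ _ s).mul ((C.rc_Dl hn _ _ s).add (hY _ _))).mul (C.rc_Gf _ _ _ s))
    · filter_upwards [C.tm.ev_st s] with r h1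
      simp only [HH, sn, pm, blk, lo, hi, h1]

/-- the growing part with the stage frozen -/
noncomputable def pF (n m : ℕ) (s : ℝ) (σ : ℕ × ℕ → ℝ) (i : ℕ × ℕ) : ℝ :=
  if n ∈ P.S.band then ap (P.S.lo (P.S.kd m) n) (P.S.hi (P.S.kd m) n) (Gm (C.τ m s)) 1
    (uv P n m σ) i else uv P n m σ i

theorem pv_eq (n : ℕ) (s : ℝ) (σ : ℕ × ℕ → ℝ) (i : ℕ × ℕ) :
    C.pv n s σ i = C.pF n (C.tm.st s) s σ i := C.sum_Gf n s _ i

theorem τ_end (m : ℕ) : 6 ≤ C.τ m (C.tm.a (m + 1)) := by
  have h1 := C.tm.T_pos m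
  have h2 : (0 : ℝ) ≤ C.tm.N := Nat.cast_nonneg _
  unfold Base.τ
  rw [le_div_iff₀ h1, Times.a_succ, Times.b]
  linarith

theorem τ_le {m : ℕ} {s : ℝ} (h : s ≤ C.tm.b m 2) : C.τ m s ≤ 0 :=
  div_nonpos_of_nonpos_of_nonneg (by linarith) (C.tm.T_pos m).le

theorem τ_ge {m : ℕ} {s : ℝ} (h : C.tm.b m 8 ≤ s) : 6 ≤ C.τ m s := by
  have h1 := C.tm.T_pos m
  unfold Base.τ
  rw [le_div_iff₀ h1]
  simp only [Times.b] at h ⊢
  linarith

theorem pF_join (n m : ℕ) (σ : ℕ × ℕ → ℝ) (i : ℕ × ℕ) :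
    C.pF n m (C.tm.a (m + 1)) σ i = C.pF n (m + 1) (C.tm.a (m + 1)) σ i := by
  unfold pF
  have hp := P.S.perm_succ n m
  split_ifs with h
  · rw [Gm_of_ge (C.τ_end m), Gm_of_le (C.τ_le (C.tm.a_le_b _ (by norm_num))), ap_one]
    have hne := P.S.lo_ne_hi (P.S.kd m) h
    simp only [h, if_true] at hp
    have e : (P.S.perm n (m + 1)).symm i = (P.S.perm n m).symm
        (Equiv.swap (P.S.lo (P.S.kd m) n) (P.S.hi (P.S.kd m) n) i) := by
      rw [Equiv.symm_apply_eq, hp, Equiv.apply_symm_apply, Equiv.swap_apply_self]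
    simp only [uv, e, Sched.sgn, h, true_and, Equiv.apply_symm_apply, ap]
    by_cases h1 : i = P.S.lo (P.S.kd m) n
    · subst h1
      simp [hne.symm]
    · by_cases h2 : i = P.S.hi (P.S.kd m) n
      · subst h2
        simp [h1]
      · simp [h1, h2, Equiv.swap_apply_of_ne_of_ne h1 h2]
  · simp only [h, if_false] at hp
    have e : (P.S.perm n (m + 1)).symm i = (P.S.perm n m).symm i := by
      rw [Equiv.symm_apply_eq, hp, Equiv.apply_symm_apply]
    simp only [uv, e, Sched.sgn, h, false_and, if_false]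

theorem continuous_pv (n : ℕ) {σ : ℕ × ℕ → ℝ → ℝ} (hσ : ∀ κ, Continuous (σ κ)) (i : ℕ × ℕ) :
    Continuous fun s => C.pv n s (fun κ => σ κ s) i := by
  simp only [pv_eq]
  refine C.tm.cont_stage (f := fun m s => C.pF n m s (fun κ => σ κ s) i) (fun m => ?_)
    fun m => C.pF_join n m _ i
  have h1 : ∀ j, Continuous fun s => uv P n m (fun κ => σ κ s) j := fun j =>
    continuous_const.mul (hσ _)
  unfold pF
  split_ifs
  · exact continuous_ap _ _ _ (fun a b => (continuous_Gm a b).comp (C.continuous_τ _)) h1 i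
  · exact h1 i

end Ctx

end Vale.Agent.P225
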