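import Vale.Agent.P225.ODEC

/-! The derivative of the growing part. -/

namespace Vale.Agent.P225

open Set Filter Topology

theorem Am_of_le {τ : ℝ} (h : τ ≤ 0) : Am τ = 0 := by
  unfold Am
  rw [aB_of_le h, aD_of_le (by linarith)]
  ext a b
  fin_cases a <;> fin_cases b <;> simp

theorem Am_of_ge {τ : ℝ} (h : 6 ≤ τ) : Am τ = 0 := by
  unfold Am
  rw [aB_of_ge (by linarith), aD_of_ge h]
  ext a b
  fin_cases a <;> fin_cases b <;> simp

namespace Ctx

variable {P : Par} {Kc KY : ℝ} (C : Ctx P Kc KY)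

theorem hasDerivAt_G (m : ℕ) (s : ℝ) (a b : Fin 2) :
    HasDerivAt (fun r => Gm (C.τ m r) a b)
      (((1 / C.tm.T m) • (Am (C.τ m s) * Gm (C.τ m s))) a b) s := by
  have h1 : HasDerivAt (C.τ m) (1 / C.tm.T m) s :=
    ((hasDerivAt_id s).sub_const _).div_const _
  have h2 := (hasDerivAt_Gm (C.τ m s) a b).comp s h1
  rw [Matrix.smul_apply, smul_eq_mul, mul_comm]
  exact h2

theorem rp_symm (n : ℕ) (s : ℝ) (j : ℕ × ℕ) :
    C.rp n ((P.S.perm n (C.tm.st s)).symm j) s =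
      if s < C.tm.b (C.tm.st s) 2 then C.y1 n j s
      else if s < C.tm.b (C.tm.st s) 8 then
        (if n ∈ P.S.band ∧ (j = C.lo n s ∨ j = C.hi n s) then
          (C.y1 n (C.lo n s) s + C.y1 n (C.hi n s) s) / 2 else C.y1 n j s)
      else C.y1 n (if n ∈ P.S.band then Equiv.swap (C.lo n s) (C.hi n s) j else j) s := by
  have e : C.pm n s ((P.S.perm n (C.tm.st s)).symm j) = j := Equiv.apply_symm_apply _ _
  unfold rp
  rw [e, P.S.perm_succ, Equiv.apply_symm_apply]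
  rfl

theorem pv_alg (η : Eta P.LT KK) {n : ℕ} (h : n ∈ P.S.band) (s : ℝ) (σ : KK → ℝ) (i : ℕ × ℕ) :
    ap (C.lo n s) (C.hi n s) ((1 / C.tm.T (C.tm.st s)) •
        (Am (C.τ (C.tm.st s) s) * Gm (C.τ (C.tm.st s) s))) 0
        (uv P n (C.tm.st s) fun κ => σ (κ, true)) i +
      ap (C.lo n s) (C.hi n s) (Gm (C.τ (C.tm.st s) s)) 1
        (fun j => C.rp n ((P.S.perm n (C.tm.st s)).symm j) s *
          uv P n (C.tm.st s) (fun κ => σ (κ, true)) j +
          ap (C.lo n s) (C.hi n s) (Gi (C.τ (C.tm.st s) s)) 1 (C.Zv η n s σ) j) i =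
      C.y1 n i s * C.pv n s (fun κ => σ (κ, true)) i + C.Yw η n s σ i := by
  have hne : C.lo n s ≠ C.hi n s := P.S.lo_ne_hi _ h
  have hpv : C.pv n s (fun κ => σ (κ, true)) = ap (C.lo n s) (C.hi n s) (Gm (C.τ (C.tm.st s) s)) 1
      (uv P n (C.tm.st s) fun κ => σ (κ, true)) := by
    funext j
    rw [pv, sum_Gf, if_pos h]
  rw [ap_add, ap_ap hne, Gm_mul_Gi, mul_one, ap_one, Zv, sum_Dl, ← add_assoc, ← add_assoc]
  congr 1
  simp only [rp_symm, hpv]
  by_cases h1 : s < C.tm.b (C.tm.st s) 2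
  · have h2 := C.τ_le h1.le
    simp only [h1, if_true, not_le.mpr h1, false_and, and_false, if_false, Am_of_le h2,
      Gm_of_le h2, zero_mul, smul_zero, ap_zero, ap_one, zero_add, add_zero]
  · by_cases h2 : s < C.tm.b (C.tm.st s) 8
    · simp only [h1, h2, h, not_lt.mp h1, if_true, if_false, true_and, and_self]
      exact ap_swap hne _ _ _ (fun j => C.y1 n j s) _ i
    · have h3 := C.τ_ge (not_lt.mp h2)
      simp only [h1, h2, h, if_true, if_false, and_false, Am_of_ge h3, Gm_of_ge h3, zero_mul,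
        smul_zero, ap_zero, zero_add, add_zero]
      exact ap_after (fun j => C.y1 n j s) _ i

theorem pv_deriv {η : Eta P.LT KK} {l : P.LT} {s : ℝ}
    (hb : ∀ κ κ', κ' ∉ P.nbK κ → C.HH η l s κ κ' = 0) {σ : KK → ℝ → ℝ}
    (hσ : ∀ κ, HasDerivWithinAt (σ κ)
      (C.rate l.1.1 κ s * σ κ s + C.TT η l s (fun κ => σ κ s) κ) (Ici s) s) (i : ℕ × ℕ) :
    HasDerivWithinAt (fun r => C.pv l.1.1 r (fun κ => σ (κ, true) r) i)
      (C.y1 l.1.1 i s * C.pv l.1.1 s (fun κ => σ (κ, true) s) i +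
        C.Yw η l.1.1 s (fun κ => σ κ s) i) (Ici s) s := by
  have hu : ∀ j, HasDerivWithinAt
      (fun r => uv P l.1.1 (C.tm.st s) (fun κ => σ (κ, true) r) j)
      (C.rp l.1.1 ((P.S.perm l.1.1 (C.tm.st s)).symm j) s *
        uv P l.1.1 (C.tm.st s) (fun κ => σ (κ, true) s) j +
        ∑ k ∈ C.blk l.1.1 s j, C.Gif l.1.1 s j k * C.Zv η l.1.1 s (fun κ => σ κ s) k)
      (Ici s) s := by
    intro j
    have e : C.pm l.1.1 s ((P.S.perm l.1.1 (C.tm.st s)).symm j) = j := Equiv.apply_symm_apply _ _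
    refine ((hσ ((P.S.perm l.1.1 (C.tm.st s)).symm j, true)).const_mul
      (P.S.sgn l.1.1 (C.tm.st s) ((P.S.perm l.1.1 (C.tm.st s)).symm j))).congr_deriv ?_
    rw [C.TT_true hb, e, mul_add, sn, ← mul_assoc _ _ (∑ _ ∈ _, _), P.S.sgn_sq, one_mul]
    simp only [rate, uv]
    ring
  refine HasDerivWithinAt.congr_of_eventuallyEq
    (f := fun r => C.pF l.1.1 (C.tm.st s) r (fun κ => σ (κ, true) r) i) ?_ ?_ (C.pv_eq _ _ _ _)
  · unfold pF
    simp only [sum_Gif] at hu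
    by_cases h : l.1.1 ∈ P.S.band
    · simp only [h, if_true] at hu ⊢
      exact (hasDerivWithinAt_ap _ _ 1 (fun a b => (C.hasDerivAt_G _ s a b).hasDerivWithinAt) hu
        i).congr_deriv (C.pv_alg η h s (fun κ => σ κ s) i)
    · simp only [h, if_false] at hu ⊢
      refine (hu i).congr_deriv ?_
      rw [Zv, sum_Dl, pv, sum_Gf, rp_symm]
      simp only [h, false_and, if_false, ite_self, zero_add]
  · filter_upwards [C.tm.ev_st s] with r h1
    rw [pv_eq, h1]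

end Ctx

end Vale.Agent.P225
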