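import Mathlib

/-! The Ricci tensor of the frame as a smooth function of the jets. -/

namespace Vale.Agent.P225.Rc

/-- `(e, e⁻¹, u', W₁, W₂, dW₁, dW₂)` -/
abbrev VJ : Type := ℝ × ℝ × ℝ × ℝ × ℝ × (Fin 4 → ℝ) × (Fin 4 → ℝ)

abbrev T3 : Type := Fin 4 → Fin 4 → Fin 4 → ℝ

noncomputable def cup0 (v : VJ) : T3 :=
  let e := v.1
  let ei := v.2.1
  let u' := v.2.2.1
  let w1 := v.2.2.2.1
  let w2 := v.2.2.2.2.1
  let a := v.2.2.2.2.2.1
  let b := v.2.2.2.2.2.2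
  let Fc := -2 + (b 1 + w1 * b 3) - (a 2 + w2 * a 3) - 2 * w1 ^ 2 - 2 * w2 ^ 2
  ![![0, ![0, u', 0, e ^ 3 * a 0], ![0, 0, u', e ^ 3 * b 0], ![0, 0, 0, -(2 * u')]],
    ![0, 0, ![0, 2 * e * w1, 2 * e * w2, e ^ 4 * Fc],
      ![0, 0, 2 * ei ^ 2, -(e * (a 3 + 2 * w2))]],
    ![0, 0, 0, ![0, -(2 * ei ^ 2), 0, -(e * (b 3 - 2 * w1))]],
    0]

def cupd : T3 := ![![0, ![0, 1, 0, 0], ![0, 0, 1, 0], ![0, 0, 0, 1]], 0, 0, 0]

def asym (c : T3) : T3 := fun i j k => c i j k - c j i k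

noncomputable def omJ (c : T3) : T3 := fun i j k => (c i j k - c i k j - c j k i) / 2

noncomputable def om0 (i j k : Fin 4) (v : VJ) : ℝ := omJ (asym (cup0 v)) i j k

noncomputable def omd : T3 := omJ (asym cupd)

noncomputable def gam (p : ℝ) (v : VJ) : T3 := fun i j k =>
  asym (cup0 v) i j k - p * asym cupd i j k

noncomputable def omf (p : ℝ) (v : VJ) : T3 := fun i j k => om0 i j k v - p * omd i j k

def d0 (i : Fin 4) : ℝ := if i = 0 then 1 else 0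

noncomputable def alg (p : ℝ) (v : VJ) (j k : Fin 4) : ℝ :=
  ∑ i, (d0 j * p * omf p v i k i - d0 i * p * omf p v j k i +
    ∑ l, (omf p v j k l * omf p v i l i - omf p v i k l * omf p v j l i -
      gam p v i j l * omf p v l k i))

abbrev ZJ : Type := ℝ × VJ × (Fin 4 → VJ)

noncomputable def SS (j k : Fin 4) (z : ZJ) : ℝ :=
  ∑ i, (fderiv ℝ (om0 j k i) z.2.1 (z.2.2 i) - fderiv ℝ (om0 i k i) z.2.1 (z.2.2 j)) +
    alg z.1 z.2.1 j k

noncomputable def TT (j k : Fin 4) : ℝ := ∑ i, (d0 i * omd j k i - d0 j * omd i k i)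

lemma TT_eq (j k : Fin 4) : TT j k = if j = k then (if j = 0 then 3 else 1) else 0 := by
  fin_cases j <;> fin_cases k <;>
    simp [TT, d0, omd, omJ, asym, cupd, Fin.sum_univ_four] <;> norm_num

lemma contDiff_cup0 (i j k : Fin 4) : ContDiff ℝ 2 fun v => cup0 v i j k := by
  fin_cases i <;> fin_cases j <;> fin_cases k <;> simp [cup0] <;> fun_prop

lemma contDiff_om0 (i j k : Fin 4) : ContDiff ℝ 2 (om0 i j k) := by
  have := contDiff_cup0
  unfold om0 omJ asym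
  fun_prop

lemma contDiff_SS (j k : Fin 4) : ContDiff ℝ 1 (SS j k) := by
  have h1 : ∀ i j k m, ContDiff ℝ 1 fun z : ZJ => fderiv ℝ (om0 i j k) z.2.1 (z.2.2 m) :=
    fun i j k m => (((contDiff_om0 i j k).fderiv_right (m := 1) (by norm_num)).comp
      (by fun_prop : ContDiff ℝ 1 fun z : ZJ => z.2.1)).clm_apply (by fun_prop)
  have h2 : ∀ i j k, ContDiff ℝ 1 fun z : ZJ => om0 i j k z.2.1 := fun i j k =>
    ((contDiff_om0 i j k).of_le (by norm_num)).comp (by fun_prop : ContDiff ℝ 1 fun z : ZJ => z.2.1)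
  have h3 : ∀ i j k, ContDiff ℝ 1 fun z : ZJ => cup0 z.2.1 i j k := fun i j k =>
    ((contDiff_cup0 i j k).of_le (by norm_num)).comp
      (by fun_prop : ContDiff ℝ 1 fun z : ZJ => z.2.1)
  have h4 : ∀ i j k, ContDiff ℝ 1 fun z : ZJ => omf z.1 z.2.1 i j k := fun i j k =>
    (h2 i j k).sub (contDiff_fst.mul contDiff_const)
  have h5 : ∀ i j k, ContDiff ℝ 1 fun z : ZJ => gam z.1 z.2.1 i j k := fun i j k =>
    ((h3 i j k).sub (h3 j i k)).sub (contDiff_fst.mul contDiff_const)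
  unfold SS alg
  exact (ContDiff.sum fun i _ => (h1 _ _ _ _).sub (h1 _ _ _ _)).add (ContDiff.sum fun i _ =>
    (((contDiff_const.mul contDiff_fst).mul (h4 _ _ _)).sub
      ((contDiff_const.mul contDiff_fst).mul (h4 _ _ _))).add (ContDiff.sum fun l _ =>
      (((h4 _ _ _).mul (h4 _ _ _)).sub ((h4 _ _ _).mul (h4 _ _ _))).sub
        ((h5 _ _ _).mul (h4 _ _ _))))

lemma lip : ∃ M : ℝ, 0 ≤ M ∧ ∀ j k, ∀ z z' : ZJ, ‖z‖ ≤ 2 → ‖z'‖ ≤ 2 →
    |SS j k z - SS j k z'| ≤ M * ‖z - z'‖ := by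
  have h : ∀ j k, ∃ K, LipschitzOnWith K (SS j k) (Metric.closedBall 0 2) := fun j k =>
    LocallyLipschitzOn.exists_lipschitzOnWith_of_compact (isCompact_closedBall 0 2)
      ((contDiff_SS j k).locallyLipschitz.locallyLipschitzOn)
  choose K hK using h
  refine ⟨∑ j, ∑ k, (K j k : ℝ), by positivity, fun j k z z' hz hz' => ?_⟩
  have h1 := (hK j k).dist_le_mul z (by simpa using hz) z' (by simpa using hz')
  rw [Real.dist_eq, dist_eq_norm] at h1
  refine h1.trans (mul_le_mul_of_nonneg_right ?_ (norm_nonneg _))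
  exact (Finset.single_le_sum (f := fun k => (K j k : ℝ)) (fun _ _ => by positivity)
    (Finset.mem_univ k)).trans (Finset.single_le_sum (f := fun j => ∑ k, (K j k : ℝ))
      (fun _ _ => by positivity) (Finset.mem_univ j))

/-- the diagonal part -/
noncomputable def dgl (p e : ℝ) : Fin 4 → ℝ :=
  ![0, 4 * e ^ 2 - 2 * e ^ 8 - 2 * p ^ 2, 4 * e ^ 2 - 2 * e ^ 8 - 2 * p ^ 2, 2 * e ^ 8 - 2 * p ^ 2]

noncomputable def gz (p a b : ℝ) : T3 :=
  ![![![0, 0, 0, 0], ![0, -p, 0, 0], ![0, 0, -p, 0], ![0, 0, 0, -p]],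
    ![![0, p, 0, 0], ![0, 0, 0, 0], ![0, 0, 0, -(2 * a)], ![0, 0, 2 * b, 0]],
    ![![0, 0, p, 0], ![0, 0, 0, 2 * a], ![0, 0, 0, 0], ![0, -(2 * b), 0, 0]],
    ![![0, 0, 0, p], ![0, 0, -(2 * b), 0], ![0, 2 * b, 0, 0], ![0, 0, 0, 0]]]

noncomputable def oz (p a b : ℝ) : T3 :=
  ![![![0, 0, 0, 0], ![0, 0, 0, 0], ![0, 0, 0, 0], ![0, 0, 0, 0]],
    ![![0, p, 0, 0], ![-p, 0, 0, 0], ![0, 0, 0, -a], ![0, 0, a, 0]],
    ![![0, 0, p, 0], ![0, 0, 0, a], ![-p, 0, 0, 0], ![0, -a, 0, 0]],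
    ![![0, 0, 0, p], ![0, 0, a - 2 * b, 0], ![0, 2 * b - a, 0, 0], ![-p, 0, 0, 0]]]

lemma gam_zero (p e ei : ℝ) : gam p (e, ei, 0, 0, 0, 0, 0) = gz p (e ^ 4) (ei ^ 2) := by
  funext i j k
  fin_cases i <;> fin_cases j <;> fin_cases k <;> simp [gam, asym, cupd, cup0, gz, mul_comm]

lemma omf_eq (p : ℝ) (v : VJ) : omf p v = omJ (gam p v) := by
  funext i j k
  simp only [omf, om0, omd, omJ, gam]
  ring

lemma omJ_gz (p a b : ℝ) : omJ (gz p a b) = oz p a b := by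
  funext i j k
  fin_cases i <;> fin_cases j <;> fin_cases k <;> simp [omJ, gz, oz] <;> ring

lemma SS_zero (p : ℝ) {e : ℝ} (he : e ≠ 0) (j k : Fin 4) :
    SS j k (p, (e, e⁻¹, 0, 0, 0, 0, 0), 0) = if j = k then dgl p e j else 0 := by
  simp only [SS, Pi.zero_apply, map_zero, sub_self, Finset.sum_const_zero, zero_add, alg, omf_eq,
    gam_zero, omJ_gz]
  have h : e ^ 4 * e⁻¹ ^ 2 = e ^ 2 := by field_simp
  generalize e⁻¹ ^ 2 = b at h
  fin_cases j <;> fin_cases k <;>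
    simp [d0, gz, oz, dgl, Fin.sum_univ_four] <;>
    first | ring1 | linear_combination (4 : ℝ) * h

lemma SS_00 (z : ZJ) : SS 0 0 z = -6 * z.2.1.2.2.1 ^ 2 -
    z.2.1.1 ^ 6 * (z.2.1.2.2.2.2.2.1 0 ^ 2 + z.2.1.2.2.2.2.2.2 0 ^ 2) / 2 := by
  have h1 : ∀ i, om0 0 0 i = fun _ => 0 := fun i => by
    funext v; fin_cases i <;> simp [om0, omJ, asym, cup0]
  have h2 : ∑ i, fderiv ℝ (om0 i 0 i) z.2.1 = 0 := by
    rw [← fderiv_fun_sum fun i _ => ((contDiff_om0 i 0 i).differentiable (by norm_num)) _]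
    have : (fun v => ∑ i, om0 i 0 i v) = fun _ => (0 : ℝ) := by
      funext v; simp [om0, omJ, asym, cup0, Fin.sum_univ_four]; ring
    rw [this]; simp
  have h3 := congrArg (fun L => L (z.2.2 0)) h2
  simp only [_root_.sum_apply, _root_.zero_apply] at h3
  simp only [SS, h1, Finset.sum_sub_distrib, h3]
  simp [alg, omf, gam, om0, d0, omd, omJ, asym, cupd, cup0, Fin.sum_univ_four]
  ring

lemma psd {Rm : Fin 4 → Fin 4 → ℝ} {D : Fin 4 → ℝ} {r d m : ℝ} (hr : 0 ≤ r) (hm : 0 ≤ m)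
    (h0 : r ≤ Rm 0 0) (h1 : ∀ j k, |Rm j k - if j = k then D j else 0| ≤ m)
    (hD : ∀ j, j ≠ 0 → d ≤ D j) (h2 : 6 * m ≤ d) (h3 : 6 * m ^ 2 ≤ r * d) (v : Fin 4 → ℝ) :
    0 ≤ ∑ j, ∑ k, Rm j k * v j * v k := by
  have off : ∀ j k, j ≠ k → -(m * (|v j| * |v k|)) ≤ Rm j k * v j * v k := by
    intro j k hjk
    have := h1 j k
    rw [if_neg hjk, sub_zero] at this
    refine neg_le_of_abs_le ?_
    rw [mul_assoc, abs_mul, abs_mul]
    exact mul_le_mul_of_nonneg_right this (by positivity)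
  have dia : ∀ j, j ≠ 0 → (d - m) * |v j| ^ 2 ≤ Rm j j * v j * v j := by
    intro j hj
    have := (abs_le.1 (h1 j j)).1
    rw [if_pos rfl] at this
    rw [sq_abs, mul_assoc, ← sq]
    exact mul_le_mul_of_nonneg_right (by linarith [hD j hj]) (by positivity)
  have d00 : r * |v 0| ^ 2 ≤ Rm 0 0 * v 0 * v 0 := by
    rw [sq_abs, mul_assoc, ← sq]
    exact mul_le_mul_of_nonneg_right h0 (by positivity)
  simp only [Fin.sum_univ_four]
  have a1 := dia 1 (by decide)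
  have a2 := dia 2 (by decide)
  have a3 := dia 3 (by decide)
  have b01 := off 0 1 (by decide)
  have b02 := off 0 2 (by decide)
  have b03 := off 0 3 (by decide)
  have b10 := off 1 0 (by decide)
  have b12 := off 1 2 (by decide)
  have b13 := off 1 3 (by decide)
  have b20 := off 2 0 (by decide)
  have b21 := off 2 1 (by decide)
  have b23 := off 2 3 (by decide)
  have b30 := off 3 0 (by decide)
  have b31 := off 3 1 (by decide)
  have b32 := off 3 2 (by decide)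
  generalize |v 0| = t at *
  generalize |v 1| = x at *
  generalize |v 2| = y at *
  generalize |v 3| = z at *
  have hd : 0 ≤ d := by linarith
  have k1 : d / 6 * (x + y + z) ^ 2 ≤ d * (x ^ 2 + y ^ 2 + z ^ 2) - m * (x + y + z) ^ 2 := by
    have e1 : (x + y + z) ^ 2 ≤ 3 * (x ^ 2 + y ^ 2 + z ^ 2) := by
      nlinarith [sq_nonneg (x - y), sq_nonneg (y - z), sq_nonneg (x - z)]
    have e2 := mul_le_mul_of_nonneg_right h2 (sq_nonneg (x + y + z))
    have e3 := mul_le_mul_of_nonneg_left e1 hd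
    linarith
  have k2 : 0 ≤ r * t ^ 2 - 2 * m * t * (x + y + z) + d / 6 * (x + y + z) ^ 2 := by
    generalize x + y + z = s
    rcases hd.eq_or_lt with h | h
    · have : m = 0 := by linarith
      rw [this, ← h]
      simpa using mul_nonneg hr (sq_nonneg t)
    · have e : d * (r * t ^ 2 - 2 * m * t * s + d / 6 * s ^ 2) =
          (r * d - 6 * m ^ 2) * t ^ 2 + (6 * m * t - d * s) ^ 2 / 6 := by ring
      have : 0 ≤ d * (r * t ^ 2 - 2 * m * t * s + d / 6 * s ^ 2) := by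
        rw [e]
        exact add_nonneg (mul_nonneg (by linarith) (sq_nonneg _)) (by positivity)
      exact (mul_nonneg_iff_of_pos_left h).1 this
  nlinarith

end Vale.Agent.P225.Rc
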