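import Vale.Agent.P225.SchedA

namespace Vale.Agent.P225

open Finset

/-- charge of the class `β` at position `p` -/
def sChg (m β p : ℕ) : ℕ :=
  if p % 2 = 1 then 50 * m + 1 + 2 * β else 980 * m + p + 1 - (50 * m + 1 + 2 * β)

/-- the mode of the class `β` at position `p` -/
def sMode (m n β p : ℕ) : ℕ × ℕ :=
  ((980 * m + p + sChg m β p) / 2 - n, (980 * m + p - sChg m β p) / 2)

theorem sMode_dg {m n β : ℕ} (hn : n < 505 * m) (hβ : β < 25 * m) (p : ℕ) :
    dg n (sMode m n β p) = 980 * m + p := by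
  simp only [dg, sMode, sChg]; split_ifs <;> omega

theorem sMode_ch {m n β : ℕ} (hn : n < 505 * m) (hβ : β < 25 * m) (p : ℕ) :
    ch n (sMode m n β p) = sChg m β p := by
  simp only [ch, sMode, sChg]; split_ifs <;> omega

theorem sMode_inj {m n β β' p p' : ℕ} (hn : n < 505 * m) (hβ : β < 25 * m) (hβ' : β' < 25 * m)
    (h : sMode m n β p = sMode m n β' p') : β = β' ∧ p = p' := by
  have h1 := sMode_dg hn hβ p
  have h2 := sMode_ch hn hβ p
  rw [h, sMode_dg hn hβ'] at h1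
  rw [h, sMode_ch hn hβ'] at h2
  obtain rfl : p = p' := by omega
  simp only [sChg] at h2
  split_ifs at h2 <;> omega

theorem sChg_facts {m β : ℕ} (hβ : β < 25 * m) (p : ℕ) :
    ((sChg m β p : ℤ) + sChg m β (p + 1) = (980 * m + p : ℕ) + 1 ∨
      (sChg m β p : ℤ) + sChg m β (p + 1) = (980 * m + p : ℕ) + 2) ∧
    ((sChg m β p : ℤ) + sChg m β (p + 1)) % 2 = 1 ∧
    780 * (m : ℤ) ≤ |(sChg m β (p + 1) : ℤ) - sChg m β p| := by
  rw [le_abs]
  simp only [sChg]; split_ifs <;> omega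

theorem sChg_bd {m β : ℕ} (hβ : β < 25 * m) (p : ℕ) :
    50 * m < sChg m β p ∧ sChg m β p ≤ 980 * m + p := by
  simp only [sChg]; split_ifs <;> omega

theorem sMode_MF {m n β : ℕ} (hn : 495 * m ≤ n) (hβ : β < 25 * m) (p : ℕ) :
    MF (1020 * m) n (sChg m β p) := fun j h1 h2 => by
  have := sChg_bd hβ p
  simp only [dg, ch] at h1 h2
  omega

/-- position of a label of the class `β` -/
def sPos (K N β p : ℕ) : ℕ → ℕ
  | 0 => p
  | s + 1 => if s % K / N = β then Equiv.swap (s % K % N) (s % K % N + 1) (sPos K N β p s)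
      else sPos K N β p s

theorem sPos_round {K N β : ℕ} (hN : 0 < N) (p r : ℕ) : ∀ t ≤ K, sPos K N β p (r * K + t) =
    if sPos K N β p (r * K) = 0 then min N (t - β * N)
    else if sPos K N β p (r * K) ≤ min N (t - β * N) then sPos K N β p (r * K) - 1
    else sPos K N β p (r * K) := by
  intro t ht
  induction t with
  | zero => simp only [add_zero]; split_ifs <;> omega
  | succ t ih =>
    have h1 : (r * K + t) % K = t := by
      rw [Nat.add_comm, Nat.add_mul_mod_self_right, Nat.mod_eq_of_lt (by omega)]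
    rw [← add_assoc, sPos, h1, ih (by omega)]
    have h2 := Nat.div_add_mod t N
    have h3 := Nat.mod_lt t hN
    generalize sPos K N β p (r * K) = a
    by_cases h : t / N = β
    · rw [if_pos h, Equiv.swap_apply_def]
      rw [h, mul_comm] at h2
      split_ifs <;> omega
    · rw [if_neg h]
      have h4 : t + 1 ≤ β * N ∨ β * N + N ≤ t := by
        rcases Nat.lt_or_gt_of_ne h with h | h
        · have := Nat.mul_le_mul_right N (show t / N + 1 ≤ β from h)
          rw [add_mul, mul_comm (t / N)] at this; omega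
        · have := Nat.mul_le_mul_right N (show β + 1 ≤ t / N from h)
          rw [add_mul, mul_comm (t / N)] at this; omega
      rw [show min N (t + 1 - β * N) = min N (t - β * N) by omega]

theorem sPos_avg {K N β p : ℕ} (hN : 0 < N) (hK : β * N + N ≤ K) (hp : p ≤ N) (c : ℝ) (j : ℕ) :
    ∑ s ∈ Ico (j * ((N + 1) * K)) ((j + 1) * ((N + 1) * K)),
      (c + (max (sPos K N β p s) (sPos K N β p (s + 1)) : ℕ)) ≤
      ((N + 1) * K : ℕ) * (c + (N + 2) / 2 + (N + 1) / 8) := by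
  have h1 : ∀ r, sPos K N β p (r * K) ≤ N → sPos K N β p ((r + 1) * K) =
      if sPos K N β p (r * K) = 0 then N else sPos K N β p (r * K) - 1 := fun r hr => by
    rw [add_mul, one_mul, sPos_round hN p r K le_rfl, min_eq_left (by omega), if_pos hr]
  have h2 : ∀ r, sPos K N β p (r * K) ≤ N := fun r => by
    induction r with
    | zero => rw [zero_mul]; exact hp
    | succ r ih => rw [h1 r ih]; split_ifs <;> omega
  have h3 : ∀ r, ∀ t ≤ K, sPos K N β p (r * K + t) ≤
      if sPos K N β p (r * K) = 0 then N else sPos K N β p (r * K) := fun r t ht => by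
    rw [sPos_round hN p r t ht]; split_ifs <;> omega
  let Φ : ℕ → ℝ := fun r => (sPos K N β p (r * K) : ℝ) * (N + 1 - sPos K N β p (r * K))
  have h4 : ∀ r, ∑ s ∈ Ico (r * K) ((r + 1) * K),
      (c + (max (sPos K N β p s) (sPos K N β p (s + 1)) : ℕ)) ≤
      K * (c + (N + 2) / 2 + (Φ (r + 1) - Φ r) / 2) := fun r => by
    have a1 : ((if sPos K N β p (r * K) = 0 then N else sPos K N β p (r * K) : ℕ) : ℝ) ≤
        (N + 2) / 2 + (Φ (r + 1) - Φ r) / 2 := by
      simp only [Φ, h1 r (h2 r)]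
      generalize sPos K N β p (r * K) = a
      rcases a with _ | a
      · simp only [if_true]; push_cast; linarith
      · simp only [Nat.succ_ne_zero, if_false, Nat.add_sub_cancel]; push_cast; linarith
    refine (sum_le_card_nsmul _ _ (c + (N + 2) / 2 + (Φ (r + 1) - Φ r) / 2) fun s hs => ?_).trans
      (le_of_eq ?_)
    · rw [mem_Ico, add_mul, one_mul] at hs
      obtain ⟨t, rfl⟩ := Nat.exists_eq_add_of_le hs.1
      have b1 := max_le (h3 r t (by omega)) (h3 r (t + 1) (by omega))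
      have b2 := (Nat.cast_le (α := ℝ)).2 b1
      rw [← add_assoc] at b2
      linarith
    · rw [Nat.card_Ico, add_mul, one_mul, Nat.add_sub_cancel_left, nsmul_eq_mul]
  have h5 : ∀ r0 R, ∑ s ∈ Ico (r0 * K) ((r0 + R) * K),
      (c + (max (sPos K N β p s) (sPos K N β p (s + 1)) : ℕ)) ≤
      K * (R * (c + (N + 2) / 2) + (Φ (r0 + R) - Φ r0) / 2) := fun r0 R => by
    induction R with
    | zero => simp
    | succ R ih =>
      rw [← add_assoc, ← sum_Ico_consecutive _ (Nat.mul_le_mul_right K (Nat.le_add_right r0 R))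
        (Nat.mul_le_mul_right K (Nat.le_succ _))]
      refine (add_le_add ih (h4 _)).trans (le_of_eq ?_)
      push_cast; ring
  have h6 := h5 (j * (N + 1)) (N + 1)
  rw [show j * (N + 1) * K = j * ((N + 1) * K) by ring,
    show (j * (N + 1) + (N + 1)) * K = (j + 1) * ((N + 1) * K) by ring] at h6
  refine h6.trans ?_
  have h7 : 0 ≤ Φ (j * (N + 1)) := mul_nonneg (Nat.cast_nonneg _) (by
    have := (Nat.cast_le (α := ℝ)).2 (h2 (j * (N + 1))); linarith)
  have h8 : Φ (j * (N + 1) + (N + 1)) ≤ (N + 1) ^ 2 / 4 := by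
    simp only [Φ]
    nlinarith [sq_nonneg (2 * (sPos K N β p ((j * (N + 1) + (N + 1)) * K) : ℝ) - (N + 1))]
  push_cast
  rw [mul_comm ((N : ℝ) + 1) K, mul_assoc]
  exact mul_le_mul_of_nonneg_left (by nlinarith) (Nat.cast_nonneg _)

section
variable (m : ℕ) (hm : 0 < 25 * m * (30 * m))

def sKd (s : ℕ) : Fin (25 * m * (30 * m)) := ⟨s % (25 * m * (30 * m)), Nat.mod_lt _ hm⟩
def sLo (κ : Fin (25 * m * (30 * m))) (n : ℕ) : ℕ × ℕ := sMode m n (κ / (30 * m)) (κ % (30 * m))
def sHi (κ : Fin (25 * m * (30 * m))) (n : ℕ) : ℕ × ℕ :=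
  sMode m n (κ / (30 * m)) (κ % (30 * m) + 1)
def sCl (n : ℕ) : Finset (ℕ × ℕ) :=
  if n ∈ Ico (495 * m) (505 * m) then
    (range (25 * m) ×ˢ range (30 * m + 1)).image fun x => sMode m n x.1 x.2 else ∅
def sAll : Finset (ℕ × (ℕ × ℕ)) :=
  (Ico (495 * m) (505 * m) ×ˢ (range (25 * m) ×ˢ range (30 * m + 1))).image
    fun x => (x.1, sMode m x.1 x.2.1 x.2.2)
def sTop : Finset (ℕ × (ℕ × ℕ)) :=
  (Ico (495 * m) (505 * m) ×ˢ (range (25 * m) ×ˢ Ico (20 * m) (30 * m))).image
    fun x => (x.1, sMode m x.1 x.2.1 x.2.2)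

variable {m}

theorem sK_lt (κ : Fin (25 * m * (30 * m))) : κ / (30 * m) < 25 * m ∧ κ % (30 * m) < 30 * m := by
  have h := κ.2
  generalize (κ : ℕ) = k at h ⊢
  refine ⟨Nat.div_lt_of_lt_mul (by rwa [mul_comm]), Nat.mod_lt _ (Nat.pos_of_ne_zero fun h0 => ?_)⟩
  rw [h0] at h; simp at h

theorem mem_sCl {n : ℕ} {i : ℕ × ℕ} : i ∈ sCl m n ↔ n ∈ Ico (495 * m) (505 * m) ∧
    ∃ β < 25 * m, ∃ p ≤ 30 * m, sMode m n β p = i := by
  unfold sCl
  split_ifs with h
  · simp only [mem_image, mem_product, mem_range, Prod.exists, h, true_and, Nat.lt_succ_iff]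
    exact ⟨fun ⟨a, b, h1, h2⟩ => ⟨a, h1.1, b, h1.2, h2⟩, fun ⟨a, h1, b, h2, h3⟩ =>
      ⟨a, b, ⟨h1, h2⟩, h3⟩⟩
  · simp [h]

theorem mem_sAll {l : ℕ × (ℕ × ℕ)} : l ∈ sAll m ↔ l.2 ∈ sCl m l.1 := by
  rw [mem_sCl]
  simp only [sAll, mem_image, mem_product, mem_range, Prod.exists, Nat.lt_succ_iff]
  exact ⟨fun ⟨n, a, b, h1, h2⟩ => h2 ▸ ⟨h1.1, a, h1.2.1, b, h1.2.2, rfl⟩,
    fun ⟨h0, a, h1, b, h2, h3⟩ => ⟨l.1, a, b, ⟨h0, h1, h2⟩, by rw [h3]⟩⟩

theorem sTop_card : (sTop m).card = 10 * m * (25 * m * (10 * m)) := by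
  rw [sTop, card_image_of_injOn]
  · simp only [card_product, Nat.card_Ico, card_range]
    congr 1
    · omega
    · congr 1; omega
  · rintro ⟨n, β, p⟩ hx ⟨n', β', p'⟩ hy h
    simp only [mem_coe, mem_product, mem_Ico, mem_range] at hx hy
    simp only [Prod.mk.injEq] at h
    obtain ⟨rfl, h⟩ := h
    obtain ⟨rfl, rfl⟩ := sMode_inj hx.1.2 hx.2.1 hy.2.1 h
    rfl

theorem sPerm_cl {n β : ℕ} (hn : n ∈ Ico (495 * m) (505 * m)) (hβ : β < 25 * m) (p s : ℕ) :
    permOf (sKd m hm) (Ico (495 * m) (505 * m)) (sLo m) (sHi m) n s (sMode m n β p) =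
      sMode m n β (sPos (25 * m * (30 * m)) (30 * m) β p s) := by
  induction s with
  | zero => rfl
  | succ s ih =>
    have h1 := (mem_Ico.1 hn).2
    have h2 := (sK_lt (sKd m hm s)).1
    rw [permOf, if_pos hn, Equiv.Perm.mul_apply, ih, sPos]
    unfold sLo sHi
    change _ = sMode m n β (if (sKd m hm s : ℕ) / (30 * m) = β then
      Equiv.swap ((sKd m hm s : ℕ) % (30 * m)) ((sKd m hm s : ℕ) % (30 * m) + 1) _ else _)
    generalize sPos (25 * m * (30 * m)) (30 * m) β p s = q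
    split_ifs with h
    · rw [h]
      exact Function.Injective.swap_apply (f := sMode m n β)
        (fun _ _ h => (sMode_inj h1 hβ hβ h).2) _ _ _
    · exact Equiv.swap_apply_of_ne_of_ne (fun h' => h (sMode_inj h1 hβ h2 h').1.symm)
        fun h' => h (sMode_inj h1 hβ h2 h').1.symm

theorem sLo_cl (κ) {n : ℕ} (hn : n ∈ Ico (495 * m) (505 * m)) : sLo m κ n ∈ sCl m n :=
  mem_sCl.2 ⟨hn, _, (sK_lt κ).1, _, (sK_lt κ).2.le, rfl⟩

theorem sHi_cl (κ) {n : ℕ} (hn : n ∈ Ico (495 * m) (505 * m)) : sHi m κ n ∈ sCl m n :=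
  mem_sCl.2 ⟨hn, _, (sK_lt κ).1, _, (sK_lt κ).2, rfl⟩

theorem sPerm_fix {n : ℕ} {i : ℕ × ℕ} (hi : i ∉ sCl m n) (s : ℕ) :
    permOf (sKd m hm) (Ico (495 * m) (505 * m)) (sLo m) (sHi m) n s i = i := by
  induction s with
  | zero => rfl
  | succ s ih =>
    rw [permOf, Equiv.Perm.mul_apply, ih]
    split_ifs with h
    · exact Equiv.swap_apply_of_ne_of_ne (fun h' => hi (h' ▸ sLo_cl _ h))
        fun h' => hi (h' ▸ sHi_cl _ h)
    · rfl

end

theorem sch_ne {m β : ℕ} (hβ : β < 25 * m) (p : ℕ) :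
    ((sChg m β p : ℤ) + sChg m β (p + 1)) * ((sChg m β (p + 1) : ℤ) - sChg m β p) ≠ 0 := by
  obtain ⟨h1, -, h2⟩ := sChg_facts hβ p
  refine mul_ne_zero (by omega) fun h => ?_
  rw [h] at h2; simp at h2; omega

theorem exists_sched' (x m d0 : ℕ) (hx : m = 500 * (x + 100)) (hd : d0 = 499999 * x + 49999848) :
    ∃ S : Sched, S.θ = 1 / (200 * m) := by
  have hm : 0 < 25 * m * (30 * m) := Nat.mul_pos (by omega) (by omega)
  have hm' : (50000 : ℝ) ≤ m := by exact_mod_cast (by omega : 50000 ≤ m)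
  refine ⟨{
    D := 1020 * m
    k := 1000 * m
    nK := 25 * m * (30 * m)
    kd := sKd m hm
    band := Ico (495 * m) (505 * m)
    lo := sLo m
    hi := sHi m
    dl := fun κ => 980 * m + κ % (30 * m)
    el := fun κ => sChg m (κ / (30 * m)) (κ % (30 * m))
    eh := fun κ => sChg m (κ / (30 * m)) (κ % (30 * m) + 1)
    t0 := fun κ => schT (980 * m + κ % (30 * m)) (sChg m (κ / (30 * m)) (κ % (30 * m)))
      (sChg m (κ / (30 * m)) (κ % (30 * m) + 1))
    θ := 1 / (200 * m)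
    dp := 1010 * m
    cl := sCl m
    LL := schLow d0 ∪ sAll m
    P := (30 * m + 1) * (25 * m * (30 * m))
    hk := by omega
    band_pos := fun n hn => by have := (mem_Ico.1 hn).1; omega
    lo_dg := fun κ n hn => sMode_dg (mem_Ico.1 hn).2 (sK_lt κ).1 _
    lo_ch := fun κ n hn => sMode_ch (mem_Ico.1 hn).2 (sK_lt κ).1 _
    hi_dg := fun κ n hn => (sMode_dg (mem_Ico.1 hn).2 (sK_lt κ).1 _).trans (add_assoc _ _ _).symm
    hi_ch := fun κ n hn => sMode_ch (mem_Ico.1 hn).2 (sK_lt κ).1 _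
    dl_pos := fun κ => by omega
    dl_le := fun κ => by have := (sK_lt κ).2; omega
    el_le := fun κ => by
      rw [Nat.abs_cast]; exact_mod_cast (sChg_bd (sK_lt κ).1 _).2
    eh_le := fun κ => by
      rw [Nat.abs_cast]; exact_mod_cast (sChg_bd (sK_lt κ).1 _).2
    reson := fun κ => (sch_fm (sch_ne (sK_lt κ).1 _) _ _ _ _).2 (by push_cast; ring)
    R1 := fun κ d d' e e' h1 h2 h3 h4 h5 h6 => ?_
    R2 := fun κ n hn i h1 h2 => ?_
    lo_cl := fun κ n hn => sLo_cl κ hn
    hi_cl := fun κ n hn => sHi_cl κ hn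
    cl_MF := fun n i hi => ?_
    cl_LL := fun n i hi => mem_union_right _ ((mem_sAll (l := (n, i))).2 hi)
    θ_pos := by positivity
    θ_le := one_div_le_one_div_of_le (by norm_num) (by linarith)
    t0_near := fun κ => sch_near (by omega) (by have := (sChg_facts (sK_lt κ).1 (κ % (30 * m))).1; omega)
      (sChg_facts (sK_lt κ).1 _).2.2
    θ_D := by
      rw [one_div, inv_mul_le_iff₀ (by positivity)]; push_cast; linarith
    LL_pos := fun l hl => ?_
    LL_dg := fun l hl => ?_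
    dp_D := by omega
    P_pos := Nat.mul_pos (by omega) hm
    avg := fun l hl j => ?_
    count := ?_ }, rfl⟩
  · obtain ⟨a1, a2, a3⟩ := sChg_facts (sK_lt κ).1 (κ % (30 * m))
    have a4 := right_ne_zero_of_mul (sch_ne (sK_lt κ).1 (κ % (30 * m)))
    rw [sch_fm (sch_ne (sK_lt κ).1 _)] at h5
    rcases h6 with h6 | h6
    · have := sch_R1 (m := m) (by omega) (by omega) a1 a2 a4 h3 h4 (by omega) (by omega) h5 h6
      omega
    · have := sch_R1 (m := m) (by omega) (by omega) a1 a2 a4 h4 h3 (by omega) (by omega)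
        (by linear_combination -h5) (by omega)
      omega
  · obtain ⟨a1, a2, a3⟩ := sChg_facts (sK_lt κ).1 (κ % (30 * m))
    have a4 := (sChg_bd (sK_lt κ).1 (κ % (30 * m))).2
    have a5 := (sK_lt κ).2
    obtain ⟨n1, n2⟩ := mem_Ico.1 hn
    rw [eq_comm, sch_fm (sch_ne (sK_lt κ).1 _)] at h2
    rcases sch_R2 (m := m) (by omega) (by omega) a1 a3 (by omega) (by omega) (by omega)
      (abs_ch_le n i) (by omega) h2 with ⟨b1, b2⟩ | ⟨b1, b2⟩
    · refine Or.inl (mode_ext (n := n) ?_ ?_)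
      · rw [sLo, sMode_dg n2 (sK_lt κ).1]; omega
      · rw [sLo, sMode_ch n2 (sK_lt κ).1]
        exact b2.resolve_right (sMode_MF n1 (sK_lt κ).1 _ i h1)
    · refine Or.inr (mode_ext (n := n) ?_ ?_)
      · rw [sHi, sMode_dg n2 (sK_lt κ).1]; omega
      · rw [sHi, sMode_ch n2 (sK_lt κ).1]
        exact b2.resolve_right (sMode_MF n1 (sK_lt κ).1 _ i h1)
  · obtain ⟨hn, β, hβ, p, -, rfl⟩ := mem_sCl.1 hi
    rw [sMode_ch (mem_Ico.1 hn).2 hβ]
    exact sMode_MF (mem_Ico.1 hn).1 hβ p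
  · rcases mem_union.1 hl with h | h
    · exact (schLow_mem h).1
    · have := (mem_Ico.1 (mem_sCl.1 (mem_sAll.1 h)).1).1; omega
  · rcases mem_union.1 hl with h | h
    · have := (schLow_mem h).2; omega
    · obtain ⟨hn, β, hβ, p, hp, h⟩ := mem_sCl.1 (mem_sAll.1 h)
      rw [← h, sMode_dg (mem_Ico.1 hn).2 hβ]; omega
  · by_cases hc : l.2 ∈ sCl m l.1
    · obtain ⟨hn, β, hβ, p, hp, h⟩ := mem_sCl.1 hc
      have h1 := sPos_avg (K := 25 * m * (30 * m)) (N := 30 * m) (β := β) (by omega) (by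
        have := Nat.mul_le_mul_right (30 * m) (show β + 1 ≤ 25 * m from hβ)
        rwa [add_mul, one_mul] at this) hp (980 * m + 52) j
      refine le_trans (le_of_eq (sum_congr rfl fun s _ => ?_)) (h1.trans
        (mul_le_mul_of_nonneg_left ?_ (Nat.cast_nonneg _)))
      · rw [← h, sPerm_cl hm hn hβ, sPerm_cl hm hn hβ, sMode_dg (mem_Ico.1 hn).2 hβ,
          sMode_dg (mem_Ico.1 hn).2 hβ, Nat.add_max_add_left]
        push_cast; ring
      · unfold del; push_cast; linarith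
    · have h1 := (schLow_mem ((mem_union.1 hl).resolve_right fun h => hc (mem_sAll.1 h))).2
      have h2 := (Nat.cast_le (α := ℝ)).2 h1
      have h3 : (m : ℝ) = 500 * (x + 100) := by exact_mod_cast hx
      simp only [sPerm_fix hm hc, max_self]
      rw [sum_const, Nat.card_Ico, add_mul, one_mul, Nat.add_sub_cancel_left, nsmul_eq_mul]
      refine mul_le_mul_of_nonneg_left ?_ (Nat.cast_nonneg _)
      rw [hd] at h2
      unfold del; push_cast at h2 ⊢; linarith
  · have h1 : schLow d0 ∪ sTop m ⊆ schLow d0 ∪ sAll m :=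
      union_subset_union_right (image_subset_image (product_subset_product_right
        (product_subset_product_right fun p hp => by
          rw [mem_range]; have := (mem_Ico.1 hp).2; omega)))
    have h2 : Disjoint (schLow d0) (sTop m) := by
      rw [disjoint_left]
      intro l h h'
      obtain ⟨⟨n, β, p⟩, hy, rfl⟩ := mem_image.1 h'
      simp only [mem_product, mem_Ico, mem_range] at hy
      have := (schLow_mem h).2
      rw [sMode_dg hy.1.2 hy.2.1] at this
      dsimp only at this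
      omega
    have h3 := card_le_card h1
    rw [card_union_of_disjoint h2, sTop_card] at h3
    have h4 := schLow_card d0
    have h5 := sch_dim (k := 1000 * m) (by omega)
    have h6 : (1000 * m + 3) ^ 3 < d0 * (d0 + 1) *
        (d0 + 2) + 6 * (10 * m * (25 * m * (10 * m))) := by
      subst hx hd; ring_nf; omega
    omega

theorem exists_sched {θ₀ : ℝ} (h : 0 < θ₀) : ∃ S : Sched, S.θ ≤ θ₀ := by
  obtain ⟨S, hS⟩ := exists_sched' ⌈1 / θ₀⌉₊ _ _ rfl rfl
  refine ⟨S, ?_⟩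
  have h1 := Nat.le_ceil (1 / θ₀)
  rw [hS, one_div_le (by positivity) h]
  push_cast
  linarith [Nat.cast_nonneg (α := ℝ) ⌈1 / θ₀⌉₊]

end Vale.Agent.P225
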