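import Vale.Agent.P225.SchedDefs

/-! Arithmetic of the resonances. -/

namespace Vale.Agent.P225

theorem sch_cop {d s : ℤ} (hs : s = d + 1 ∨ s = d + 2) : IsCoprime (2 * d + 3) s := by
  rcases hs with rfl | rfl
  · exact ⟨1, -2, by ring⟩
  · exact ⟨-1, 2, by ring⟩

theorem sch_R1 {m d el eh d1 d2 e e' : ℤ} (_hm : 1 ≤ m) (hd : 980 * m ≤ d)
    (hs : el + eh = d + 1 ∨ el + eh = d + 2) (hodd : (el + eh) % 2 = 1) (hw : eh - el ≠ 0)
    (h1 : |e| ≤ d1) (h2 : |e'| ≤ d2) (h3 : d1 ≤ 1020 * m) (h4 : d2 ≤ 1020 * m)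
    (heq : (d2 * (d2 + 2) - d1 * (d1 + 2)) * ((el + eh) * (eh - el)) = (2 * d + 3) * (e' ^ 2 - e ^ 2))
    (hw' : e' - e = eh - el) :
    (d1 = d ∧ d2 = d + 1 ∧ e = el ∧ e' = eh) ∨ (d2 = d ∧ d1 = d + 1 ∧ e' = -el ∧ e = -eh) := by
  rw [abs_le] at h1 h2
  have a1 : (d2 - d1) * (d1 + d2 + 2) * (el + eh) = (2 * d + 3) * (e + e') := by
    apply mul_right_cancel₀ hw
    rw [← hw'] at heq ⊢
    linear_combination heq
  obtain ⟨q, hq⟩ : (el + eh) ∣ e + e' :=
    (sch_cop hs).symm.dvd_of_dvd_mul_left ⟨_, by rw [← a1, mul_comm]⟩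
  have hs0 : d + 1 ≤ el + eh := by omega
  have a2 : (d2 - d1) * (d1 + d2 + 2) = (2 * d + 3) * q := by
    apply mul_right_cancel₀ (show el + eh ≠ 0 by omega)
    rw [a1, hq]; ring
  have a3 : q < 3 := by
    by_contra h
    have : (el + eh) * 3 ≤ (el + eh) * q := mul_le_mul_of_nonneg_left (by omega) (by omega)
    omega
  have a4 : -3 < q := by
    by_contra h
    have : (el + eh) * q ≤ (el + eh) * (-3) := mul_le_mul_of_nonneg_left (by omega) (by omega)
    omega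
  have a5 : q = 1 ∨ q = -1 := by
    have : q = -2 ∨ q = -1 ∨ q = 0 ∨ q = 1 ∨ q = 2 := by omega
    rcases this with rfl | rfl | rfl | rfl | rfl <;> omega
  rcases a5 with rfl | rfl
  · left
    have b1 : d2 - d1 < 2 := by
      by_contra h
      have : 2 * (d1 + d2 + 2) ≤ (d2 - d1) * (d1 + d2 + 2) :=
        mul_le_mul_of_nonneg_right (by omega) (by omega)
      omega
    have b2 : 0 < d2 - d1 := by
      by_contra h
      have : (d2 - d1) * (d1 + d2 + 2) ≤ 0 * (d1 + d2 + 2) :=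
        mul_le_mul_of_nonneg_right (by omega) (by omega)
      omega
    rw [show d2 - d1 = 1 by omega] at a2
    omega
  · right
    have b1 : -2 < d2 - d1 := by
      by_contra h
      have : (d2 - d1) * (d1 + d2 + 2) ≤ (-2) * (d1 + d2 + 2) :=
        mul_le_mul_of_nonneg_right (by omega) (by omega)
      omega
    have b2 : d2 - d1 < 0 := by
      by_contra h
      have : 0 * (d1 + d2 + 2) ≤ (d2 - d1) * (d1 + d2 + 2) :=
        mul_le_mul_of_nonneg_right (by omega) (by omega)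
      omega
    rw [show d2 - d1 = -1 by omega] at a2
    omega

theorem sch_R2 {m d el eh d2 e' : ℤ} (hm : 1 ≤ m) (hd : 980 * m ≤ d)
    (hs : el + eh = d + 1 ∨ el + eh = d + 2) (hw : 780 * m ≤ |eh - el|) (h0 : 0 ≤ el)
    (h0' : 0 ≤ eh) (h1 : el ≤ 1020 * m) (h2 : |e'| ≤ d2) (h4 : d2 ≤ 1020 * m)
    (heq : (d2 * (d2 + 2) - d * (d + 2)) * ((el + eh) * (eh - el)) =
      (2 * d + 3) * (e' ^ 2 - el ^ 2)) :
    (d2 = d ∧ (e' = el ∨ e' = -el)) ∨ (d2 = d + 1 ∧ (e' = eh ∨ e' = -eh)) := by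
  have hd2 : 0 ≤ d2 := (abs_nonneg _).trans h2
  have a1 : |e' ^ 2 - el ^ 2| ≤ (1020 * m) ^ 2 := by
    have b1 : e' ^ 2 ≤ (1020 * m) ^ 2 := by
      rw [← sq_abs]; exact pow_le_pow_left₀ (abs_nonneg _) (h2.trans h4) 2
    have b2 : el ^ 2 ≤ (1020 * m) ^ 2 := pow_le_pow_left₀ h0 h1 2
    rw [abs_le]
    constructor <;> nlinarith [sq_nonneg e', sq_nonneg el]
  have a2 : 2 * |d2 * (d2 + 2) - d * (d + 2)| ≤ 3 * (2 * d + 3) := by
    have b1 := congrArg abs heq
    rw [abs_mul, abs_mul, abs_mul, abs_of_nonneg (show 0 ≤ el + eh by omega),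
      abs_of_nonneg (show 0 ≤ 2 * d + 3 by omega)] at b1
    have b2 : 980 * m * (780 * m) ≤ (el + eh) * |eh - el| :=
      mul_le_mul (by omega) hw (by omega) (by omega)
    have b3 := mul_le_mul_of_nonneg_left b2 (abs_nonneg (d2 * (d2 + 2) - d * (d + 2)))
    have b4 := mul_le_mul_of_nonneg_left a1 (show 0 ≤ 2 * d + 3 by omega)
    have b5 : 0 < m ^ 2 := by positivity
    by_contra h
    have b6 := mul_le_mul_of_nonneg_right (not_le.1 h).le b5.le
    have b7 : 0 < (2 * d + 3) * m ^ 2 := mul_pos (by omega) b5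
    nlinarith
  have a3 : d2 < d + 2 := by
    by_contra h
    have := le_abs_self (d2 * (d2 + 2) - d * (d + 2))
    nlinarith [mul_le_mul (not_lt.1 h) (show d + 4 ≤ d2 + 2 by omega) (by omega) hd2]
  have a4 : d - 2 < d2 := by
    by_contra h
    have := neg_abs_le (d2 * (d2 + 2) - d * (d + 2))
    nlinarith [mul_le_mul (not_lt.1 h) (show d2 + 2 ≤ d by omega) (by omega) (by omega)]
  have a5 : d2 = d - 1 ∨ d2 = d ∨ d2 = d + 1 := by omega
  have hd0 : 2 * d + 3 ≠ 0 := by omega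
  rcases a5 with rfl | rfl | rfl
  · exfalso
    have b1 : (2 * d + 3) ∣ (2 * d + 1) * ((el + eh) * (eh - el)) :=
      ⟨-(e' ^ 2 - el ^ 2), by linear_combination -heq⟩
    have b2 : IsCoprime (2 * d + 3) (2 * d + 1) := ⟨-d, d + 1, by ring⟩
    have b3 := (sch_cop hs).dvd_of_dvd_mul_left (b2.dvd_of_dvd_mul_left b1)
    have b4 := Int.eq_zero_of_abs_lt_dvd b3 (by rw [abs_lt]; omega)
    rw [b4] at hw; simp at hw; omega
  · refine Or.inl ⟨rfl, sq_eq_sq_iff_eq_or_eq_neg.1 ?_⟩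
    apply mul_left_cancel₀ hd0
    linear_combination -heq
  · refine Or.inr ⟨rfl, sq_eq_sq_iff_eq_or_eq_neg.1 ?_⟩
    apply mul_left_cancel₀ hd0
    linear_combination -heq

/-- the resonant anisotropy -/
noncomputable def schT (d : ℕ) (el eh : ℤ) : ℝ :=
  1 - (2 * d + 3) / (((el : ℝ) + eh) * ((eh : ℝ) - el))

theorem sch_fm {d : ℕ} {el eh : ℤ} (h : (el + eh) * (eh - el) ≠ 0) (d1 d2 : ℕ) (e e' : ℤ) :
    fm (schT d el eh) d1 e = fm (schT d el eh) d2 e' ↔
      ((d2 : ℤ) * (d2 + 2) - d1 * (d1 + 2)) * ((el + eh) * (eh - el)) =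
        (2 * d + 3) * (e' ^ 2 - e ^ 2) := by
  have h' : ((el : ℝ) + eh) * ((eh : ℝ) - el) ≠ 0 := by exact_mod_cast h
  rw [← Int.cast_inj (α := ℝ)]
  push_cast
  unfold fm schT
  generalize ((el : ℝ) + eh) * ((eh : ℝ) - el) = w at h'
  rw [sub_sub_cancel]
  constructor
  · intro H
    field_simp at H
    linear_combination -H
  · intro H
    field_simp
    linear_combination -H

theorem sch_near {m d : ℕ} {el eh : ℤ} (hm : 1 ≤ m) (hs : (d : ℤ) + 1 ≤ el + eh)
    (hw : 780 * (m : ℤ) ≤ |eh - el|) : |1 - schT d el eh| ≤ 1 / (200 * m) := by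
  have h1 : (d : ℝ) + 1 ≤ el + eh := by exact_mod_cast hs
  have h2 : 780 * (m : ℝ) ≤ |(eh : ℝ) - el| := by exact_mod_cast hw
  have h3 : (1 : ℝ) ≤ m := by exact_mod_cast hm
  have h4 : (0 : ℝ) ≤ d := Nat.cast_nonneg _
  unfold schT
  rw [sub_sub_cancel, abs_div, abs_mul, abs_of_nonneg (by positivity),
    abs_of_nonneg (show (0 : ℝ) ≤ el + eh by linarith),
    div_le_div_iff₀ (mul_pos (by linarith) (by linarith)) (by positivity)]
  have h5 := mul_le_mul h1 h2 (by positivity) (by linarith)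
  nlinarith

/-! ### counting -/

/-- the modes of positive type and degree at most `d` -/
def schLow (d : ℕ) : Finset (ℕ × (ℕ × ℕ)) :=
  ((Finset.range d).sigma fun s => (Finset.range (s + 1)).sigma fun u => Finset.range (u + 1)).image
    fun x => (x.1 - x.2.1 + 1, (x.2.1 - x.2.2, x.2.2))

theorem schLow_mem {d : ℕ} {l : ℕ × (ℕ × ℕ)} (h : l ∈ schLow d) : 1 ≤ l.1 ∧ dg l.1 l.2 ≤ d := by
  obtain ⟨x, hx, rfl⟩ := Finset.mem_image.1 h
  simp only [Finset.mem_sigma, Finset.mem_range] at hx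
  simp only [dg]; omega

theorem schLow_card (d : ℕ) : 6 * (schLow d).card = d * (d + 1) * (d + 2) := by
  rw [schLow, Finset.card_image_of_injOn]
  · simp only [Finset.card_sigma, Finset.card_range]
    have h1 : ∀ s, 2 * ∑ u ∈ Finset.range (s + 1), (u + 1) = (s + 1) * (s + 2) := fun s => by
      induction s with
      | zero => rfl
      | succ s ih => rw [Finset.sum_range_succ, mul_add, ih]; ring
    induction d with
    | zero => rfl
    | succ d ih =>
      rw [Finset.sum_range_succ, mul_add, ih, show 6 = 3 * 2 from rfl, mul_assoc 3, h1]; ring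
  · rintro ⟨s, u, v⟩ hx ⟨s', u', v'⟩ hy h
    simp only [Finset.mem_coe, Finset.mem_sigma, Finset.mem_range] at hx hy
    simp only [Prod.mk.injEq] at h
    obtain ⟨rfl, rfl, rfl⟩ : s = s' ∧ u = u' ∧ v = v' := by omega
    rfl

theorem sch_choose3 (k : ℕ) : 6 * (k + 3).choose 3 = (k + 1) * (k + 2) * (k + 3) := by
  induction k with
  | zero => rfl
  | succ k ih =>
    have h1 := Nat.add_one_mul_choose_eq (k + 2) 1
    have h2 := Nat.choose_succ_succ' (k + 3) 2
    rw [Nat.choose_one_right] at h1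
    rw [show k + 1 + 3 = k + 3 + 1 from rfl, h2, mul_add, ih]
    nlinarith

theorem sch_dim {k : ℕ} (hk : 1 ≤ k) :
    3 * ((4 + k - 1).choose k + (4 + k - 2).choose (k - 1)) ≤ (k + 3) ^ 3 := by
  obtain ⟨j, rfl⟩ : ∃ j, k = j + 1 := ⟨k - 1, by omega⟩
  have h1 : (4 + (j + 1) - 1).choose (j + 1) = (j + 1 + 3).choose 3 := by
    rw [show 4 + (j + 1) - 1 = j + 1 + 3 by omega]; exact Nat.choose_symm_add
  have h2 : (4 + (j + 1) - 2).choose (j + 1 - 1) = (j + 3).choose 3 := by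
    rw [show 4 + (j + 1) - 2 = j + 3 by omega, Nat.add_sub_cancel]; exact Nat.choose_symm_add
  rw [h1, h2]
  have := sch_choose3 (j + 1)
  have := sch_choose3 j
  nlinarith [Nat.zero_le (j ^ 2), Nat.zero_le (j ^ 3)]

end Vale.Agent.P225
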