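import Vale.Agent.P225.AlgDefs

/-! The combinatorial schedule of swaps. -/

namespace Vale.Agent.P225

/-- reduced Berger eigenvalue of the multiplet `(d, e)` at anisotropy `t` -/
noncomputable def fm (t : ℝ) (d : ℕ) (e : ℤ) : ℝ := (d : ℝ) * (d + 2) - (1 - t) * (e : ℝ) ^ 2

/-- the constant `δ` -/
noncomputable def del : ℝ := 1 / 1000000

/-- position of the labels at the start of stage `m` -/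
def permOf {nK : ℕ} (kd : ℕ → Fin nK) (band : Finset ℕ) (lo hi : Fin nK → ℕ → ℕ × ℕ) (n : ℕ) :
    ℕ → Equiv.Perm (ℕ × ℕ)
  | 0 => 1
  | m + 1 => (if n ∈ band then Equiv.swap (lo (kd m) n) (hi (kd m) n) else 1) *
      permOf kd band lo hi n m

structure Sched where
  D : ℕ
  k : ℕ
  nK : ℕ
  kd : ℕ → Fin nK
  band : Finset ℕ
  lo : Fin nK → ℕ → ℕ × ℕ
  hi : Fin nK → ℕ → ℕ × ℕ
  dl : Fin nK → ℕ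
  el : Fin nK → ℤ
  eh : Fin nK → ℤ
  t0 : Fin nK → ℝ
  θ : ℝ
  dp : ℕ
  cl : ℕ → Finset (ℕ × ℕ)
  LL : Finset (ℕ × (ℕ × ℕ))
  P : ℕ
  hk : 1 ≤ k
  band_pos : ∀ n ∈ band, 1 ≤ n
  lo_dg : ∀ κ, ∀ n ∈ band, dg n (lo κ n) = dl κ
  lo_ch : ∀ κ, ∀ n ∈ band, ch n (lo κ n) = el κ
  hi_dg : ∀ κ, ∀ n ∈ band, dg n (hi κ n) = dl κ + 1
  hi_ch : ∀ κ, ∀ n ∈ band, ch n (hi κ n) = eh κ
  dl_pos : ∀ κ, 1 ≤ dl κ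
  dl_le : ∀ κ, dl κ + 1 ≤ D
  el_le : ∀ κ, |el κ| ≤ dl κ
  eh_le : ∀ κ, |eh κ| ≤ dl κ + 1
  reson : ∀ κ, fm (t0 κ) (dl κ) (el κ) = fm (t0 κ) (dl κ + 1) (eh κ)
  R1 : ∀ κ (d d' : ℕ) (e e' : ℤ), d ≤ D → d' ≤ D → |e| ≤ d → |e'| ≤ d' →
    fm (t0 κ) d e = fm (t0 κ) d' e' → (e' - e = eh κ - el κ ∨ e' - e = -(eh κ - el κ)) →
    (d = dl κ ∧ d' = dl κ + 1 ∧ ((e = el κ ∧ e' = eh κ) ∨ (e = -el κ ∧ e' = -eh κ))) ∨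
    (d' = dl κ ∧ d = dl κ + 1 ∧ ((e' = el κ ∧ e = eh κ) ∨ (e' = -el κ ∧ e = -eh κ)))
  R2 : ∀ κ, ∀ n ∈ band, ∀ i, dg n i ≤ D →
    fm (t0 κ) (dg n i) (ch n i) = fm (t0 κ) (dl κ) (el κ) → i = lo κ n ∨ i = hi κ n
  lo_cl : ∀ κ, ∀ n ∈ band, lo κ n ∈ cl n
  hi_cl : ∀ κ, ∀ n ∈ band, hi κ n ∈ cl n
  cl_MF : ∀ n, ∀ i ∈ cl n, MF D n (ch n i)
  cl_LL : ∀ n, ∀ i ∈ cl n, (n, i) ∈ LL
  θ_pos : 0 < θ
  θ_le : θ ≤ 1 / 100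
  t0_near : ∀ κ, |1 - t0 κ| ≤ θ
  θ_D : θ * (D + 1) ≤ 6
  LL_pos : ∀ l ∈ LL, 1 ≤ l.1
  LL_dg : ∀ l ∈ LL, dg l.1 l.2 ≤ dp
  dp_D : dp + 100 ≤ D
  P_pos : 1 ≤ P
  avg : ∀ l ∈ LL, ∀ j : ℕ, ∑ m ∈ Finset.Ico (j * P) ((j + 1) * P),
    (((max (dg l.1 (permOf kd band lo hi l.1 m l.2))
      (dg l.1 (permOf kd band lo hi l.1 (m + 1) l.2)) : ℕ) : ℝ) + 52) ≤
      P * ((k + 1) * (1 - 2 * del))
  count : (4 + k - 1).choose k + (4 + k - 2).choose (k - 1) < 2 * LL.card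

namespace Sched

variable (S : Sched)

def perm (n m : ℕ) : Equiv.Perm (ℕ × ℕ) := permOf S.kd S.band S.lo S.hi n m

/-- signs of the labels at the start of stage `m` -/
noncomputable def sgn (n : ℕ) : ℕ → ℕ × ℕ → ℝ
  | 0 => fun _ => 1
  | m + 1 => fun κ =>
      if n ∈ S.band ∧ S.perm n m κ = S.lo (S.kd m) n then -sgn n m κ else sgn n m κ

end Sched

end Vale.Agent.P225
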