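import Vale.Agent.P225.SeriesC

/-! The series of a solution is harmonic of polynomial growth. -/

namespace Vale.Agent.P225

open Filter Topology

variable {J : Type} [Fintype J] {Γ : Geo J} {D n k B : ℕ} {C : ℝ}

lemma ser_op_expand (a : J → ℝ) (sh : J → R) (P : R) :
    Q1 (∑ l, a l • sh l) P + Q2 (∑ l, a l • sh l) (∑ l, a l • sh l) P =
      ∑ l, a l • Q1 (sh l) P + ∑ l, ∑ l', (a l * a l') • Q2 (sh l) (sh l') P := by
  congr 1
  · simp only [Q1, map_sum, map_smul, Finset.sum_mul, smul_mul_assoc, map_add, smul_add,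
      Finset.sum_add_distrib, Derivation.map_smul]
  · simp only [Q2, map_sum, map_smul, Finset.sum_mul, Finset.mul_sum, smul_mul_assoc,
      mul_smul_comm, Finset.smul_sum, smul_smul, Derivation.map_smul]
    rw [Finset.sum_comm]
    exact Finset.sum_congr rfl fun l _ => Finset.sum_congr rfl fun l' _ => by rw [mul_comm (a l)]

lemma ser_expand (hB1 : ∀ l, Banded D (Q1 (Γ.sh l)) B C)
    (hB2 : ∀ l l', Banded D (Q2 (Γ.sh l) (Γ.sh l')) B C) (s : ℝ) (i : ℕ × ℕ) {z : ℂ × ℂ}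
    (hz : z ∈ Sph) : ev z (Real.exp (2 * Γ.u s) •
      (Q1 (Γ.wh s) (Vh D n i) + Q2 (Γ.wh s) (Γ.wh s) (Vh D n i))) =
      -∑ j ∈ box B i, (Γ.Qmat D n s j i : ℂ) * ev z (Vh D n j) := by
  simp only [Geo.Qmat, Geo.wh, mat_expand]
  rw [ser_op_expand]
  simp only [map_smul, map_add, map_sum, (hB1 _).expand n i z hz, (hB2 _ _).expand n i z hz,
    Complex.real_smul]
  push_cast
  simp only [neg_mul, Finset.sum_neg_distrib, neg_neg, mul_assoc, ← Finset.mul_sum, add_mul,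
    Finset.sum_mul, Finset.sum_add_distrib]
  simp only [Finset.mul_sum]
  congr 2
  · exact Finset.sum_comm
  · rw [Finset.sum_comm (s := box B i)]
    exact Finset.sum_congr rfl fun l _ => Finset.sum_comm

lemma Sol.lterm_eq (w : Sol Γ D n k B) (hB1 : ∀ l, Banded D (Q1 (Γ.sh l)) B C)
    (hB2 : ∀ l l', Banded D (Q2 (Γ.sh l) (Γ.sh l')) B C) (i : ℕ × ℕ) {x : E 4} (hx : x ≠ 0) :
    Γ.lterm (w.w i) (w.w2 i) (Vh D n i) x = (Real.exp (-3 * Γ.φ (lg x)) : ℝ) *
      (∑ j ∈ box B i, (Γ.Qmat D n (lg x) j i * w.w i (lg x) : ℝ) * evn (Vh D n j) x -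
        ∑ j ∈ box B i, (Γ.Qmat D n (lg x) i j * w.w j (lg x) : ℝ) * evn (Vh D n i) x) := by
  unfold Geo.lterm evn
  rw [Lap_Vh, map_sub, ser_expand hB1 hB2 _ _ (toC_mem hx), map_smul, Complex.real_smul, Sol.w2,
    ← Finset.sum_mul]
  push_cast
  simp only [mul_comm (Γ.Qmat D n (lg x) _ i : ℂ) (w.w i (lg x) : ℂ), mul_assoc, ← Finset.mul_sum]
  ring

lemma Sol.lterm_sum (w : Sol Γ D n k B) (hB1 : ∀ l, Banded D (Q1 (Γ.sh l)) B C)
    (hB2 : ∀ l l', Banded D (Q2 (Γ.sh l) (Γ.sh l')) B C) {x : E 4} (hx : x ≠ 0) :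
    HasSum (fun i => Γ.lterm (w.w i) (w.w2 i) (Vh D n i) x) 0 := by
  classical
  obtain ⟨KV, hKV, hV⟩ := ser_Vh D
  obtain ⟨K, hK, hQ⟩ := w.Q_bd hB1 hB2 |lg x|
  let F : (ℕ × ℕ) × (ℕ × ℕ) → ℂ := fun p => if p.2 ∈ box B p.1 then
    (Γ.Qmat D n (lg x) p.1 p.2 * w.w p.2 (lg x) : ℝ) * evn (Vh D n p.1) x else 0
  have hF : Summable F := by
    refine Summable.of_norm ((summable_prod_of_nonneg fun _ => norm_nonneg _).2 ⟨fun i =>
      summable_of_ne_finset_zero (s := box B i) fun j hj => by simp [F, hj], ?_⟩)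
    refine Summable.of_nonneg_of_le (fun _ => tsum_nonneg fun _ => norm_nonneg _) (fun i => ?_)
      ((summable_maj n).mul_left (K * KV))
    rw [tsum_eq_sum (s := box B i) fun j hj => by simp [F, hj]]
    have h1 : ‖evn (Vh D n i) x‖ ≤ KV * 16 ^ dg n i := (hV n i _ (ser_norm_nrm hx).le).norm_le
    calc _ = (∑ j ∈ box B i, |Γ.Qmat D n (lg x) i j * w.w j (lg x)|) * ‖evn (Vh D n i) x‖ := by
          rw [Finset.sum_mul]
          exact Finset.sum_congr rfl fun j hj => by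
            simp only [F, if_pos hj, norm_mul, Complex.norm_real, Real.norm_eq_abs, abs_mul]
      _ ≤ K * (((dg n i : ℝ) + 1) ^ 2 / 100 ^ dg n i) * (KV * 16 ^ dg n i) :=
          mul_le_mul (hQ _ le_rfl i) h1 (norm_nonneg _) (by positivity)
      _ = _ := by rw [maj, show (4 / 25 : ℝ) = 16 / 100 by norm_num, div_pow]; ring
  have s1 := hF.hasSum.prod_fiberwise (g := fun i => ∑ j ∈ box B i,
    (Γ.Qmat D n (lg x) i j * w.w j (lg x) : ℝ) * evn (Vh D n i) x) fun i => by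
      have := hasSum_sum_of_ne_finset_zero (f := fun j => F (i, j)) (s := box B i)
        (L := SummationFilter.unconditional _) fun j hj => by simp [F, hj]
      rwa [Finset.sum_congr rfl fun j hj => show F (i, j) = _ from if_pos hj] at this
  have s2 := ((Equiv.prodComm _ _).hasSum_iff.2 hF.hasSum).prod_fiberwise (g := fun i =>
    ∑ j ∈ box B i, (Γ.Qmat D n (lg x) j i * w.w i (lg x) : ℝ) * evn (Vh D n j) x) fun i => by
      have := hasSum_sum_of_ne_finset_zero (f := fun j => F (j, i)) (s := box B i)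
        (L := SummationFilter.unconditional _) fun j hj => by simp [F, mem_box_comm.not.1 hj]
      rwa [Finset.sum_congr rfl fun j hj =>
        show F (j, i) = _ from if_pos (mem_box_comm.1 hj)] at this
  have := (s2.sub s1).mul_left ((Real.exp (-3 * Γ.φ (lg x)) : ℝ) : ℂ)
  simpa only [w.lterm_eq hB1 hB2 _ hx, sub_self, mul_zero] using this

lemma Sol.hasSum_fn (w : Sol Γ D n k B) (hB1 : ∀ l, Banded D (Q1 (Γ.sh l)) B C)
    (hB2 : ∀ l l', Banded D (Q2 (Γ.sh l) (Γ.sh l')) B C) (x : E 4) :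
    HasSum (fun i => Γ.term (w.w i) (Vh D n i) x) (w.fn x) := by
  obtain ⟨K, hK⟩ := w.term_bd hB1 hB2 ‖x‖
  exact (Summable.of_norm_bounded ((summable_maj n).mul_left K)
    fun i => (hK i x le_rfl).norm_le).hasSum

theorem Sol.polyHarm {J : Type} [Fintype J] {Γ : Geo J} {D n k B : ℕ} {C : ℝ} (w : Sol Γ D n k B)
    (hn : 1 ≤ n) (hB1 : ∀ l, Banded D (Q1 (Γ.sh l)) B C)
    (hB2 : ∀ l l', Banded D (Q2 (Γ.sh l) (Γ.sh l')) B C)
    (hp : ∀ s, 1 / 2 ≤ Γ.p s ∧ Γ.p s ≤ 1) (L : ℂ →L[ℝ] ℝ) :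
    Γ.metric.PolyHarm k fun x => L (w.fn x) := by
  have e : (fun x => L (w.fn x)) = fun x => ∑' i, L (Γ.term (w.w i) (Vh D n i) x) :=
    funext fun x => ((w.hasSum_fn hB1 hB2 x).mapL L).tsum_eq.symm
  obtain ⟨h1, h2⟩ := ser_tsum Γ.metric (f := fun i x => L (Γ.term (w.w i) (Vh D n i) x)) fun r => by
    obtain ⟨K, hK⟩ := w.term_bd hB1 hB2 r
    exact ⟨_, ((summable_maj n).mul_left K).mul_left ‖L‖, fun i x hx => (hK i x hx).clm L⟩
  rw [← e] at h1 h2
  refine ⟨h1, fun x => ?_, ?_⟩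
  · refine congrFun (Continuous.ext_on (dense_compl_singleton 0)
      (continuous_laplacian Γ.metric h1) (g := fun _ => 0) continuous_const fun y hy => ?_) x
    have h3 := h2 y
    simp only [fun i => Γ.lap_term (w.hw i) (w.hw1 i) (w.w2_cont i) (Vh D n i) L hy] at h3
    simpa using h3.unique ((w.lterm_sum hB1 hB2 hy).mapL L)
  obtain ⟨C0, hC0⟩ := (isCompact_closedBall (0 : E 4) 1).exists_bound_of_continuousOn
    h1.continuous.continuousOn
  obtain ⟨A, hA⟩ := w.gr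
  obtain ⟨KV, hKV, hV⟩ := ser_Vh D
  have hm : 0 ≤ ∑' i, maj n i := tsum_nonneg (maj_nonneg n)
  refine ⟨|C0| + ‖L‖ * (|A| * KV * ∑' i, maj n i), fun x => ?_⟩
  have hd := dist_nonneg' Γ.metric 0 x
  rw [add_mul]
  rcases le_total ‖x‖ 1 with hx | hx
  · refine le_add_of_le_of_nonneg ?_ (by positivity)
    exact ((hC0 x (by simpa using hx)).trans (le_abs_self _)).trans
      (le_mul_of_one_le_right (abs_nonneg _) (one_le_pow₀ (by linarith)))
  refine le_add_of_nonneg_of_le (by positivity) ((L.le_opNorm _).trans ?_)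
  rw [mul_assoc]
  refine mul_le_mul_of_nonneg_left ?_ (norm_nonneg _)
  have h0 : x ≠ 0 := norm_pos_iff.1 (one_pos.trans_le hx)
  have he : Real.exp (-Γ.φ (lg x)) * Real.exp ((k + 1) * Γ.φ (lg x)) ≤
      (1 + Γ.metric.dist 0 x) ^ k := by
    rw [← Real.exp_add, show -Γ.φ (lg x) + (k + 1) * Γ.φ (lg x) = k * Γ.φ (lg x) by ring,
      Real.exp_nat_mul]
    exact pow_le_pow_left₀ (Real.exp_pos _).le (Γ.exp_le_dist hp h0) k
  have hs := (summable_maj n).hasSum.mul_left (|A| * KV * (1 + Γ.metric.dist 0 x) ^ k)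
  rw [mul_right_comm]
  refine (w.hasSum_fn hB1 hB2 x).norm_le_of_bounded hs fun i => ?_
  have a1 : ‖evn (Vh D n i) x‖ ≤ KV * 16 ^ dg n i := (hV n i _ (ser_norm_nrm h0).le).norm_le
  have a2 : |w.w i (lg x)| ≤ |A| * Real.exp ((k + 1) * Γ.φ (lg x)) / 100 ^ dg n i :=
    (hA i (lg x) (Real.log_nonneg hx)).trans (by gcongr; exact le_abs_self A)
  rw [Geo.term, norm_mul, Complex.norm_real, Real.norm_eq_abs, abs_mul, abs_of_pos (Real.exp_pos _)]
  calc _ ≤ Real.exp (-Γ.φ (lg x)) * (|A| * Real.exp ((k + 1) * Γ.φ (lg x)) / 100 ^ dg n i) *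
        (KV * 16 ^ dg n i) := by gcongr
    _ = |A| * KV * (Real.exp (-Γ.φ (lg x)) * Real.exp ((k + 1) * Γ.φ (lg x))) *
        (16 ^ dg n i / 100 ^ dg n i) := by ring
    _ ≤ _ := by gcongr; exact maj_ge n i

end Vale.Agent.P225
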