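import Vale.Agent.P225.Defs

/-! Pointwise `C²` bounds and termwise differentiation of series. -/

namespace Vale.Agent.P225

open Filter Topology

section
variable {X Y Z : Type} [NormedAddCommGroup X] [NormedSpace ℝ X] [NormedAddCommGroup Y]
  [NormedSpace ℝ Y] [NormedAddCommGroup Z] [NormedSpace ℝ Z]

/-- `f` is `C²` at `x` with all derivatives of order at most two bounded by `M` -/
def SBd (f : X → Y) (x : X) (M : ℝ) : Prop :=
  ContDiffAt ℝ 2 f x ∧ ∀ k ≤ 2, ‖iteratedFDeriv ℝ k f x‖ ≤ M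

lemma ser_open {f : X → Y} {x : X} (h : ContDiffAt ℝ 2 f x) :
    ∃ U, IsOpen U ∧ x ∈ U ∧ ContDiffOn ℝ 2 f U := by
  obtain ⟨u, hu, h⟩ := h.contDiffOn le_rfl (by simp)
  exact ⟨interior u, isOpen_interior, mem_interior_iff_mem_nhds.2 hu, h.mono interior_subset⟩

lemma ser_cast {k : ℕ} (h : k ≤ 2) : (k : WithTop ℕ∞) ≤ 2 := by exact_mod_cast h

lemma SBd.norm_le {f : X → Y} {x : X} {M : ℝ} (h : SBd f x M) : ‖f x‖ ≤ M := by
  simpa using h.2 0 (by omega)

lemma SBd.nonneg {f : X → Y} {x : X} {M : ℝ} (h : SBd f x M) : 0 ≤ M :=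
  (norm_nonneg _).trans h.norm_le

lemma SBd.mono {f : X → Y} {x : X} {M M' : ℝ} (h : SBd f x M) (hM : M ≤ M') : SBd f x M' :=
  ⟨h.1, fun k hk => (h.2 k hk).trans hM⟩

lemma SBd.congr {f g : X → Y} {x : X} {M : ℝ} (h : SBd f x M) (he : g =ᶠ[𝓝 x] f) : SBd g x M :=
  ⟨h.1.congr_of_eventuallyEq he, fun k hk => by
    rw [(he.iteratedFDeriv ℝ k).eq_of_nhds]; exact h.2 k hk⟩

lemma SBd.add {f g : X → Y} {x : X} {M N : ℝ} (h : SBd f x M) (h' : SBd g x N) :
    SBd (fun y => f y + g y) x (M + N) :=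
  ⟨h.1.add h'.1, fun k hk => by
    rw [fun_iteratedFDeriv_add_apply (h.1.of_le (ser_cast hk)) (h'.1.of_le (ser_cast hk))]
    exact (norm_add_le _ _).trans (add_le_add (h.2 k hk) (h'.2 k hk))⟩

lemma SBd.clm {f : X → Y} {x : X} {M : ℝ} (h : SBd f x M) (L : Y →L[ℝ] Z) :
    SBd (fun y => L (f y)) x (‖L‖ * M) :=
  ⟨L.contDiff.contDiffAt.comp x h.1, fun k hk =>
    (L.norm_iteratedFDeriv_comp_left h.1 (ser_cast hk)).trans
      (mul_le_mul_of_nonneg_left (h.2 k hk) (norm_nonneg _))⟩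

lemma SBd.const (c : Y) (x : X) : SBd (fun _ : X => c) x ‖c‖ :=
  ⟨contDiffAt_const, fun k _ => by
    rcases k with _ | k
    · simp
    · rw [iteratedFDeriv_const_of_ne (by omega)]; simp⟩

lemma SBd.lin (L : X →L[ℝ] Y) {x : X} (hx : ‖x‖ ≤ 1) : SBd (fun y => L y) x ‖L‖ :=
  ⟨L.contDiff.contDiffAt, fun k hk => by
    obtain rfl | rfl | rfl : k = 0 ∨ k = 1 ∨ k = 2 := by omega
    · simpa using (L.le_opNorm x).trans (mul_le_of_le_one_right (norm_nonneg _) hx)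
    · rw [norm_iteratedFDeriv_one]; exact (congrArg norm L.fderiv).le
    · rw [← norm_iteratedFDeriv_fderiv, show fderiv ℝ (fun y => L y) = fun _ => L from
        funext fun _ => L.fderiv, iteratedFDeriv_const_of_ne (by omega)]
      simp⟩

lemma SBd.bil {W : Type} [NormedAddCommGroup W] [NormedSpace ℝ W] (B : Y →L[ℝ] Z →L[ℝ] W)
    (hB : ‖B‖ ≤ 1) {f : X → Y} {g : X → Z} {x : X} {M N : ℝ} (h : SBd f x M) (h' : SBd g x N) :
    SBd (fun y => B (f y) (g y)) x (4 * (M * N)) := by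
  refine ⟨(B.contDiff.contDiffAt.comp x h.1).clm_apply h'.1, fun k hk => ?_⟩
  obtain ⟨U, hU, hx, h1⟩ := ser_open h.1
  obtain ⟨V, hV, hx', h2⟩ := ser_open h'.1
  have hO := hU.inter hV
  have := B.norm_iteratedFDerivWithin_le_of_bilinear_of_le_one (h1.mono Set.inter_subset_left)
    (h2.mono Set.inter_subset_right) hO.uniqueDiffOn ⟨hx, hx'⟩ (ser_cast hk) hB
  simp only [iteratedFDerivWithin_of_isOpen _ hO (⟨hx, hx'⟩ : x ∈ U ∩ V)] at this
  refine this.trans ?_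
  have hM := h.nonneg
  have hN := h'.nonneg
  calc _ ≤ ∑ i ∈ Finset.range (k + 1), (k.choose i : ℝ) * (M * N) :=
        Finset.sum_le_sum fun i hi => by
          rw [mul_assoc]
          have := Finset.mem_range.1 hi
          gcongr
          exacts [h.2 i (by omega), h'.2 _ (by omega)]
    _ = 2 ^ k * (M * N) := by
        rw [← Finset.sum_mul]; congr 1; exact_mod_cast Nat.sum_range_choose k
    _ ≤ _ := by
        have : (2 : ℝ) ^ k ≤ 2 ^ 2 := pow_le_pow_right₀ one_le_two hk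
        gcongr; linarith

lemma SBd.mul {f g : X → ℂ} {x : X} {M N : ℝ} (h : SBd f x M) (h' : SBd g x N) :
    SBd (fun y => f y * g y) x (4 * (M * N)) :=
  SBd.bil (ContinuousLinearMap.mul ℝ ℂ) (ContinuousLinearMap.opNorm_mul_le _ _) h h'

lemma SBd.smul {f : X → ℝ} {g : X → Y} {x : X} {M N : ℝ} (h : SBd f x M) (h' : SBd g x N) :
    SBd (fun y => f y • g y) x (4 * (M * N)) :=
  SBd.bil (ContinuousLinearMap.lsmul ℝ ℝ) ContinuousLinearMap.opNorm_lsmul_le h h'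

lemma SBd.comp {g : Y → Z} {f : X → Y} {x : X} {C D : ℝ} (hg : SBd g (f x) C) (hf : SBd f x D)
    (hD : 1 ≤ D) : SBd (fun y => g (f y)) x (2 * C * D ^ 2) := by
  refine ⟨hg.1.comp x hf.1, fun k hk => ?_⟩
  obtain ⟨U, hU, hx, h1⟩ := ser_open hf.1
  obtain ⟨V, hV, hx', h2⟩ := ser_open hg.1
  have hO := h1.continuousOn.isOpen_inter_preimage hU hV
  have hm : x ∈ U ∩ f ⁻¹' V := ⟨hx, hx'⟩
  have := norm_iteratedFDerivWithin_comp_le h2 (h1.mono Set.inter_subset_left) (ser_cast hk)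
    hV.uniqueDiffOn hO.uniqueDiffOn (fun y hy => hy.2) hm (C := C) (D := D)
    (fun i hi => by rw [iteratedFDerivWithin_of_isOpen _ hV hx']; exact hg.2 i (by omega))
    (fun i hi hi' => by
      rw [iteratedFDerivWithin_of_isOpen _ hO hm]
      exact (hf.2 i (by omega)).trans (le_self_pow₀ hD (by omega)))
  rw [iteratedFDerivWithin_of_isOpen _ hO hm] at this
  refine this.trans ?_
  have hC := hg.nonneg
  have : (k.factorial : ℝ) ≤ 2 := by exact_mod_cast Nat.factorial_le hk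
  gcongr

lemma ser_compact {f : X → Y} {K : Set X} (hK : IsCompact K) (hf : ∀ x ∈ K, ContDiffAt ℝ 2 f x) :
    ∃ D, 1 ≤ D ∧ ∀ x ∈ K, SBd f x D := by
  have h : ∀ k ≤ 2, ∃ D, ∀ x ∈ K, ‖iteratedFDeriv ℝ k f x‖ ≤ D := fun k hk =>
    hK.exists_bound_of_continuousOn fun x hx =>
      ((hf x hx).continuousAt_iteratedFDeriv (ser_cast hk)).continuousWithinAt
  obtain ⟨D0, h0⟩ := h 0 (by omega)
  obtain ⟨D1, h1⟩ := h 1 (by omega)
  obtain ⟨D2, h2⟩ := h 2 (by omega)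
  refine ⟨max (max 1 D0) (max D1 D2), by simp, fun x hx => ⟨hf x hx, fun k hk => ?_⟩⟩
  obtain rfl | rfl | rfl : k = 0 ∨ k = 1 ∨ k = 2 := by omega
  · exact (h0 x hx).trans (by simp)
  · exact (h1 x hx).trans (by simp)
  · exact (h2 x hx).trans (by simp)

lemma ser_one_dim {w w1 w2 : ℝ → ℝ} (h1 : ∀ s, HasDerivAt w (w1 s) s)
    (h2 : ∀ s, HasDerivAt w1 (w2 s) s) (h3 : Continuous w2) {s M : ℝ} (b0 : |w s| ≤ M)
    (b1 : |w1 s| ≤ M) (b2 : |w2 s| ≤ M) : SBd w s M := by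
  have e1 : deriv w = w1 := funext fun s => (h1 s).deriv
  have e2 : deriv w1 = w2 := funext fun s => (h2 s).deriv
  refine ⟨ContDiff.contDiffAt ?_, fun k hk => ?_⟩
  · rw [show (2 : WithTop ℕ∞) = 1 + 1 from rfl, contDiff_succ_iff_deriv, e1, contDiff_one_iff_deriv,
      e2]
    exact ⟨fun s => (h1 s).differentiableAt, by simp, fun s => (h2 s).differentiableAt, h3⟩
  rw [norm_iteratedFDeriv_eq_norm_iteratedDeriv]
  obtain rfl | rfl | rfl : k = 0 ∨ k = 1 ∨ k = 2 := by omega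
  · simpa using b0
  · simpa [e1] using b1
  · simpa [iteratedDeriv_succ, e1, e2] using b2

end

lemma ser_lap {n : ℕ} (G : RMetric n) (x : E n) :
    ∃ (Λ1 : (E n [×1]→L[ℝ] ℝ) →L[ℝ] ℝ) (Λ2 : (E n [×2]→L[ℝ] ℝ) →L[ℝ] ℝ), ∀ u : E n → ℝ,
      ContDiffAt ℝ 2 u x →
      G.laplacian u x = Λ2 (iteratedFDeriv ℝ 2 u x) - Λ1 (iteratedFDeriv ℝ 1 u x) := by
  refine ⟨∑ i, ∑ j, ∑ k, ((G.g x)⁻¹ i j * G.christoffel k i j x) •
      ContinuousMultilinearMap.apply ℝ _ ℝ ![EuclideanSpace.single k 1],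
    ∑ i, ∑ j, (G.g x)⁻¹ i j • ContinuousMultilinearMap.apply ℝ _ ℝ
      ![EuclideanSpace.single i 1, EuclideanSpace.single j 1], fun u hu => ?_⟩
  have hd : DifferentiableAt ℝ (fderiv ℝ u) x :=
    (hu.fderiv_right (m := 1) (by norm_num)).differentiableAt (by simp)
  have e : ∀ i j, pd i (pd j u) x =
      fderiv ℝ (fderiv ℝ u) x (EuclideanSpace.single i 1) (EuclideanSpace.single j 1) := by
    intro i j
    unfold pd
    rw [fderiv_clm_apply hd (differentiableAt_const _)]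
    simp
  simp only [RMetric.laplacian, e, sum_apply, smul_apply,
    ContinuousMultilinearMap.apply_apply, iteratedFDeriv_two_apply, iteratedFDeriv_one_apply,
    smul_eq_mul, ← Finset.sum_sub_distrib, mul_sub, Finset.mul_sum, mul_assoc]
  rfl

lemma ser_tsum {n : ℕ} (G : RMetric n) {ι : Type} {f : ι → E n → ℝ}
    (h : ∀ r : ℝ, ∃ v : ι → ℝ, Summable v ∧ ∀ i x, ‖x‖ ≤ r → SBd (f i) x (v i)) :
    (ContDiff ℝ 2 fun x => ∑' i, f i x) ∧
      ∀ x, HasSum (fun i => G.laplacian (f i) x) (G.laplacian (fun x => ∑' i, f i x) x) := by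
  have hf : ∀ i x, ContDiffAt ℝ 2 (f i) x := fun i x => by
    obtain ⟨v, -, hv⟩ := h ‖x‖; exact (hv i x le_rfl).1
  have key : ∀ x, ContDiffAt ℝ 2 (fun x => ∑' i, f i x) x ∧ ∀ k ≤ 2,
      HasSum (fun i => iteratedFDeriv ℝ k (f i) x) (iteratedFDeriv ℝ k (fun x => ∑' i, f i x) x) := by
    intro x
    let χ : ContDiffBump (0 : E n) := ⟨‖x‖ + 1, ‖x‖ + 2, by positivity, by linarith⟩
    obtain ⟨v, hv, hb⟩ := h (‖x‖ + 2)
    obtain ⟨D, -, hD⟩ := ser_compact (isCompact_closedBall (0 : E n) (‖x‖ + 2))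
      fun y _ => (χ.contDiff (n := 2)).contDiffAt
    have hb' : ∀ i y, SBd (fun y => χ y • f i y) y (4 * (D * v i)) := fun i y => by
      by_cases hy : ‖y‖ ≤ ‖x‖ + 2
      · exact (hD y (by simpa using hy)).smul (hb i y hy)
      · refine ((SBd.const (0 : ℝ) y).mono ?_).congr ?_
        · have := (hD 0 (by simp; positivity)).nonneg
          have := (hb i 0 (by simp; positivity)).nonneg
          simp; positivity
        · filter_upwards [(isOpen_lt continuous_const continuous_norm).mem_nhds (not_le.1 hy)]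
            with z hz
          rw [χ.zero_of_le_dist (by simpa using le_of_lt hz), zero_smul]
    have hc : ∀ i, ContDiff ℝ (2 : ℕ∞) fun y => χ y • f i y := fun i =>
      contDiff_iff_contDiffAt.2 fun y => (hb' i y).1
    have hv' : ∀ k : ℕ, (k : ℕ∞) ≤ 2 → Summable fun i => 4 * (D * v i) := fun _ _ =>
      (hv.mul_left D).mul_left 4
    have hb'' : ∀ (k : ℕ) i y, (k : ℕ∞) ≤ 2 →
        ‖iteratedFDeriv ℝ k (fun y => χ y • f i y) y‖ ≤ 4 * (D * v i) := fun k i y hk =>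
      (hb' i y).2 k (by exact_mod_cast hk)
    have h1 : ∀ᶠ y in 𝓝 x, χ y = 1 := by
      filter_upwards [(isOpen_lt continuous_norm continuous_const).mem_nhds (lt_add_one ‖x‖)]
        with z hz
      exact χ.one_of_mem_closedBall (by simpa using le_of_lt hz)
    have e1 : ∀ i, (fun y => χ y • f i y) =ᶠ[𝓝 x] f i := fun i => h1.mono fun y hy => by simp [hy]
    have e2 : (fun y => ∑' i, χ y • f i y) =ᶠ[𝓝 x] fun y => ∑' i, f i y :=
      h1.mono fun y hy => by simp [hy]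
    refine ⟨(contDiff_tsum hc hv' hb'').contDiffAt.congr_of_eventuallyEq e2.symm, fun k hk => ?_⟩
    have hk' : (k : ℕ∞) ≤ 2 := by exact_mod_cast hk
    rw [← (e2.iteratedFDeriv ℝ k).eq_of_nhds, iteratedFDeriv_tsum_apply hc hv' hb'' hk']
    simp only [← fun i => ((e1 i).iteratedFDeriv ℝ k).eq_of_nhds]
    exact (Summable.of_norm_bounded (hv' k hk') fun i => hb'' k i x hk').hasSum
  refine ⟨contDiff_iff_contDiffAt.2 fun x => (key x).1, fun x => ?_⟩
  obtain ⟨Λ1, Λ2, hΛ⟩ := ser_lap G x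
  simp only [hΛ _ (hf _ x), hΛ _ (key x).1]
  exact (((key x).2 2 le_rfl).mapL Λ2).sub (((key x).2 1 one_le_two).mapL Λ1)

end Vale.Agent.P225
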