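import Vale.Agent.P225.SolDefs
import Vale.Agent.P225.SeriesB

/-! `C²` bounds for the terms of the mode series. -/

namespace Vale.Agent.P225

open Filter Topology MvPolynomial

lemma ser_coord (a : Fin 4) {c : ℂ} (hc : ‖c‖ = 1) {x : E 4} (hx : ‖x‖ ≤ 1) :
    SBd (fun y : E 4 => y a • c) x 1 :=
  (SBd.lin ((EuclideanSpace.proj a : E 4 →L[ℝ] ℝ).smulRight c) hx).mono
    (ContinuousLinearMap.opNorm_le_bound _ zero_le_one fun y => by
      simpa [norm_smul, hc] using PiLp.norm_apply_le y a)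

lemma ser_X (i : Fin 4) {x : E 4} (hx : ‖x‖ ≤ 1) : SBd (fun y => ev (toC y) (X i)) x 2 := by
  have h : ∀ (a b : Fin 4) (c : ℂ), ‖c‖ = 1 → ∀ g : E 4 → ℂ, (∀ y, g y = y a • 1 + y b • c) →
      SBd g x 2 := fun a b c hc g hg =>
    (((ser_coord a norm_one hx).add (ser_coord b hc hx)).congr
      (Eventually.of_forall hg)).mono (by norm_num)
  fin_cases i
  · exact h 0 1 Complex.I (by simp) _ fun y => by apply Complex.ext <;> simp [ev, toC]
  · exact h 0 1 (-Complex.I) (by simp) _ fun y => by apply Complex.ext <;> simp [ev, toC]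
  · exact h 2 3 Complex.I (by simp) _ fun y => by apply Complex.ext <;> simp [ev, toC]
  · exact h 2 3 (-Complex.I) (by simp) _ fun y => by apply Complex.ext <;> simp [ev, toC]

lemma ser_vv {x : E 4} (hx : ‖x‖ ≤ 1) (a c b : ℕ) :
    SBd (fun y => ev (toC y) (vv a c b)) x (16 ^ (a + c)) := by
  have step : ∀ (i j : Fin 4) (ε : ℝ), |ε| = 1 → ∀ (P : ℕ → R) (M : ℝ),
      (∀ b, SBd (fun y => ev (toC y) (P b)) x M) → ∀ b, SBd (fun y => ev (toC y)
        (X i * P b + ε • if b = 0 then 0 else X j * P (b - 1))) x (M * 16) := by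
    intro i j ε hε P M hP b
    have h1 := (ser_X i hx).mul (hP b)
    have h0 := (hP 0).nonneg
    split_ifs
    · exact (h1.congr (Eventually.of_forall fun y => by simp)).mono (by linarith)
    · have h2 := ((ser_X j hx).mul (hP (b - 1))).clm (ε • ContinuousLinearMap.id ℝ ℂ)
      rw [norm_smul, Real.norm_eq_abs, hε, ContinuousLinearMap.norm_id] at h2
      exact ((h1.add h2).congr (Eventually.of_forall fun y => by simp)).mono (by linarith)
  induction a generalizing b with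
  | zero =>
    induction c generalizing b with
    | zero =>
      rcases Nat.eq_zero_or_pos b with rfl | hb
      · simpa [vv_zero] using SBd.const (1 : ℂ) x
      · rw [vv_eq_zero (by omega)]; simpa using (SBd.const (0 : ℂ) x).mono (by simp)
    | succ c ih =>
      have := step 1 3 (-1) (by simp) _ _ ih b
      rw [vv_succ_right, ← add_assoc, pow_succ, sub_eq_add_neg, ← neg_one_smul ℝ]
      exact this
  | succ a ih =>
    have := step 2 0 1 (by simp) _ _ ih b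
    rw [vv_succ_left, add_right_comm, pow_succ, add_comm (ite _ _ _)]
    rwa [one_smul] at this

lemma ser_Vh (D : ℕ) : ∃ K, 0 ≤ K ∧ ∀ n i (x : E 4), ‖x‖ ≤ 1 →
    SBd (fun y => ev (toC y) (Vh D n i)) x (K * 16 ^ dg n i) := by
  obtain ⟨K, hK, h⟩ := scl_bdd D
  refine ⟨K, by linarith, fun n i x hx => ?_⟩
  have h2 := (ser_vv hx (i.1 + n) i.2 i.1).clm (scl D n i • ContinuousLinearMap.id ℝ ℂ)
  rw [norm_smul, Real.norm_of_nonneg (scl_pos D n i).le, ContinuousLinearMap.norm_id,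
    show i.1 + n + i.2 = dg n i by unfold dg; omega, mul_one] at h2
  refine (h2.congr (Eventually.of_forall fun y => by simp [Vh, VV])).mono ?_
  gcongr; exact (h n i).1

lemma ser_norm_nrm {x : E 4} (hx : x ≠ 0) : ‖‖x‖⁻¹ • x‖ = 1 := by
  rw [norm_smul, norm_inv, norm_norm, inv_mul_cancel₀ (norm_ne_zero_iff.2 hx)]

/-- the majorant of the series -/
noncomputable def maj (n : ℕ) (i : ℕ × ℕ) : ℝ := ((dg n i : ℝ) + 1) ^ 2 * (4 / 25) ^ dg n i

lemma maj_nonneg (n : ℕ) (i : ℕ × ℕ) : 0 ≤ maj n i := by unfold maj; positivity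

lemma summable_maj (n : ℕ) : Summable (maj n) := by
  have h : Summable fun m : ℕ => ((m : ℝ) + 1) ^ 2 * (4 / 25 : ℝ) ^ m := by
    have := (summable_nat_add_iff 1).2
      (summable_pow_mul_geometric_of_norm_lt_one 2 (r := (4 / 25 : ℝ)) (by norm_num [abs_of_pos]))
    refine (this.mul_left (25 / 4)).congr fun m => ?_
    push_cast; ring
  refine Summable.of_nonneg_of_le (maj_nonneg n) (fun i => ?_)
    ((h.mul_of_nonneg h (fun _ => by positivity) fun _ => by positivity).mul_left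
      (((n : ℝ) + 1) ^ 2))
  unfold maj dg
  have h1 : ((i.1 + i.2 + n : ℕ) : ℝ) + 1 ≤ (n + 1) * ((i.1 + 1) * (i.2 + 1)) := by
    have : i.1 + i.2 + n + 1 ≤ (n + 1) * ((i.1 + 1) * (i.2 + 1)) := by
      nlinarith [Nat.zero_le (i.1 * i.2), Nat.zero_le (n * (i.1 * i.2 + i.1 + i.2))]
    exact_mod_cast this
  have h2 : (4 / 25 : ℝ) ^ (i.1 + i.2 + n) ≤ (4 / 25) ^ (i.1 + i.2) :=
    pow_le_pow_of_le_one (by norm_num) (by norm_num) (by omega)
  calc _ ≤ (((n : ℝ) + 1) * ((i.1 + 1) * (i.2 + 1))) ^ 2 * (4 / 25) ^ (i.1 + i.2) := by gcongr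
    _ = _ := by ring

lemma maj_ge (n : ℕ) (i : ℕ × ℕ) : (16 : ℝ) ^ dg n i / 100 ^ dg n i ≤ maj n i := by
  rw [← div_pow, show (16 / 100 : ℝ) = 4 / 25 by norm_num]
  exact le_mul_of_one_le_left (by positivity) (one_le_pow₀ (by simp))

variable {J : Type} [Fintype J] {Γ : Geo J} {D n k B : ℕ} {C : ℝ}

lemma ser_Qmat_cont (Γ : Geo J) (D n : ℕ) (i j : ℕ × ℕ) : Continuous fun s => Γ.Qmat D n s i j := by
  have h1 := Γ.u_smooth.continuous
  have h2 := fun l => (Γ.amp_smooth l).continuous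
  simp only [Geo.Qmat, Geo.wh, mat_expand]
  fun_prop

lemma ser_Qmat_bd (hB1 : ∀ l, Banded D (Q1 (Γ.sh l)) B C)
    (hB2 : ∀ l l', Banded D (Q2 (Γ.sh l) (Γ.sh l')) B C) (r : ℝ) :
    ∃ K, 0 ≤ K ∧ ∀ s, |s| ≤ r → ∀ n i j, |Γ.Qmat D n s i j| ≤ K * ((dg n j : ℝ) + 1) ^ 2 := by
  have h1 := Γ.u_smooth.continuous
  have h2 := fun l => (Γ.amp_smooth l).continuous
  obtain ⟨K, hK⟩ := (isCompact_Icc (a := -r) (b := r)).exists_bound_of_continuousOn
    (f := fun s => Real.exp (2 * Γ.u s) * (∑ l, |Γ.amp l s| * C +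
      ∑ l, ∑ l', |Γ.amp l s * Γ.amp l' s| * C)) (by fun_prop)
  refine ⟨max K 0, le_max_right _ _, fun s hs n i j => ?_⟩
  have h3 := (le_abs_self _).trans ((hK s (abs_le.1 hs)).trans (le_max_left K 0))
  refine le_trans ?_ (mul_le_mul_of_nonneg_right h3 (by positivity))
  simp only [Geo.Qmat, Geo.wh, mat_expand, abs_neg, abs_mul, abs_of_pos (Real.exp_pos _), mul_assoc,
    add_mul, Finset.sum_mul]
  refine mul_le_mul_of_nonneg_left ((abs_add_le _ _).trans (add_le_add ?_ ?_)) (Real.exp_pos _).le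
  · refine (Finset.abs_sum_le_sum_abs _ _).trans (Finset.sum_le_sum fun l _ => ?_)
    rw [abs_mul]; gcongr; exact (hB1 l).bd n j i
  · refine (Finset.abs_sum_le_sum_abs _ _).trans (Finset.sum_le_sum fun l _ =>
      (Finset.abs_sum_le_sum_abs _ _).trans (Finset.sum_le_sum fun l' _ => ?_))
    rw [abs_mul, abs_mul]; gcongr; exact (hB2 l l').bd n j i

/-- the second derivative -/
noncomputable def Sol.w2 (w : Sol Γ D n k B) (i : ℕ × ℕ) (s : ℝ) : ℝ :=
  (lam (Γ.u s) (dg n i) (ch n i) + Γ.V s) * w.w i s - ∑ j ∈ box B i, Γ.Qmat D n s i j * w.w j s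

lemma ser_V_cont (Γ : Geo J) : Continuous Γ.V := by
  have h : ContDiff ℝ (⊤ : ℕ∞) Γ.p := (contDiff_infty_iff_deriv.1 Γ.φ_smooth).2
  exact (h.continuous.pow 2).add (h.continuous_deriv (by simp))

lemma Sol.w2_cont (w : Sol Γ D n k B) (i : ℕ × ℕ) : Continuous (w.w2 i) := by
  have h1 := Γ.u_smooth.continuous
  have h2 : ∀ j, Continuous (w.w j) := fun j =>
    continuous_iff_continuousAt.2 fun s => (w.hw j s).continuousAt
  have h3 := ser_Qmat_cont Γ D n i
  have h4 := ser_V_cont Γ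
  unfold Sol.w2 lam
  fun_prop

lemma Sol.Q_bd (w : Sol Γ D n k B) (hB1 : ∀ l, Banded D (Q1 (Γ.sh l)) B C)
    (hB2 : ∀ l l', Banded D (Q2 (Γ.sh l) (Γ.sh l')) B C) (r : ℝ) :
    ∃ K, 0 ≤ K ∧ ∀ s, |s| ≤ r → ∀ i, ∑ j ∈ box B i, |Γ.Qmat D n s i j * w.w j s| ≤
      K * (((dg n i : ℝ) + 1) ^ 2 / 100 ^ dg n i) := by
  obtain ⟨K, hK, h⟩ := ser_Qmat_bd hB1 hB2 r
  obtain ⟨A, hA⟩ := w.bd r
  refine ⟨((2 * B + 1) ^ 2 : ℕ) * (K * (2 * B + 1) ^ 2 * (|A| * 100 ^ (2 * B))), by positivity,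
    fun s hs i => ?_⟩
  refine (Finset.sum_le_card_nsmul _ _ (K * (2 * B + 1) ^ 2 * (|A| * 100 ^ (2 * B)) *
    (((dg n i : ℝ) + 1) ^ 2 / 100 ^ dg n i)) fun j hj => ?_).trans ?_
  · rw [mem_box] at hj
    have h1 : (dg n j : ℝ) + 1 ≤ (2 * B + 1) * (dg n i + 1) := by
      have : dg n j + 1 ≤ (2 * B + 1) * (dg n i + 1) := by
        have : dg n j ≤ dg n i + 2 * B := by unfold dg; omega
        nlinarith [Nat.zero_le (B * dg n i)]
      exact_mod_cast this
    have h2 : |w.w j s| ≤ |A| * 100 ^ (2 * B) / 100 ^ dg n i := by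
      refine (hA j s hs).1.trans ?_
      rw [div_le_div_iff₀ (by positivity) (by positivity), mul_assoc, ← pow_add]
      gcongr
      · exact le_abs_self A
      · norm_num
      · unfold dg; omega
    rw [abs_mul]
    calc _ ≤ K * ((2 * B + 1) * ((dg n i : ℝ) + 1)) ^ 2 * (|A| * 100 ^ (2 * B) / 100 ^ dg n i) :=
          mul_le_mul ((h s hs n i j).trans (by gcongr)) h2 (abs_nonneg _) (by positivity)
      _ = _ := by ring
  · rw [nsmul_eq_mul, mul_assoc (((2 * B + 1) ^ 2 : ℕ) : ℝ)]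
    gcongr
    exact card_box_le B i

lemma Sol.w_bd (w : Sol Γ D n k B) (hB1 : ∀ l, Banded D (Q1 (Γ.sh l)) B C)
    (hB2 : ∀ l l', Banded D (Q2 (Γ.sh l) (Γ.sh l')) B C) (r : ℝ) :
    ∃ K, 0 ≤ K ∧ ∀ s, |s| ≤ r → ∀ i, SBd (w.w i) s (K * (((dg n i : ℝ) + 1) ^ 2 / 100 ^ dg n i)) := by
  obtain ⟨K, hK, h⟩ := w.Q_bd hB1 hB2 r
  obtain ⟨A, hA⟩ := w.bd r
  have h1 := Γ.u_smooth.continuous
  have h4 := ser_V_cont Γ
  obtain ⟨M, hM⟩ := (isCompact_Icc (a := -r) (b := r)).exists_bound_of_continuousOn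
    (f := fun s => Real.exp (2 * Γ.u s) + Real.exp (-4 * Γ.u s) + |Γ.V s|) (by fun_prop)
  refine ⟨|A| + |M| * |A| + K, by positivity, fun s hs i => ?_⟩
  have d1 : (1 : ℝ) ≤ dg n i + 1 := by simp
  have d2 : (dg n i : ℝ) + 1 ≤ (dg n i + 1) ^ 2 := le_self_pow₀ d1 two_ne_zero
  have a0 : |w.w i s| ≤ |A| / 100 ^ dg n i := (hA i s hs).1.trans (by gcongr; exact le_abs_self A)
  have hq : 0 ≤ ((dg n i : ℝ) + 1) ^ 2 / 100 ^ dg n i := by positivity
  have hm : 0 ≤ |M| * |A| := by positivity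
  refine ser_one_dim (w.hw i) (w.hw1 i) (w.w2_cont i) ?_ ?_ ?_
  · have : |A| / 100 ^ dg n i ≤ |A| * (((dg n i : ℝ) + 1) ^ 2 / 100 ^ dg n i) := by
      rw [← mul_div_assoc]; gcongr; exact le_mul_of_one_le_right (abs_nonneg _) (d1.trans d2)
    nlinarith
  · have : |w.w1 i s| ≤ |A| * (((dg n i : ℝ) + 1) ^ 2 / 100 ^ dg n i) := by
      rw [← mul_div_assoc]; exact (hA i s hs).2.trans (by gcongr; exact le_abs_self A)
    nlinarith
  · have b1 : |lam (Γ.u s) (dg n i) (ch n i) + Γ.V s| ≤ |M| * (dg n i + 1) ^ 2 := by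
      have c1 : ((ch n i : ℝ)) ^ 2 ≤ (dg n i : ℝ) ^ 2 := by
        have := abs_ch_le n i
        exact_mod_cast sq_le_sq.2 (this.trans (le_abs_self _))
      have c2 := (le_abs_self _).trans ((hM s (abs_le.1 hs)).trans (le_abs_self M))
      have c3 := Real.exp_pos (2 * Γ.u s)
      have c4 := Real.exp_pos (-4 * Γ.u s)
      have c5 : (0 : ℝ) ≤ dg n i := by positivity
      refine le_trans ?_ (mul_le_mul_of_nonneg_right c2 (by positivity))
      refine (abs_add_le _ _).trans ?_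
      unfold lam
      rw [abs_of_nonneg (add_nonneg (mul_nonneg c3.le (by nlinarith)) (by positivity)), add_mul,
        add_mul]
      exact add_le_add (add_le_add
        (mul_le_mul_of_nonneg_left (by nlinarith [sq_nonneg (ch n i : ℝ)]) c3.le)
        (mul_le_mul_of_nonneg_left (by nlinarith) c4.le))
        (le_mul_of_one_le_right (abs_nonneg _) (d1.trans d2))
    have b2 := (Finset.abs_sum_le_sum_abs _ _).trans (h s hs i)
    refine (abs_sub _ _).trans ?_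
    rw [abs_mul]
    have b3 := mul_le_mul b1 a0 (abs_nonneg _) (by positivity)
    have b4 : |M| * (dg n i + 1) ^ 2 * (|A| / 100 ^ dg n i) =
      |M| * |A| * (((dg n i : ℝ) + 1) ^ 2 / 100 ^ dg n i) := by ring
    nlinarith [mul_nonneg (abs_nonneg A) hq]

lemma Sol.term_ball (w : Sol Γ D n k B) (i : ℕ × ℕ) {x : E 4} (hx : ‖x‖ ≤ 1) :
    Γ.term (w.w i) (Vh D n i) x = w.c i * ev (toC x) (Vh D n i) := by
  have hs : lg x ≤ 0 := Real.log_nonpos (norm_nonneg _) hx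
  unfold Geo.term evn
  rw [Γ.φ_neg _ hs, w.neg i _ hs]
  rcases eq_or_ne x 0 with rfl | h0
  · simp [lg]
  have hn := norm_pos_iff.2 h0
  have e : Real.exp (-lg x) * (w.c i * Real.exp ((dg n i + 1) * lg x)) =
      w.c i * ‖x‖ ^ dg n i := by
    rw [mul_left_comm, ← Real.exp_add, show -lg x + (dg n i + 1) * lg x = dg n i * lg x by ring,
      Real.exp_nat_mul, lg, Real.exp_log hn]
  rw [e, toC_smul, Vh, map_smul, map_smul, VV, ev_vv_smul,
    show i.1 + n + i.2 = dg n i by unfold dg; omega]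
  have : (‖x‖ : ℂ) ≠ 0 := by exact_mod_cast hn.ne'
  simp only [Complex.real_smul]
  push_cast
  rw [inv_pow]
  field_simp

lemma Sol.term_bd (w : Sol Γ D n k B) (hB1 : ∀ l, Banded D (Q1 (Γ.sh l)) B C)
    (hB2 : ∀ l l', Banded D (Q2 (Γ.sh l) (Γ.sh l')) B C) (r : ℝ) :
    ∃ K, ∀ i x, ‖x‖ ≤ r → SBd (Γ.term (w.w i) (Vh D n i)) x (K * maj n i) := by
  obtain ⟨KV, hKV, hV⟩ := ser_Vh D
  obtain ⟨Kw, hKw, hw⟩ := w.w_bd hB1 hB2 |Real.log r|
  have hK : IsCompact (Metric.closedBall (0 : E 4) r ∩ {x | 1 ≤ ‖x‖}) :=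
    (isCompact_closedBall _ _).inter_right (isClosed_le continuous_const continuous_norm)
  have hne : ∀ x ∈ Metric.closedBall (0 : E 4) r ∩ {x | 1 ≤ ‖x‖}, x ≠ 0 := fun x hx =>
    norm_pos_iff.1 (one_pos.trans_le hx.2)
  obtain ⟨D1, d1, h1⟩ := ser_compact (f := lg) hK fun x hx =>
    (contDiffAt_lg (hne x hx)).of_le (by norm_cast)
  obtain ⟨D2, d2, h2⟩ := ser_compact (f := fun x : E 4 => ‖x‖⁻¹ • x) hK fun x hx =>
    ((contDiffAt_norm ℝ (hne x hx)).inv (norm_ne_zero_iff.2 (hne x hx))).smul contDiffAt_id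
  obtain ⟨D3, d3, h3⟩ := ser_compact (f := fun x : E 4 => Real.exp (-Γ.φ (lg x))) hK fun x hx =>
    ((Γ.φ_smooth.contDiffAt.comp x (contDiffAt_lg (hne x hx))).neg.exp).of_le
      (by norm_cast)
  refine ⟨4 * (Kw * KV) + 4 * (4 * (D3 * (2 * Kw * D1 ^ 2)) * (2 * KV * D2 ^ 2)), fun i x hx => ?_⟩
  have hm := maj_nonneg n i
  have em : ((dg n i : ℝ) + 1) ^ 2 / 100 ^ dg n i * 16 ^ dg n i = maj n i := by
    rw [maj, show (4 / 25 : ℝ) = 16 / 100 by norm_num, div_pow]; ring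
  rcases lt_or_ge ‖x‖ 1 with hx1 | hx1
  · have hc : ‖(w.c i : ℂ)‖ ≤ Kw * (((dg n i : ℝ) + 1) ^ 2 / 100 ^ dg n i) := by
      have := (hw 0 (by simp) i).norm_le
      rw [w.neg i 0 le_rfl] at this
      simpa using this
    refine ((((SBd.const (w.c i : ℂ) x).mono hc).mul (hV n i x hx1.le)).congr ?_).mono ?_
    · filter_upwards [(isOpen_lt continuous_norm continuous_const).mem_nhds hx1] with y hy
      exact w.term_ball i (le_of_lt hy)
    · rw [mul_mul_mul_comm, em, add_mul, ← mul_assoc]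
      exact le_add_of_nonneg_right (by positivity)
  · have hxK : x ∈ Metric.closedBall (0 : E 4) r ∩ {x | 1 ≤ ‖x‖} := ⟨by simpa using hx, hx1⟩
    have hs : |lg x| ≤ |Real.log r| := by
      rw [lg, abs_of_nonneg (Real.log_nonneg hx1)]
      exact (Real.log_le_log (by linarith) hx).trans (le_abs_self _)
    have a1 := (h3 x hxK).smul ((hw _ hs i).comp (h1 x hxK) d1)
    have a2 := (hV n i _ (ser_norm_nrm (hne x hxK)).le).comp (f := fun x : E 4 => ‖x‖⁻¹ • x)
      (h2 x hxK) d2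
    refine ((a1.smul a2).congr (Eventually.of_forall fun y => by
      simp [Geo.term, evn])).mono ?_
    rw [add_mul, ← em]
    exact le_add_of_nonneg_of_le (by positivity) (le_of_eq (by ring))

end Vale.Agent.P225
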