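import Vale.Agent.P225.SchedDefs

/-! Static choices: window anisotropies, limiting slope, control polynomials. -/

namespace Vale.Agent.P225

noncomputable def stp (τ : ℝ) : ℝ := Real.smoothTransition τ
noncomputable def bmp (τ : ℝ) : ℝ := deriv Real.smoothTransition τ

/-- `X = t^{-1/3}` -/
noncomputable def XX (t : ℝ) : ℝ := Real.exp (-Real.log t / 3)
/-- limiting exponent -/
noncomputable def muI (v t : ℝ) (d : ℕ) (e : ℤ) : ℝ := √(XX t * fm t d e + v)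
/-- Laplace transform of the bump in slot `a` -/
noncomputable def lapb (γ : ℝ) (a : ℕ) : ℝ :=
  ∫ τ in (0 : ℝ)..1, bmp τ * Real.exp (γ * (a + τ))

structure Static (S : Sched) where
  t2 : Fin S.nK → ℝ
  g1 : ℝ
  ϑ : ℝ
  pinf : ℝ
  N : ℕ
  gw : Fin S.nK → ℕ × (ℕ × ℕ) × (ℕ × ℕ) → Fin N → R
  gb : Fin S.nK → ℕ → R
  g1_pos : 0 < g1
  ϑ_pos : 0 < ϑ
  t2_ge : ∀ κ, S.t0 κ + ϑ ≤ t2 κ
  t2_le : ∀ κ, t2 κ ≤ S.t0 κ + S.θ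
  nonres : ∀ κ (d d' : ℕ) (e e' : ℤ), d ≤ S.D → d' ≤ S.D → |e| ≤ d → |e'| ≤ d' →
    fm (S.t0 κ) d e < fm (S.t0 κ) d' e' →
    ∀ t ∈ Set.Icc (S.t0 κ - ϑ) (t2 κ), fm t d e + g1 ≤ fm t d' e'
  pinf_ge : 1 - 2 * del ≤ pinf
  pinf_le : pinf ≤ 1 - 3 / 2 * del
  gw_Ty : ∀ κ p a, Ty (gw κ p a) = 0
  gb_Ty : ∀ κ n, Ty (gb κ n) = 0
  win : ∀ κ, ∀ p ∈ alw S.D, ∀ p' ∈ alw S.D,
    ∑ a : Fin N, XX (t2 κ) / (2 * muI (pinf ^ 2) (t2 κ) (dg p.1 p.2.2) (ch p.1 p.2.2)) *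
      mat S.D p.1 (Q1 (mm * gw κ p' a)) p.2.2 p.2.1 *
      lapb (muI (pinf ^ 2) (t2 κ) (dg p.1 p.2.1) (ch p.1 p.2.1) -
        muI (pinf ^ 2) (t2 κ) (dg p.1 p.2.2) (ch p.1 p.2.2)) a = if p = p' then 1 else 0
  boost : ∀ κ, ∀ n' ∈ S.band, ∀ n i j, 1 ≤ n → dg n i ≤ S.D → dg n j ≤ S.D →
    fm (S.t0 κ) (dg n i) (ch n i) = fm (S.t0 κ) (dg n j) (ch n j) →
    XX (S.t0 κ) / (2 * muI (pinf ^ 2) (S.t0 κ) (dg n j) (ch n j)) *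
      mat S.D n (Q1 (mm * gb κ n')) j i =
      if n = n' ∧ ((i = S.lo κ n ∧ j = S.hi κ n) ∨ (i = S.hi κ n ∧ j = S.lo κ n)) then 1 else 0

end Vale.Agent.P225
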