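import Vale.Agent.P225.HDefs

/-! Existence of the Riccati data, and bounds for the exponents. -/

namespace Vale.Agent.P225

open Set

theorem sqrt_subY {a b : ℝ} (h : 1 ≤ √a) : |√a - √b| ≤ |a - b| := by
  have ha : 0 ≤ a := (Real.sqrt_pos.mp (by linarith)).le
  have h1 := Real.mul_self_sqrt ha
  rcases le_total 0 b with hb | hb
  · have h2 := Real.mul_self_sqrt hb
    have : a - b = (√a - √b) * (√a + √b) := by linarith
    rw [this, abs_mul]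
    refine le_mul_of_one_le_right (abs_nonneg _) (le_trans ?_ (le_abs_self _))
    linarith [Real.sqrt_nonneg b]
  · rw [Real.sqrt_eq_zero'.mpr hb, sub_zero, abs_of_nonneg (by linarith)]
    refine le_trans ?_ (le_abs_self _)
    nlinarith

theorem XX_cubeY {t : ℝ} (h : 0 < t) : XX t ^ 3 * t = 1 := by
  rw [XX, ← Real.exp_nat_mul]
  nth_rw 2 [← Real.exp_log h]
  rw [← Real.exp_add, Real.exp_eq_one_iff]
  push_cast; ring

theorem XX_lipY {t t' : ℝ} (h : 9 / 10 ≤ t) (h' : 9 / 10 ≤ t') (x : 9 / 10 ≤ XX t)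
    (x' : 9 / 10 ≤ XX t') : |XX t - XX t'| ≤ |t - t'| := by
  have a := XX_cubeY (show 0 < t by linarith)
  have b := XX_cubeY (show 0 < t' by linarith)
  have e : t' - t = (XX t - XX t') * ((XX t ^ 2 + XX t * XX t' + XX t' ^ 2) * (t * t')) := by
    linear_combination -t' * a + t * b
  rw [abs_sub_comm t, e, abs_mul]
  refine le_mul_of_one_le_right (abs_nonneg _) (le_trans ?_ (le_abs_self _))
  have c1 : 81 / 100 ≤ t * t' := by nlinarith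
  have c2 : 2 ≤ XX t ^ 2 + XX t * XX t' + XX t' ^ 2 := by nlinarith
  nlinarith

theorem abs_mulY {a b c d : ℝ} (h : |a| ≤ c) (k : |b| ≤ d) : |a * b| ≤ c * d := by
  rw [abs_mul]; exact mul_le_mul h k (abs_nonneg _) ((abs_nonneg _).trans h)

theorem sq_leY {d : ℕ} {e : ℤ} (he : |e| ≤ d) : (e : ℝ) ^ 2 ≤ (d : ℝ) ^ 2 := by
  rw [← sq_abs]
  exact pow_le_pow_left₀ (abs_nonneg _) (by exact_mod_cast he) 2

theorem fm_bdY {t θ : ℝ} (h : |t - 1| ≤ θ) {d : ℕ} {e : ℤ} (he : |e| ≤ d) :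
    (1 - θ) * (d * (d + 2)) ≤ fm t d e ∧ fm t d e ≤ (1 + θ) * (d * (d + 2)) := by
  have h1 : (e : ℝ) ^ 2 ≤ d * (d + 2) := by
    nlinarith [sq_leY he, Nat.cast_nonneg (α := ℝ) d]
  have h2 := abs_le.mp (abs_mulY h ((abs_of_nonneg (sq_nonneg (e : ℝ))).le.trans h1))
  unfold fm
  constructor <;> linarith [h2.1, h2.2]

theorem deriv_constY {f : ℝ → ℝ} {f' s c : ℝ} (h : HasDerivAt f f' s) (hc : ∀ x ≤ s, f x = c) :
    f' = 0 :=
  (uniqueDiffWithinAt_Iic s).eq_deriv _ h.hasDerivWithinAt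
    ((hasDerivWithinAt_const s _ c).congr hc (hc s le_rfl))

namespace Base
variable {P : Par} {Kc : ℝ} (C : Base P Kc)

theorem W_bdY {d : ℕ} {e : ℤ} (he : |e| ≤ d) (s : ℝ) :
    (1 - 2 * P.S.θ) ^ 2 * (d * (d + 2)) ≤ lam (C.uu s) d e ∧
      lam (C.uu s) d e ≤ (1 + 2 * P.S.θ) ^ 2 * (d * (d + 2)) := by
  have a := fm_bdY (C.tt_near s) he
  have b := abs_le.mp (C.XX_near s)
  have h1 := P.S.θ_le
  have h0 := P.S.θ_pos
  have c : 0 ≤ (1 - 2 * P.S.θ) * (d * (d + 2)) := mul_nonneg (by linarith) (by positivity)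
  rw [C.lam_eq, sq, sq, mul_assoc, mul_assoc]
  exact ⟨mul_le_mul (by linarith) a.1 c (by linarith),
    mul_le_mul (by linarith) a.2 (c.trans a.1) (by linarith)⟩

theorem mu_geY (hV : ∀ s, 1 / 2 ≤ C.Vf s) {d : ℕ} {e : ℤ} (hd : 1 ≤ d) (he : |e| ≤ d) (s : ℝ) :
    (1 - 2 * P.S.θ) * (d + 1) - 1 ≤ C.mu d e s ∧ 3 / 2 ≤ C.mu d e s := by
  have a := (C.W_bdY he s).1
  have h1 := P.S.θ_le
  have h0 := P.S.θ_pos
  have h2 : (1 : ℝ) ≤ d := by exact_mod_cast hd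
  have h3 := hV s
  obtain ⟨x, hx, x1, x2⟩ : ∃ x, x = 1 - 2 * P.S.θ ∧ 49 / 50 ≤ x ∧ x ≤ 1 :=
    ⟨_, rfl, by linarith, by linarith⟩
  rw [← hx] at a ⊢
  have h4 : 49 / 50 * 2 ≤ x * (d + 1) := mul_le_mul x1 (by linarith) (by norm_num) (by linarith)
  have h5 : x ^ 2 ≤ 1 := pow_le_one₀ (by linarith) x2
  have h6 : (49 / 50) ^ 2 * 3 ≤ x ^ 2 * (d * (d + 2)) :=
    mul_le_mul (pow_le_pow_left₀ (by norm_num) x1 2) (by nlinarith) (by norm_num) (sq_nonneg _)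
  exact ⟨Real.le_sqrt_of_sq_le (by linarith [show (x * (d + 1) - 1) ^ 2 =
    x ^ 2 * (d * (d + 2)) + x ^ 2 - 2 * (x * (d + 1)) + 1 by ring]),
    Real.le_sqrt_of_sq_le (by linarith)⟩

theorem mu_sqY (hV : ∀ s, 1 / 2 ≤ C.Vf s) {d : ℕ} {e : ℤ} (he : |e| ≤ d) (s : ℝ) :
    0 < lam (C.uu s) d e + C.Vf s ∧ C.mu d e s ^ 2 = lam (C.uu s) d e + C.Vf s := by
  have : 0 < lam (C.uu s) d e + C.Vf s := by
    have : 0 ≤ (1 - 2 * P.S.θ) ^ 2 * ((d : ℝ) * (d + 2)) := by positivity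
    linarith [(C.W_bdY he s).1, hV s]
  exact ⟨this, Real.sq_sqrt this.le⟩

theorem mu_smoothY (hV : ∀ s, 1 / 2 ≤ C.Vf s) {d : ℕ} {e : ℤ} (he : |e| ≤ d) :
    ContDiff ℝ 1 (C.mu d e) := by
  have h1 : ContDiff ℝ 1 C.uu := C.uu_smooth.of_le (by exact_mod_cast le_top)
  have h2 : ContDiff ℝ 1 C.Vf := C.Vf_smooth.of_le (by exact_mod_cast le_top)
  refine ContDiff.sqrt ?_ fun s => (C.mu_sqY hV he s).1.ne'
  unfold lam
  fun_prop

theorem mu_derY (hV : ∀ s, 1 / 2 ≤ C.Vf s) {d : ℕ} {e : ℤ} (hd : 1 ≤ d) (he : |e| ≤ d) (s : ℝ) :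
    |deriv (C.mu d e) s| ≤ (|deriv C.tt s| + |deriv C.Vf s|) * C.mu d e s := by
  have ht : 49 / 50 ≤ C.tt s := by linarith [(abs_le.mp (C.tt_near s)).1, P.S.θ_le]
  have h1 := (C.tt_smooth.differentiable (by simp) s).hasDerivAt
  have h2 := (C.Vf_smooth.differentiable (by simp) s).hasDerivAt
  have h3 : HasDerivAt C.uu (-(deriv C.tt s / C.tt s) / 6) s :=
    ((h1.log (by linarith)).neg).div_const 6
  obtain ⟨u', h3, h4⟩ : ∃ u', HasDerivAt C.uu u' s ∧ |u'| ≤ |deriv C.tt s| / 4 :=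
    ⟨_, h3, by
      rw [abs_div, abs_neg, abs_div, abs_of_pos (show 0 < C.tt s by linarith), div_div,
        abs_of_pos (show (0 : ℝ) < 6 by norm_num)]
      exact div_le_div_of_nonneg_left (abs_nonneg _) (by norm_num) (by linarith)⟩
  have h5 := (((((h3.const_mul 2).exp.mul_const ((d : ℝ) * (d + 2) - (e : ℝ) ^ 2)).add
    ((h3.const_mul (-4)).exp.mul_const ((e : ℝ) ^ 2))).add h2).sqrt
    (C.mu_sqY hV he s).1.ne').deriv
  have h6 := (C.mu_geY hV hd he s).2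
  have h7 := (C.mu_sqY hV he s).2
  change deriv (C.mu d e) s = _ / (2 * C.mu d e s) at h5
  rw [h5, abs_div, abs_of_pos (show 0 < 2 * C.mu d e s by linarith), div_le_iff₀ (by linarith)]
  unfold lam at h7
  obtain ⟨A, hA, A0⟩ : ∃ A, A = Real.exp (2 * C.uu s) * ((d : ℝ) * (d + 2) - (e : ℝ) ^ 2) ∧
      0 ≤ A := ⟨_, rfl, mul_nonneg (Real.exp_pos _).le (by
        nlinarith [sq_leY he, Nat.cast_nonneg (α := ℝ) d])⟩
  obtain ⟨B, hB, B0⟩ : ∃ B, B = Real.exp (-4 * C.uu s) * (e : ℝ) ^ 2 ∧ 0 ≤ B :=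
    ⟨_, rfl, by positivity⟩
  rw [← hA, ← hB] at h7
  have h8 : |2 * A - 4 * B| ≤ 4 * C.mu d e s ^ 2 :=
    abs_le.mpr ⟨by linarith [hV s], by linarith [hV s]⟩
  have h9 := abs_mulY h4 h8
  have h10 : |deriv C.Vf s| ≤ |deriv C.Vf s| * C.mu d e s ^ 2 :=
    le_mul_of_one_le_right (abs_nonneg _) (by nlinarith)
  rw [show Real.exp (2 * C.uu s) * (2 * u') * ((d : ℝ) * (d + 2) - (e : ℝ) ^ 2) +
    Real.exp (-4 * C.uu s) * (-4 * u') * (e : ℝ) ^ 2 = u' * (2 * A - 4 * B) by rw [hA, hB]; ring]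
  have h11 : 0 ≤ (|deriv C.tt s| + |deriv C.Vf s|) * C.mu d e s ^ 2 := by positivity
  linarith [abs_add_le (u' * (2 * A - 4 * B)) (deriv C.Vf s)]

theorem mu_negY (d : ℕ) (e : ℤ) {s : ℝ} (h : s ≤ 0) : C.mu d e s = d + 1 := by
  rw [mu, C.lam_eq, C.tt_neg (h.trans (C.tm.T_pos 0).le), C.Vf_neg h,
    ← Real.sqrt_sq (show (0 : ℝ) ≤ d + 1 by positivity)]
  congr 1
  simp [XX, fm]; ring

theorem riccY (hV : ∀ s, 1 / 2 ≤ C.Vf s) {K : ℝ} (hK : 0 < K) (h8 : K / C.tm.T 0 ≤ 1 / 8)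
    (hb : ∀ s, |deriv C.tt s| + |deriv C.Vf s| ≤ K / (max s 0 + C.tm.T 0)) {d : ℕ} {e : ℤ}
    (hd : 1 ≤ d) (he : |e| ≤ d) : ∃ y z : ℝ → ℝ,
      (∀ s, HasDerivAt y (lam (C.uu s) d e + C.Vf s - y s ^ 2) s) ∧
      (∀ s, HasDerivAt z (z s ^ 2 - (lam (C.uu s) d e + C.Vf s)) s) ∧
      (∀ s, |y s - C.mu d e s| ≤ 2 * (K / (max s 0 + C.tm.T 0))) ∧
      (∀ s, |z s - C.mu d e s| ≤ 2 * (K / (max s 0 + C.tm.T 0))) ∧ ∀ s ≤ 0, y s = d + 1 := by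
  have hT := C.tm.one_le_T 0
  have hp : ∀ s : ℝ, 0 < max s 0 + C.tm.T 0 := fun s => by linarith [le_max_right s 0]
  have h0 := C.mu_smoothY hV he
  have a1 := fun s => (h0.differentiable one_ne_zero s).hasDerivAt
  have a2 := h0.continuous_deriv_one
  have a3 : ∀ s, 1 ≤ C.mu d e s := fun s => by linarith [(C.mu_geY hV hd he s).2]
  have a4 : ∀ s, 0 < K / (max s 0 + C.tm.T 0) := fun s => div_pos hK (hp s)
  have a5 : Continuous fun s : ℝ => K / (max s 0 + C.tm.T 0) :=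
    continuous_const.div (by fun_prop) fun s => (hp s).ne'
  have a6 : ∀ s : ℝ, K / (max s 0 + C.tm.T 0) ≤ 1 / 8 := fun s =>
    (div_le_div_of_nonneg_left hK.le (by linarith) (by linarith [le_max_right s 0])).trans h8
  have a7 : ∀ s r : ℝ, K / (max r 0 + C.tm.T 0) ≤ K / (max s 0 + C.tm.T 0) * (1 + |s - r|) :=
    fun s r => by
      rw [div_mul_eq_mul_div, div_le_div_iff₀ (hp r) (hp s), mul_assoc]
      refine mul_le_mul_of_nonneg_left ?_ hK.le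
      have b1 := (abs_le.mp (abs_max_sub_max_le_abs s r 0)).2
      have b2 : |s - r| ≤ |s - r| * (max r 0 + C.tm.T 0) :=
        le_mul_of_one_le_right (abs_nonneg _) (by linarith [le_max_right r 0])
      linarith
  have a8 : ∀ s, |deriv (C.mu d e) s| ≤ K / (max s 0 + C.tm.T 0) * C.mu d e s := fun s =>
    (C.mu_derY hV hd he s).trans (mul_le_mul_of_nonneg_right (hb s) (by linarith [a3 s]))
  obtain ⟨y, y1, y2, y3⟩ := ricc_plus a1 a2 a3 a4 a5 a6 a7 a8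
  obtain ⟨z, z1, z2⟩ := ricc_minus a1 a2 a3 a4 a5 a6 a7 a8
  simp only [fun s => (C.mu_sqY hV he s).2] at y1 z1
  exact ⟨y, z, y1, z1, y2, z2, fun s hs => (y3 0 (fun r hr => deriv_constY (a1 r) fun x hx =>
    C.mu_negY d e (hx.trans hr)) s hs).trans (C.mu_negY d e hs)⟩

theorem stageY {m : ℕ} {s : ℝ} (hs : s ∈ Icc (C.tm.b m 1) (C.tm.b m 9)) :
    C.tm.st s = m ∧ C.tm.T 0 ≤ s := by
  have h1 := (C.tm.a_le_b m zero_le_one).trans hs.1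
  refine ⟨C.tm.st_eq h1 ?_, ((C.tm.T_mono (Nat.zero_le m)).trans (C.tm.T_le_a m)).trans h1⟩
  rw [C.tm.a_succ_eq]
  linarith [C.tm.b_lt_b m (show (9 : ℝ) < 11 by norm_num), Nat.cast_nonneg (α := ℝ) C.tm.N, hs.2]

theorem t0Y (m : ℕ) : C.tt (C.tm.b m 1) = P.S.t0 (P.S.kd m) := by
  rw [C.tt_sw ⟨le_rfl, C.tm.b_le_b m (by norm_num)⟩, aD_of_le, mul_zero, zero_div, add_zero]
  rw [τ, div_le_one (C.tm.T_pos m)]
  linarith [C.tm.b_le_b m (show (1 : ℝ) ≤ 2 by norm_num), C.tm.T_pos m]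

theorem XX_subY (s r : ℝ) : |XX (C.tt s) - XX (C.tt r)| ≤ |C.tt s - C.tt r| := by
  have h := P.S.θ_le
  exact XX_lipY (by linarith [(abs_le.mp (C.tt_near s)).1])
    (by linarith [(abs_le.mp (C.tt_near r)).1]) (by linarith [(abs_le.mp (C.XX_near s)).1])
    (by linarith [(abs_le.mp (C.XX_near r)).1])

theorem near0Y (hV : ∀ s, 1 / 2 ≤ C.Vf s) (m : ℕ) (s : ℝ) {d : ℕ} {e : ℤ} (hd : 1 ≤ d)
    (hD : d ≤ P.S.D) (he : |e| ≤ d)
    (hr : fm (P.S.t0 (P.S.kd m)) (P.S.dl (P.S.kd m)) (P.S.el (P.S.kd m)) =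
      fm (P.S.t0 (P.S.kd m)) d e) :
    |C.mu d e s - P.mu0 (P.S.kd m)| ≤ 4 * ((P.S.D : ℝ) + 1) ^ 2 * |C.tt s - P.S.t0 (P.S.kd m)| +
      |C.Vf s - P.St.pinf ^ 2| := by
  refine (sqrt_subY (by linarith [(C.mu_geY hV hd he s).2] : 1 ≤ C.mu d e s)).trans ?_
  rw [hr, C.lam_eq, ← C.t0Y m]
  have h := P.S.θ_le
  have h0 := P.S.θ_pos
  have hD' : (d : ℝ) ≤ P.S.D := by exact_mod_cast hD
  have d0 : (0 : ℝ) ≤ d := Nat.cast_nonneg d
  have a0 : (d : ℝ) * (d + 2) ≤ ((P.S.D : ℝ) + 1) ^ 2 := by nlinarith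
  have a1 : |fm (C.tt s) d e| ≤ 2 * ((P.S.D : ℝ) + 1) ^ 2 := by
    have := fm_bdY (C.tt_near s) he
    have b1 : 0 ≤ (1 - 2 * P.S.θ) * (d * (d + 2)) := mul_nonneg (by linarith) (by positivity)
    have b2 : (1 + 2 * P.S.θ) * (d * (d + 2)) ≤ 2 * ((P.S.D : ℝ) + 1) ^ 2 :=
      mul_le_mul (by linarith) a0 (by positivity) (by norm_num)
    rw [abs_of_nonneg (b1.trans this.1)]; exact this.2.trans b2
  have a2 : |XX (C.tt (C.tm.b m 1))| ≤ 2 := by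
    have := abs_le.mp (C.XX_near (C.tm.b m 1))
    exact abs_le.mpr ⟨by linarith, by linarith⟩
  have a3 : |(e : ℝ) ^ 2| ≤ ((P.S.D : ℝ) + 1) ^ 2 := by
    rw [abs_of_nonneg (sq_nonneg _)]; nlinarith [sq_leY he]
  have b1 := abs_le.mp (abs_mulY (C.XX_subY s (C.tm.b m 1)) a1)
  have b2 := abs_le.mp (abs_mulY a2 (abs_mulY (le_refl |C.tt s - C.tt (C.tm.b m 1)|) a3))
  have b3 := abs_le.mp (le_refl |C.Vf s - P.St.pinf ^ 2|)
  rw [fm_sub (C.tt (C.tm.b m 1)) (C.tt s)]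
  exact abs_le.mpr ⟨by linarith [b1.1, b2.1, b3.1], by linarith [b1.2, b2.2, b3.2]⟩

end Base

theorem swap_numY {T c1 c2 Kd mS a a' x x0 μ y z : ℝ} (hT : 0 < T) (ha : |a| ≤ Kd)
    (ha' : |a'| ≤ Kd) (hx : |x - x0| ≤ c1 / T) (h0 : 1 / 2 ≤ x0) (hμ : |μ| ≤ mS)
    (hy : |y - μ| ≤ c2 / T) (hz : |z - μ| ≤ c2 / T) :
    |2 * a / T * (2 * μ * x / x0 - (y + z)) - 2 * (a' / T) / T| ≤
      2 * (Kd * (4 * mS * c1 + 2 * c2) + Kd) / T ^ 2 := by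
  have h1 : |(x - x0) / x0| ≤ 2 * (c1 / T) := by
    rw [abs_div, abs_of_pos (show 0 < x0 by linarith), div_le_iff₀ (by linarith)]
    nlinarith [abs_nonneg (x - x0)]
  have h2 := abs_le.mp (abs_mulY hμ h1)
  have h3 : |2 * μ * x / x0 - (y + z)| ≤ (4 * mS * c1 + 2 * c2) / T := by
    rw [show 2 * μ * x / x0 = 2 * (μ * ((x - x0) / x0)) + 2 * μ by field_simp; ring,
      show (4 * mS * c1 + 2 * c2) / T = 2 * (mS * (2 * (c1 / T))) + 2 * (c2 / T) by ring]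
    rw [abs_le] at hy hz ⊢
    constructor <;> linarith [h2.1, h2.2, hy.1, hy.2, hz.1, hz.2]
  have h4 := abs_le.mp (abs_mulY ha h3)
  rw [abs_le] at ha'
  rw [show 2 * a / T * (2 * μ * x / x0 - (y + z)) - 2 * (a' / T) / T =
    (2 * (T * (a * (2 * μ * x / x0 - (y + z)))) - 2 * a') / T ^ 2 by field_simp,
    abs_div, abs_of_pos (show 0 < T ^ 2 by positivity)]
  refine div_le_div_of_nonneg_right ?_ (by positivity)
  have h5 := mul_le_mul_of_nonneg_left h4.1 hT.le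
  have h6 := mul_le_mul_of_nonneg_left h4.2 hT.le
  have h7 : T * (Kd * ((4 * mS * c1 + 2 * c2) / T)) = Kd * (4 * mS * c1 + 2 * c2) := by
    field_simp
  rw [mul_neg] at h5
  exact abs_le.mpr ⟨by linarith, by linarith⟩

theorem Base.swapY {P : Par} {Kc : ℝ} (C : Base P Kc) (m : ℕ) {y z : ℝ → ℝ}
    (hy : ∀ s, HasDerivAt y
      (lam (C.uu s) (P.S.dl (P.S.kd m)) (P.S.el (P.S.kd m)) + C.Vf s - y s ^ 2) s)
    (hz : ∀ s, HasDerivAt z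
      (lam (C.uu s) (P.S.dl (P.S.kd m) + 1) (P.S.eh (P.S.kd m)) + C.Vf s - z s ^ 2) s)
    {c1 c2 Kd mS : ℝ} (hK : ∀ τ, |aD τ| ≤ Kd ∧ |deriv aD τ| ≤ Kd) (hμ : |P.mu0 (P.S.kd m)| ≤ mS)
    (h : ∀ s ∈ Icc (C.tm.b m 1) (C.tm.b m 9), |C.tt s - P.S.t0 (P.S.kd m)| ≤ c1 / C.tm.T m ∧
      |y s - P.mu0 (P.S.kd m)| ≤ c2 / C.tm.T m ∧ |z s - P.mu0 (P.S.kd m)| ≤ c2 / C.tm.T m ∧
      1 ≤ y s + z s) :
    ∀ s ∈ Icc (C.tm.b m 2) (C.tm.b m 9), |(y s - z s) / 2 - aD (C.τ m s) / C.tm.T m| ≤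
      (c2 + Kd + (Kd * (4 * mS * c1 + 2 * c2) + Kd)) / C.tm.T m ^ 2 := by
  intro s hs
  have hT := C.tm.T_pos m
  have h12 : C.tm.b m 2 = C.tm.b m 1 + C.tm.T m := by simp only [Times.b]; ring
  have hx0 : 1 / 2 ≤ XX (P.S.t0 (P.S.kd m)) := by
    rw [← C.t0Y m]; linarith [(abs_le.mp (C.XX_near (C.tm.b m 1))).1, P.S.θ_le]
  have key := decay_le (f := fun s => y s - z s - 2 * aD (C.τ m s) / C.tm.T m)
    (S := fun s => y s + z s) (r := fun s => 2 * aD (C.τ m s) / C.tm.T m *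
      (2 * P.mu0 (P.S.kd m) * XX (C.tt s) / XX (P.S.t0 (P.S.kd m)) - (y s + z s)) -
      2 * (deriv aD (C.τ m s) / C.tm.T m) / C.tm.T m)
    (fun r hr => by
      have a1 : HasDerivAt (C.τ m) (1 / C.tm.T m) r :=
        ((hasDerivAt_id r).sub_const _).div_const _
      have a2 := (((aD_smooth.differentiable (by simp) _).hasDerivAt.comp r a1).const_mul 2).div_const
        (C.tm.T m)
      refine (((hy r).sub (hz r)).sub a2).congr_deriv ?_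
      have a3 := P.S.sw_ne (P.S.kd m)
      have a4 : fm (C.tt r) (P.S.dl (P.S.kd m)) (P.S.el (P.S.kd m)) =
          fm (C.tt r) (P.S.dl (P.S.kd m) + 1) (P.S.eh (P.S.kd m)) +
            4 * P.mu0 (P.S.kd m) / XX (P.S.t0 (P.S.kd m)) * aD (C.τ m r) / C.tm.T m := by
        rw [fm_sub _ (P.S.t0 (P.S.kd m)), fm_sub (C.tt r) (P.S.t0 (P.S.kd m)) (_ + 1), P.S.reson,
          C.tt_sw hr, Par.cD]
        field_simp
        ring
      rw [C.lam_eq, C.lam_eq, a4]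
      ring)
    (fun r hr => (h r hr).2.2.2)
    (fun r hr => swap_numY hT (hK _).1 (hK _).2 (by
      rw [← C.t0Y m]
      exact (C.XX_subY _ _).trans (by rw [C.t0Y m]; exact (h r hr).1)) hx0 hμ (h r hr).2.1
      (h r hr).2.2.1) s ⟨by linarith [hs.1], hs.2⟩
  obtain ⟨-, b1, b2, -⟩ := h _ ⟨le_rfl, C.tm.b_le_b m (by norm_num)⟩
  have b3 : |y (C.tm.b m 1) - z (C.tm.b m 1) - 2 * aD (C.τ m (C.tm.b m 1)) / C.tm.T m| ≤
      2 * ((c2 + Kd) / C.tm.T m) := by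
    have := abs_le.mp ((abs_div _ _).trans_le (div_le_div₀ ((abs_nonneg _).trans (hK 0).1)
      (hK (C.τ m (C.tm.b m 1))).1 hT (le_abs_self _)))
    rw [abs_le] at b1 b2 ⊢
    rw [add_div, mul_div_assoc]
    constructor <;> linarith [this.1, this.2, b1.1, b1.2, b2.1, b2.2]
  have b4 : Real.exp (-(s - C.tm.b m 1)) ≤ 1 / C.tm.T m := by
    rw [Real.exp_neg, one_div]
    exact inv_anti₀ hT (by linarith [Real.add_one_le_exp (s - C.tm.b m 1), hs.1])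
  have b5 := mul_le_mul b4 b3 (abs_nonneg _) (by positivity)
  rw [show (y s - z s) / 2 - aD (C.τ m s) / C.tm.T m =
    (y s - z s - 2 * aD (C.τ m s) / C.tm.T m) / 2 by ring, abs_div, abs_two,
    show (c2 + Kd + (Kd * (4 * mS * c1 + 2 * c2) + Kd)) / C.tm.T m ^ 2 =
      (1 / C.tm.T m * (2 * ((c2 + Kd) / C.tm.T m)) +
        2 * (Kd * (4 * mS * c1 + 2 * c2) + Kd) / C.tm.T m ^ 2) / 2 by ring]
  linarith

theorem exists_ctx (P : Par) (Kc : ℝ) (hKc : 0 ≤ Kc) : ∃ KY : ℝ, 0 ≤ KY ∧ ∃ σ : ℝ, ∀ σ₀, σ ≤ σ₀ →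
    ∃ C : Ctx P Kc KY, C.tm.σ0 = σ₀ := by
  obtain ⟨M, hM, hs⟩ := scale_cmp P
  obtain ⟨Ka, hKa, hj⟩ := jets P
  obtain ⟨KV, hKV, hv⟩ := Vf_est P Kc
  obtain ⟨Kd, hKd, hd⟩ := aBD_bdd
  obtain ⟨cS, c0, hc⟩ : ∃ c : ℝ, 0 ≤ c ∧ ∀ κ, |P.cD κ| ≤ c :=
    ⟨∑ κ, |P.cD κ|, Finset.sum_nonneg fun _ _ => abs_nonneg _, fun κ =>
      Finset.single_le_sum (f := fun κ => |P.cD κ|) (fun _ _ => abs_nonneg _) (Finset.mem_univ κ)⟩
  obtain ⟨mS, m0, hm⟩ : ∃ c : ℝ, 0 ≤ c ∧ ∀ κ, |P.mu0 κ| ≤ c :=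
    ⟨∑ κ, |P.mu0 κ|, Finset.sum_nonneg fun _ _ => abs_nonneg _, fun κ =>
      Finset.single_le_sum (f := fun κ => |P.mu0 κ|) (fun _ _ => abs_nonneg _) (Finset.mem_univ κ)⟩
  obtain ⟨K, hK⟩ : ∃ K, K = (Ka + KV) * M := ⟨_, rfl⟩
  have K0 : 0 < K := by rw [hK]; positivity
  obtain ⟨c2, hc2⟩ : ∃ c, c = 2 * K + (4 * ((P.S.D : ℝ) + 1) ^ 2 * (cS * Kd) + KV) := ⟨_, rfl⟩
  have c21 : 2 * K ≤ c2 := by rw [hc2]; exact le_add_of_nonneg_right (by positivity)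
  obtain ⟨KY, hY⟩ : ∃ c, c = c2 + Kd + (Kd * (4 * mS * (cS * Kd) + 2 * c2) + Kd) := ⟨_, rfl⟩
  have Y1 : 2 * K ≤ KY := by
    have : 0 ≤ c2 := by linarith
    rw [hY, add_assoc]; exact c21.trans (le_add_of_nonneg_right (by positivity))
  have hϑ := P.St.ϑ_pos
  have hδ : 0 < del := by norm_num [del]
  have p1 : 0 ≤ 2 * Kc / del := by positivity
  have p2 : 0 ≤ cS * Kd / P.St.ϑ := by positivity
  refine ⟨KY, by linarith, 1 + 2 * Kc / del + cS * Kd / P.St.ϑ + 4 * KV + 100 * KY,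
    fun σ₀ hσ => ?_⟩
  let tm : Times := ⟨σ₀, P.Γ, P.St.N, by linarith, P.hΓ, P.hΓ2⟩
  have hT : ∀ m, σ₀ ≤ tm.T m := tm.σ0_le_T
  have q1 : ∀ κ m τ, |P.cD κ * aD τ / tm.T m| ≤ cS * Kd / tm.T m := fun κ m τ => by
    rw [abs_div, abs_of_pos (tm.T_pos m)]
    exact div_le_div_of_nonneg_right (abs_mulY (hc κ) (hd τ).2.2.2.1) (tm.T_pos m).le
  obtain ⟨C, hC⟩ : ∃ C : Base P Kc, C.tm = tm := ⟨⟨tm, rfl, rfl, hKc, by
    rw [div_le_iff₀ (tm.T_pos 0)]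
    have : 2 * Kc / del ≤ tm.T 0 := by linarith [hT 0]
    rw [div_le_iff₀ hδ] at this
    linarith, fun κ m τ => (q1 κ m τ).trans (by
      rw [div_le_iff₀ (tm.T_pos m), ← div_le_iff₀' hϑ]
      linarith [hT m])⟩, rfl⟩
  have e0 : C.tm.σ0 = σ₀ := by rw [hC]
  rw [← hC] at hT q1
  clear hC tm
  have hV : ∀ s, 1 / 2 ≤ C.Vf s := fun s => by
    have a1 : 1 - 2 * del ≤ C.pp s := P.St.pinf_ge.trans (C.pp_ge s)
    have a2 : KV / C.tm.T (C.tm.st s) ≤ 1 / 4 := by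
      rw [div_le_iff₀ (C.tm.T_pos _)]; linarith [hT (C.tm.st s)]
    have a3 := (abs_le.mp ((hv C).1 s)).1
    unfold del at a1
    unfold Base.Vf
    nlinarith
  have hY' : KY / C.tm.T 0 ≤ 1 / 100 := by
    rw [div_le_iff₀ (C.tm.T_pos _)]; linarith [hT 0]
  have q2 : ∀ s, 2 * (K / (max s 0 + C.tm.T 0)) ≤ 2 * K / C.tm.T (C.tm.st s) := fun s => by
    rw [← mul_div_assoc]
    exact div_le_div_of_nonneg_left (by linarith) (C.tm.T_pos _) (hs Kc C s).2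
  have q3 : ∀ s, 2 * K / C.tm.T (C.tm.st s) ≤ KY / C.tm.T (C.tm.st s) := fun s =>
    div_le_div_of_nonneg_right Y1 (C.tm.T_pos _).le
  have H := fun (d : ℕ) (e : ℤ) (h : 1 ≤ d ∧ |e| ≤ d) => C.riccY hV K0
    ((div_le_div_of_nonneg_right (by linarith) (C.tm.T_pos 0).le).trans (hY'.trans (by norm_num)))
    (fun s => (add_le_add ((hj Kc C).1 s) ((hv C).2.1 s)).trans (by
      rw [← add_div, hK, div_le_div_iff₀ (C.tm.T_pos _)
        (by linarith [le_max_right s 0, C.tm.T_pos 0]), mul_assoc]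
      exact mul_le_mul_of_nonneg_left (hs Kc C s).1 (by positivity))) h.1 h.2
  choose! y z H using H
  have l1 : ∀ u d (e : ℤ), lam u d |e| = lam u d e := fun u d e => by simp [lam]
  have l2 : ∀ d (e : ℤ) s, C.mu d |e| s = C.mu d e s := fun d e s => by simp only [Base.mu, l1]
  replace H := fun (d : ℕ) (e : ℤ) (h1 : 1 ≤ d) (h2 : |e| ≤ d) => H d |e| ⟨h1, by rwa [abs_abs]⟩
  simp only [l1, l2] at H
  refine ⟨⟨C, fun d e => y d |e|, fun d e => z d |e|, hV, fun s => ?_, hY',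
    fun d e => by rw [abs_neg], fun d e h1 h2 => (H d e h1 h2).1,
    fun d e h1 h2 => (H d e h1 h2).2.1,
    fun d e h1 h2 s => ((H d e h1 h2).2.2.1 s).trans ((q2 s).trans (q3 s)),
    fun d e h1 h2 s => ((H d e h1 h2).2.2.2.1 s).trans ((q2 s).trans (q3 s)),
    fun d e h1 h2 => (H d e h1 h2).2.2.2.2, fun m => ?_⟩, e0⟩
  · have a1 : 0 ≤ C.pp s := le_trans (by norm_num [del]) (P.St.pinf_ge.trans (C.pp_ge s))
    linarith [pow_le_one₀ (n := 2) a1 (C.pp_le s), C.deriv_pp_nonpos s,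
      show C.Vf s = C.pp s ^ 2 + deriv C.pp s from rfl]
  have d1 := P.S.dl_pos (P.S.kd m)
  have d2 := P.S.dl_le (P.S.kd m)
  have d3 : |P.S.eh (P.S.kd m)| ≤ (P.S.dl (P.S.kd m) + 1 : ℕ) := by
    exact_mod_cast P.S.eh_le (P.S.kd m)
  rw [hY]
  refine C.swapY m (H _ _ d1 (P.S.el_le _)).1 (H _ _ (by omega) d3).1
    (fun τ => ⟨(hd τ).2.2.2.1, (hd τ).2.2.2.2.1⟩) (hm _) fun s hs' => ?_
  obtain ⟨s1, s2⟩ := C.stageY hs'
  have a1 : |C.tt s - P.S.t0 (P.S.kd m)| ≤ cS * Kd / C.tm.T m := by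
    rw [C.tt_sw hs', add_sub_cancel_left]; exact q1 _ _ _
  have a2 : ∀ (d : ℕ) (e : ℤ), 1 ≤ d → d ≤ P.S.D → |e| ≤ d →
      fm (P.S.t0 (P.S.kd m)) (P.S.dl (P.S.kd m)) (P.S.el (P.S.kd m)) =
        fm (P.S.t0 (P.S.kd m)) d e →
      |y d |e| s - P.mu0 (P.S.kd m)| ≤ c2 / C.tm.T m ∧ 1 / 2 ≤ y d |e| s := fun d e h1 h2 h3 h4 => by
    have b1 := ((H d e h1 h3).2.2.1 s).trans (q2 s)
    have b2 := C.near0Y hV m s h1 h2 h3 h4
    have b3 := (hv C).2.2 s s2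
    have b4 := mul_le_mul_of_nonneg_left a1 (show 0 ≤ 4 * ((P.S.D : ℝ) + 1) ^ 2 by positivity)
    have b5 := (q3 s).trans ((div_le_div_of_nonneg_left (by linarith) (C.tm.T_pos 0)
      (C.tm.T_mono (Nat.zero_le _))).trans hY')
    refine ⟨?_, by linarith [(abs_le.mp b1).1, (C.mu_geY hV h1 h3 s).2]⟩
    rw [s1] at b1 b3
    rw [hc2, add_div, add_div, mul_div_assoc (4 * _)]
    linarith [abs_sub_le (y d |e| s) (C.mu d e s) (P.mu0 (P.S.kd m))]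
  have a3 := a2 _ _ d1 (by omega) (P.S.el_le _) rfl
  have a4 := a2 _ _ (by omega) d2 d3 (P.S.reson _)
  exact ⟨a1, a3.1, a4.1, by linarith [a3.2, a4.2]⟩

namespace Ctx
variable {P : Par} {Kc KY : ℝ} (C : Ctx P Kc KY)

theorem mu_sq {d : ℕ} {e : ℤ} (hd : 1 ≤ d) (he : |e| ≤ d) (s : ℝ) :
    C.mu d e s ^ 2 = XX (C.tt s) * fm (C.tt s) d e + C.Vf s := by
  have := hd
  rw [(C.mu_sqY C.Vf_ge he s).2, C.lam_eq]
theorem mu_ge {d : ℕ} {e : ℤ} (hd : 1 ≤ d) (he : |e| ≤ d) (s : ℝ) :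
    (1 - 2 * P.S.θ) * (d + 1) - 1 ≤ C.mu d e s ∧ 3 / 2 ≤ C.mu d e s := C.mu_geY C.Vf_ge hd he s
theorem mu_le {d : ℕ} {e : ℤ} (hd : 1 ≤ d) (he : |e| ≤ d) (s : ℝ) :
    C.mu d e s ≤ (1 + 2 * P.S.θ) * (d + 1) + 1 := by
  have := hd
  have h0 := P.S.θ_pos
  have h1 : 0 ≤ (1 + 2 * P.S.θ) * (d + 1) := by positivity
  refine Real.sqrt_le_iff.mpr ⟨by positivity, ?_⟩
  linarith [(C.W_bdY he s).2, C.Vf_le s, sq_nonneg (1 + 2 * P.S.θ),
    show ((1 + 2 * P.S.θ) * (d + 1) + 1) ^ 2 = (1 + 2 * P.S.θ) ^ 2 * (d * (d + 2)) +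
      (1 + 2 * P.S.θ) ^ 2 + 2 * ((1 + 2 * P.S.θ) * (d + 1)) + 1 by ring]
theorem KY_div_le (m : ℕ) : KY / C.tm.T m ≤ 1 / 100 := by
  rcases le_total 0 KY with h | h
  · exact (div_le_div_of_nonneg_left h (C.tm.T_pos 0) (C.tm.T_mono (Nat.zero_le m))).trans C.KY_le
  · exact (div_nonpos_of_nonpos_of_nonneg h (C.tm.T_pos m).le).trans (by norm_num)
theorem one_le_dgY {n : ℕ} (hn : 1 ≤ n) (i : ℕ × ℕ) : 1 ≤ dg n i := le_add_left hn
theorem continuous_y1 {n : ℕ} (hn : 1 ≤ n) (i : ℕ × ℕ) : Continuous (C.y1 n i) :=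
  continuous_iff_continuousAt.mpr fun s =>
    (C.yp_der _ _ (one_le_dgY hn i) (abs_ch_le n i) s).continuousAt
theorem continuous_y2 {n : ℕ} (hn : 1 ≤ n) (i : ℕ × ℕ) : Continuous (C.y2 n i) :=
  continuous_iff_continuousAt.mpr fun s =>
    (C.ym_der _ _ (one_le_dgY hn i) (abs_ch_le n i) s).continuousAt
theorem y_bdY {d : ℕ} {e : ℤ} (hd : 1 ≤ d) (he : |e| ≤ d) {s y : ℝ}
    (h : |y - C.mu d e s| ≤ KY / C.tm.T (C.tm.st s)) :
    ((d : ℝ) + 1) / 4 ≤ y ∧ y ≤ 2 * ((d : ℝ) + 1) ∧ (d ≤ P.S.D → y ≤ d + 20) := by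
  have a := abs_le.mp (h.trans (C.KY_div_le _))
  have b := (C.mu_ge hd he s).1
  have c := C.mu_le hd he s
  have h0 : (1 : ℝ) ≤ d := by exact_mod_cast hd
  have h1 : P.S.θ * (d + 1) ≤ 1 / 100 * (d + 1) :=
    mul_le_mul_of_nonneg_right P.S.θ_le (by linarith)
  refine ⟨by linarith [a.1], by linarith [a.2], fun hD => ?_⟩
  have h2 : P.S.θ * (d + 1) ≤ P.S.θ * (P.S.D + 1) :=
    mul_le_mul_of_nonneg_left (by exact_mod_cast Nat.succ_le_succ hD) P.S.θ_pos.le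
  linarith [a.2, P.S.θ_D]
theorem y1_bd {n : ℕ} (hn : 1 ≤ n) (i : ℕ × ℕ) (s : ℝ) :
    ((dg n i : ℝ) + 1) / 4 ≤ C.y1 n i s ∧ C.y1 n i s ≤ 2 * ((dg n i : ℝ) + 1) :=
  have := C.y_bdY (one_le_dgY hn i) (abs_ch_le n i)
    (C.yp_near _ _ (one_le_dgY hn i) (abs_ch_le n i) s)
  ⟨this.1, this.2.1⟩
theorem y2_bd {n : ℕ} (hn : 1 ≤ n) (i : ℕ × ℕ) (s : ℝ) :
    ((dg n i : ℝ) + 1) / 4 ≤ C.y2 n i s ∧ C.y2 n i s ≤ 2 * ((dg n i : ℝ) + 1) :=
  have := C.y_bdY (one_le_dgY hn i) (abs_ch_le n i)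
    (C.ym_near _ _ (one_le_dgY hn i) (abs_ch_le n i) s)
  ⟨this.1, this.2.1⟩
theorem y1_le {n : ℕ} (hn : 1 ≤ n) {i : ℕ × ℕ} (hi : dg n i ≤ P.S.D) (s : ℝ) :
    C.y1 n i s ≤ dg n i + 20 :=
  (C.y_bdY (one_le_dgY hn i) (abs_ch_le n i)
    (C.yp_near _ _ (one_le_dgY hn i) (abs_ch_le n i) s)).2.2 hi
/-- a function given stage by stage by measurable functions is measurable -/
theorem measurable_stage {f : ℕ → ℝ → ℝ} (hf : ∀ m, Measurable (f m)) :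
    Measurable fun s => f (C.tm.st s) s :=
  (measurable_from_prod_countable_left (f := fun p : ℝ × ℕ => f p.2 p.1) hf).comp
    (measurable_id.prodMk C.tm.measurable_st)
theorem measurable_rp {n : ℕ} (hn : 1 ≤ n) (κ : ℕ × ℕ) : Measurable (C.rp n κ) := by
  have h := fun i => (C.continuous_y1 hn i).measurable
  refine C.measurable_stage (f := fun m s =>
    if s < C.tm.b m 2 then C.y1 n (P.S.perm n m κ) s
    else if s < C.tm.b m 8 then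
      (if n ∈ P.S.band ∧ (P.S.perm n m κ = P.S.lo (P.S.kd m) n ∨
        P.S.perm n m κ = P.S.hi (P.S.kd m) n) then
        (C.y1 n (P.S.lo (P.S.kd m) n) s + C.y1 n (P.S.hi (P.S.kd m) n) s) / 2
      else C.y1 n (P.S.perm n m κ) s)
    else C.y1 n (P.S.perm n (m + 1) κ) s) fun m => ?_
  refine Measurable.ite measurableSet_Iio (h _) (Measurable.ite measurableSet_Iio ?_ (h _))
  split_ifs
  · exact ((h _).add (h _)).div_const _
  · exact h _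
theorem abs_rpY {n : ℕ} (hn : 1 ≤ n) (κ : ℕ × ℕ) (s : ℝ) :
    |C.rp n κ s| ≤ 2 * ((dg n κ : ℝ) + P.S.D + 1) := by
  have h1 : ∀ i, dg n i ≤ dg n κ + P.S.D → |C.y1 n i s| ≤ 2 * ((dg n κ : ℝ) + P.S.D + 1) :=
    fun i hi => by
      have a := C.y1_bd hn i s
      have b : (dg n i : ℝ) ≤ dg n κ + P.S.D := by exact_mod_cast hi
      rw [abs_of_nonneg (le_trans (by positivity) a.1)]
      linarith [a.2]
  have h2 : ∀ m, dg n (P.S.perm n m κ) ≤ dg n κ + P.S.D := fun m => by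
    by_cases h : κ ∈ P.S.cl n
    · exact le_add_left (P.S.cl_dg (P.S.perm_mem h m))
    · rw [P.S.perm_of_not_mem h]; exact Nat.le_add_right _ _
  unfold rp
  split_ifs with a b c
  · exact h1 _ (h2 _)
  · have a1 := abs_le.mp (h1 _ (le_add_left (P.S.cl_dg (P.S.lo_cl (P.S.kd (C.tm.st s)) n c.1))))
    have a2 := abs_le.mp (h1 _ (le_add_left (P.S.cl_dg (P.S.hi_cl (P.S.kd (C.tm.st s)) n c.1))))
    unfold lo hi
    exact abs_le.mpr ⟨by linarith [a1.1, a2.1], by linarith [a1.2, a2.2]⟩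
  · exact h1 _ (h2 _)
  · exact h1 _ (h2 _)
theorem rp_int {n : ℕ} (hn : 1 ≤ n) (κ : ℕ × ℕ) (x y : ℝ) :
    IntervalIntegrable (C.rp n κ) MeasureTheory.volume x y :=
  (intervalIntegrable_const (c := 2 * ((dg n κ : ℝ) + P.S.D + 1))).mono_fun'
    (C.measurable_rp hn κ).aestronglyMeasurable (.of_forall (C.abs_rpY hn κ))
end Ctx

/-- in the stages the exponents are close to their limits -/
theorem mu_lim (P : Par) (Kc KY : ℝ) : ∃ K : ℝ, 1 ≤ K ∧ ∀ C : Ctx P Kc KY, ∀ (d : ℕ) (e : ℤ),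
    1 ≤ d → |e| ≤ d → ∀ s, C.tm.T 0 ≤ s →
    |C.yp d e s - muI (P.St.pinf ^ 2) (C.tt s) d e| ≤ K / C.tm.T (C.tm.st s) ∧
    |C.ym d e s - muI (P.St.pinf ^ 2) (C.tt s) d e| ≤ K / C.tm.T (C.tm.st s) := by
  obtain ⟨KV, hKV, hv⟩ := Vf_est P Kc
  refine ⟨|KY| + KV, by linarith [abs_nonneg KY], fun C d e hd he s hs => ?_⟩
  have a1 : |C.mu d e s - muI (P.St.pinf ^ 2) (C.tt s) d e| ≤ KV / C.tm.T (C.tm.st s) := by
    refine (sqrt_subY (by linarith [(C.mu_ge hd he s).2] : 1 ≤ C.mu d e s)).trans ?_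
    rw [C.lam_eq, add_sub_add_left_eq_sub]
    exact (hv C.toBase).2.2 s hs
  have a2 := div_le_div_of_nonneg_right (le_abs_self KY) (C.tm.T_pos (C.tm.st s)).le
  rw [add_div]
  exact ⟨(abs_sub_le _ _ _).trans (add_le_add ((C.yp_near d e hd he s).trans a2) a1),
    (abs_sub_le _ _ _).trans (add_le_add ((C.ym_near d e hd he s).trans a2) a1)⟩

end Vale.Agent.P225
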